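import Vale.Agent.P067.DAvg

/-!
# P067, part D2: cone functions on the links give local coboundary expansion
-/

namespace Vale.Agent.P067

open Finset

variable {n : ℕ} {G : Type*} [Group G]

/-- A cone function on the link of the face `K_R` of the coset complex, with at most `C` faces in
every value, for the faces of size at most `d + 1` (the size counts the vertices of `R`).
A chain of the link is a finite set of pairs (type, group element). -/
structure ConeFn (K : Fin n → Subgroup G) (R : Finset (Fin n)) (d C : ℕ)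
    (H : Finset (Fin n) → G → Finset (Finset (Fin n) × G)) : Prop where
  card : ∀ J k, R ⊆ J → J.card ≤ d + 1 → k ∈ KJ K R → (H J k).card ≤ C
  mem : ∀ J k p, R ⊆ J → J.card ≤ d + 1 → k ∈ KJ K R → p ∈ H J k →
    R ⊆ p.1 ∧ p.1.card = J.card + 1 ∧ p.2 ∈ KJ K R
  inv : ∀ J k k', R ⊆ J → J.card ≤ d + 1 → k ∈ KJ K R → k' ∈ KJ K J →
    H J (k * k') = H J k
  cone : ∀ φ : Finset (Fin n) → G → ZMod 2, IsCoch K φ → SuppOn R φ →
    ∀ J k, R ⊆ J → J.card ≤ d + 1 → k ∈ KJ K R →
      φ J k = ∑ p ∈ H J k, del φ p.1 p.2 + ∑ i ∈ J \ R, ∑ p ∈ H (J.erase i) k, φ p.1 p.2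

/-- `0` for `0` and `1` otherwise. -/
def indC (x : ZMod 2) : ℕ := if x = 0 then 0 else 1

theorem indC_sum_le {ι : Type*} (s : Finset ι) (x : ι → ZMod 2) :
    indC (∑ i ∈ s, x i) ≤ ∑ i ∈ s, indC (x i) := by
  classical
  by_cases h : ∑ i ∈ s, x i = 0
  · simp [indC, h]
  · obtain ⟨i, hi, hx⟩ := exists_ne_zero_of_sum_ne_zero h
    calc indC (∑ i ∈ s, x i) ≤ 1 := by
          simp [indC, h]
      _ = indC (x i) := by simp [indC, hx]
      _ ≤ ∑ i ∈ s, indC (x i) := single_le_sum (f := fun i => indC (x i)) (fun _ _ => Nat.zero_le _) hi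

section

variable [Fintype G] {K : Fin n → Subgroup G} {R : Finset (Fin n)}

theorem cntL_eq (m : ℕ) (f : Finset (Fin n) → G → ZMod 2) (g : G) :
    cntL K R m f g = ∑ J ∈ (typ n m).filter (fun J => R ⊆ J), ∑ k ∈ KF K R, indC (f J (g * k)) := by
  classical
  unfold cntL KF
  refine sum_congr rfl fun J _ => ?_
  rw [card_filter, sum_filter]
  refine sum_congr rfl fun k _ => ?_
  by_cases h1 : k ∈ KJ K R <;> by_cases h2 : f J (g * k) = 0 <;> simp [indC, h1, h2]

/-- right translation by an element of `K_R` -/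
theorem sum_KF_mul_right {M : Type*} [AddCommMonoid M] (F : G → M) {v : G} (hv : v ∈ KJ K R) :
    ∑ u ∈ KF K R, F (u * v) = ∑ u ∈ KF K R, F u := by
  refine sum_bij' (fun u _ => u * v) (fun u _ => u * v⁻¹) ?_ ?_ ?_ ?_ ?_
  · intro u hu
    exact mem_KF.2 (mul_mem (mem_KF.1 hu) hv)
  · intro u hu
    exact mem_KF.2 (mul_mem (mem_KF.1 hu) (inv_mem hv))
  · intro u _
    simp
  · intro u _
    simp
  · intro u _
    rfl

/-- left translation by an element of `K_R` -/
theorem sum_KF_mul_left {M : Type*} [AddCommMonoid M] (F : G → M) {v : G} (hv : v ∈ KJ K R) :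
    ∑ u ∈ KF K R, F (v * u) = ∑ u ∈ KF K R, F u := by
  refine sum_bij' (fun u _ => v * u) (fun u _ => v⁻¹ * u) ?_ ?_ ?_ ?_ ?_
  · intro u hu
    exact mem_KF.2 (mul_mem hv (mem_KF.1 hu))
  · intro u hu
    exact mem_KF.2 (mul_mem (inv_mem hv) (mem_KF.1 hu))
  · intro u _
    simp
  · intro u _
    simp
  · intro u _
    rfl

theorem cntL_mul (m : ℕ) (f : Finset (Fin n) → G → ZMod 2) (g : G) {v : G} (hv : v ∈ KJ K R) :
    cntL K R m f (g * v) = cntL K R m f g := by
  rw [cntL_eq, cntL_eq]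
  refine sum_congr rfl fun J _ => ?_
  have := sum_KF_mul_left (K := K) (R := R) (fun u => indC (f J (g * u))) hv
  rw [← this]
  exact sum_congr rfl fun u _ => by rw [mul_assoc]

/-- Averaging over the translates of the cone function. -/
theorem exists_translate {d C m : ℕ} {H : Finset (Fin n) → G → Finset (Finset (Fin n) × G)}
    (hH : ConeFn K R d C H) (hm : m ≤ d + 1) (f : Finset (Fin n) → G → ZMod 2) (g : G) :
    ∃ u ∈ KJ K R, ∑ J ∈ (typ n m).filter (fun J => R ⊆ J), ∑ k ∈ KF K R,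
      indC (∑ p ∈ H J (u⁻¹ * k), del f p.1 (g * (u * p.2))) ≤
        2 ^ n * C * cntL K R (m + 1) (del f) g := by
  classical
  set L := cntL K R (m + 1) (del f) g with hL
  set S := (typ n m).filter (fun J => R ⊆ J) with hS
  have hScard : S.card ≤ 2 ^ n := by
    calc S.card ≤ (univ : Finset (Finset (Fin n))).card := card_le_univ _
      _ = 2 ^ n := by simp
  have hpt : ∀ J ∈ S, ∀ v ∈ KF K R, ∀ p ∈ H J v,
      ∑ u ∈ KF K R, indC (del f p.1 (g * (u * p.2))) ≤ L := by
    intro J hJ v hv p hp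
    rw [hS, mem_filter, typ, mem_filter] at hJ
    obtain ⟨h1, h2, h3⟩ := hH.mem J v p hJ.2 (by rw [hJ.1.2]; exact hm) (mem_KF.1 hv) hp
    rw [sum_KF_mul_right (fun u => indC (del f p.1 (g * u))) h3, hL, cntL_eq]
    refine single_le_sum (f := fun J => ∑ k ∈ KF K R, indC (del f J (g * k)))
      (fun _ _ => Nat.zero_le _) ?_
    rw [mem_filter, typ, mem_filter]
    exact ⟨⟨mem_univ _, by rw [h2, hJ.1.2]⟩, h1⟩
  have hJsum : ∀ J ∈ S, ∑ u ∈ KF K R, ∑ k ∈ KF K R,
      indC (∑ p ∈ H J (u⁻¹ * k), del f p.1 (g * (u * p.2))) ≤ (KF K R).card * (C * L) := by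
    intro J hJ
    calc ∑ u ∈ KF K R, ∑ k ∈ KF K R,
        indC (∑ p ∈ H J (u⁻¹ * k), del f p.1 (g * (u * p.2))) ≤
          ∑ u ∈ KF K R, ∑ k ∈ KF K R, ∑ p ∈ H J (u⁻¹ * k),
            indC (del f p.1 (g * (u * p.2))) :=
          sum_le_sum fun u _ => sum_le_sum fun k _ => indC_sum_le _ _
      _ = ∑ u ∈ KF K R, ∑ v ∈ KF K R, ∑ p ∈ H J v, indC (del f p.1 (g * (u * p.2))) := by
          refine sum_congr rfl fun u hu => ?_
          exact sum_KF_mul_left (K := K) (R := R)
            (fun v => ∑ p ∈ H J v, indC (del f p.1 (g * (u * p.2)))) (inv_mem (mem_KF.1 hu))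
      _ = ∑ v ∈ KF K R, ∑ p ∈ H J v, ∑ u ∈ KF K R, indC (del f p.1 (g * (u * p.2))) := by
          rw [sum_comm]
          exact sum_congr rfl fun v _ => sum_comm
      _ ≤ ∑ v ∈ KF K R, ∑ p ∈ H J v, L :=
          sum_le_sum fun v hv => sum_le_sum fun p hp => hpt J hJ v hv p hp
      _ ≤ ∑ v ∈ KF K R, C * L := by
          refine sum_le_sum fun v hv => ?_
          rw [sum_const, smul_eq_mul]
          rw [hS, mem_filter, typ, mem_filter] at hJ
          exact Nat.mul_le_mul_right _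
            (hH.card J v hJ.2 (by rw [hJ.1.2]; exact hm) (mem_KF.1 hv))
      _ = (KF K R).card * (C * L) := by rw [sum_const, smul_eq_mul]
  have htot : ∑ u ∈ KF K R, ∑ J ∈ S, ∑ k ∈ KF K R,
      indC (∑ p ∈ H J (u⁻¹ * k), del f p.1 (g * (u * p.2))) ≤
        ∑ _u ∈ KF K R, 2 ^ n * C * L := by
    rw [sum_comm]
    calc _ ≤ ∑ _J ∈ S, (KF K R).card * (C * L) := sum_le_sum hJsum
      _ = S.card * ((KF K R).card * (C * L)) := by rw [sum_const, smul_eq_mul]
      _ ≤ 2 ^ n * ((KF K R).card * (C * L)) := Nat.mul_le_mul_right _ hScard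
      _ = ∑ _u ∈ KF K R, 2 ^ n * C * L := by rw [sum_const, smul_eq_mul]; ring
  obtain ⟨u, hu, hu'⟩ := exists_le_of_sum_le ⟨1, one_mem_KF (K := K) R⟩ htot
  exact ⟨u, mem_KF.1 hu, hu'⟩

end

/-- Cone functions on the links of all nonempty types give local coboundary expansion. -/
theorem locExp_of_cone [Fintype G] {K : Fin n → Subgroup G} {d C : ℕ}
    (h : ∀ R : Finset (Fin n), R.Nonempty → R.card ≤ d + 1 → ∃ H, ConeFn K R d C H) :
    LocExp K d (1 / (2 ^ n * (C + 1))) := by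
  classical
  intro R m hR hRm hm f hf hfR
  obtain ⟨H, hH⟩ := h R hR (hRm.trans hm)
  choose u hu hu' using fun g => exists_translate hH hm f g
  -- the representative of the coset
  set rep : G → G := fun x => ((x : G ⧸ KJ K R)).out with hrep
  have hrep1 : ∀ x, ∃ v ∈ KJ K R, rep x = x * v := by
    intro x
    obtain ⟨v, hv⟩ := QuotientGroup.mk_out_eq_mul (KJ K R) x
    exact ⟨v, v.2, hv⟩
  have hrep2 : ∀ x, ∀ v ∈ KJ K R, rep (x * v) = rep x := by
    intro x v hv
    simp only [hrep]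
    rw [QuotientGroup.mk_mul_of_mem x hv]
  have hrep3 : ∀ x, (rep x)⁻¹ * x ∈ KJ K R := by
    intro x
    obtain ⟨v, hv, hxv⟩ := hrep1 x
    rw [hxv]
    simpa using hv
  set c : Finset (Fin n) → G → ZMod 2 := fun J x =>
    if R ⊆ J ∧ J.card ≤ d + 1 then
      ∑ p ∈ H J ((u (rep x))⁻¹ * ((rep x)⁻¹ * x)), f p.1 (rep x * (u (rep x) * p.2))
    else 0 with hc
  have hcS : ∀ J, ¬ R ⊆ J → ∀ g, c J g = 0 := by
    intro J hJ g
    simp only [hc]
    rw [if_neg fun h => hJ h.1]
  refine ⟨c, ?_, hcS, ?_⟩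
  · intro J x k hk
    simp only [hc]
    by_cases hJ : R ⊆ J ∧ J.card ≤ d + 1
    · have hkR : k ∈ KJ K R := KJ_anti hJ.1 hk
      rw [if_pos hJ, if_pos hJ, hrep2 x k hkR]
      have h1 : (u (rep x))⁻¹ * ((rep x)⁻¹ * (x * k)) =
          ((u (rep x))⁻¹ * ((rep x)⁻¹ * x)) * k := by group
      rw [h1, hH.inv J _ k hJ.1 hJ.2 (mul_mem (inv_mem (hu _)) (hrep3 x)) hk]
    · rw [if_neg hJ, if_neg hJ]
  · intro g
    obtain ⟨v, hv, hgv⟩ := hrep1 g
    rw [← cntL_mul m _ g hv, ← cntL_mul (m + 1) _ g hv, ← hgv]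
    set r := rep g with hr
    have hrr : ∀ k ∈ KJ K R, rep (r * k) = r := by
      intro k hk
      exact (hrep2 r k hk).trans ((congrArg rep hgv).trans (hrep2 g v hv))
    have hkey : cntL K R m (fun J x => f J x - del c J x) r ≤
        2 ^ n * C * cntL K R (m + 1) (del f) r := by
      rw [cntL_eq]
      refine le_trans (le_of_eq ?_) (hu' r)
      refine sum_congr rfl fun J hJ => sum_congr rfl fun k hk => ?_
      rw [mem_filter, typ, mem_filter] at hJ
      have hJR := hJ.2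
      have hJd : J.card ≤ d + 1 := by rw [hJ.1.2]; exact hm
      have hk' := mem_KF.1 hk
      have hcone := hH.cone (fun J x => f J (r * (u r * x)))
        (by
          intro J x k hk
          simp only [← mul_assoc]
          rw [hf J _ k hk])
        (fun J hJ x => hfR J hJ _) J ((u r)⁻¹ * k) hJR hJd (mul_mem (inv_mem (hu r)) hk')
      have h1 : r * (u r * ((u r)⁻¹ * k)) = r * k := by group
      rw [h1] at hcone
      have h2 : del c J (r * k) = ∑ i ∈ J \ R, ∑ p ∈ H (J.erase i) ((u r)⁻¹ * k),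
          f p.1 (r * (u r * p.2)) := by
        unfold del
        rw [← sum_subset (sdiff_subset : J \ R ⊆ J)]
        · refine sum_congr rfl fun i hi => ?_
          rw [mem_sdiff] at hi
          simp only [hc]
          rw [if_pos ⟨fun x hx => mem_erase.2 ⟨fun h => hi.2 (h ▸ hx), hJR hx⟩,
            (card_le_card (erase_subset i J)).trans hJd⟩, hrr k hk']
          have h3 : (u r)⁻¹ * (r⁻¹ * (r * k)) = (u r)⁻¹ * k := by group
          rw [h3]
        · intro i hi hi'
          apply hcS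
          intro hRe
          have hiR : i ∈ R := by
            by_contra hcon
            exact hi' (mem_sdiff.2 ⟨hi, hcon⟩)
          exact (notMem_erase i J) (hRe hiR)
      rw [hcone, h2, add_sub_cancel_right]
      rfl
    have h2 : (cntL K R m (fun J x => f J x - del c J x) r : ℝ) ≤
        2 ^ n * C * (cntL K R (m + 1) (del f) r : ℝ) := by exact_mod_cast hkey
    have h3 : (0 : ℝ) < 2 ^ n * ((C : ℝ) + 1) := by positivity
    rw [div_mul_eq_mul_div, one_mul, div_le_iff₀ h3]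
    refine h2.trans ?_
    have h4 : (0 : ℝ) ≤ (cntL K R (m + 1) (del f) r : ℝ) := Nat.cast_nonneg _
    nlinarith [mul_nonneg (pow_nonneg (by norm_num : (0 : ℝ) ≤ 2) n) h4]

/-- Transport of a cone function through a homomorphism which is injective on `K_R` and maps
`K_J` onto `Kbar_J` for `R ⊆ J`. -/
theorem ConeFn.transport {G' : Type*} [Group G'] {K : Fin n → Subgroup G}
    {K' : Fin n → Subgroup G'} {R : Finset (Fin n)} {d C : ℕ}
    {H : Finset (Fin n) → G → Finset (Finset (Fin n) × G)} (hH : ConeFn K R d C H) (π : G →* G')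
    (hK : ∀ J x, x ∈ KJ K J → π x ∈ KJ K' J)
    (hinj : ∀ x, x ∈ KJ K R → π x = 1 → x = 1)
    (hsurj : ∀ J, R ⊆ J → ∀ y, y ∈ KJ K' J → ∃ x, x ∈ KJ K J ∧ π x = y) :
    ∃ H', ConeFn K' R d C H' := by
  classical
  have hinj' : ∀ x y, x ∈ KJ K R → y ∈ KJ K R → π x = π y → x = y := by
    intro x y hx hy hxy
    have := hinj (x⁻¹ * y) (mul_mem (inv_mem hx) hy) (by rw [map_mul, map_inv, hxy]; simp)
    rw [inv_mul_eq_one] at this
    exact this
  -- the preimage
  have hpre : ∀ y, ∃ x, y ∈ KJ K' R → x ∈ KJ K R ∧ π x = y := by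
    intro y
    by_cases hy : y ∈ KJ K' R
    · obtain ⟨x, hx⟩ := hsurj R (Subset.refl R) y hy
      exact ⟨x, fun _ => hx⟩
    · exact ⟨1, fun h => absurd h hy⟩
  choose pre hpre using hpre
  have hpreK : ∀ y ∈ KJ K' R, pre y ∈ KJ K R := fun y hy => (hpre y hy).1
  have hpreπ : ∀ y ∈ KJ K' R, π (pre y) = y := fun y hy => (hpre y hy).2
  have hsum : ∀ (J : Finset (Fin n)) (y : G'), R ⊆ J → J.card ≤ d + 1 → y ∈ KJ K' R →
      ∀ F : Finset (Fin n) × G' → ZMod 2,
      ∑ p ∈ (H J (pre y)).image (fun p => (p.1, π p.2)), F p =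
        ∑ p ∈ H J (pre y), F (p.1, π p.2) := by
    intro J y hJ hJd hy F
    rw [sum_image]
    intro p hp q hq hpq
    have h1 := (hH.mem J _ p hJ hJd (hpreK y hy) hp).2.2
    have h2 := (hH.mem J _ q hJ hJd (hpreK y hy) hq).2.2
    rw [Prod.mk.injEq] at hpq
    exact Prod.ext hpq.1 (hinj' _ _ h1 h2 hpq.2)
  refine ⟨fun J y => (H J (pre y)).image (fun p => (p.1, π p.2)), ?_, ?_, ?_, ?_⟩
  · intro J y hJ hJd hy
    exact card_image_le.trans (hH.card J _ hJ hJd (hpreK y hy))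
  · intro J y p hJ hJd hy hp
    rw [mem_image] at hp
    obtain ⟨q, hq, rfl⟩ := hp
    obtain ⟨h1, h2, h3⟩ := hH.mem J _ q hJ hJd (hpreK y hy) hq
    exact ⟨h1, h2, hK _ _ h3⟩
  · intro J y y' hJ hJd hy hy'
    obtain ⟨x', hx', rfl⟩ := hsurj J hJ y' hy'
    have hx'R : x' ∈ KJ K R := KJ_anti hJ hx'
    have h1 : pre (y * π x') = pre y * x' := by
      apply hinj' _ _ (hpreK _ (mul_mem hy (hK _ _ hx'R))) (mul_mem (hpreK y hy) hx'R)
      rw [hpreπ _ (mul_mem hy (hK _ _ hx'R)), map_mul, hpreπ y hy]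
    rw [h1, hH.inv J _ x' hJ hJd (hpreK y hy) hx']
  · intro φ hφ hφR J y hJ hJd hy
    have hc := hH.cone (fun J x => φ J (π x))
      (fun J x k hk => by
        simp only [map_mul]
        exact hφ J _ _ (hK _ _ hk))
      (fun J hJ x => hφR J hJ _) J (pre y) hJ hJd (hpreK y hy)
    simp only [hpreπ y hy] at hc
    rw [hc]
    congr 1
    · rw [hsum J y hJ hJd hy]
      rfl
    · refine sum_congr rfl fun i hi => ?_
      rw [mem_sdiff] at hi
      rw [hsum (J.erase i) y (fun x hx => mem_erase.2 ⟨fun h => hi.2 (h ▸ hx), hJ hx⟩)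
        ((card_le_card (erase_subset i J)).trans hJd) hy]

end Vale.Agent.P067
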