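import Mathlib

namespace Vale.Agent.P067

variable {n : ℕ} {G : Type} [Group G]

/-- `K_J`, the intersection of the `K i`, `i ∈ J` (`K_∅ = ⊤`). -/
def stab (K : Fin n → Subgroup G) (J : Finset (Fin n)) : Subgroup G := ⨅ i ∈ J, K i

/-- Level `m` cochains of the coset complex: families `f J`, `|J| = m`, right `K_J`-invariant. -/
def IsCochain (K : Fin n → Subgroup G) (m : ℕ) (f : Finset (Fin n) → G → ZMod 2) : Prop :=
  ∀ J, J.card = m → ∀ g, ∀ k ∈ stab K J, f J (g * k) = f J g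

/-- The coboundary. -/
def cob (f : Finset (Fin n) → G → ZMod 2) : Finset (Fin n) → G → ZMod 2 :=
  fun J g => ∑ i ∈ J, f (J.erase i) g

/-- `cnt m f = ∑_{|J| = m} #{g : f J g ≠ 0}`. -/
noncomputable def cnt (m : ℕ) (f : Finset (Fin n) → G → ZMod 2) : ℕ :=
  ∑ J ∈ Finset.powersetCard m Finset.univ, Nat.card {g // f J g ≠ 0}

end Vale.Agent.P067
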