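import Vale.Agent.P067.DMin
import Vale.Agent.P067.Interface

/-!
# P067, part D: coboundary expansion from local expansion, spectral gap and vanishing cohomology
-/

namespace Vale.Agent.P067.PD

open Finset

set_option linter.unusedSectionVars false

variable {n : ℕ} {G : Type*} [Group G]

theorem del_del (f : Finset (Fin n) → G → ZMod 2) (J : Finset (Fin n)) (g : G) :
    del (del f) J g = 0 := by
  classical
  unfold del
  rw [sum_sigma']
  refine sum_involution (fun x _ => ⟨x.2, x.1⟩) ?_ ?_ ?_ ?_
  · rintro ⟨i, j⟩ _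
    simp only
    rw [erase_right_comm]
    exact CharTwo.add_self_eq_zero _
  · rintro ⟨i, j⟩ h _ heq
    rw [mem_sigma] at h
    simp only [Sigma.mk.injEq] at heq
    have := (mem_erase.1 h.2).1
    exact this heq.1
  · rintro ⟨i, j⟩ h
    rw [mem_sigma] at h ⊢
    simp only at h ⊢
    obtain ⟨h1, h2⟩ := h
    obtain ⟨h3, h4⟩ := mem_erase.1 h2
    exact ⟨h4, mem_erase.2 ⟨Ne.symm h3, h1⟩⟩
  · rintro ⟨i, j⟩ _
    rfl

theorem del_coch {K : Fin n → Subgroup G} {f : Finset (Fin n) → G → ZMod 2} (hf : IsCoch K f) :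
    IsCoch K (del f) := by
  intro J g k hk
  unfold del
  exact sum_congr rfl fun i _ => hf _ g k (KJ_anti (erase_subset i J) hk)

theorem del_add (f h : Finset (Fin n) → G → ZMod 2) (J : Finset (Fin n)) (g : G) :
    del (fun J g => f J g + h J g) J g = del f J g + del h J g := by
  unfold del
  rw [sum_add_distrib]

theorem del_sub (f h : Finset (Fin n) → G → ZMod 2) (J : Finset (Fin n)) (g : G) :
    del (fun J g => f J g - h J g) J g = del f J g - del h J g := by
  unfold del
  rw [sum_sub_distrib]

variable [Fintype G]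

/-- restriction of a cochain to a coset of `K_R` -/
noncomputable def restr (K : Fin n → Subgroup G) (R : Finset (Fin n)) (g : G)
    (c : Finset (Fin n) → G → ZMod 2) : Finset (Fin n) → G → ZMod 2 := by
  classical
  exact fun J x => if g⁻¹ * x ∈ KJ K R then c J x else 0

theorem restr_coch {K : Fin n → Subgroup G} {R : Finset (Fin n)} {g : G}
    {c : Finset (Fin n) → G → ZMod 2} (hc : IsCoch K c) (hR : SuppOn R c) :
    IsCoch K (restr K R g c) := by
  classical
  intro J x k hk
  unfold restr
  by_cases hRJ : R ⊆ J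
  · have hk' : k ∈ KJ K R := KJ_anti hRJ hk
    have h1 : g⁻¹ * (x * k) ∈ KJ K R ↔ g⁻¹ * x ∈ KJ K R := by
      rw [← mul_assoc]
      exact Subgroup.mul_mem_cancel_right _ hk'
    simp only [h1, hc J x k hk]
  · simp only [hR J hRJ, ite_self]

theorem del_restr {K : Fin n → Subgroup G} {R : Finset (Fin n)} {g : G}
    {c : Finset (Fin n) → G → ZMod 2} (J : Finset (Fin n)) (x : G) :
    del (restr K R g c) J x = restr K R g (del c) J x := by
  classical
  by_cases h : g⁻¹ * x ∈ KJ K R
  · simp [restr, del, h]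
  · simp [restr, del, h]

/-- the difference of counts is local -/
theorem cnt_diff {K : Fin n → Subgroup G} {R : Finset (Fin n)} {g : G}
    {c : Finset (Fin n) → G → ZMod 2} (hR : SuppOn R c) (m : ℕ)
    (z : Finset (Fin n) → G → ZMod 2) :
    cntm m (fun J x => z J x - del (restr K R g c) J x) + cntL K R m z g =
      cntm m z + cntL K R m (fun J x => z J x - del c J x) g := by
  classical
  have hdel : ∀ J, ¬ R ⊆ J → ∀ x, del c J x = 0 := by
    intro J hJ x
    unfold del
    exact sum_eq_zero fun i _ => hR _ (fun h => hJ (h.trans (erase_subset i J))) x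
  have hcl : ∀ f : Finset (Fin n) → G → ZMod 2, cntL K R m f g =
      ∑ J ∈ typ n m, if R ⊆ J then
        (univ.filter fun x => g⁻¹ * x ∈ KJ K R ∧ f J x ≠ 0).card else 0 := by
    intro f
    unfold cntL
    rw [sum_filter]
    refine sum_congr rfl fun J _ => ?_
    split_ifs
    · refine card_bij' (fun k _ => g * k) (fun x _ => g⁻¹ * x) ?_ ?_ ?_ ?_
      · intro k hk
        simpa using hk
      · intro x hx
        simpa using hx
      · intro k _
        simp
      · intro x _
        simp
    · rfl
  rw [hcl, hcl]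
  unfold cntm
  rw [← sum_add_distrib, ← sum_add_distrib]
  refine sum_congr rfl fun J _ => ?_
  by_cases hRJ : R ⊆ J
  · simp only [if_pos hRJ]
    have h1 : ∀ f : G → ZMod 2, (univ.filter fun x => f x ≠ 0).card =
        (univ.filter fun x => g⁻¹ * x ∈ KJ K R ∧ f x ≠ 0).card +
        (univ.filter fun x => ¬ g⁻¹ * x ∈ KJ K R ∧ f x ≠ 0).card := by
      intro f
      rw [← card_union_of_disjoint]
      · congr 1
        ext x
        simp only [mem_filter, mem_univ, true_and, mem_union]
        tauto
      · rw [disjoint_left]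
        intro x hx hx'
        simp only [mem_filter, mem_univ, true_and] at hx hx'
        exact hx'.1 hx.1
    rw [h1 (fun x => z J x - del (restr K R g c) J x), h1 (fun x => z J x)]
    have h2 : (univ.filter fun x => g⁻¹ * x ∈ KJ K R ∧ z J x - del (restr K R g c) J x ≠ 0) =
        univ.filter fun x => g⁻¹ * x ∈ KJ K R ∧ z J x - del c J x ≠ 0 := by
      ext x
      simp only [mem_filter, mem_univ, true_and, del_restr]
      unfold restr
      constructor
      · rintro ⟨h3, h4⟩
        rw [if_pos h3] at h4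
        exact ⟨h3, h4⟩
      · rintro ⟨h3, h4⟩
        rw [if_pos h3]
        exact ⟨h3, h4⟩
    have h3 : (univ.filter fun x => ¬ g⁻¹ * x ∈ KJ K R ∧ z J x - del (restr K R g c) J x ≠ 0) =
        univ.filter fun x => ¬ g⁻¹ * x ∈ KJ K R ∧ z J x ≠ 0 := by
      ext x
      simp only [mem_filter, mem_univ, true_and, del_restr]
      unfold restr
      constructor
      · rintro ⟨h3, h4⟩
        rw [if_neg h3, sub_zero] at h4
        exact ⟨h3, h4⟩
      · rintro ⟨h3, h4⟩
        rw [if_neg h3, sub_zero]
        exact ⟨h3, h4⟩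
    rw [h2, h3]
    ring
  · simp only [if_neg hRJ, add_zero]
    congr 1
    ext x
    simp only [mem_filter, mem_univ, true_and, del_restr]
    unfold restr
    split_ifs
    · rw [hdel J hRJ, sub_zero]
    · rw [sub_zero]

theorem cntm_restr_le {K : Fin n → Subgroup G} {R : Finset (Fin n)} {g : G}
    {c : Finset (Fin n) → G → ZMod 2} (m C : ℕ) (hC : (KF K R).card ≤ C) :
    cntm m (restr K R g c) ≤ 2 ^ n * C := by
  classical
  unfold cntm
  have h1 : ∀ J ∈ typ n m, (univ.filter fun x => restr K R g c J x ≠ 0).card ≤ C := by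
    intro J _
    refine (card_le_card_of_injOn (fun x => g⁻¹ * x) ?_ ?_).trans hC
    · intro x hx
      have hx' := (mem_filter.1 hx).2
      unfold restr at hx'
      rw [Finset.mem_coe, mem_KF]
      by_contra hcon
      exact hx' (if_neg hcon)
    · intro x _ y _ hxy
      exact mul_left_cancel hxy
  refine (sum_le_sum h1).trans ?_
  rw [sum_const, smul_eq_mul]
  refine Nat.mul_le_mul_right _ ?_
  refine (card_le_univ _).trans ?_
  rw [Fintype.card_finset, Fintype.card_fin]

theorem cntm_add_le (m : ℕ) (f h : Finset (Fin n) → G → ZMod 2) :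
    cntm m (fun J x => f J x + h J x) ≤ cntm m f + cntm m h := by
  classical
  unfold cntm
  rw [← sum_add_distrib]
  refine sum_le_sum fun J _ => ?_
  refine (card_le_card ?_).trans (card_union_le _ _)
  intro x hx
  simp only [mem_filter, mem_univ, true_and, mem_union] at hx ⊢
  by_contra hcon
  push Not at hcon
  exact hx (by rw [hcon.1, hcon.2, add_zero])

/-- correction of a small cocycle by a small cochain -/
theorem correct {K : Fin n → Subgroup G} {m C : ℕ} (hC : ∀ R : Finset (Fin n), R.Nonempty →
    (KF K R).card ≤ C) {bd : ℝ}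
    (hmin : ∀ z : Finset (Fin n) → G → ZMod 2, IsCoch K z →
      (∀ J g, J.card = m + 2 → del z J g = 0) → LocMin K (m + 1) z →
        (cntm (m + 1) z : ℝ) < bd → cntm (m + 1) z = 0) :
    ∀ N : ℕ, ∀ z : Finset (Fin n) → G → ZMod 2, cntm (m + 1) z = N → (N : ℝ) < bd →
      IsCoch K z → (∀ J g, J.card = m + 2 → del z J g = 0) →
      ∃ c : Finset (Fin n) → G → ZMod 2, IsCoch K c ∧
        (∀ J g, J.card = m + 1 → z J g = del c J g) ∧ cntm m c ≤ 2 ^ n * C * N := by
  classical
  intro N
  induction N using Nat.strong_induction_on with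
  | _ N ih =>
    intro z hzN hNb hz hcoc
    by_cases hlm : LocMin K (m + 1) z
    · have h0 := hmin z hz hcoc hlm (by rw [hzN]; exact hNb)
      refine ⟨fun _ _ => 0, fun _ _ _ _ => rfl, ?_, ?_⟩
      · intro J g hJ
        have h1 : del (fun _ _ => (0 : ZMod 2)) J g = 0 := sum_const_zero
        rw [h1]
        by_contra hne
        unfold cntm at h0
        rw [sum_eq_zero_iff] at h0
        have h2 := h0 J (mem_typ.2 hJ)
        rw [card_eq_zero, filter_eq_empty_iff] at h2
        exact h2 (mem_univ g) hne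
      · unfold cntm
        simp
    · unfold LocMin at hlm
      push Not at hlm
      obtain ⟨R, hR, c, hc, hcR, g, hlt⟩ := hlm
      have hd := cnt_diff (K := K) (R := R) (g := g) hcR (m + 1) z
      set z' : Finset (Fin n) → G → ZMod 2 := fun J x => z J x - del (restr K R g c) J x with hz'
      have hlt' : cntm (m + 1) z' < N := by omega
      have hz'c : IsCoch K z' := by
        intro J x k hk
        simp only [hz']
        rw [hz J x k hk, del_coch (restr_coch hc hcR) J x k hk]
      have hz'd : ∀ J x, J.card = m + 2 → del z' J x = 0 := by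
        intro J x hJ
        rw [hz', del_sub, hcoc J x hJ, del_del, sub_zero]
      obtain ⟨c', hc', hc'2, hc'3⟩ := ih (cntm (m + 1) z') hlt' z' rfl
        (lt_trans (Nat.cast_lt.2 hlt') hNb) hz'c hz'd
      refine ⟨fun J x => restr K R g c J x + c' J x, ?_, ?_, ?_⟩
      · intro J x k hk
        simp only
        rw [restr_coch hc hcR J x k hk, hc' J x k hk]
      · intro J x hJ
        rw [del_add, ← hc'2 J x hJ]
        simp only [hz']
        ring
      · refine (cntm_add_le m _ _).trans ?_
        have h1 := cntm_restr_le (K := K) (R := R) (g := g) (c := c) m C (hC R hR)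
        have h2 : 2 ^ n * C * cntm (m + 1) z' + 2 ^ n * C ≤ 2 ^ n * C * N := by
          rw [← Nat.mul_succ]
          exact Nat.mul_le_mul_left _ hlt'
        omega

theorem cntm_le (m : ℕ) (f : Finset (Fin n) → G → ZMod 2) :
    cntm m f ≤ 2 ^ n * Fintype.card G := by
  classical
  unfold cntm
  have h1 : ∀ J ∈ typ n m, (univ.filter fun x => f J x ≠ 0).card ≤ Fintype.card G :=
    fun J _ => card_le_univ _
  refine (sum_le_sum h1).trans ?_
  rw [sum_const, smul_eq_mul]
  refine Nat.mul_le_mul_right _ ?_
  refine (card_le_univ _).trans ?_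
  rw [Fintype.card_finset, Fintype.card_fin]

theorem cntm_congr {m : ℕ} {f h : Finset (Fin n) → G → ZMod 2}
    (hfh : ∀ J g, J.card = m → f J g = h J g) : cntm m f = cntm m h := by
  classical
  unfold cntm
  refine sum_congr rfl fun J hJ => ?_
  congr 1
  ext x
  simp only [mem_filter, mem_univ, true_and]
  rw [hfh J x (mem_typ.1 hJ)]

/-- expansion of the coset complex, internal form -/
theorem expand_int (n d : ℕ) {beta : ℝ} (hb : 0 < beta) (hb1 : beta ≤ 1) :
    ∃ lam > 0, ∀ C : ℕ, ∃ eps > 0, ∀ (G : Type) [Group G] [Fintype G]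
      (K : Fin n → Subgroup G), (∀ i, Nat.card (K i) ≤ C) → Spec K lam → LocExp K d beta →
        CohZero K d → Expand K d eps := by
  classical
  obtain ⟨lam, hlam, eta, heta, hsz⟩ := small_zero n d hb hb1
  refine ⟨lam, hlam, fun C => ?_⟩
  refine ⟨min (1 / ((2 : ℝ) ^ n * (C + 1))) (eta / 2 ^ n), lt_min (by positivity) (by positivity),
    ?_⟩
  intro G _ _ K hC hS hL hZ m hm hmd f hf
  have hG : (0 : ℝ) < Fintype.card G := Nat.cast_pos.2 Fintype.card_pos
  by_cases hbig : eta * Fintype.card G ≤ (cntm (m + 1) (del f) : ℝ)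
  · refine ⟨fun _ _ => 0, fun _ _ _ _ => rfl, ?_⟩
    have h1 : (cntm m (fun J x => f J x - del (fun _ _ => 0) J x) : ℝ) ≤
        2 ^ n * Fintype.card G := by exact_mod_cast cntm_le m _
    have h2 : min (1 / ((2 : ℝ) ^ n * (C + 1))) (eta / 2 ^ n) *
        (cntm m (fun J x => f J x - del (fun _ _ => 0) J x) : ℝ) ≤
        (eta / 2 ^ n) * (2 ^ n * Fintype.card G) :=
      mul_le_mul (min_le_right _ _) h1 (Nat.cast_nonneg _) (by positivity)
    have h3 : (eta / 2 ^ n) * (2 ^ n * (Fintype.card G : ℝ)) = eta * Fintype.card G := by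
      field_simp
    rw [h3] at h2
    exact h2.trans hbig
  · push Not at hbig
    have hKF : ∀ R : Finset (Fin n), R.Nonempty → (KF K R).card ≤ C := by
      rintro R ⟨i, hi⟩
      refine le_trans ?_ (hC i)
      rw [Nat.card_eq_fintype_card, Fintype.card_subtype]
      refine card_le_card fun x hx => ?_
      rw [mem_filter]
      exact ⟨mem_univ _, mem_KJ.1 (mem_KF.1 hx) i hi⟩
    obtain ⟨c, hc, hc2, hc3⟩ := correct (K := K) (m := m) hKF
      (bd := eta * Fintype.card G)
      (fun z hz hcoc hmin hsm => hsz G K hS hL (m + 1) (by omega) (by omega) z hz hcoc hmin hsm)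
      (cntm (m + 1) (del f)) (del f) rfl hbig (del_coch hf) (fun J g _ => del_del f J g)
    have h1 : IsCoch K (fun J x => f J x - c J x) := by
      intro J x k hk
      simp only
      rw [hf J x k hk, hc J x k hk]
    obtain ⟨b, hb', hb2⟩ := hZ m hm hmd _ h1 (by
      intro J x hJ
      rw [del_sub, ← hc2 J x hJ, sub_self])
    refine ⟨b, hb', ?_⟩
    have h2 : cntm m (fun J x => f J x - del b J x) = cntm m c := by
      refine cntm_congr fun J x hJ => ?_
      rw [← hb2 J x hJ]
      ring
    rw [h2]
    have h3 : (cntm m c : ℝ) ≤ (2 ^ n * (C + 1)) * (cntm (m + 1) (del f) : ℝ) := by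
      have h4 : (cntm m c : ℝ) ≤ 2 ^ n * C * (cntm (m + 1) (del f) : ℝ) := by exact_mod_cast hc3
      have h5 : (0 : ℝ) ≤ 2 ^ n * (cntm (m + 1) (del f) : ℝ) := by positivity
      linarith
    calc min (1 / ((2 : ℝ) ^ n * (C + 1))) (eta / 2 ^ n) * (cntm m c : ℝ)
        ≤ (1 / ((2 : ℝ) ^ n * (C + 1))) * ((2 ^ n * (C + 1)) *
            (cntm (m + 1) (del f) : ℝ)) :=
          mul_le_mul (min_le_left _ _) h3 (Nat.cast_nonneg _) (by positivity)
      _ = (cntm (m + 1) (del f) : ℝ) := by
          have : ((2 : ℝ) ^ n * (C + 1)) ≠ 0 := by positivity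
          field_simp

/-- the counts of the two files agree -/
theorem cnt_eq_cntm {G : Type} [Group G] [Fintype G] (m : ℕ)
    (f : Finset (Fin n) → G → ZMod 2) : cnt m f = cntm m f := by
  classical
  unfold cnt cntm
  refine sum_congr ?_ fun J _ => ?_
  · ext J
    simp [mem_powersetCard, typ]
  · rw [Nat.card_eq_fintype_card, Fintype.card_subtype]

end Vale.Agent.P067.PD

namespace Vale.Agent.P067

open Finset PD

variable {n : ℕ}

/-- **Part D.** -/
theorem expand (n d : ℕ) {beta : ℝ} (hb : 0 < beta) (hb1 : beta ≤ 1) :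
    ∃ lam > 0, ∀ C : ℕ, ∃ eps > 0, ∀ (G : Type) [Group G] [Finite G]
      (K : Fin n → Subgroup G), (∀ i, Nat.card (K i) ≤ C) →
        (∀ [Fintype G], Spec K lam) → (∀ [Fintype G], LocExp K d beta) → CohZero K d →
          ∀ m, 1 ≤ m → m ≤ d → ∀ f : Finset (Fin n) → G → ZMod 2, IsCochain K m f →
            ∃ b, IsCochain K (m - 1) b ∧
              eps * (cnt m (fun J g => f J g - cob b J g) : ℝ) ≤ (cnt (m + 1) (cob f) : ℝ) := by
  classical
  obtain ⟨lam, hlam, h1⟩ := expand_int n d hb hb1
  refine ⟨lam, hlam, fun C => ?_⟩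
  obtain ⟨eps, heps, h2⟩ := h1 C
  refine ⟨eps, heps, ?_⟩
  intro G _ _ K hC hS hL hZ m hm hmd f hf
  haveI : Fintype G := Fintype.ofFinite G
  set f' : Finset (Fin n) → G → ZMod 2 := fun J g => if J.card = m then f J g else 0 with hf'
  have hf'c : IsCoch K f' := by
    intro J g k hk
    simp only [hf']
    split_ifs with hJ
    · exact hf J hJ g k hk
    · rfl
  obtain ⟨b, hb', hb2⟩ := h2 G K hC hS hL hZ m hm hmd f' hf'c
  refine ⟨b, fun J _ g k hk => hb' J g k hk, ?_⟩
  rw [cnt_eq_cntm, cnt_eq_cntm]
  have h3 : cntm m (fun J g => f J g - cob b J g) = cntm m (fun J x => f' J x - del b J x) := by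
    refine cntm_congr fun J x hJ => ?_
    simp only [hf', if_pos hJ]
    rfl
  have h4 : cntm (m + 1) (cob f) = cntm (m + 1) (del f') := by
    refine cntm_congr fun J x hJ => ?_
    unfold cob del
    refine sum_congr rfl fun i hi => ?_
    have : (J.erase i).card = m := by
      rw [card_erase_of_mem hi, hJ]
      rfl
    simp only [hf', if_pos this]
  rw [h3, h4]
  exact hb2

end Vale.Agent.P067
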