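import Vale.Agent.P067.SpecOf

/-!
# P067: generation at the empty type, from vanishing of the first cohomology
-/

namespace Vale.Agent.P067

open Finset

variable {n : ℕ} {G : Type} [Group G]

lemma top_of_cohZero {K : Fin n → Subgroup G} {d : ℕ} (hd : 1 ≤ d) (hZ : CohZero K d) (i₀ : Fin n)
    (P : Subgroup G) (hP : ∀ i, K i ≤ P) : P = ⊤ := by
  classical
  obtain ⟨b, hb, hb2⟩ := hZ 1 le_rfl hd
    (fun J g => if J.card = 1 then (if g ∈ P then 1 else 0) else 0) (by
      intro J g k hk
      by_cases hJ : J.card = 1
      · simp only [hJ, if_true]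
        obtain ⟨i, rfl⟩ := Finset.card_eq_one.1 hJ
        have hk' : k ∈ P := hP i (by simpa [KJ] using hk)
        have : g * k ∈ P ↔ g ∈ P := ⟨fun h => by
          have := P.mul_mem h (P.inv_mem hk')
          simpa using this, fun h => P.mul_mem h hk'⟩
        simp only [this]
      · simp only [hJ, if_false]) (by
      intro J g hJ
      simp only [del]
      have : ∀ i ∈ J, (if (J.erase i).card = 1 then (if g ∈ P then (1 : ZMod 2) else 0) else 0) =
          (if g ∈ P then 1 else 0) := by
        intro i hi
        rw [Finset.card_erase_of_mem hi, hJ]; simp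
      rw [Finset.sum_congr rfl this, Finset.sum_const, hJ]
      rw [show (1 + 1 : ℕ) = 2 from rfl, two_nsmul]
      exact CharTwo.add_self_eq_zero _)
  rw [eq_top_iff]
  intro g _
  have h1 := hb2 {i₀} 1 (by simp)
  have h2 := hb2 {i₀} g (by simp)
  simp only [Finset.card_singleton, if_true, one_mem, del, Finset.sum_singleton] at h1 h2
  have h3 : b (({i₀} : Finset (Fin n)).erase i₀) g = b (({i₀} : Finset (Fin n)).erase i₀) 1 := by
    have := hb (({i₀} : Finset (Fin n)).erase i₀) 1 g (by simp [KJ])
    simpa using this
  by_contra hg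
  rw [if_neg hg, h3, ← h1] at h2
  simp at h2

theorem gen_of {K : Fin n → Subgroup G} {d : ℕ} (hd : 1 ≤ d) (hZ : CohZero K d)
    (hgen : ∀ (R : Finset (Fin n)) (i j : Fin n), R.Nonempty → i ∉ R → j ∉ R → i ≠ j →
      KJ K R ≤ KJ K (insert i R) ⊔ KJ K (insert j R)) : SpecOf.Gen K := by
  classical
  intro R i j hi hj hij
  rcases R.eq_empty_or_nonempty with rfl | hR
  · have hs : ∀ l, KJ K {l} = K l := fun l => by simp [KJ]
    have : KJ K (insert i ∅) ⊔ KJ K (insert j ∅) = ⊤ := by
      apply top_of_cohZero hd hZ i
      intro l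
      rw [insert_empty_eq, insert_empty_eq, hs, hs]
      by_cases hli : l = i
      · subst hli; exact le_sup_left
      by_cases hlj : l = j
      · subst hlj; exact le_sup_right
      have h1 := hgen {l} i j (Finset.singleton_nonempty l) (by simpa using fun h => hli h.symm)
        (by simpa using fun h => hlj h.symm) hij
      rw [hs] at h1
      refine h1.trans (sup_le_sup ?_ ?_)
      · intro x hx
        simp only [KJ, Finset.mem_insert, Finset.mem_singleton, iInf_or, iInf_inf_eq,
          iInf_iInf_eq_left, Subgroup.mem_inf] at hx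
        exact hx.1
      · intro x hx
        simp only [KJ, Finset.mem_insert, Finset.mem_singleton, iInf_or, iInf_inf_eq,
          iInf_iInf_eq_left, Subgroup.mem_inf] at hx
        exact hx.1
    rw [this]; exact le_top
  · exact hgen R i j hR hi hj hij

end Vale.Agent.P067
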