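import Vale.Agent.P067.KStr

/-!
# P067, D1: the spectral condition for the finite quotients of `U`
-/

open Finset

namespace Vale.Agent.P067

/-- Variant of `Pair.spec` with generation of the whole group given in the quotient. -/
theorem Pair.spec' {n : ℕ} {U : Type*} [Group U] {G : Type*} [Group G] {K : Fin n → Subgroup U}
    {K' : Fin n → Subgroup G} {p : ℕ} [Fintype G] (hn : 3 ≤ n) (hp : 0 < p) (f : U →* G)
    (hf : ∀ S : Finset (Fin n), S.Nonempty → KJ K' S = (KJ K S).map f)
    (hinj : ∀ R : Finset (Fin n), R.Nonempty → ∀ x ∈ KJ K R, f x = 1 → x = 1)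
    (hgen : ∀ R : Finset (Fin n), R.Nonempty → Pair.GenAt K R) (htop' : ⨆ i, K' i = ⊤)
    (hstr : ∀ R : Finset (Fin n), R.card + 2 = n → Pair.StrAt K p R)
    (hsmall : n * (1 / Real.sqrt p) ≤ 1 / 2) : Spec K' (2 * (1 / Real.sqrt p)) := by
  have hgen' : ∀ R : Finset (Fin n), R.Nonempty → Pair.GenAt K' R :=
    fun R hR => (hgen R hR).map hR f hf
  have hG : SpecOf.Gen K' := by
    intro R i j hi hj hij
    rcases R.eq_empty_or_nonempty with rfl | hR
    · exact Pair.genAt_empty (fun i => hgen' {i} (singleton_nonempty i)) htop' i j hi hj hij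
    · exact hgen' R hR i j hi hj hij
  refine spec_of (by positivity) hsmall hG fun R hR => pairAt_of hp fun i j hi hj hij => ?_
  have hRne : R.Nonempty := by
    rw [← card_pos]; omega
  exact ⟨hG R i j hi hj hij, (hstr R hR).map hRne f hf (hinj R hRne) i j hi hj hij⟩

/-- THE SPECTRAL CONDITION for a finite quotient `f : UU F n → G` which is injective on the `K_R`
and compatible with intersections; `q = |F|`. -/
theorem spec_UU {F : Type} [Field F] [Finite F] {n : ℕ} (hn : 3 ≤ n) {G : Type*} [Group G]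
    [Fintype G] {K' : Fin n → Subgroup G} (f : UU F n →* G)
    (hf : ∀ S : Finset (Fin n), S.Nonempty → KJ K' S = (KJ (Ki F n) S).map f)
    (hinj : ∀ R : Finset (Fin n), R.Nonempty → ∀ x ∈ KJ (Ki F n) R, f x = 1 → x = 1)
    (htop' : ⨆ i, K' i = ⊤)
    (hsmall : n * (1 / Real.sqrt (Nat.card F)) ≤ 1 / 2) :
    Spec K' (2 * (1 / Real.sqrt (Nat.card F))) :=
  Pair.spec' hn Nat.card_pos f hf hinj (fun R hR => KGen.genAt hR) htop'
    (fun R hR => KStr.strAt hn hR) hsmall

end Vale.Agent.P067
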