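import Vale.Agent.P067.Defs
import Vale.Agent.P067.Interface

open Finset

set_option linter.unusedSectionVars false
set_option linter.unusedVariables false

namespace Vale.Agent.P067

namespace Transfer

variable {n : ℕ} {G : Type} [Group G] [Fintype G]

/-- the face of type `J` through `g` -/
def face (vtx : Fin n → G → ℕ) (J : Finset (Fin n)) (g : G) : Finset ℕ :=
  J.image fun i => vtx i g

variable {K : Fin n → Subgroup G} {vtx : Fin n → G → ℕ}

/-- the vertices `vtx i g` are the cosets `g K_i` -/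
def IsVtx (K : Fin n → Subgroup G) (vtx : Fin n → G → ℕ) : Prop :=
  ∀ i j g h, vtx i g = vtx j h ↔ i = j ∧ g⁻¹ * h ∈ K i

theorem mem_stab {J : Finset (Fin n)} {g : G} : g ∈ stab K J ↔ ∀ i ∈ J, g ∈ K i := by
  simp [stab, Subgroup.mem_iInf]

theorem card_face (hv : IsVtx K vtx) (J : Finset (Fin n)) (g : G) :
    (face vtx J g).card = J.card := by
  unfold face
  apply card_image_of_injective
  intro i j hij
  exact ((hv i j g g).1 hij).1

theorem face_subset_face_iff (hv : IsVtx K vtx) {I J : Finset (Fin n)} {g h : G} :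
    face vtx I g ⊆ face vtx J h ↔ I ⊆ J ∧ g⁻¹ * h ∈ stab K I := by
  constructor
  · intro H
    have key : ∀ i ∈ I, i ∈ J ∧ g⁻¹ * h ∈ K i := by
      intro i hi
      have h1 : vtx i g ∈ face vtx J h := H (mem_image_of_mem _ hi)
      obtain ⟨j, hj, hj'⟩ := mem_image.1 h1
      have h2 := (hv i j g h).1 hj'.symm
      obtain ⟨rfl, h3⟩ := h2
      exact ⟨hj, h3⟩
    exact ⟨fun i hi => (key i hi).1, mem_stab.2 fun i hi => (key i hi).2⟩
  · rintro ⟨h1, h2⟩ x hx
    obtain ⟨i, hi, rfl⟩ := mem_image.1 hx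
    refine mem_image.2 ⟨i, h1 hi, ?_⟩
    exact ((hv i i g h).2 ⟨rfl, mem_stab.1 h2 i hi⟩).symm

theorem face_eq_face_iff (hv : IsVtx K vtx) {I J : Finset (Fin n)} {g h : G} :
    face vtx I g = face vtx J h ↔ I = J ∧ g⁻¹ * h ∈ stab K I := by
  constructor
  · intro H
    have h1 := (face_subset_face_iff hv).1 H.subset
    have h2 := (face_subset_face_iff hv).1 H.symm.subset
    exact ⟨h1.1.antisymm h2.1, h1.2⟩
  · rintro ⟨rfl, h2⟩
    refine ((face_subset_face_iff hv).2 ⟨subset_rfl, h2⟩).antisymm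
      ((face_subset_face_iff hv).2 ⟨subset_rfl, ?_⟩)
    have := (stab K I).inv_mem h2
    simpa using this

theorem exists_of_subset_face {σ : Finset ℕ} {J : Finset (Fin n)} {g : G}
    (h : σ ⊆ face vtx J g) : ∃ I ⊆ J, σ = face vtx I g := by
  obtain ⟨I, hI, h⟩ := subset_image_iff.1 h
  exact ⟨I, hI, h.symm⟩

/-- the `d`-skeleton of the coset complex -/
def cplx (hv : IsVtx K vtx) (d : ℕ) (hn : d + 1 ≤ n) : PureComplex d where
  facets := (powersetCard (d + 1) (univ : Finset (Fin n)) ×ˢ (univ : Finset G)).image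
    fun p => face vtx p.1 p.2
  card_of_mem := by
    intro τ hτ
    obtain ⟨p, hp, rfl⟩ := mem_image.1 hτ
    rw [card_face hv]
    exact (mem_powersetCard.1 (mem_product.1 hp).1).2
  facets_nonempty := by
    refine Nonempty.image (Nonempty.product ?_ univ_nonempty) _
    rw [powersetCard_nonempty]
    simpa using hn

variable {d : ℕ}

theorem mem_facets (hv : IsVtx K vtx) (hn : d + 1 ≤ n) {τ : Finset ℕ} :
    τ ∈ (cplx hv d hn).facets ↔ ∃ J g, J.card = d + 1 ∧ τ = face vtx J g := by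
  unfold cplx
  simp only [mem_image, mem_product, mem_powersetCard, subset_univ, true_and, mem_univ, and_true,
    Prod.exists]
  constructor
  · rintro ⟨J, g, h1, h2⟩; exact ⟨J, g, h1, h2.symm⟩
  · rintro ⟨J, g, h1, h2⟩; exact ⟨J, g, h1, h2.symm⟩

theorem exists_superset {I : Finset (Fin n)} {m : ℕ} (h : I.card ≤ m) (hm : m ≤ n) :
    ∃ J, I ⊆ J ∧ J.card = m := by
  obtain ⟨J, h1, -, h3⟩ := exists_subsuperset_card_eq (subset_univ I) h (by simpa using hm)
  exact ⟨J, h1, h3⟩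

theorem mem_faces (hv : IsVtx K vtx) (hn : d + 1 ≤ n) {i : ℕ} (hi : i ≤ d) {σ : Finset ℕ} :
    σ ∈ (cplx hv d hn).faces i ↔ ∃ J g, J.card = i + 1 ∧ σ = face vtx J g := by
  unfold PureComplex.faces
  simp only [mem_biUnion, mem_powersetCard]
  constructor
  · rintro ⟨τ, hτ, h1, h2⟩
    obtain ⟨J, g, -, rfl⟩ := (mem_facets hv hn).1 hτ
    obtain ⟨I, -, rfl⟩ := exists_of_subset_face h1
    exact ⟨I, g, by rw [← card_face hv I g, h2], rfl⟩
  · rintro ⟨J, g, h1, rfl⟩
    obtain ⟨J', hJ, hJ'⟩ := exists_superset (I := J) (m := d + 1) (by omega) hn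
    refine ⟨face vtx J' g, (mem_facets hv hn).2 ⟨J', g, hJ', rfl⟩, ?_, by rw [card_face hv, h1]⟩
    exact (face_subset_face_iff hv).2 ⟨hJ, by simp [one_mem]⟩

theorem cofaces_pos (hv : IsVtx K vtx) (hn : d + 1 ≤ n) {i : ℕ} (hi : i ≤ d) {σ : Finset ℕ}
    (hσ : σ ∈ (cplx hv d hn).faces i) : 1 ≤ (cplx hv d hn).cofaces σ := by
  unfold PureComplex.cofaces
  rw [Nat.one_le_iff_ne_zero, card_ne_zero]
  unfold PureComplex.faces at hσ
  simp only [mem_biUnion, mem_powersetCard] at hσ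
  obtain ⟨τ, h1, h2, -⟩ := hσ
  exact ⟨τ, mem_filter.2 ⟨h1, h2⟩⟩

theorem cofaces_le (hv : IsVtx K vtx) (hn : d + 1 ≤ n) {C : ℕ} (hC : ∀ i, Nat.card (K i) ≤ C)
    (i : Fin n) (g : G) {σ : Finset ℕ} (hσ : vtx i g ∈ σ) :
    (cplx hv d hn).cofaces σ ≤ 2 ^ n * C := by
  classical
  unfold PureComplex.cofaces
  have hsub : ((cplx hv d hn).facets.filter fun τ => σ ⊆ τ) ⊆
      ((univ : Finset (Finset (Fin n))) ×ˢ (univ : Finset (K i))).image
        fun p => face vtx p.1 (g * p.2) := by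
    intro τ hτ
    obtain ⟨h1, h2⟩ := mem_filter.1 hτ
    obtain ⟨J, h, -, rfl⟩ := (mem_facets hv hn).1 h1
    have h3 := h2 hσ
    obtain ⟨j, hj, hj'⟩ := mem_image.1 h3
    obtain ⟨rfl, h4⟩ := (hv i j g h).1 hj'.symm
    refine mem_image.2 ⟨(J, ⟨g⁻¹ * h, h4⟩), by simp, ?_⟩
    simp
  refine (card_le_card hsub).trans (card_image_le.trans ?_)
  rw [card_product, card_univ, card_univ, Fintype.card_finset, Fintype.card_fin,
    ← Nat.card_eq_fintype_card]
  exact Nat.mul_le_mul_left _ (hC i)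

theorem degree_le (hv : IsVtx K vtx) (hn : d + 1 ≤ n) {C : ℕ} (hC : ∀ i, Nat.card (K i) ≤ C) :
    (cplx hv d hn).degree ≤ 2 ^ n * C := by
  unfold PureComplex.degree
  rw [Finset.sup_le_iff]
  intro v hv'
  unfold PureComplex.vertices at hv'
  simp only [mem_biUnion] at hv'
  obtain ⟨τ, h1, h2⟩ := hv'
  obtain ⟨J, g, -, rfl⟩ := (mem_facets hv hn).1 h1
  obtain ⟨i, hi, rfl⟩ := mem_image.1 h2
  exact cofaces_le hv hn hC i g (mem_singleton_self _)

theorem card_le_vertices (hv : IsVtx K vtx) (hn : d + 1 ≤ n) {C : ℕ}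
    (hC : ∀ i, Nat.card (K i) ≤ C) :
    Fintype.card G ≤ C * (cplx hv d hn).vertices.card := by
  classical
  have hn0 : 0 < n := by omega
  let i : Fin n := ⟨0, hn0⟩
  have h1 : (univ : Finset G).card ≤ C * ((univ : Finset G).image fun g => vtx i g).card := by
    refine card_le_mul_card_image _ _ ?_
    intro a ha
    obtain ⟨g, -, rfl⟩ := mem_image.1 ha
    have hsub : ((univ : Finset G).filter fun x => vtx i x = vtx i g) ⊆
        (univ : Finset (K i)).image fun k : K i => g * (k : G) := by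
      intro x hx
      have h2 := (mem_filter.1 hx).2
      have h3 := ((hv i i g x).1 h2.symm).2
      refine mem_image.2 ⟨⟨g⁻¹ * x, h3⟩, mem_univ _, ?_⟩
      simp
    refine (card_le_card hsub).trans (card_image_le.trans ?_)
    rw [card_univ, ← Nat.card_eq_fintype_card]
    exact hC i
  rw [card_univ] at h1
  refine h1.trans (Nat.mul_le_mul_left _ (card_le_card ?_))
  intro x hx
  obtain ⟨g, -, rfl⟩ := mem_image.1 hx
  unfold PureComplex.vertices
  simp only [mem_biUnion]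
  obtain ⟨J, hJ, hJ'⟩ := exists_superset (I := {i}) (m := d + 1) (by simp) hn
  exact ⟨face vtx J g, (mem_facets hv hn).2 ⟨J, g, hJ', rfl⟩,
    mem_image.2 ⟨i, hJ (mem_singleton_self _), rfl⟩⟩

/-- the family on the group attached to a cochain of the complex -/
noncomputable def fam (hv : IsVtx K vtx) (hn : d + 1 ≤ n) (i : ℕ)
    (φ : (cplx hv d hn).Cochain i) : Finset (Fin n) → G → ZMod 2 :=
  fun J g => if h : face vtx J g ∈ (cplx hv d hn).faces i then φ ⟨face vtx J g, h⟩ else 0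

theorem fam_eq (hv : IsVtx K vtx) (hn : d + 1 ≤ n) {i : ℕ} (φ : (cplx hv d hn).Cochain i)
    {J : Finset (Fin n)} {g : G} (h : face vtx J g ∈ (cplx hv d hn).faces i) :
    fam hv hn i φ J g = φ ⟨face vtx J g, h⟩ := by
  unfold fam; rw [dif_pos h]

theorem fam_isCochain (hv : IsVtx K vtx) (hn : d + 1 ≤ n) (i : ℕ)
    (φ : (cplx hv d hn).Cochain i) : IsCochain K (i + 1) (fam hv hn i φ) := by
  intro J _ g k hk
  have h : face vtx J (g * k) = face vtx J g := by
    rw [face_eq_face_iff hv]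
    refine ⟨rfl, ?_⟩
    have := (stab K J).inv_mem hk
    simpa using this
  unfold fam
  simp only [h]

theorem card_eq_of_mem_faces (hv : IsVtx K vtx) (hn : d + 1 ≤ n) {i : ℕ} {σ : Finset ℕ}
    (h : σ ∈ (cplx hv d hn).faces i) : σ.card = i + 1 := by
  unfold PureComplex.faces at h
  simp only [mem_biUnion, mem_powersetCard] at h
  obtain ⟨τ, h1, h2, h3⟩ := h
  exact h3

theorem fam_coboundary (hv : IsVtx K vtx) (hn : d + 1 ≤ n) {i : ℕ} (hi : i + 1 ≤ d)
    (φ : (cplx hv d hn).Cochain i) {J : Finset (Fin n)} (hJ : J.card = i + 2) (g : G) :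
    fam hv hn (i + 1) ((cplx hv d hn).coboundary i φ) J g = cob (fam hv hn i φ) J g := by
  classical
  have hmem : face vtx J g ∈ (cplx hv d hn).faces (i + 1) :=
    (mem_faces hv hn hi).2 ⟨J, g, hJ, rfl⟩
  rw [fam_eq hv hn _ hmem]
  unfold PureComplex.coboundary cob
  symm
  have hmem' : ∀ j ∈ J, face vtx (J.erase j) g ∈ (cplx hv d hn).faces i := fun j hj =>
    (mem_faces hv hn (by omega)).2 ⟨J.erase j, g, by rw [card_erase_of_mem hj, hJ]; rfl, rfl⟩
  refine sum_bij (fun j hj => ⟨face vtx (J.erase j) g, hmem' j hj⟩) ?_ ?_ ?_ ?_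
  · intro j hj
    simp only [mem_filter, mem_univ, true_and]
    exact (face_subset_face_iff hv).2 ⟨erase_subset _ _, by simp [one_mem]⟩
  · intro j hj j' hj' h
    have h1 : face vtx (J.erase j) g = face vtx (J.erase j') g := congrArg Subtype.val h
    have h2 := ((face_eq_face_iff hv).1 h1).1
    by_contra hne
    have h3 : j ∈ J.erase j' := mem_erase.2 ⟨hne, hj⟩
    rw [← h2] at h3
    exact (notMem_erase j J) h3
  · rintro ⟨σ, hσ⟩ h
    simp only [mem_filter, mem_univ, true_and] at h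
    obtain ⟨I, hI, rfl⟩ := exists_of_subset_face h
    have hIc : I.card = i + 1 := by
      rw [← card_face hv I g, card_eq_of_mem_faces hv hn hσ]
    have h1 : (J \ I).card = 1 := by
      rw [card_sdiff_of_subset hI]; omega
    obtain ⟨j, hj⟩ := card_eq_one.1 h1
    have hjJ : j ∈ J := (mem_sdiff.1 (hj ▸ mem_singleton_self j : j ∈ J \ I)).1
    have hIe : J.erase j = I := by
      rw [erase_eq, ← hj, Finset.sdiff_sdiff_eq_self hI]
    refine ⟨j, hjJ, ?_⟩
    simp only [hIe]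
  · intro j hj
    rw [fam_eq hv hn _ (hmem' j hj)]

/-- a family on the group gives a cochain -/
theorem exists_cochain (hv : IsVtx K vtx) (hn : d + 1 ≤ n) {i : ℕ} (hi : i ≤ d)
    {b : Finset (Fin n) → G → ZMod 2} (hb : IsCochain K (i + 1) b) :
    ∃ β : (cplx hv d hn).Cochain i, ∀ J, J.card = i + 1 → ∀ g, fam hv hn i β J g = b J g := by
  classical
  have hex : ∀ σ : (cplx hv d hn).faces i, ∃ J g, J.card = i + 1 ∧ σ.1 = face vtx J g :=
    fun σ => (mem_faces hv hn hi).1 σ.2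
  choose J g hJ hg using hex
  refine ⟨fun σ => b (J σ) (g σ), fun I hI x => ?_⟩
  have hmem : face vtx I x ∈ (cplx hv d hn).faces i := (mem_faces hv hn hi).2 ⟨I, x, hI, rfl⟩
  rw [fam_eq hv hn _ hmem]
  have h1 := hg ⟨face vtx I x, hmem⟩
  have h2 := (face_eq_face_iff hv).1 h1
  have h3 := hb I hI x _ h2.2
  rw [mul_inv_cancel_left] at h3
  rw [← h3, ← h2.1]

/-- support sizes: the complex against the group -/
theorem supp_le_cnt (hv : IsVtx K vtx) (hn : d + 1 ≤ n) {i : ℕ} (hi : i ≤ d)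
    (φ : (cplx hv d hn).Cochain i) :
    (univ.filter fun σ => φ σ ≠ 0).card ≤ cnt (i + 1) (fam hv hn i φ) := by
  classical
  unfold cnt
  simp only [Nat.card_eq_fintype_card, Fintype.card_subtype]
  rw [← card_sigma]
  have hsub : (univ.filter fun σ => φ σ ≠ 0).image Subtype.val ⊆
      ((powersetCard (i + 1) (univ : Finset (Fin n))).sigma
        fun J => univ.filter fun g : G => fam hv hn i φ J g ≠ 0).image
        fun p => face vtx p.1 p.2 := by
    intro σ hσ
    obtain ⟨⟨τ, hτ⟩, h1, rfl⟩ := mem_image.1 hσ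
    obtain ⟨J, g, hJ, rfl⟩ := (mem_faces hv hn hi).1 hτ
    refine mem_image.2 ⟨⟨J, g⟩, ?_, rfl⟩
    simp only [mem_sigma, mem_powersetCard, subset_univ, true_and, mem_filter, mem_univ]
    refine ⟨hJ, ?_⟩
    rw [fam_eq hv hn _ hτ]
    exact (mem_filter.1 h1).2
  calc (univ.filter fun σ => φ σ ≠ 0).card
      = ((univ.filter fun σ => φ σ ≠ 0).image Subtype.val).card :=
        (card_image_of_injective _ Subtype.val_injective).symm
    _ ≤ _ := card_le_card hsub
    _ ≤ _ := card_image_le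

theorem cnt_le_supp (hv : IsVtx K vtx) (hn : d + 1 ≤ n) {C : ℕ} (hC : ∀ i, Nat.card (K i) ≤ C)
    {i : ℕ} (hi : i ≤ d) (φ : (cplx hv d hn).Cochain i) :
    cnt (i + 1) (fam hv hn i φ) ≤ C * (univ.filter fun σ => φ σ ≠ 0).card := by
  classical
  unfold cnt
  simp only [Nat.card_eq_fintype_card, Fintype.card_subtype]
  rw [← card_sigma]
  refine (card_le_mul_card_image (f := fun p : (_ : Finset (Fin n)) × G => face vtx p.1 p.2)
    _ C ?_).trans (Nat.mul_le_mul_left _ ?_)
  · intro a ha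
    obtain ⟨⟨J, g⟩, h1, rfl⟩ := mem_image.1 ha
    simp only [mem_sigma, mem_powersetCard, subset_univ, true_and, mem_filter, mem_univ] at h1
    have hne : J.Nonempty := by
      rw [← card_pos, h1.1]; omega
    obtain ⟨j, hj⟩ := hne
    have hsub : ((((powersetCard (i + 1) (univ : Finset (Fin n))).sigma
        fun J => univ.filter fun g : G => fam hv hn i φ J g ≠ 0).filter
        fun x => face vtx x.1 x.2 = face vtx J g)) ⊆
        (univ : Finset (K j)).image fun k : K j => (⟨J, g * (k : G)⟩ : (_ : Finset (Fin n)) × G) := by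
      rintro ⟨I, x⟩ hx
      have h2 := (mem_filter.1 hx).2
      have h3 := (face_eq_face_iff hv).1 h2.symm
      obtain ⟨rfl, h4⟩ := h3
      refine mem_image.2 ⟨⟨g⁻¹ * x, mem_stab.1 h4 j hj⟩, mem_univ _, ?_⟩
      simp
    refine (card_le_card hsub).trans (card_image_le.trans ?_)
    rw [card_univ, ← Nat.card_eq_fintype_card]
    exact hC j
  · rw [← card_image_of_injective (univ.filter fun σ => φ σ ≠ 0) Subtype.val_injective]
    refine card_le_card ?_
    intro σ hσ
    obtain ⟨⟨J, g⟩, h1, rfl⟩ := mem_image.1 hσ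
    simp only [mem_sigma, mem_powersetCard, subset_univ, true_and, mem_filter, mem_univ] at h1
    have hmem : face vtx J g ∈ (cplx hv d hn).faces i := (mem_faces hv hn hi).2 ⟨J, g, h1.1, rfl⟩
    refine mem_image.2 ⟨⟨_, hmem⟩, mem_filter.2 ⟨mem_univ _, ?_⟩, rfl⟩
    have h2 := h1.2
    rwa [fam_eq hv hn _ hmem] at h2


theorem weight_nonneg (X : PureComplex d) (i : ℕ) (σ : Finset ℕ) : 0 ≤ X.weight i σ := by
  unfold PureComplex.weight; positivity

theorem norm_nonneg (X : PureComplex d) (i : ℕ) (f : X.Cochain i) : 0 ≤ X.norm i f := by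
  unfold PureComplex.norm
  exact sum_nonneg fun σ _ => weight_nonneg X i σ

/-- the normalising constant -/
noncomputable def nrm (X : PureComplex d) (i : ℕ) : ℝ := (d + 1).choose (i + 1) * X.facets.card

theorem nrm_pos (X : PureComplex d) {i : ℕ} (hi : i ≤ d) : 0 < nrm X i := by
  unfold nrm
  have h1 : 0 < (d + 1).choose (i + 1) := Nat.choose_pos (by omega)
  have h2 : 0 < X.facets.card := card_pos.2 X.facets_nonempty
  positivity

theorem norm_le (hv : IsVtx K vtx) (hn : d + 1 ≤ n) {C : ℕ} (hC : ∀ i, Nat.card (K i) ≤ C)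
    {i : ℕ} (hi : i ≤ d) (φ : (cplx hv d hn).Cochain i) :
    (cplx hv d hn).norm i φ * nrm (cplx hv d hn) i ≤
      (2 ^ n * C) * (univ.filter fun σ => φ σ ≠ 0).card := by
  unfold PureComplex.norm
  rw [sum_mul]
  have h1 : ∀ σ ∈ (univ.filter fun σ : (cplx hv d hn).faces i => φ σ ≠ 0),
      (cplx hv d hn).weight i σ * nrm (cplx hv d hn) i ≤ (2 ^ n * C : ℝ) := by
    rintro ⟨σ, hσ⟩ -
    unfold PureComplex.weight
    have h2 : (0 : ℝ) < (d + 1).choose (i + 1) * (cplx hv d hn).facets.card :=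
      nrm_pos (cplx hv d hn) hi
    unfold nrm
    rw [div_mul_cancel₀ _ h2.ne']
    obtain ⟨J, g, hJ, rfl⟩ := (mem_faces hv hn hi).1 hσ
    have hne : J.Nonempty := by rw [← card_pos, hJ]; omega
    obtain ⟨j, hj⟩ := hne
    have h3 := cofaces_le hv hn hC j g (σ := face vtx J g) (mem_image.2 ⟨j, hj, rfl⟩)
    exact_mod_cast h3
  refine (sum_le_card_nsmul _ _ _ h1).trans ?_
  rw [nsmul_eq_mul, mul_comm]

theorem le_norm (hv : IsVtx K vtx) (hn : d + 1 ≤ n) {i : ℕ} (hi : i ≤ d)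
    (φ : (cplx hv d hn).Cochain i) :
    ((univ.filter fun σ => φ σ ≠ 0).card : ℝ) ≤
      (cplx hv d hn).norm i φ * nrm (cplx hv d hn) i := by
  unfold PureComplex.norm
  rw [sum_mul]
  have h1 : ∀ σ ∈ (univ.filter fun σ : (cplx hv d hn).faces i => φ σ ≠ 0),
      (1 : ℝ) ≤ (cplx hv d hn).weight i σ * nrm (cplx hv d hn) i := by
    rintro ⟨σ, hσ⟩ -
    unfold PureComplex.weight
    have h2 : (0 : ℝ) < (d + 1).choose (i + 1) * (cplx hv d hn).facets.card :=
      nrm_pos (cplx hv d hn) hi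
    unfold nrm
    rw [div_mul_cancel₀ _ h2.ne']
    exact_mod_cast cofaces_pos hv hn hi hσ
  have h2 := card_nsmul_le_sum _ _ _ h1
  simpa using h2

theorem dist_le (X : PureComplex d) (i : ℕ) (f a : X.Cochain i) {A : Set (X.Cochain i)}
    (ha : a ∈ A) : X.dist i f A ≤ X.norm i (f - a) := by
  unfold PureComplex.dist
  refine csInf_le ⟨0, ?_⟩ ⟨a, ha, rfl⟩
  rintro x ⟨b, -, rfl⟩
  exact norm_nonneg X i _

theorem cnt_congr {m : ℕ} {f f' : Finset (Fin n) → G → ZMod 2}
    (h : ∀ J, J.card = m → ∀ g, f J g = f' J g) : cnt m f = cnt m f' := by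
  unfold cnt
  refine sum_congr rfl fun J hJ => ?_
  have h1 : f J = f' J := funext fun g => h J (mem_powersetCard.1 hJ).2 g
  rw [h1]

theorem cob_congr {m : ℕ} {f f' : Finset (Fin n) → G → ZMod 2}
    (h : ∀ J, J.card = m → ∀ g, f J g = f' J g) {J : Finset (Fin n)} (hJ : J.card = m + 1)
    (g : G) : cob f J g = cob f' J g := by
  unfold cob
  refine sum_congr rfl fun i hi => h _ ?_ g
  rw [card_erase_of_mem hi, hJ]; rfl

/-- the hypothesis on the group, at all levels `1, …, d` -/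
def Good (K : Fin n → Subgroup G) (d : ℕ) (ε : ℝ) : Prop :=
  ∀ m, 1 ≤ m → m ≤ d → ∀ f, IsCochain K m f → ∃ b, IsCochain K (m - 1) b ∧
    ε * cnt m (fun J g => f J g - cob b J g) ≤ cnt (m + 1) (cob f)

/-- the final computation -/
theorem arith {n d : ℕ} {ε C A Bn D W0 W1 s0 s1 c0 c1 : ℝ} (hε : 0 < ε) (hC0 : 0 < C)
    (hW0 : 0 < W0) (h7 : D ≤ A) (hA0 : 0 ≤ A) (hBn0 : 0 ≤ Bn)
    (hW : W1 ≤ 2 ^ (d + 1) * W0) (h3 : s0 ≤ c0) (hb : ε * c0 ≤ c1)
    (h4 : c1 ≤ C * s1) (h5 : A * W0 ≤ (2 ^ n * C) * s0) (h6 : s1 ≤ Bn * W1) :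
    ε / (2 ^ (d + 1) * (2 ^ n * C) * C) * D ≤ Bn := by
  have e1 : ε * s0 ≤ C * (Bn * W1) := by
    calc ε * s0 ≤ ε * c0 := by gcongr
      _ ≤ _ := hb
      _ ≤ _ := h4
      _ ≤ _ := by gcongr
  have e2 : ε * (A * W0) ≤ (2 ^ n * C) * (C * (Bn * (2 ^ (d + 1) * W0))) := by
    calc ε * (A * W0) ≤ ε * ((2 ^ n * C) * s0) := by gcongr
      _ = (2 ^ n * C) * (ε * s0) := by ring
      _ ≤ (2 ^ n * C) * (C * (Bn * W1)) := by gcongr
      _ ≤ _ := by gcongr
  have e3 : ε * A ≤ 2 ^ (d + 1) * (2 ^ n * C) * C * Bn := by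
    have : ε * A * W0 ≤ 2 ^ (d + 1) * (2 ^ n * C) * C * Bn * W0 := by nlinarith
    exact le_of_mul_le_mul_right this hW0
  calc ε / (2 ^ (d + 1) * (2 ^ n * C) * C) * D
      ≤ ε / (2 ^ (d + 1) * (2 ^ n * C) * C) * A := by gcongr
    _ = (ε * A) / (2 ^ (d + 1) * (2 ^ n * C) * C) := by ring
    _ ≤ Bn := by
      rw [div_le_iff₀ (by positivity)]
      linarith

theorem expander (hv : IsVtx K vtx) (hn : d + 1 ≤ n) {C : ℕ} (hC0 : 0 < C)
    (hC : ∀ i, Nat.card (K i) ≤ C) {ε : ℝ} (hε : 0 < ε) (H : Good K d ε) :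
    (cplx hv d hn).IsCoboundaryExpander (ε / (2 ^ (d + 1) * (2 ^ n * C) * C)) := by
  classical
  intro i hi φ
  obtain ⟨b, hb, hb2⟩ := H (i + 1) (by omega) (by omega) _ (fam_isCochain hv hn i φ)
  rw [Nat.add_sub_cancel] at hb
  -- the approximating coboundary
  obtain ⟨a, ha, ha2⟩ : ∃ a ∈ (cplx hv d hn).B i,
      ∀ J, J.card = i + 1 → ∀ g, fam hv hn i (φ - a) J g = fam hv hn i φ J g - cob b J g := by
    rcases Nat.eq_zero_or_pos i with rfl | hi0
    · refine ⟨fun _ => b ∅ 1, ⟨b ∅ 1, fun _ => rfl⟩, fun J hJ g => ?_⟩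
      have hmem : face vtx J g ∈ (cplx hv d hn).faces 0 := (mem_faces hv hn (by omega)).2 ⟨J, g, hJ, rfl⟩
      rw [fam_eq hv hn _ hmem, fam_eq hv hn _ hmem, Pi.sub_apply]
      congr 1
      obtain ⟨j, rfl⟩ := card_eq_one.1 hJ
      unfold cob
      rw [sum_singleton]
      have h1 : ({j} : Finset (Fin n)).erase j = ∅ := by simp
      rw [h1]
      have h2 := hb ∅ (by simp) 1 g (by rw [mem_stab]; simp)
      rw [one_mul] at h2
      exact h2.symm
    · obtain ⟨i, rfl⟩ : ∃ k, i = k + 1 := ⟨i - 1, by omega⟩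
      obtain ⟨β, hβ⟩ := exists_cochain hv hn (i := i) (by omega) hb
      refine ⟨(cplx hv d hn).coboundary i β, ⟨β, rfl⟩, fun J hJ g => ?_⟩
      have hmem : face vtx J g ∈ (cplx hv d hn).faces (i + 1) :=
        (mem_faces hv hn (by omega)).2 ⟨J, g, hJ, rfl⟩
      rw [fam_eq hv hn _ hmem, fam_eq hv hn _ hmem, Pi.sub_apply]
      congr 1
      have h1 := fam_coboundary hv hn (i := i) (by omega) β (J := J) hJ g
      rw [fam_eq hv hn _ hmem] at h1
      rw [h1]
      exact cob_congr (m := i + 1) hβ hJ g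
  have h1 : cnt (i + 1) (fam hv hn i (φ - a)) =
      cnt (i + 1) (fun J g => fam hv hn i φ J g - cob b J g) := cnt_congr ha2
  rw [← h1] at hb2
  have h2 : cnt (i + 1 + 1) (cob (fam hv hn i φ)) =
      cnt (i + 1 + 1) (fam hv hn (i + 1) ((cplx hv d hn).coboundary i φ)) :=
    cnt_congr fun J hJ g => (fam_coboundary hv hn (by omega) φ hJ g).symm
  rw [h2] at hb2
  have h3 := supp_le_cnt hv hn (i := i) (by omega) (φ - a)
  have h4 := cnt_le_supp hv hn hC (i := i + 1) (by omega) ((cplx hv d hn).coboundary i φ)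
  have h5 := norm_le hv hn hC (i := i) (by omega) (φ - a)
  have h6 := le_norm hv hn (i := i + 1) (by omega) ((cplx hv d hn).coboundary i φ)
  have h7 := dist_le (cplx hv d hn) i φ a ha
  have hW0 := nrm_pos (cplx hv d hn) (i := i) (by omega)
  have hW1 := nrm_pos (cplx hv d hn) (i := i + 1) (by omega)
  have hW : nrm (cplx hv d hn) (i + 1) ≤ 2 ^ (d + 1) * nrm (cplx hv d hn) i := by
    unfold nrm
    have h8 : ((d + 1).choose (i + 1 + 1) : ℝ) ≤ 2 ^ (d + 1) := by
      exact_mod_cast Nat.choose_le_two_pow _ _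
    have h9 : (1 : ℝ) ≤ (d + 1).choose (i + 1) := by
      exact_mod_cast Nat.choose_pos (show i + 1 ≤ d + 1 by omega)
    have h10 : (0 : ℝ) ≤ (cplx hv d hn).facets.card := Nat.cast_nonneg _
    calc ((d + 1).choose (i + 1 + 1) : ℝ) * (cplx hv d hn).facets.card
        ≤ 2 ^ (d + 1) * (cplx hv d hn).facets.card := by gcongr
      _ = 2 ^ (d + 1) * (1 * (cplx hv d hn).facets.card) := by ring
      _ ≤ _ := by gcongr
  have hC0' : (0 : ℝ) < C := by exact_mod_cast hC0
  have h3' : ((univ.filter fun σ => (φ - a) σ ≠ 0).card : ℝ) ≤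
      cnt (i + 1) (fam hv hn i (φ - a)) := by exact_mod_cast h3
  have h4' : (cnt (i + 1 + 1) (fam hv hn (i + 1) ((cplx hv d hn).coboundary i φ)) : ℝ) ≤
      C * (univ.filter fun σ => (cplx hv d hn).coboundary i φ σ ≠ 0).card := by
    exact_mod_cast h4
  exact arith hε hC0' hW0 h7 (norm_nonneg _ _ _) (norm_nonneg _ _ _) hW h3' hb2 h4' h5 h6

theorem connected (hv : IsVtx K vtx) (hn : d + 1 ≤ n) (hd : 1 ≤ d) {ε : ℝ} (hε : 0 < ε)
    (H : Good K d ε) : (cplx hv d hn).Connected := by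
  classical
  intro u hu v hv'
  set R := Relation.ReflTransGen fun a b => ∃ τ ∈ (cplx hv d hn).facets, a ∈ τ ∧ b ∈ τ with hR
  -- the indicator of the component of `u`
  let f : Finset (Fin n) → G → ZMod 2 := fun J g => if ∃ j ∈ J, R u (vtx j g) then 1 else 0
  have hf : IsCochain K 1 f := by
    intro J hJ g k hk
    have h1 : (∃ j ∈ J, R u (vtx j (g * k))) ↔ ∃ j ∈ J, R u (vtx j g) := by
      refine exists_congr fun j => and_congr_right fun hj => ?_
      have h2 : vtx j (g * k) = vtx j g := by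
        rw [hv]
        refine ⟨rfl, ?_⟩
        have := (K j).inv_mem (mem_stab.1 hk j hj)
        simpa using this
      rw [h2]
    simp only [f, h1]
  obtain ⟨b, hb, hb2⟩ := H 1 le_rfl hd f hf
  have hadj : ∀ i j g, R u (vtx i g) → R u (vtx j g) := by
    intro i j g h
    refine h.tail ?_
    obtain ⟨J, hJ, hJ'⟩ := exists_superset (I := {i, j}) (m := d + 1)
      ((card_insert_le _ _).trans (by simp; omega)) hn
    refine ⟨face vtx J g, (mem_facets hv hn).2 ⟨J, g, hJ', rfl⟩, ?_, ?_⟩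
    · exact mem_image.2 ⟨i, hJ (by simp), rfl⟩
    · exact mem_image.2 ⟨j, hJ (by simp), rfl⟩
  have hcob : cnt (1 + 1) (cob f) = 0 := by
    unfold cnt
    refine sum_eq_zero fun J hJ => ?_
    obtain ⟨i, j, hij, rfl⟩ := card_eq_two.1 (mem_powersetCard.1 hJ).2
    rw [Nat.card_eq_zero]
    left
    constructor
    rintro ⟨g, hg⟩
    apply hg
    unfold cob
    rw [sum_pair hij]
    have e1 : ({i, j} : Finset (Fin n)).erase i = {j} := by
      ext x; simp only [mem_erase, mem_insert, mem_singleton]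
      constructor
      · rintro ⟨h1, h2 | h2⟩
        · exact absurd h2 h1
        · exact h2
      · rintro rfl; exact ⟨hij.symm, Or.inr rfl⟩
    have e2 : ({i, j} : Finset (Fin n)).erase j = {i} := by
      ext x; simp only [mem_erase, mem_insert, mem_singleton]
      constructor
      · rintro ⟨h1, h2 | h2⟩
        · exact h2
        · exact absurd h2 h1
      · rintro rfl; exact ⟨hij, Or.inl rfl⟩
    rw [e1, e2]
    have h3 : R u (vtx j g) ↔ R u (vtx i g) := ⟨hadj j i g, hadj i j g⟩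
    simp only [f, mem_singleton, exists_eq_left, h3]
    split_ifs
    · decide
    · decide
  rw [hcob] at hb2
  have h0 : cnt 1 (fun J g => f J g - cob b J g) = 0 := by
    have h1 : (cnt 1 (fun J g => f J g - cob b J g) : ℝ) ≤ 0 := by
      by_contra hcon
      push Not at hcon
      have := mul_pos hε hcon
      simp only [Nat.cast_zero] at hb2
      linarith
    exact_mod_cast le_antisymm h1 (Nat.cast_nonneg _)
  have hconst : ∀ j g, f {j} g = b ∅ 1 := by
    intro j g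
    unfold cnt at h0
    rw [sum_eq_zero_iff] at h0
    have h1 := h0 {j} (by simp)
    rw [Nat.card_eq_zero] at h1
    rcases h1 with h1 | h1
    · have h2 : f {j} g - cob b {j} g = 0 := by
        by_contra hne
        exact h1.false ⟨g, hne⟩
      rw [sub_eq_zero] at h2
      rw [h2]
      unfold cob
      rw [sum_singleton]
      have e1 : ({j} : Finset (Fin n)).erase j = ∅ := by simp
      rw [e1]
      have h3 := hb ∅ (by simp) 1 g (by rw [mem_stab]; simp)
      rw [one_mul] at h3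
      exact h3
    · exact absurd h1 (by rw [not_infinite_iff_finite]; infer_instance)
  -- vertices
  have hvert : ∀ w ∈ (cplx hv d hn).vertices, ∃ i g, w = vtx i g := by
    intro w hw
    unfold PureComplex.vertices at hw
    simp only [mem_biUnion] at hw
    obtain ⟨τ, h1, h2⟩ := hw
    obtain ⟨J, g, -, rfl⟩ := (mem_facets hv hn).1 h1
    obtain ⟨i, -, rfl⟩ := mem_image.1 h2
    exact ⟨i, g, rfl⟩
  obtain ⟨i, g, rfl⟩ := hvert u hu
  obtain ⟨j, h, rfl⟩ := hvert v hv'
  have h1 : f {i} g = 1 := by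
    simp only [f, mem_singleton, exists_eq_left]
    rw [if_pos Relation.ReflTransGen.refl]
  have h2 : f {j} h = 1 := by rw [hconst, ← hconst i g, h1]
  simp only [f, mem_singleton, exists_eq_left] at h2
  by_contra hcon
  rw [if_neg hcon] at h2
  exact absurd h2 (by decide)

/-- an injective numbering of the vertices -/
theorem exists_vtx (K : Fin n → Subgroup G) : ∃ vtx : Fin n → G → ℕ, IsVtx K vtx := by
  classical
  let e : (Σ i : Fin n, G ⧸ K i) ≃ Fin (Fintype.card (Σ i : Fin n, G ⧸ K i)) :=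
    Fintype.equivFin _
  refine ⟨fun i g => (e ⟨i, (g : G ⧸ K i)⟩ : ℕ), ?_⟩
  intro i j g h
  constructor
  · intro H
    have h1 : e ⟨i, (g : G ⧸ K i)⟩ = e ⟨j, (h : G ⧸ K j)⟩ := Fin.ext H
    have h2 := e.injective h1
    rw [Sigma.mk.injEq] at h2
    obtain ⟨rfl, h3⟩ := h2
    refine ⟨rfl, ?_⟩
    have h4 := eq_of_heq h3
    exact QuotientGroup.eq.1 h4
  · rintro ⟨rfl, h1⟩
    have h2 : (g : G ⧸ K i) = (h : G ⧸ K i) := QuotientGroup.eq.2 h1
    simp only [h2]

end Transfer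

/-- TRANSFER: coset complexes of finite groups with the expansion property give the complexes of
the problem. -/
theorem transfer {d n C : ℕ} (hd : 1 ≤ d) (hn : d + 1 ≤ n) {ε : ℝ} (hε : 0 < ε)
    (H : ∀ N : ℕ, ∃ (G : Type) (_ : Group G) (_ : Finite G) (K : Fin n → Subgroup G),
      N ≤ Nat.card G ∧ (∀ i, Nat.card (K i) ≤ C) ∧
      ∀ m, 1 ≤ m → m ≤ d → ∀ f, IsCochain K m f → ∃ b, IsCochain K (m - 1) b ∧
        ε * cnt m (fun J g => f J g - cob b J g) ≤ cnt (m + 1) (cob f)) :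
    ∃ D : ℕ, ∃ ε' : ℝ, 0 < ε' ∧ ∀ N : ℕ, ∃ X : PureComplex d,
      N ≤ X.vertices.card ∧ X.Connected ∧ X.degree ≤ D ∧ X.IsCoboundaryExpander ε' := by
  classical
  have hC0 : 0 < C := by
    obtain ⟨G, _, _, K, -, hC, -⟩ := H 0
    have h1 := hC ⟨0, by omega⟩
    have h2 : 0 < Nat.card (K ⟨0, by omega⟩) := Nat.card_pos
    omega
  refine ⟨2 ^ n * C, ε / (2 ^ (d + 1) * (2 ^ n * C) * C), ?_, fun N => ?_⟩
  · have : (0 : ℝ) < C := by exact_mod_cast hC0
    positivity
  · obtain ⟨G, _, _, K, hN, hC, hgood⟩ := H (C * N)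
    have := Fintype.ofFinite G
    obtain ⟨vtx, hv⟩ := Transfer.exists_vtx K
    refine ⟨Transfer.cplx hv d hn, ?_, Transfer.connected hv hn hd hε hgood,
      Transfer.degree_le hv hn hC, Transfer.expander hv hn hC0 hC hε hgood⟩
    have h1 := Transfer.card_le_vertices hv hn hC
    rw [Nat.card_eq_fintype_card] at hN
    exact Nat.le_of_mul_le_mul_left (hN.trans h1) hC0

end Vale.Agent.P067
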