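import Vale.Agent.P067.GamFacts
import Vale.Agent.P067.GenTop
import Vale.Agent.P067.KSpec
import Vale.Agent.P067.DCone
import Vale.Agent.P067.DExp
import Vale.Agent.P067.Transfer

/-!
# P067: assembly of the pieces
-/

namespace Vale.Agent.P067

open Finset

lemma Spec.mono {n : ℕ} {G : Type} [Group G] [Fintype G] {K : Fin n → Subgroup G} {a b : ℝ}
    (h : Spec K a) (h0 : 0 ≤ a) (hab : a ≤ b) : Spec K b := by
  intro R i j hi hj hij f hf
  refine (h R i j hi hj hij f hf).trans ?_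
  have h1 : a ^ 2 ≤ b ^ 2 := pow_le_pow_left₀ h0 hab 2
  have h2 : 0 ≤ sq f := Finset.sum_nonneg fun x _ => sq_nonneg _
  exact mul_le_mul_of_nonneg_right h1 h2

theorem assemble {d n Cc Cp : ℕ} (hd : 1 ≤ d) (hn3 : 3 ≤ n) (hn : d + 1 ≤ n)
    (hfin : ∀ (p : ℕ) [Fact p.Prime] (s : ℕ), Finite (UU (ZMod p) n ⧸ Gam (ZMod p) n s))
    (hgrow : ∀ (p : ℕ) [Fact p.Prime] (s : ℕ), s ≤ Nat.card (UU (ZMod p) n ⧸ Gam (ZMod p) n s))
    (hcone : ∀ (p : ℕ) [Fact p.Prime] (s : ℕ), Cp ≤ p → 2 ≤ s →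
      ∀ R : Finset (Fin n), R.Nonempty → R.card ≤ d + 1 →
        ∃ H, ConeFn (Kbar (ZMod p) n s) R d Cc H)
    (hcoh : ∀ (p : ℕ) [Fact p.Prime] (s : ℕ), Cp ≤ p → 3 ≤ p →
      2 ≤ s → CohZero (Kbar (ZMod p) n s) d) :
    ∃ D : ℕ, ∃ ε' : ℝ, 0 < ε' ∧ ∀ N : ℕ, ∃ X : PureComplex d,
      N ≤ X.vertices.card ∧ X.Connected ∧ X.degree ≤ D ∧ X.IsCoboundaryExpander ε' := by
  classical
  have hβ : (0 : ℝ) < 1 / (2 ^ n * (Cc + 1)) := by positivity
  have hβ1 : (1 : ℝ) / (2 ^ n * (Cc + 1)) ≤ 1 := by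
    rw [div_le_one (by positivity)]
    have h1 : (1 : ℝ) ≤ 2 ^ n := one_le_pow₀ (by norm_num)
    have h2 : (1 : ℝ) ≤ Cc + 1 := by
      have : (0 : ℝ) ≤ Cc := Nat.cast_nonneg _
      linarith
    nlinarith
  obtain ⟨lam, hlam, hexp⟩ := expand n d hβ hβ1
  -- the prime
  obtain ⟨m, hm⟩ := exists_nat_gt (max (2 * n : ℝ) (2 / lam))
  obtain ⟨p, hpm, hp⟩ := Nat.exists_infinite_primes (max (max 3 Cp) (m ^ 2 + 1))
  have : Fact p.Prime := ⟨hp⟩
  have hp3 : 3 ≤ p := ((le_max_left _ _).trans (le_max_left _ _)).trans hpm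
  have hpC : Cp ≤ p := ((le_max_right _ _).trans (le_max_left _ _)).trans hpm
  have hpm2 : m ^ 2 ≤ p := by
    have := (le_max_right (max 3 Cp) (m ^ 2 + 1)).trans hpm
    omega
  have hm0 : (0 : ℝ) < m := lt_of_lt_of_le (lt_of_le_of_lt (le_max_left _ _) hm |>.trans_le' (by positivity)) le_rfl
  have hsq : (m : ℝ) ≤ Real.sqrt p := by
    apply Real.le_sqrt_of_sq_le
    exact_mod_cast hpm2
  have hsp : (0 : ℝ) < Real.sqrt p := hm0.trans_le hsq
  have h2n : (2 * n : ℝ) ≤ Real.sqrt p := ((le_max_left _ _).trans hm.le).trans hsq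
  have h2l : 2 / lam ≤ Real.sqrt p := ((le_max_right _ _).trans hm.le).trans hsq
  have h0 : (0 : ℝ) ≤ 1 / Real.sqrt p := by positivity
  have h1 : (n : ℝ) * (1 / Real.sqrt p) ≤ 1 / 2 := by
    rw [mul_one_div, div_le_div_iff₀ hsp (by norm_num)]
    linarith
  have h2 : 2 * (1 / Real.sqrt p) ≤ lam := by
    rw [mul_one_div, div_le_iff₀ hsp]
    rw [div_le_iff₀ hlam] at h2l
    linarith
  obtain ⟨eps, heps, hE⟩ := hexp (p ^ (n * n))
  refine transfer (C := p ^ (n * n)) hd hn heps fun N => ?_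
  have := hfin p (max N 2)
  have hs2 : 2 ≤ max N 2 := le_max_right _ _
  have hKc : ∀ i, Nat.card (Kbar (ZMod p) n (max N 2) i) ≤ p ^ (n * n) := by
    intro i
    have := KGen.finite_Ki (F := ZMod p) i
    have h5 := KGen.card_Ki_le (F := ZMod p) i
    rw [Nat.card_zmod] at h5
    refine le_trans ?_ h5
    exact Nat.card_le_card_of_surjective
      (fun x : Ki (ZMod p) n i => (⟨QuotientGroup.mk' (Gam (ZMod p) n (max N 2)) x.1,
        Subgroup.mem_map_of_mem _ x.2⟩ : Kbar (ZMod p) n (max N 2) i))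
      (by rintro ⟨y, x, hx, rfl⟩; exact ⟨⟨x, hx⟩, rfl⟩)
  have hC := hcoh p (max N 2) hpC hp3 hs2
  refine ⟨UU (ZMod p) n ⧸ Gam (ZMod p) n (max N 2), inferInstance, hfin p _,
    Kbar (ZMod p) n (max N 2), (le_max_left _ _).trans (hgrow p _), hKc, ?_⟩
  refine hE (UU (ZMod p) n ⧸ Gam (ZMod p) n (max N 2)) (Kbar (ZMod p) n (max N 2)) hKc ?_ ?_ hC
  · intro _
    have hcardF : (Nat.card (ZMod p) : ℝ) = p := by rw [Nat.card_zmod]
    refine Spec.mono ?_ (by positivity) h2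
    have h6 := spec_UU (F := ZMod p) hn3 (QuotientGroup.mk' (Gam (ZMod p) n (max N 2)))
      (K' := Kbar (ZMod p) n (max N 2)) (fun S hS => ?_) (fun R hR x hx h => ?_) ?_ ?_
    · rwa [hcardF] at h6
    · apply le_antisymm
      · intro y hy
        obtain ⟨x, hx, rfl⟩ := Kbar_surj hs2 hS hy
        exact ⟨x, hx, rfl⟩
      · rintro y ⟨x, hx, rfl⟩
        exact Kbar_mem hx
    · exact KJ_inj hR hs2 hx ((QuotientGroup.eq_one_iff x).1 h)
    · exact top_of_cohZero hd hC ⟨0, by omega⟩ _ fun i => le_iSup (Kbar (ZMod p) n (max N 2)) i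
    · rw [hcardF]; exact h1
  · intro _
    exact locExp_of_cone (hcone p _ hpC hs2)

/-- the sequence form -/
theorem sequence_form {d : ℕ}
    (h : ∃ D : ℕ, ∃ ε' : ℝ, 0 < ε' ∧ ∀ N : ℕ, ∃ X : PureComplex d,
      N ≤ X.vertices.card ∧ X.Connected ∧ X.degree ≤ D ∧ X.IsCoboundaryExpander ε') :
    ∃ (D : ℕ) (ε : ℝ), 0 < ε ∧ ∃ X : ℕ → PureComplex d,
      Filter.Tendsto (fun m => (X m).vertices.card) Filter.atTop Filter.atTop ∧
      ∀ m, (X m).Connected ∧ (X m).degree ≤ D ∧ (X m).IsCoboundaryExpander ε := by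
  obtain ⟨D, ε, hε, h⟩ := h
  choose X hX using h
  refine ⟨D, ε, hε, X, ?_, fun m => (hX m).2⟩
  exact Filter.tendsto_atTop_mono (fun m => (hX m).1) Filter.tendsto_id

end Vale.Agent.P067
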