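import Mathlib

/-!
# P067: the lattice model (definitions)

`V = ℤ →₀ F` with basis `x_i = single i 1`, `T = sh n : x_i ↦ x_{i+n}`.
-/

namespace Vale.Agent.P067

open Finsupp

/-- the space `V` with basis `x_i`, `i ∈ ℤ` -/
abbrev VV (F : Type) [Field F] : Type := ℤ →₀ F

section
variable (F : Type) [Field F]

/-- the shift `x_i ↦ x_{i+c}`; `T = sh F n` -/
noncomputable def sh (c : ℤ) : VV F ≃ₗ[F] VV F := Finsupp.domLCongr (Equiv.addRight c)

/-- `M_j = span {x_i : i ≤ j}` -/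
noncomputable def MM (j : ℤ) : Submodule F (VV F) := Finsupp.supported F F (Set.Iic j)

/-- `L_i⁰ = span {x_b : b > i}` -/
noncomputable def Lo (i : ℤ) : Submodule F (VV F) := Finsupp.supported F F (Set.Ioi i)
end

section
variable {F : Type} [Field F]

/-- lattices: `T`-stable and between two standard ones -/
structure IsLat (n : ℕ) (L : Submodule F (VV F)) : Prop where
  stable : L.map (sh F n).toLinearMap ≤ L
  lower : ∃ a : ℤ, Lo F a ≤ L
  upper : ∃ b : ℤ, L ≤ Lo F b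

/-- `u_j(L) = dim (L ∩ M_j)` -/
noncomputable def uu (j : ℤ) (L : Submodule F (VV F)) : ℕ := Module.finrank F ↥(L ⊓ MM F j)

/-- `v_j(L) = dim V / (L + M_j)` -/
noncomputable def vv (j : ℤ) (L : Submodule F (VV F)) : ℕ :=
  Module.finrank F (VV F ⧸ (L ⊔ MM F j))

/-- the index: `u_j(L) - v_j(L) = j - ind L` for all `j`; `ind (Lo i) = i` -/
noncomputable def ind (L : Submodule F (VV F)) : ℤ := (vv 0 L : ℤ) - (uu 0 L : ℤ)

/-- adjacency (reflexive for `T`-stable `L`) -/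
def Adj (n : ℕ) (L L' : Submodule F (VV F)) : Prop :=
  (L ≤ L' ∧ L'.map (sh F n).toLinearMap ≤ L) ∨ (L' ≤ L ∧ L.map (sh F n).toLinearMap ≤ L')

/-- all lattices, no normalisation: the big contractible complex `Λ'` -/
def LamBig (F : Type) [Field F] (n : ℕ) : Set (Finset (Submodule F (VV F))) :=
  {σ | (∀ L ∈ σ, IsLat n L) ∧ ∀ L ∈ σ, ∀ L' ∈ σ, Adj n L L'}

/-- lattices with index in the window `[0, n)`: the building `Λ` -/
def Lam (F : Type) [Field F] (n : ℕ) : Set (Finset (Submodule F (VV F))) :=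
  {σ | (∀ L ∈ σ, IsLat n L ∧ 0 ≤ ind L ∧ ind L < n) ∧ ∀ L ∈ σ, ∀ L' ∈ σ, Adj n L L'}

/-- the complex `Y` of generic lattices in the window -/
def YY (F : Type) [Field F] (n : ℕ) : Set (Finset (Submodule F (VV F))) :=
  {σ | σ ∈ Lam F n ∧ ∀ L ∈ σ, ∃ i : ℤ, IsCompl L (MM F i)}

/-- `σ × ℤ` indexes the periodic chain of `σ`: `(Y, k)` stands for `T^k Y`, and
`u_j (T^k Y) = u_{j - nk}(Y)`.  `X` is good in `σ` if for every `j` its box
`[0, u_j X) × [0, v_j X)` is empty or contained in the box of another member of the chain. -/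
def Good (n : ℕ) (σ : Finset (Submodule F (VV F))) (X : Submodule F (VV F)) : Prop :=
  ∀ j : ℤ, 0 < uu j X → 0 < vv j X → ∃ Y ∈ σ, ∃ k : ℤ, ¬ (Y = X ∧ k = 0) ∧
    uu j X ≤ uu (j - n * k) Y ∧ vv j X ≤ vv (j - n * k) Y

/-- the filling complex of a face `τ` (its link, restricted to the vertices good in `τ ∪ {X}`) -/
def DD (n : ℕ) (τ : Finset (Submodule F (VV F))) : Set (Finset (Submodule F (VV F))) :=
  {ρ | (∀ X ∈ ρ, X ∉ τ) ∧ (∃ σ ∈ Lam F n, τ ⊆ σ ∧ ρ ⊆ σ) ∧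
    ∀ X ∈ ρ, ∀ j : ℤ, 0 < uu j X → 0 < vv j X → (∃ Y ∈ τ, ∃ k : ℤ,
      uu j X ≤ uu (j - n * k) Y ∧ vv j X ≤ vv (j - n * k) Y)}

lemma mem_MM {j : ℤ} {x : VV F} : x ∈ MM F j ↔ ∀ i, j < i → x i = 0 := by
  rw [MM, Finsupp.mem_supported']
  simp

lemma mem_Lo {j : ℤ} {x : VV F} : x ∈ Lo F j ↔ ∀ i, i ≤ j → x i = 0 := by
  rw [Lo, Finsupp.mem_supported']
  simp

/-- an operator unipotent for the flag reflects membership in `M_j` -/
lemma mem_MM_of_unip {g : VV F →ₗ[F] VV F}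
    (hg : ∀ j : ℤ, ∀ x ∈ MM F j, g x - x ∈ MM F (j - 1)) {j : ℤ} {y : VV F}
    (h : g y ∈ MM F j) : y ∈ MM F j := by
  classical
  by_contra hy
  rw [mem_MM] at hy
  push Not at hy
  obtain ⟨i, hi, hyi⟩ := hy
  have hne : y.support.Nonempty := ⟨i, Finsupp.mem_support_iff.2 hyi⟩
  set k := y.support.max' hne with hk
  have hik : i ≤ k := Finset.le_max' _ _ (Finsupp.mem_support_iff.2 hyi)
  have hyk : y k ≠ 0 := Finsupp.mem_support_iff.1 (Finset.max'_mem _ hne)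
  have hymem : y ∈ MM F k := by
    rw [mem_MM]
    intro l hl
    by_contra h0
    have := Finset.le_max' _ _ (Finsupp.mem_support_iff.2 h0)
    omega
  have h1 := (mem_MM.1 (hg k y hymem)) k (by omega)
  have h2 := (mem_MM.1 h) k (by omega)
  rw [Finsupp.sub_apply, h2] at h1
  simp at h1
  exact hyk h1

variable (F) in
/-- the group `U`: commutes with `T`, unipotent for the flag `M_j` -/
def UU (n : ℕ) : Subgroup (VV F ≃ₗ[F] VV F) where
  carrier := {g | (∀ x, g (sh F n x) = sh F n (g x)) ∧ ∀ j : ℤ, ∀ x ∈ MM F j, g x - x ∈ MM F (j - 1)}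
  one_mem' := by
    refine ⟨fun x => rfl, fun j x _ => ?_⟩
    simp
  mul_mem' := by
    rintro g h ⟨hg1, hg2⟩ ⟨hh1, hh2⟩
    refine ⟨fun x => ?_, fun j x hx => ?_⟩
    · simp [LinearEquiv.mul_apply, hh1, hg1]
    · have h1 := hh2 j x hx
      have hle : MM F (j - 1) ≤ MM F j := Finsupp.supported_mono (Set.Iic_subset_Iic.2 (by omega))
      have h2 : h x ∈ MM F j := by
        have := (MM F j).add_mem (hle h1) hx
        simpa using this
      have h3 := hg2 j _ h2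
      have : (g * h) x - x = (g (h x) - h x) + (h x - x) := by
        simp [LinearEquiv.mul_apply]
      rw [this]
      exact (MM F (j-1)).add_mem h3 h1
  inv_mem' := by
    rintro g ⟨hg1, hg2⟩
    refine ⟨fun x => ?_, fun j x hx => ?_⟩
    · apply g.injective
      have e : g (g⁻¹ (sh F n x)) = sh F n x := LinearEquiv.apply_symm_apply g _
      have e' : g (g⁻¹ x) = x := LinearEquiv.apply_symm_apply g _
      rw [e, hg1, e']
    · have e' : g (g⁻¹ x) = x := LinearEquiv.apply_symm_apply g _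
      have hy : g⁻¹ x ∈ MM F j := by
        apply mem_MM_of_unip (g := g.toLinearMap) (fun j x hx => hg2 j x hx)
        show g (g⁻¹ x) ∈ _
        rw [e']; exact hx
      have h := hg2 j _ hy
      rw [e'] at h
      have := (MM F (j-1)).neg_mem h
      simpa using this

/-- `K_i`, the stabiliser of `L_i⁰` in `U` -/
def Ki (F : Type) [Field F] (n : ℕ) (i : Fin n) : Subgroup (UU F n) where
  carrier := {g | ∀ v : VV F, (g : VV F ≃ₗ[F] VV F) v ∈ Lo F (i : ℤ) ↔ v ∈ Lo F (i : ℤ)}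
  one_mem' := fun v => Iff.rfl
  mul_mem' := by
    intro g h hg hh v
    show (g : VV F ≃ₗ[F] VV F) ((h : VV F ≃ₗ[F] VV F) v) ∈ Lo F (i : ℤ) ↔ _
    rw [hg, hh]
  inv_mem' := by
    intro g hg v
    have e : (g : VV F ≃ₗ[F] VV F) (((g⁻¹ : UU F n) : VV F ≃ₗ[F] VV F) v) = v :=
      LinearEquiv.apply_symm_apply (g : VV F ≃ₗ[F] VV F) v
    have h := hg (((g⁻¹ : UU F n) : VV F ≃ₗ[F] VV F) v)
    rw [e] at h
    exact h.symm

lemma MM_mono {i j : ℤ} (h : i ≤ j) : MM F i ≤ MM F j :=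
  Finsupp.supported_mono (Set.Iic_subset_Iic.2 h)

lemma UU_mem_MM {n : ℕ} (g : UU F n) {j : ℤ} {x : VV F} (hx : x ∈ MM F j) :
    (g : VV F ≃ₗ[F] VV F) x ∈ MM F j := by
  have := (MM F j).add_mem (MM_mono (by omega) (g.2.2 j x hx)) hx
  simpa using this

/-- `Γ_s = {g ∈ U : g = 1 mod t^s}`, `s : ℕ` -/
def Gam (F : Type) [Field F] (n : ℕ) (s : ℕ) : Subgroup (UU F n) where
  carrier := {g | ∀ k : ℤ, ∀ x ∈ MM F (n * k), (g : VV F ≃ₗ[F] VV F) x - x ∈ MM F (n * (k - s))}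
  one_mem' := by
    intro k x _
    simp
  mul_mem' := by
    intro g h hg hh k x hx
    have e : ((g * h : UU F n) : VV F ≃ₗ[F] VV F) x - x =
      ((g : VV F ≃ₗ[F] VV F) ((h : VV F ≃ₗ[F] VV F) x) - (h : VV F ≃ₗ[F] VV F) x) +
        ((h : VV F ≃ₗ[F] VV F) x - x) := by
      simp [LinearEquiv.mul_apply]
    rw [e]
    exact (MM F _).add_mem (hg k _ (UU_mem_MM h hx)) (hh k x hx)
  inv_mem' := by
    intro g hg k x hx
    have e' : (g : VV F ≃ₗ[F] VV F) (((g⁻¹ : UU F n) : VV F ≃ₗ[F] VV F) x) = x :=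
      LinearEquiv.apply_symm_apply (g : VV F ≃ₗ[F] VV F) _
    have h := hg k _ (UU_mem_MM g⁻¹ hx)
    rw [e'] at h
    have := (MM F (n * (k - s))).neg_mem h
    simpa using this

end

end Vale.Agent.P067
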