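import Vale.Agent.P067.Key
import Vale.Agent.P067.Lat

/-!
# P067: the bridge between the space `V` and vectors over the polynomial ring

`M_0` is the free module over `F[X]` (`X` acts as `T⁻¹`) with the basis `x_0, x_{-1}, ...,
x_{1-n}`; the congruence subgroups `Γ_s` are the congruence subgroups of matrices.
-/

namespace Vale.Agent.P067.Br

open Matrix Polynomial Key

set_option linter.unusedSectionVars false

variable {p : ℕ} [Fact p.Prime] {n : ℕ}

/-! ### The shift -/

theorem sh_single (c i : ℤ) (b : ZMod p) :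
    sh (ZMod p) c (Finsupp.single i b) = Finsupp.single (i + c) b := by
  rw [sh, Finsupp.domLCongr_single]
  rfl

theorem sh_sh (c c' : ℤ) (v : VV (ZMod p)) :
    sh (ZMod p) c (sh (ZMod p) c' v) = sh (ZMod p) (c' + c) v := by
  induction v using Finsupp.induction_linear with
  | zero => simp only [map_zero]
  | add a b ha hb => simp only [map_add, ha, hb]
  | single i b => rw [sh_single, sh_single, sh_single, add_assoc]

theorem sh_zero (v : VV (ZMod p)) : sh (ZMod p) 0 v = v := by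
  induction v using Finsupp.induction_linear with
  | zero => simp only [map_zero]
  | add a b ha hb => simp only [map_add, ha, hb]
  | single i b => rw [sh_single, add_zero]

theorem MM_induction {j : ℤ} {P : VV (ZMod p) → Prop} (h0 : P 0)
    (hadd : ∀ a b, P a → P b → P (a + b)) (hs : ∀ i ≤ j, ∀ c, P (Finsupp.single i c))
    {v : VV (ZMod p)} (hv : v ∈ MM (ZMod p) j) : P v := by
  have : v ∈ Submodule.span (ZMod p)
      ((fun i => Finsupp.single i (1 : ZMod p)) '' (Set.Iic j)) := by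
    rw [← Finsupp.supported_eq_span_single]
    exact hv
  have h2 : P v ∧ True := by
    clear hv
    induction this using Submodule.span_induction with
    | mem x hx =>
      obtain ⟨i, hi, rfl⟩ := hx
      exact ⟨hs i hi 1, trivial⟩
    | zero => exact ⟨h0, trivial⟩
    | add a b _ _ ha hb => exact ⟨hadd _ _ ha.1 hb.1, trivial⟩
    | smul r a ha' ha =>
      refine ⟨?_, trivial⟩
      have h3 : r = ((r.val : ℕ) : ZMod p) := (ZMod.natCast_zmod_val r).symm
      rw [h3, Nat.cast_smul_eq_nsmul]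
      induction r.val with
      | zero => rw [zero_smul]; exact h0
      | succ m ih => rw [succ_nsmul]; exact hadd _ _ ih ha.1
  exact h2.1

theorem single_mem_MM {i j : ℤ} (h : i ≤ j) (c : ZMod p) :
    (Finsupp.single i c : VV (ZMod p)) ∈ MM (ZMod p) j :=
  Finsupp.single_mem_supported _ _ h

theorem sh_mem_MM {c j : ℤ} {v : VV (ZMod p)} (hv : v ∈ MM (ZMod p) j) :
    sh (ZMod p) c v ∈ MM (ZMod p) (j + c) := by
  refine MM_induction (P := fun v => sh (ZMod p) c v ∈ MM (ZMod p) (j + c)) ?_ ?_ ?_ hv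
  · show sh (ZMod p) c 0 ∈ _
    rw [map_zero]
    exact zero_mem _
  · intro a b ha hb
    show sh (ZMod p) c (a + b) ∈ _
    rw [map_add]
    exact add_mem ha hb
  · intro i hi b
    show sh (ZMod p) c (Finsupp.single i b) ∈ _
    rw [sh_single]
    exact single_mem_MM (by omega) b

/-! ### The coordinates -/

/-- index of the basis vector `X ^ k e_a` -/
def ix (n : ℕ) (a : Fin n) (k : ℕ) : ℤ := -(a : ℤ) - n * k

theorem ix_le (a : Fin n) (k : ℕ) : ix n a k ≤ 0 := by
  unfold ix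
  have : (0 : ℤ) ≤ n * k := by positivity
  have h2 : (0 : ℤ) ≤ (a : ℤ) := by positivity
  omega

theorem exists_ix (hn : 0 < n) (i : ℤ) (hi : i ≤ 0) : ∃ (a : Fin n) (k : ℕ), ix n a k = i := by
  refine ⟨⟨(-i).toNat % n, Nat.mod_lt _ hn⟩, (-i).toNat / n, ?_⟩
  unfold ix
  have h1 := Nat.mod_add_div (-i).toNat n
  have h2 : (((-i).toNat : ℕ) : ℤ) = -i := Int.toNat_of_nonneg (by omega)
  have h3 : (((-i).toNat % n : ℕ) : ℤ) + n * (((-i).toNat / n : ℕ) : ℤ) = -i := by
    rw [← h2]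
    exact_mod_cast h1
  show -(((-i).toNat % n : ℕ) : ℤ) - n * (((-i).toNat / n : ℕ) : ℤ) = i
  omega

theorem ix_inj {a a' : Fin n} {k k' : ℕ} (h : ix n a k = ix n a' k') : a = a' ∧ k = k' := by
  unfold ix at h
  have h1 : (a : ℕ) + n * k = (a' : ℕ) + n * k' := by
    have : ((a : ℕ) : ℤ) + n * k = ((a' : ℕ) : ℤ) + n * k' := by omega
    exact_mod_cast this
  have h2 : (a : ℕ) = a' := by
    have h3 := congrArg (fun m => m % n) h1
    simp only [Nat.add_mul_mod_self_left, Nat.mod_eq_of_lt a.2, Nat.mod_eq_of_lt a'.2] at h3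
    exact h3
  refine ⟨Fin.ext h2, ?_⟩
  rw [h2] at h1
  have h4 : n * k = n * k' := by omega
  exact Nat.eq_of_mul_eq_mul_left (by have := a.2; omega) h4

variable (p n) in
/-- vectors over the polynomial ring as elements of `V` -/
noncomputable def Psi : (Fin n → (ZMod p)[X]) →ₗ[ZMod p] VV (ZMod p) :=
  ∑ a : Fin n, (Polynomial.lsum fun k => Finsupp.lsingle (ix n a k)) ∘ₗ LinearMap.proj a

theorem Psi_single (a : Fin n) (k : ℕ) (c : ZMod p) :
    Psi p n (Pi.single a (monomial k c)) = Finsupp.single (ix n a k) c := by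
  rw [Psi, LinearMap.sum_apply, Finset.sum_eq_single a]
  · rw [LinearMap.comp_apply, LinearMap.proj_apply, Pi.single_eq_same]
    show (monomial k c).sum _ = _
    rw [Polynomial.sum_monomial_index]
    · rfl
    · simp
  · intro b _ hb
    rw [LinearMap.comp_apply, LinearMap.proj_apply, Pi.single_eq_of_ne hb, map_zero]
  · intro h
    exact absurd (Finset.mem_univ a) h

open Classical in
variable (p n) in
/-- coordinates of an element of `V` -/
noncomputable def Phi : VV (ZMod p) →ₗ[ZMod p] (Fin n → (ZMod p)[X]) :=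
  Finsupp.linearCombination (ZMod p) fun i : ℤ =>
    if h : ∃ ak : Fin n × ℕ, ix n ak.1 ak.2 = i then
      Pi.single h.choose.1 (monomial h.choose.2 1) else 0

theorem Phi_single (a : Fin n) (k : ℕ) (c : ZMod p) :
    Phi p n (Finsupp.single (ix n a k) c) = Pi.single a (monomial k c) := by
  have h : ∃ ak : Fin n × ℕ, ix n ak.1 ak.2 = ix n a k := ⟨(a, k), rfl⟩
  rw [Phi, Finsupp.linearCombination_single, dif_pos h]
  obtain ⟨h1, h2⟩ := ix_inj h.choose_spec
  rw [h1, h2, ← Pi.single_smul, smul_monomial, smul_eq_mul, mul_one]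

theorem vec_induction {P : (Fin n → (ZMod p)[X]) → Prop} (h0 : P 0)
    (hadd : ∀ a b, P a → P b → P (a + b))
    (hs : ∀ a k c, P (Pi.single a (monomial k c))) (f : Fin n → (ZMod p)[X]) : P f := by
  have hsum : ∀ (s : Finset (Fin n)) (g : Fin n → (Fin n → (ZMod p)[X])),
      (∀ a ∈ s, P (g a)) → P (∑ a ∈ s, g a) := by
    intro s g
    classical
    induction s using Finset.induction_on with
    | empty => intro _; simpa using h0
    | insert a s ha ih =>
      intro h
      rw [Finset.sum_insert ha]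
      exact hadd _ _ (h a (Finset.mem_insert_self _ _))
        (ih fun b hb => h b (Finset.mem_insert_of_mem hb))
  rw [← Finset.univ_sum_single f]
  refine hsum _ _ fun a _ => ?_
  refine Polynomial.induction_on' (motive := fun q => P (Pi.single a q)) (f a) ?_ ?_
  · intro q r hq hr
    rw [Pi.single_add]
    exact hadd _ _ hq hr
  · intro k c
    exact hs a k c

theorem Phi_Psi (f : Fin n → (ZMod p)[X]) : Phi p n (Psi p n f) = f := by
  refine vec_induction (P := fun f => Phi p n (Psi p n f) = f) ?_ ?_ ?_ f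
  · show Phi p n (Psi p n 0) = 0
    rw [map_zero, map_zero]
  · intro a b ha hb
    show Phi p n (Psi p n (a + b)) = a + b
    rw [map_add, map_add, ha, hb]
  · intro a k c
    show Phi p n (Psi p n (Pi.single a (monomial k c))) = _
    rw [Psi_single, Phi_single]

theorem Psi_injective : Function.Injective (Psi p n) := fun f g h => by
  rw [← Phi_Psi f, h, Phi_Psi]

theorem Psi_mem (f : Fin n → (ZMod p)[X]) : Psi p n f ∈ MM (ZMod p) 0 := by
  refine vec_induction (P := fun f => Psi p n f ∈ MM (ZMod p) 0) ?_ ?_ ?_ f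
  · show Psi p n 0 ∈ _
    rw [map_zero]
    exact zero_mem _
  · intro a b ha hb
    show Psi p n (a + b) ∈ _
    rw [map_add]
    exact add_mem ha hb
  · intro a k c
    show Psi p n (Pi.single a (monomial k c)) ∈ _
    rw [Psi_single]
    exact single_mem_MM (ix_le a k) c

theorem Psi_Phi (hn : 0 < n) {v : VV (ZMod p)} (hv : v ∈ MM (ZMod p) 0) :
    Psi p n (Phi p n v) = v := by
  refine MM_induction (P := fun v => Psi p n (Phi p n v) = v) ?_ ?_ ?_ hv
  · show Psi p n (Phi p n 0) = 0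
    rw [map_zero, map_zero]
  · intro a b ha hb
    show Psi p n (Phi p n (a + b)) = a + b
    rw [map_add, map_add, ha, hb]
  · intro i hi c
    show Psi p n (Phi p n (Finsupp.single i c)) = _
    obtain ⟨a, k, rfl⟩ := exists_ix hn i hi
    rw [Phi_single, Psi_single]

theorem Psi_X (f : Fin n → (ZMod p)[X]) :
    Psi p n ((X : (ZMod p)[X]) • f) = sh (ZMod p) (-(n : ℤ)) (Psi p n f) := by
  refine vec_induction (P := fun f => Psi p n ((X : (ZMod p)[X]) • f) =
    sh (ZMod p) (-(n : ℤ)) (Psi p n f)) ?_ ?_ ?_ f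
  · show Psi p n ((X : (ZMod p)[X]) • 0) = sh (ZMod p) (-(n : ℤ)) (Psi p n 0)
    rw [smul_zero, map_zero, map_zero]
  · intro a b ha hb
    show Psi p n ((X : (ZMod p)[X]) • (a + b)) = sh (ZMod p) (-(n : ℤ)) (Psi p n (a + b))
    rw [smul_add, map_add, map_add, map_add, ha, hb]
  · intro a k c
    show Psi p n ((X : (ZMod p)[X]) • Pi.single a (monomial k c)) =
      sh (ZMod p) (-(n : ℤ)) (Psi p n (Pi.single a (monomial k c)))
    rw [← Pi.single_smul, smul_eq_mul, X_mul_monomial, Psi_single, Psi_single, sh_single]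
    congr 1
    unfold ix
    push_cast
    ring

theorem Psi_X_pow (s : ℕ) (f : Fin n → (ZMod p)[X]) :
    Psi p n (((X : (ZMod p)[X]) ^ s) • f) = sh (ZMod p) (-((n : ℤ) * s)) (Psi p n f) := by
  induction s with
  | zero =>
    rw [pow_zero, one_smul]
    have : -((n : ℤ) * ((0 : ℕ) : ℤ)) = 0 := by simp
    rw [this, sh_zero]
  | succ s ih =>
    rw [pow_succ', mul_smul, Psi_X, ih, sh_sh]
    congr 1
    push_cast
    ring_nf

/-- elements of `M_{nk - ns}` and divisibility -/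
theorem exists_of_mem (hn : 0 < n) (s : ℕ) {v : VV (ZMod p)}
    (hv : v ∈ MM (ZMod p) (-((n : ℤ) * s))) : ∃ f, v = Psi p n (((X : (ZMod p)[X]) ^ s) • f) := by
  have h1 : sh (ZMod p) ((n : ℤ) * s) v ∈ MM (ZMod p) 0 := by
    have := sh_mem_MM (c := (n : ℤ) * s) hv
    rwa [neg_add_cancel] at this
  refine ⟨Phi p n (sh (ZMod p) ((n : ℤ) * s) v), ?_⟩
  rw [Psi_X_pow, Psi_Phi hn h1, sh_sh, add_neg_cancel, sh_zero]

theorem Psi_X_pow_mem (s : ℕ) (f : Fin n → (ZMod p)[X]) :
    Psi p n (((X : (ZMod p)[X]) ^ s) • f) ∈ MM (ZMod p) (-((n : ℤ) * s)) := by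
  rw [Psi_X_pow]
  have := sh_mem_MM (c := -((n : ℤ) * s)) (Psi_mem (p := p) f)
  rwa [zero_add] at this

/-- every element of `V` is a shift of an element of `M_0` -/
theorem exists_rep (hn : 0 < n) (v : VV (ZMod p)) :
    ∃ (m : ℤ) (f : Fin n → (ZMod p)[X]), v = sh (ZMod p) ((n : ℤ) * m) (Psi p n f) := by
  obtain ⟨b, hb⟩ : ∃ b : ℕ, v ∈ MM (ZMod p) ((n : ℤ) * b) := by
    obtain ⟨b, hb⟩ : ∃ b : ℕ, ∀ i ∈ v.support, i ≤ (b : ℤ) := by
      refine ⟨v.support.sup fun i => i.toNat, fun i hi => ?_⟩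
      have h1 : i.toNat ≤ v.support.sup fun i => i.toNat :=
        Finset.le_sup (f := fun i : ℤ => i.toNat) hi
      have h2 := Int.self_le_toNat i
      exact h2.trans (by exact_mod_cast h1)
    refine ⟨b, ?_⟩
    rw [mem_MM]
    intro i hi
    by_contra h0
    have h1 := hb i (Finsupp.mem_support_iff.mpr h0)
    have h2 : (b : ℤ) ≤ n * b := by
      have : (1 : ℤ) ≤ n := by exact_mod_cast hn
      nlinarith [Int.natCast_nonneg b]
    omega
  have h1 : sh (ZMod p) (-((n : ℤ) * b)) v ∈ MM (ZMod p) 0 := by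
    have := sh_mem_MM (c := -((n : ℤ) * b)) hb
    rwa [add_neg_cancel] at this
  refine ⟨b, Phi p n (sh (ZMod p) (-((n : ℤ) * b)) v), ?_⟩
  rw [Psi_Phi hn h1, sh_sh, neg_add_cancel, sh_zero]

/-! ### Matrices of the elements of `U` -/

theorem comm_sh (g : UU (ZMod p) n) (m : ℤ) (v : VV (ZMod p)) :
    (g : VV (ZMod p) ≃ₗ[ZMod p] VV (ZMod p)) (sh (ZMod p) ((n : ℤ) * m) v) =
      sh (ZMod p) ((n : ℤ) * m) ((g : VV (ZMod p) ≃ₗ[ZMod p] VV (ZMod p)) v) := by
  have hpos : ∀ (k : ℕ) (v : VV (ZMod p)),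
      (g : VV (ZMod p) ≃ₗ[ZMod p] VV (ZMod p)) (sh (ZMod p) ((n : ℤ) * k) v) =
      sh (ZMod p) ((n : ℤ) * k) ((g : VV (ZMod p) ≃ₗ[ZMod p] VV (ZMod p)) v) := by
    intro k
    induction k with
    | zero =>
      intro v
      rw [Nat.cast_zero, mul_zero, sh_zero, sh_zero]
    | succ k ih =>
      intro v
      have e : (n : ℤ) * ((k + 1 : ℕ) : ℤ) = n * k + n := by push_cast; ring
      rw [e, ← sh_sh, g.2.1, ih, sh_sh]
  rcases Int.eq_nat_or_neg m with ⟨k, rfl | rfl⟩
  · exact hpos k v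
  · have h1 := hpos k (sh (ZMod p) ((n : ℤ) * (-(k : ℤ))) v)
    rw [sh_sh] at h1
    have e : (n : ℤ) * (-(k : ℤ)) + n * k = 0 := by ring
    rw [e, sh_zero] at h1
    rw [h1, sh_sh]
    have e2 : (n : ℤ) * k + n * (-(k : ℤ)) = 0 := by ring
    rw [e2, sh_zero]

theorem g_Psi (hn : 0 < n) (g : UU (ZMod p) n) (f : Fin n → (ZMod p)[X]) :
    Psi p n (Phi p n ((g : VV (ZMod p) ≃ₗ[ZMod p] VV (ZMod p)) (Psi p n f))) =
      (g : VV (ZMod p) ≃ₗ[ZMod p] VV (ZMod p)) (Psi p n f) :=
  Psi_Phi hn (UU_mem_MM g (Psi_mem f))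

theorem C_smul_vec (c : ZMod p) (f : Fin n → (ZMod p)[X]) : (C c : (ZMod p)[X]) • f = c • f := by
  funext a
  rw [Pi.smul_apply, Pi.smul_apply, smul_eq_mul, smul_eq_C_mul]

theorem g_Psi_X_pow (hn : 0 < n) (g : UU (ZMod p) n) (k : ℕ) (f : Fin n → (ZMod p)[X]) :
    Phi p n ((g : VV (ZMod p) ≃ₗ[ZMod p] VV (ZMod p)) (Psi p n (((X : (ZMod p)[X]) ^ k) • f))) =
      ((X : (ZMod p)[X]) ^ k) •
        Phi p n ((g : VV (ZMod p) ≃ₗ[ZMod p] VV (ZMod p)) (Psi p n f)) := by
  apply Psi_injective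
  rw [g_Psi hn, Psi_X_pow, Psi_X_pow, g_Psi hn]
  have h1 := comm_sh g (-(k : ℤ)) (Psi p n f)
  have e2 : (n : ℤ) * (-(k : ℤ)) = -((n : ℤ) * k) := by ring
  rw [e2] at h1
  exact h1

theorem g_Psi_C (g : UU (ZMod p) n) (c : ZMod p) (f : Fin n → (ZMod p)[X]) :
    Phi p n ((g : VV (ZMod p) ≃ₗ[ZMod p] VV (ZMod p)) (Psi p n ((C c : (ZMod p)[X]) • f))) =
      (C c : (ZMod p)[X]) •
        Phi p n ((g : VV (ZMod p) ≃ₗ[ZMod p] VV (ZMod p)) (Psi p n f)) := by
  rw [C_smul_vec, C_smul_vec, map_smul, map_smul, map_smul]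

theorem g_Psi_smul (hn : 0 < n) (g : UU (ZMod p) n) (r : (ZMod p)[X])
    (f : Fin n → (ZMod p)[X]) :
    Phi p n ((g : VV (ZMod p) ≃ₗ[ZMod p] VV (ZMod p)) (Psi p n (r • f))) =
      r • Phi p n ((g : VV (ZMod p) ≃ₗ[ZMod p] VV (ZMod p)) (Psi p n f)) := by
  refine Polynomial.induction_on' (motive := fun r => Phi p n
    ((g : VV (ZMod p) ≃ₗ[ZMod p] VV (ZMod p)) (Psi p n (r • f))) =
      r • Phi p n ((g : VV (ZMod p) ≃ₗ[ZMod p] VV (ZMod p)) (Psi p n f))) r ?_ ?_
  · intro q r hq hr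
    rw [add_smul, map_add, map_add, map_add, hq, hr, add_smul]
  · intro k c
    rw [← C_mul_X_pow_eq_monomial, mul_smul, g_Psi_C, g_Psi_X_pow hn, mul_smul]

/-- the endomorphism of an element of `U` -/
noncomputable def LL (hn : 0 < n) (g : UU (ZMod p) n) :
    (Fin n → (ZMod p)[X]) →ₗ[(ZMod p)[X]] (Fin n → (ZMod p)[X]) where
  toFun f := Phi p n ((g : VV (ZMod p) ≃ₗ[ZMod p] VV (ZMod p)) (Psi p n f))
  map_add' f f' := by rw [map_add, map_add, map_add]
  map_smul' r f := g_Psi_smul hn g r f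

theorem LL_apply (hn : 0 < n) (g : UU (ZMod p) n) (f : Fin n → (ZMod p)[X]) :
    LL hn g f = Phi p n ((g : VV (ZMod p) ≃ₗ[ZMod p] VV (ZMod p)) (Psi p n f)) := rfl

/-- the matrix of an element of `U` -/
noncomputable def rho (hn : 0 < n) : UU (ZMod p) n →* Mt p n where
  toFun g := LinearMap.toMatrix' (LL hn g)
  map_one' := by
    have : LL hn (1 : UU (ZMod p) n) = LinearMap.id := by
      ext1 a
      ext1
      rw [LinearMap.comp_apply, LL_apply]
      exact Phi_Psi _
    rw [this, LinearMap.toMatrix'_id]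
  map_mul' g h := by
    have : LL hn (g * h) = (LL hn g).comp (LL hn h) := by
      apply LinearMap.ext
      intro f
      rw [LinearMap.comp_apply, LL_apply, LL_apply, LL_apply, g_Psi hn]
      rfl
    rw [this, LinearMap.toMatrix'_comp]

theorem rho_mulVec (hn : 0 < n) (g : UU (ZMod p) n) (f : Fin n → (ZMod p)[X]) :
    rho hn g *ᵥ f = Phi p n ((g : VV (ZMod p) ≃ₗ[ZMod p] VV (ZMod p)) (Psi p n f)) := by
  show LinearMap.toMatrix' (LL hn g) *ᵥ f = _
  rw [LinearMap.toMatrix'_mulVec]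
  rfl

theorem Psi_rho (hn : 0 < n) (g : UU (ZMod p) n) (f : Fin n → (ZMod p)[X]) :
    Psi p n (rho hn g *ᵥ f) = (g : VV (ZMod p) ≃ₗ[ZMod p] VV (ZMod p)) (Psi p n f) := by
  rw [rho_mulVec, g_Psi hn]

theorem rho_injective (hn : 0 < n) : Function.Injective (rho (p := p) hn) := by
  intro g h hgh
  apply Subtype.ext
  apply LinearEquiv.ext
  intro v
  obtain ⟨m, f, rfl⟩ := exists_rep hn v
  rw [comm_sh, comm_sh, ← Psi_rho hn, ← Psi_rho hn, hgh]

/-- congruence in terms of vectors -/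
theorem cg_iff (s : ℕ) (M : Mt p n) : Cg s M 1 ↔
    ∀ f : Fin n → (ZMod p)[X], ∃ f', M *ᵥ f = f + ((X : (ZMod p)[X]) ^ s) • f' := by
  constructor
  · rintro ⟨D, rfl⟩ f
    exact ⟨D *ᵥ f, by rw [add_mulVec, one_mulVec, smul_mulVec]⟩
  · intro h
    choose e he using fun a : Fin n => h (Pi.single a 1)
    refine ⟨Matrix.of fun i a => e a i, ?_⟩
    ext1 i a
    have h1 := congrFun (he a) i
    rw [mulVec_single_one] at h1
    rw [Matrix.add_apply, Matrix.smul_apply, Matrix.of_apply]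
    have h2 : M i a = (Pi.single a (1 : (ZMod p)[X]) : Fin n → (ZMod p)[X]) i +
      ((X : (ZMod p)[X]) ^ s • e a) i := h1
    rw [h2, Matrix.one_apply, Pi.single_apply, Pi.smul_apply]

theorem mem_Gam_iff (hn : 0 < n) (s : ℕ) (g : UU (ZMod p) n) :
    g ∈ Gam (ZMod p) n s ↔ Cg s (rho hn g) 1 := by
  rw [cg_iff]
  constructor
  · intro hg f
    have h1 : (g : VV (ZMod p) ≃ₗ[ZMod p] VV (ZMod p)) (Psi p n f) - Psi p n f ∈
        MM (ZMod p) (n * ((0 : ℤ) - s)) := hg 0 _ (by
      rw [mul_zero]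
      exact Psi_mem f)
    have e : (n : ℤ) * ((0 : ℤ) - s) = -((n : ℤ) * s) := by ring
    rw [e] at h1
    obtain ⟨f', hf'⟩ := exists_of_mem hn s h1
    refine ⟨f', Psi_injective ?_⟩
    rw [Psi_rho, map_add, ← hf']
    abel
  · intro h k x hx
    have hx0 : sh (ZMod p) ((n : ℤ) * (-k)) x ∈ MM (ZMod p) 0 := by
      have := sh_mem_MM (c := (n : ℤ) * (-k)) hx
      have e : (n : ℤ) * k + n * (-k) = 0 := by ring
      rwa [e] at this
    obtain ⟨f', hf'⟩ := h (Phi p n (sh (ZMod p) ((n : ℤ) * (-k)) x))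
    have h1 := congrArg (Psi p n) hf'
    rw [Psi_rho, map_add, Psi_Phi hn hx0] at h1
    have h2 : x = sh (ZMod p) ((n : ℤ) * k) (sh (ZMod p) ((n : ℤ) * (-k)) x) := by
      rw [sh_sh]
      have e : (n : ℤ) * (-k) + n * k = 0 := by ring
      rw [e, sh_zero]
    have h3 : (g : VV (ZMod p) ≃ₗ[ZMod p] VV (ZMod p)) x - x =
        sh (ZMod p) ((n : ℤ) * k) (Psi p n (((X : (ZMod p)[X]) ^ s) • f')) := by
      conv_lhs => rw [h2]
      rw [comm_sh, h1, map_add]
      abel
    rw [h3]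
    have h4 := sh_mem_MM (c := (n : ℤ) * k) (Psi_X_pow_mem (p := p) s f')
    have e : -((n : ℤ) * s) + (n : ℤ) * k = n * (k - s) := by ring
    rwa [e] at h4

/-! ### The element of `U` with a given matrix -/

/-- residue of `- i` -/
def av (hn : 0 < n) (i : ℤ) : Fin n :=
  ⟨((-i) % n).toNat, by
    have h1 : (0 : ℤ) < n := by exact_mod_cast hn
    have h2 := Int.emod_lt_of_pos (-i) h1
    have h3 := Int.emod_nonneg (-i) h1.ne'
    omega⟩

/-- the quotient -/
def qv (n : ℕ) (i : ℤ) : ℤ := -((-i) / n)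

theorem av_qv (hn : 0 < n) (i : ℤ) : -((av hn i : ℕ) : ℤ) + n * qv n i = i := by
  have h1 : (0 : ℤ) < n := by exact_mod_cast hn
  have h3 := Int.emod_nonneg (-i) h1.ne'
  have h4 := Int.emod_add_mul_ediv (-i) n
  have h5 : ((av hn i : ℕ) : ℤ) = (-i) % n := Int.toNat_of_nonneg h3
  rw [h5, qv]
  have e : (n : ℤ) * -(-i / n) = -(n * (-i / n)) := by ring
  rw [e]
  omega

/-- the linear map with the matrix `M` -/
noncomputable def GG (hn : 0 < n) (M : Mt p n) : VV (ZMod p) →ₗ[ZMod p] VV (ZMod p) :=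
  Finsupp.linearCombination (ZMod p) fun i : ℤ =>
    sh (ZMod p) ((n : ℤ) * qv n i) (Psi p n (M *ᵥ Pi.single (av hn i) 1))

theorem uniq_aq (hn : 0 < n) {a : Fin n} {q i : ℤ} (h : -((a : ℕ) : ℤ) + n * q = i) :
    av hn i = a ∧ qv n i = q := by
  have h1 := av_qv hn i
  have hn' : (0 : ℤ) < n := by exact_mod_cast hn
  have h2 : (n : ℤ) * (qv n i - q) = ((av hn i : ℕ) : ℤ) - ((a : ℕ) : ℤ) := by
    have : (n : ℤ) * (qv n i - q) = n * qv n i - n * q := by ring
    omega
  have h3 : ((av hn i : ℕ) : ℤ) < n := by exact_mod_cast (av hn i).2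
  have h4 : ((a : ℕ) : ℤ) < n := by exact_mod_cast a.2
  have h5 : (0 : ℤ) ≤ ((av hn i : ℕ) : ℤ) := by positivity
  have h6 : (0 : ℤ) ≤ ((a : ℕ) : ℤ) := by positivity
  have h7 : qv n i - q = 0 := by
    by_contra hne
    rcases lt_or_gt_of_ne hne with hlt | hgt
    · have : (n : ℤ) * (qv n i - q) ≤ n * (-1) := mul_le_mul_of_nonneg_left (by omega) hn'.le
      omega
    · have : (n : ℤ) * 1 ≤ n * (qv n i - q) := mul_le_mul_of_nonneg_left (by omega) hn'.le
      omega
  refine ⟨Fin.ext ?_, by omega⟩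
  rw [h7, mul_zero] at h2
  omega

/-- the map on a shift of an element of `M_0` -/
theorem GG_rep (hn : 0 < n) (M : Mt p n) (m : ℤ) (f : Fin n → (ZMod p)[X]) :
    GG hn M (sh (ZMod p) ((n : ℤ) * m) (Psi p n f)) =
      sh (ZMod p) ((n : ℤ) * m) (Psi p n (M *ᵥ f)) := by
  refine vec_induction (P := fun f => GG hn M (sh (ZMod p) ((n : ℤ) * m) (Psi p n f)) =
      sh (ZMod p) ((n : ℤ) * m) (Psi p n (M *ᵥ f))) ?_ ?_ ?_ f
  · show GG hn M (sh (ZMod p) ((n : ℤ) * m) (Psi p n 0)) =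
      sh (ZMod p) ((n : ℤ) * m) (Psi p n (M *ᵥ 0))
    simp only [mulVec_zero, map_zero]
  · intro a b ha hb
    show GG hn M (sh (ZMod p) ((n : ℤ) * m) (Psi p n (a + b))) =
      sh (ZMod p) ((n : ℤ) * m) (Psi p n (M *ᵥ (a + b)))
    rw [mulVec_add]
    simp only [map_add, ha, hb]
  · intro a k c
    show GG hn M (sh (ZMod p) ((n : ℤ) * m) (Psi p n (Pi.single a (monomial k c)))) =
      sh (ZMod p) ((n : ℤ) * m) (Psi p n (M *ᵥ Pi.single a (monomial k c)))
    rw [Psi_single, sh_single, GG, Finsupp.linearCombination_single]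
    obtain ⟨h1, h2⟩ := uniq_aq hn (a := a) (q := m - k) (i := ix n a k + n * m) (by
      unfold ix
      ring)
    have e : (Pi.single a (monomial k c) : Fin n → (ZMod p)[X]) =
        c • (((X : (ZMod p)[X]) ^ k) • Pi.single a 1) := by
      rw [← Pi.single_smul, ← Pi.single_smul, smul_eq_mul, mul_one, smul_eq_C_mul,
        C_mul_X_pow_eq_monomial]
    rw [h1, h2, e, mulVec_smul, mulVec_smul, map_smul, map_smul, Psi_X_pow, sh_sh]
    congr 2
    ring_nf

theorem GG_comm (hn : 0 < n) (M : Mt p n) (v : VV (ZMod p)) :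
    GG hn M (sh (ZMod p) n v) = sh (ZMod p) n (GG hn M v) := by
  obtain ⟨m, f, rfl⟩ := exists_rep hn v
  rw [GG_rep, sh_sh, sh_sh]
  have e : (n : ℤ) * m + n = n * (m + 1) := by ring
  rw [e, GG_rep]

theorem GG_mul (hn : 0 < n) (M N : Mt p n) (v : VV (ZMod p)) :
    GG hn M (GG hn N v) = GG hn (M * N) v := by
  obtain ⟨m, f, rfl⟩ := exists_rep hn v
  rw [GG_rep, GG_rep, GG_rep, mulVec_mulVec]

theorem GG_one (hn : 0 < n) (v : VV (ZMod p)) : GG hn (1 : Mt p n) v = v := by
  obtain ⟨m, f, rfl⟩ := exists_rep hn v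
  rw [GG_rep, one_mulVec]

theorem exists_UU (hn : 0 < n) {s : ℕ} (hs : 1 ≤ s) (M : Mt p n) (hM : Cg s M 1)
    (hd : M.det = 1) : ∃ g : UU (ZMod p) n, rho hn g = M := by
  have h1 : M * M.adjugate = 1 := by rw [mul_adjugate, hd, one_smul]
  have h2 : M.adjugate * M = 1 := by rw [adjugate_mul, hd, one_smul]
  let e : VV (ZMod p) ≃ₗ[ZMod p] VV (ZMod p) :=
    LinearEquiv.ofLinearMap (GG hn M) (GG hn M.adjugate)
      (by
        apply LinearMap.ext
        intro v
        rw [LinearMap.comp_apply, GG_mul, h1, GG_one, LinearMap.id_apply])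
      (by
        apply LinearMap.ext
        intro v
        rw [LinearMap.comp_apply, GG_mul, h2, GG_one, LinearMap.id_apply])
  have he : ∀ v, e v = GG hn M v := fun v => rfl
  have hmem : e ∈ UU (ZMod p) n := by
    refine ⟨fun x => ?_, fun j x hx => ?_⟩
    · rw [he, he, GG_comm]
    · refine MM_induction (P := fun x => e x - x ∈ MM (ZMod p) (j - 1)) ?_ ?_ ?_ hx
      · show e 0 - 0 ∈ _
        rw [map_zero, sub_zero]
        exact zero_mem _
      · intro a b ha hb
        show e (a + b) - (a + b) ∈ _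
        have : e (a + b) - (a + b) = (e a - a) + (e b - b) := by
          rw [map_add]
          abel
        rw [this]
        exact add_mem ha hb
      · intro i hi c
        show e (Finsupp.single i c) - Finsupp.single i c ∈ _
        have h3 := av_qv hn i
        have h4 : (Finsupp.single i c : VV (ZMod p)) = sh (ZMod p) ((n : ℤ) * qv n i)
            (Psi p n (Pi.single (av hn i) (monomial 0 c))) := by
          rw [Psi_single, sh_single]
          congr 1
          unfold ix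
          push_cast
          omega
        rw [h4, he, GG_rep]
        obtain ⟨f', hf'⟩ := (cg_iff s M).mp hM (Pi.single (av hn i) (monomial 0 c))
        rw [hf', map_add, map_add, add_sub_cancel_left]
        have h5 := sh_mem_MM (c := (n : ℤ) * qv n i) (Psi_X_pow_mem (p := p) s f')
        refine MM_mono ?_ h5
        have h6 : ((av hn i : ℕ) : ℤ) < n := by exact_mod_cast (av hn i).2
        have h7 : (n : ℤ) * 1 ≤ n * s := mul_le_mul_of_nonneg_left (by exact_mod_cast hs)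
          (by positivity)
        omega
  refine ⟨⟨e, hmem⟩, ?_⟩
  apply Matrix.toLin'.injective
  apply LinearMap.ext
  intro f
  rw [toLin'_apply, toLin'_apply, rho_mulVec]
  show Phi p n (GG hn M (Psi p n f)) = _
  have h3 := GG_rep hn M 0 f
  rw [mul_zero, sh_zero, sh_zero] at h3
  rw [h3, Phi_Psi]

/-- **`Γ_s` is a congruence subgroup.** -/
theorem isCong (hn : 0 < n) {s : ℕ} (hs : 1 ≤ s) :
    IsCong ((rho (p := p) hn).comp (Gam (ZMod p) n s).subtype) s where
  inj := (rho_injective hn).comp (Subgroup.subtype_injective _)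
  cong g := (mem_Gam_iff hn s _).mp g.2
  surj M hM hd := by
    obtain ⟨g, hg⟩ := exists_UU hn hs M hM hd
    exact ⟨⟨g, (mem_Gam_iff hn s g).mpr (by rw [hg]; exact hM)⟩, hg⟩

end Vale.Agent.P067.Br
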