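import Mathlib

/-!
# P067: the join of nonempty discrete sets is acyclic below the top size

Vertices `X` with types `ty : X → ι`; faces are the finite sets with at most one vertex of every
type; chains `Finset X →₀ k`, characteristic two.
-/

open Finsupp

namespace Vale.Agent.P067.Jn

set_option linter.unusedSectionVars false

variable {k : Type*} [Field k] {X ι : Type*} [DecidableEq X] [DecidableEq ι]

/-- the boundary -/
noncomputable def bd (k : Type*) [Field k] {X : Type*} [DecidableEq X] :
    (Finset X →₀ k) →ₗ[k] (Finset X →₀ k) :=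
  Finsupp.linearCombination k fun s : Finset X => ∑ x ∈ s, single (s.erase x) (1 : k)

lemma bd_single (s : Finset X) : bd k (single s (1 : k)) = ∑ x ∈ s, single (s.erase x) (1 : k) := by
  simp [bd]

/-- faces of size `a` whose types contain `T` -/
def fc (ty : X → ι) (a : ℕ) (T : Finset ι) : Set (Finset X) :=
  {s | Set.InjOn ty (s : Set X) ∧ s.card = a ∧ T ⊆ s.image ty}

/-- insertion of the vertex `p` in the faces without a vertex of the type of `p` -/
noncomputable def ins (k : Type*) [Field k] (ty : X → ι) (p : X) :
    (Finset X →₀ k) →ₗ[k] (Finset X →₀ k) :=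
  Finsupp.linearCombination k fun s : Finset X =>
    if ty p ∈ s.image ty then 0 else single (insert p s) (1 : k)

lemma ins_single_of_mem {ty : X → ι} {p : X} {s : Finset X} (h : ty p ∈ s.image ty) :
    ins k ty p (single s (1 : k)) = 0 := by
  simp only [ins, linearCombination_single, if_pos h, smul_zero]

lemma ins_single_of_notMem {ty : X → ι} {p : X} {s : Finset X} (h : ty p ∉ s.image ty) :
    ins k ty p (single s (1 : k)) = single (insert p s) (1 : k) := by
  simp only [ins, linearCombination_single, if_neg h, one_smul]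

lemma injOn_insert {ty : X → ι} {p : X} {s : Finset X} (hs : Set.InjOn ty (s : Set X))
    (h : ty p ∉ s.image ty) : Set.InjOn ty ((insert p s : Finset X) : Set X) := by
  intro x hx y hy hxy
  rw [Finset.mem_coe, Finset.mem_insert] at hx hy
  rcases hx with rfl | hx <;> rcases hy with rfl | hy
  · rfl
  · exact absurd (Finset.mem_image.mpr ⟨y, hy, hxy.symm⟩) h
  · exact absurd (Finset.mem_image.mpr ⟨x, hx, hxy⟩) h
  · exact hs hx hy hxy

lemma single_mem {a : ℕ} {T : Finset ι} {ty : X → ι} {s : Finset X} (hs : s ∈ fc ty a T) :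
    single s (1 : k) ∈ supported k k (fc ty a T) :=
  Finsupp.single_mem_supported k _ hs

lemma char2 [CharP k 2] (c : Finset X →₀ k) : c + c = 0 := by
  ext s
  simp only [Finsupp.add_apply, Finsupp.zero_apply]
  exact CharTwo.add_self_eq_zero _

/-- the homotopy formula, with supports -/
lemma homotopy [CharP k 2] {ty : X → ι} {a : ℕ} {T : Finset ι} (p : X) {s : Finset X}
    (hs : s ∈ fc ty a T) :
    single s (1 : k) + bd k (ins k ty p (single s 1)) + ins k ty p (bd k (single s 1)) ∈
      supported k k (fc ty a (insert (ty p) T)) := by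
  obtain ⟨h1, h2, h3⟩ := hs
  by_cases hp : ty p ∈ s.image ty
  · obtain ⟨v, hv, hvp⟩ := Finset.mem_image.mp hp
    rw [ins_single_of_mem hp, map_zero, add_zero, bd_single, map_sum]
    have hz : ∀ x ∈ s, x ≠ v → ins k ty p (single (s.erase x) (1 : k)) = 0 := by
      intro x _ hxv
      apply ins_single_of_mem
      exact Finset.mem_image.mpr ⟨v, Finset.mem_erase.mpr ⟨hxv.symm, hv⟩, hvp⟩
    rw [Finset.sum_eq_single v hz (fun h => absurd hv h)]
    have hnot : ty p ∉ (s.erase v).image ty := by
      intro hc
      obtain ⟨w, hw, hwp⟩ := Finset.mem_image.mp hc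
      obtain ⟨hw1, hw2⟩ := Finset.mem_erase.mp hw
      exact hw1 (h1 hw2 hv (hwp.trans hvp.symm))
    rw [ins_single_of_notMem hnot]
    refine add_mem (single_mem ⟨h1, h2, ?_⟩) (single_mem ⟨?_, ?_, ?_⟩)
    · intro j hj
      rcases Finset.mem_insert.mp hj with rfl | hj
      · exact hp
      · exact h3 hj
    · exact injOn_insert (h1.mono (by
        intro x hx
        exact (Finset.mem_erase.mp hx).2)) hnot
    · have hpn : p ∉ s.erase v := fun hc => hnot (Finset.mem_image.mpr ⟨p, hc, rfl⟩)
      rw [Finset.card_insert_of_notMem hpn, Finset.card_erase_of_mem hv, h2]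
      have : 0 < s.card := Finset.card_pos.mpr ⟨v, hv⟩
      omega
    · intro j hj
      rcases Finset.mem_insert.mp hj with rfl | hj
      · exact Finset.mem_image.mpr ⟨p, Finset.mem_insert_self _ _, rfl⟩
      · obtain ⟨w, hw, rfl⟩ := Finset.mem_image.mp (h3 hj)
        by_cases hwv : w = v
        · subst hwv
          rw [hvp]
          exact Finset.mem_image.mpr ⟨p, Finset.mem_insert_self _ _, rfl⟩
        · exact Finset.mem_image.mpr
            ⟨w, Finset.mem_insert_of_mem (Finset.mem_erase.mpr ⟨hwv, hw⟩), rfl⟩
  · have hps : p ∉ s := fun hc => hp (Finset.mem_image.mpr ⟨p, hc, rfl⟩)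
    rw [ins_single_of_notMem hp, bd_single, bd_single, map_sum, Finset.sum_insert hps,
      Finset.erase_insert hps]
    have e : ∑ x ∈ s, ins k ty p (single (s.erase x) (1 : k)) =
        ∑ x ∈ s, single ((insert p s).erase x) (1 : k) := by
      refine Finset.sum_congr rfl fun x hx => ?_
      have hn : ty p ∉ (s.erase x).image ty := fun hc =>
        hp (Finset.image_subset_image (Finset.erase_subset _ _) hc)
      rw [ins_single_of_notMem hn, Finset.erase_insert_of_ne (fun h => hps (by rw [h]; exact hx))]
    rw [e]
    have : single s (1 : k) + (single s (1 : k) + ∑ x ∈ s, single ((insert p s).erase x) (1 : k)) +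
        ∑ x ∈ s, single ((insert p s).erase x) (1 : k) = 0 := by
      have h4 := char2 (k := k) (single s (1 : k))
      have h5 := char2 (k := k) (∑ x ∈ s, single ((insert p s).erase x) (1 : k))
      calc _ = (single s (1 : k) + single s (1 : k)) +
          (∑ x ∈ s, single ((insert p s).erase x) (1 : k) +
            ∑ x ∈ s, single ((insert p s).erase x) (1 : k)) := by abel
        _ = 0 := by rw [h4, h5, add_zero]
    rw [this]
    exact zero_mem _

lemma supported_induction {S : Set (Finset X)} {c : Finset X →₀ k} (hc : c ∈ supported k k S)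
    {P : (Finset X →₀ k) → Prop} (h0 : P 0) (hadd : ∀ a b, P a → P b → P (a + b))
    (hsmul : ∀ (r : k) a, P a → P (r • a)) (hs : ∀ s ∈ S, P (single s 1)) : P c := by
  rw [Finsupp.supported_eq_span_single] at hc
  induction hc using Submodule.span_induction with
  | mem c h =>
    obtain ⟨s, hs', rfl⟩ := h
    exact hs s hs'
  | zero => exact h0
  | add a b _ _ ha hb => exact hadd a b ha hb
  | smul a b _ hb => exact hsmul a b hb

lemma ins_supported {ty : X → ι} {a : ℕ} {T : Finset ι} (p : X) {c : Finset X →₀ k}
    (hc : c ∈ supported k k (fc ty a T)) : ins k ty p c ∈ supported k k (fc ty (a + 1) ∅) := by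
  refine supported_induction hc (P := fun c => ins k ty p c ∈ supported k k (fc ty (a + 1) ∅))
    (by simp) (fun a b ha hb => ?_) (fun r a ha => ?_) (fun s hs => ?_)
  · show ins k ty p (a + b) ∈ _
    rw [map_add]; exact add_mem ha hb
  · show ins k ty p (r • a) ∈ _
    rw [map_smul]; exact Submodule.smul_mem _ _ ha
  · by_cases hp : ty p ∈ s.image ty
    · rw [ins_single_of_mem hp]
      exact zero_mem _
    · rw [ins_single_of_notMem hp]
      obtain ⟨h1, h2, _⟩ := hs
      refine single_mem ⟨injOn_insert h1 hp, ?_, Finset.empty_subset _⟩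
      rw [Finset.card_insert_of_notMem (fun hc => hp (Finset.mem_image.mpr ⟨p, hc, rfl⟩)), h2]

lemma homotopy' [CharP k 2] {ty : X → ι} {a : ℕ} {T : Finset ι} (p : X) {c : Finset X →₀ k}
    (hc : c ∈ supported k k (fc ty a T)) :
    c + bd k (ins k ty p c) + ins k ty p (bd k c) ∈
      supported k k (fc ty a (insert (ty p) T)) := by
  refine supported_induction hc (P := fun c => c + bd k (ins k ty p c) + ins k ty p (bd k c) ∈
    supported k k (fc ty a (insert (ty p) T))) (by simp) (fun a b ha hb => ?_)
    (fun r a ha => ?_) (fun s hs => homotopy p hs)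
  · have : (a + b) + bd k (ins k ty p (a + b)) + ins k ty p (bd k (a + b)) =
        (a + bd k (ins k ty p a) + ins k ty p (bd k a)) +
          (b + bd k (ins k ty p b) + ins k ty p (bd k b)) := by
      simp only [map_add]
      abel
    show _ ∈ _
    rw [this]
    exact add_mem ha hb
  · have : (r • a) + bd k (ins k ty p (r • a)) + ins k ty p (bd k (r • a)) =
        r • (a + bd k (ins k ty p a) + ins k ty p (bd k a)) := by
      simp only [map_smul, smul_add]
    show _ ∈ _
    rw [this]
    exact Submodule.smul_mem _ _ ha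

/-- boundary of a boundary -/
lemma bd_bd [CharP k 2] (c : Finset X →₀ k) : bd k (bd k c) = 0 := by
  induction c using Finsupp.induction_linear with
  | zero => simp
  | add a b ha hb => simp [ha, hb]
  | single s a =>
    have : single s a = a • single s (1 : k) := by simp
    rw [this, map_smul, map_smul, bd_single, map_sum]
    have h1 : ∑ x ∈ s, bd k (single (s.erase x) (1 : k)) =
        ∑ x ∈ s, ∑ y ∈ s.erase x, single ((s.erase x).erase y) (1 : k) :=
      Finset.sum_congr rfl fun x _ => bd_single _
    rw [h1, Finset.sum_sigma']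
    have h2 : ∑ z ∈ s.sigma fun x => s.erase x, single ((s.erase z.1).erase z.2) (1 : k) = 0 := by
      refine Finset.sum_involution (fun z _ => (⟨z.2, z.1⟩ : (_ : X) × X)) ?_ ?_ ?_ ?_
      · rintro ⟨x, y⟩ _
        have : (s.erase y).erase x = (s.erase x).erase y := Finset.erase_right_comm
        simp only [this]
        exact char2 _
      · rintro ⟨x, y⟩ hz _ hc
        rw [Finset.mem_sigma] at hz
        have : y = x := congrArg Sigma.fst hc
        exact (Finset.mem_erase.mp hz.2).1 this
      · rintro ⟨x, y⟩ hz
        rw [Finset.mem_sigma] at hz ⊢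
        obtain ⟨h3, h4⟩ := hz
        obtain ⟨h5, h6⟩ := Finset.mem_erase.mp h4
        exact ⟨h6, Finset.mem_erase.mpr ⟨fun h => h5 h.symm, h3⟩⟩
      · rintro ⟨x, y⟩ _
        rfl
    rw [h2, smul_zero]

/-- **The join is acyclic below the top size.** -/
theorem join_exact [CharP k 2] [Fintype ι] (ty : X → ι) (hty : Function.Surjective ty) (a : ℕ)
    (ha : a < Fintype.card ι) (c : Finset X →₀ k)
    (hc : c ∈ supported k k {s : Finset X | Set.InjOn ty (s : Set X) ∧ s.card = a})
    (hd : bd k c = 0) :
    ∃ e ∈ supported k k {s : Finset X | Set.InjOn ty (s : Set X) ∧ s.card = a + 1},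
      bd k e = c := by
  have key : ∀ T : Finset ι, ∃ e ∈ supported k k (fc ty (a + 1) ∅),
      c + bd k e ∈ supported k k (fc ty a T) := by
    intro T
    induction T using Finset.induction_on with
    | empty =>
      refine ⟨0, zero_mem _, ?_⟩
      rw [map_zero, add_zero]
      refine Finsupp.supported_mono ?_ hc
      rintro s ⟨h1, h2⟩
      exact ⟨h1, h2, Finset.empty_subset _⟩
    | insert i T _ ih =>
      obtain ⟨e, he, hce⟩ := ih
      obtain ⟨p, rfl⟩ := hty i
      have h1 := homotopy' p hce
      have h2 : bd k (c + bd k e) = 0 := by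
        rw [map_add, hd, bd_bd, add_zero]
      rw [h2, map_zero, add_zero] at h1
      refine ⟨e + ins k ty p (c + bd k e), add_mem he (ins_supported p hce), ?_⟩
      rw [map_add, ← add_assoc]
      exact h1
  obtain ⟨e, he, hce⟩ := key Finset.univ
  have hempty : fc ty a (Finset.univ : Finset ι) = ∅ := by
    ext s
    simp only [fc, Set.mem_ofPred_eq, Set.mem_empty_iff_false, iff_false, not_and]
    intro _ h2 h3
    have h4 := Finset.card_le_card h3
    have h5 : (s.image ty).card ≤ s.card := Finset.card_image_le
    rw [Finset.card_univ] at h4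
    omega
  rw [hempty, Finsupp.supported_empty, Submodule.mem_bot] at hce
  refine ⟨e, Finsupp.supported_mono ?_ he, ?_⟩
  · rintro s ⟨h1, h2, _⟩
    exact ⟨h1, h2⟩
  · have h6 := char2 (k := k) (bd k e)
    calc bd k e = (c + bd k e) + c + (- (c + c)) + (0 : Finset X →₀ k) := by abel
      _ = c := by rw [hce, char2 (k := k) c]; simp

end Vale.Agent.P067.Jn
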