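import Vale.Agent.P067.Twist

/-!
# Character decomposition

If `N` is normal in `G` with finite commutative quotient of invertible order and `k` has enough
roots of unity, then exactness modulo `tw χ ⊤` for all characters `χ` of `G` trivial on `N`
implies exactness modulo `tw 1 N`.
-/

open Finsupp

namespace Vale.Agent.P067.Tw

variable {k : Type*} [Field k] {G : Type*} [Group G] {X : Type*} [MulAction G X]

/-- Orthogonality of characters. -/
lemma sum_char {A : Type*} [CommGroup A] [Finite A] [Fintype (A →* kˣ)]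
    [HasEnoughRootsOfUnity k (Monoid.exponent A)] [DecidableEq A] (a : A) :
    ∑ φ : A →* kˣ, ((φ a : kˣ) : k) = if a = 1 then (Nat.card A : k) else 0 := by
  split_ifs with h
  · subst h
    simp only [map_one, Units.val_one, Finset.sum_const, Finset.card_univ, nsmul_eq_mul, mul_one]
    rw [← Nat.card_eq_fintype_card, CommGroup.card_monoidHom_of_hasEnoughRootsOfUnity]
  · obtain ⟨φ0, hφ0⟩ := CommGroup.exists_apply_ne_one_of_hasEnoughRootsOfUnity A k h
    have h1 : ((φ0 a : kˣ) : k) * ∑ φ : A →* kˣ, ((φ a : kˣ) : k)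
        = ∑ φ : A →* kˣ, ((φ a : kˣ) : k) := by
      rw [Finset.mul_sum]
      refine Fintype.sum_equiv (Equiv.mulLeft φ0) _ _ fun φ => ?_
      simp
    have h2 : (((φ0 a : kˣ) : k) - 1) * ∑ φ : A →* kˣ, ((φ a : kˣ) : k) = 0 := by
      rw [sub_mul, one_mul, h1, sub_self]
    rcases mul_eq_zero.1 h2 with h3 | h3
    · exact absurd (Units.ext (by rw [Units.val_one]; exact sub_eq_zero.1 h3)) hφ0
    · exact h3

/-- **Character decomposition.** -/
theorem Ex.characters (N : Subgroup G) [N.Normal] [Finite (G ⧸ N)]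
    (hcomm : ∀ a b : G ⧸ N, a * b = b * a) (hcard : (Nat.card (G ⧸ N) : k) ≠ 0)
    [HasEnoughRootsOfUnity k (Monoid.exponent (G ⧸ N))]
    {d : (X →₀ k) →ₗ[k] (X →₀ k)} (hd : ∀ (g : G) c, d (act k g c) = act k g (d c))
    {S T : Set X} (hT : ∀ (g : G), ∀ x ∈ T, g • x ∈ T)
    (h : ∀ χ : G →* k, (∀ g ∈ N, χ g = 1) → Ex χ (⊤ : Subgroup G) d S T) :
    Ex (1 : G →* k) N d S T := by
  classical
  let _ : CommGroup (G ⧸ N) := { (inferInstance : Group (G ⧸ N)) with mul_comm := hcomm }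
  have hfinA : Fintype (G ⧸ N) := Fintype.ofFinite _
  have hfin : Finite ((G ⧸ N) →* kˣ) := by
    have := CommGroup.card_monoidHom_of_hasEnoughRootsOfUnity (G ⧸ N) k
    refine Nat.finite_of_card_ne_zero ?_
    rw [this]; exact Nat.card_ne_zero.2 ⟨⟨1⟩, inferInstance⟩
  have hfinφ : Fintype ((G ⧸ N) →* kˣ) := Fintype.ofFinite _
  let X' : ((G ⧸ N) →* kˣ) → (G →* k) := fun φ =>
    (Units.coeHom k).comp (φ.comp (QuotientGroup.mk' N))
  have hX'1 : ∀ φ g, X' φ g = ((φ (g : G ⧸ N) : kˣ) : k) := fun φ g => rfl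
  intro c hc hdc
  have hmono : ∀ (φ : (G ⧸ N) →* kˣ) (u : X →₀ k), u ∈ tw (1 : G →* k) N →
      u ∈ tw (X' φ) (⊤ : Subgroup G) := by
    intro φ u hu
    induction hu using Submodule.span_induction with
    | mem u hu =>
      obtain ⟨g, hg, x, rfl⟩ := hu
      have h1 : X' φ g = 1 := by
        rw [hX'1, (QuotientGroup.eq_one_iff g).2 hg, map_one, Units.val_one]
      have := tw_gen (X' φ) (Subgroup.mem_top g) x
      rw [h1] at this
      simpa using this
    | zero => exact zero_mem _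
    | add a b _ _ ha hb => exact add_mem ha hb
    | smul a b _ hb => exact Submodule.smul_mem _ _ hb
  have hfill : ∀ φ : (G ⧸ N) →* kˣ, ∃ e ∈ supported k k T, c - d e ∈ tw (X' φ) (⊤ : Subgroup G) :=
    fun φ => h (X' φ) (fun g hg => by
      rw [hX'1, (QuotientGroup.eq_one_iff g).2 hg, map_one, Units.val_one]) c hc (hmono φ _ hdc)
  choose e he hce using hfill
  let P : ((G ⧸ N) →* kˣ) → (X →₀ k) →ₗ[k] (X →₀ k) := fun φ =>
    (Nat.card (G ⧸ N) : k)⁻¹ • ∑ a : G ⧸ N, ((φ a : kˣ) : k) • act k a.out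
  have hP : ∀ φ u, P φ u = (Nat.card (G ⧸ N) : k)⁻¹ •
      ∑ a : G ⧸ N, ((φ a : kˣ) : k) • act k a.out u := fun φ u => by simp [P]
  have hPd : ∀ φ u, d (P φ u) = P φ (d u) := fun φ u => by
    rw [hP, hP, map_smul, map_sum]
    congr 1
    exact Finset.sum_congr rfl fun a _ => by rw [map_smul, hd]
  have hPT : ∀ φ u, u ∈ supported k k T → P φ u ∈ supported k k T := fun φ u hu => by
    rw [hP]
    exact Submodule.smul_mem _ _ (Submodule.sum_mem _ fun a _ =>
      Submodule.smul_mem _ _ (act_supported (hT _) hu))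
  have hPtw : ∀ φ u, u ∈ tw (X' φ) (⊤ : Subgroup G) → P φ u ∈ tw (1 : G →* k) N := by
    intro φ u hu
    induction hu using Submodule.span_induction with
    | mem u hu =>
      obtain ⟨g, -, x, rfl⟩ := hu
      rw [hP]
      refine Submodule.smul_mem _ _ ?_
      have e1 : ∑ a : G ⧸ N, ((φ a : kˣ) : k) • act k a.out
            (X' φ g • single (g • x) 1 - single x (1 : k))
          = ∑ a : G ⧸ N, ((φ (a * (g : G ⧸ N)) : kˣ) : k) •
            (single (a.out • g • x) 1 - single ((a * (g : G ⧸ N)).out • x) (1 : k)) := by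
        simp only [map_sub, map_smul, act_single, smul_sub, Finset.sum_sub_distrib]
        congr 1
        · refine Finset.sum_congr rfl fun a _ => ?_
          rw [hX'1, smul_smul, map_mul, Units.val_mul]
        · exact (Fintype.sum_equiv (Equiv.mulRight (g : G ⧸ N)) _ _ fun a => rfl).symm
      rw [e1]
      refine Submodule.sum_mem _ fun a _ => Submodule.smul_mem _ _ ?_
      set b : G := (a * (g : G ⧸ N)).out with hb
      have hbn : a.out * g * b⁻¹ ∈ N := by
        rw [← QuotientGroup.eq_one_iff]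
        simp [hb]
      have h2 := tw_gen (1 : G →* k) hbn (b • x)
      have h3 : (a.out * g * b⁻¹) • b • x = a.out • g • x := by
        rw [smul_smul, smul_smul]; simp [mul_assoc]
      rw [h3, MonoidHom.one_apply, one_smul] at h2
      exact h2
    | zero => simp
    | add a b _ _ ha hb => rw [map_add]; exact add_mem ha hb
    | smul a b _ hb => rw [map_smul]; exact Submodule.smul_mem _ _ hb
  have hPsum : c - ∑ φ, P φ c ∈ tw (1 : G →* k) N := by
    have e1 : ∑ φ, P φ c = act k (1 : G ⧸ N).out c := by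
      simp only [hP, ← Finset.smul_sum]
      rw [Finset.sum_comm]
      simp only [← Finset.sum_smul, sum_char]
      rw [Finset.sum_eq_single (1 : G ⧸ N)]
      · rw [if_pos rfl, smul_smul, inv_mul_cancel₀ hcard, one_smul]
      · intro a _ ha
        rw [if_neg ha, zero_smul]
      · simp
    rw [e1]
    have h2 : (1 : G ⧸ N).out ∈ N := by
      rw [← QuotientGroup.eq_one_iff]; simp
    have h3 := tw_mem (1 : G →* k) h2 c
    rw [MonoidHom.one_apply, one_smul] at h3
    have := neg_mem h3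
    rwa [neg_sub] at this
  refine ⟨∑ φ, P φ (e φ), Submodule.sum_mem _ fun φ _ => hPT φ _ (he φ), ?_⟩
  have : c - d (∑ φ, P φ (e φ)) = (c - ∑ φ, P φ c) + ∑ φ, P φ (c - d (e φ)) := by
    simp only [map_sum, hPd, map_sub, Finset.sum_sub_distrib]
    abel
  rw [this]
  exact add_mem hPsum (Submodule.sum_mem _ fun φ _ => hPtw φ _ (hce φ))

/-! ### Subgroups as ambient groups -/

lemma act_subgroup (Γ : Subgroup G) (g : Γ) (c : X →₀ k) : act k g c = act k (g : G) c := rfl

/-- Untwisted differences for a subgroup of `Γ`, computed inside `Γ`. -/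
lemma tw_one_subgroupOf {Γ H : Subgroup G} (hH : H ≤ Γ) :
    (tw (1 : Γ →* k) (H.subgroupOf Γ) : Submodule k (X →₀ k)) = tw (1 : G →* k) H := by
  refine le_antisymm (Submodule.span_mono ?_) (Submodule.span_mono ?_)
  · rintro c ⟨g, hg, x, rfl⟩
    exact ⟨g, Subgroup.mem_subgroupOf.1 hg, x, rfl⟩
  · rintro c ⟨g, hg, x, rfl⟩
    exact ⟨⟨g, hH hg⟩, Subgroup.mem_subgroupOf.2 hg, x, rfl⟩

lemma tw_one_top (Γ : Subgroup G) :
    (tw (1 : Γ →* k) (⊤ : Subgroup Γ) : Submodule k (X →₀ k)) = tw (1 : G →* k) Γ := by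
  rw [← Subgroup.subgroupOf_self, tw_one_subgroupOf le_rfl]

/-- **The step** `Γ → Γ'`: exactness for the coinvariants of `Γ'` from exactness for `Γ` and for
all nontrivial characters of `Γ / Γ'`. -/
theorem Ex.step (Γ Γ' : Subgroup G) (hΓ : Γ' ≤ Γ) [hn : (Γ'.subgroupOf Γ).Normal]
    [Finite (Γ ⧸ Γ'.subgroupOf Γ)] (hcomm : ∀ a b : Γ ⧸ Γ'.subgroupOf Γ, a * b = b * a)
    (hcard : (Nat.card (Γ ⧸ Γ'.subgroupOf Γ) : k) ≠ 0)
    [HasEnoughRootsOfUnity k (Monoid.exponent (Γ ⧸ Γ'.subgroupOf Γ))]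
    {d : (X →₀ k) →ₗ[k] (X →₀ k)} (hd : ∀ (g : G) c, d (act k g c) = act k g (d c))
    {S T : Set X} (hT : ∀ (g : G), ∀ x ∈ T, g • x ∈ T)
    (h1 : Ex (1 : G →* k) Γ d S T)
    (h2 : ∀ χ : Γ →* k, (∀ g : Γ, (g : G) ∈ Γ' → χ g = 1) → (∃ g, χ g ≠ 1) →
      Ex χ (⊤ : Subgroup Γ) d S T) :
    Ex (1 : G →* k) Γ' d S T := by
  have key := Ex.characters (k := k) (G := Γ) (X := X) (Γ'.subgroupOf Γ) hcomm hcard
    (d := d) (fun g c => hd g c) (S := S) (T := T) (fun g x hx => hT g x hx) ?_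
  · intro c hc hdc
    have := key c hc (by rw [tw_one_subgroupOf hΓ]; exact hdc)
    rwa [tw_one_subgroupOf hΓ] at this
  · intro χ hχ
    by_cases hne : ∃ g, χ g ≠ 1
    · exact h2 χ (fun g hg => hχ g (Subgroup.mem_subgroupOf.2 hg)) hne
    · have : χ = 1 := by
        ext g
        by_contra h
        exact hne ⟨g, h⟩
      subst this
      intro c hc hdc
      rw [tw_one_top] at hdc ⊢
      exact h1 c hc hdc

end Vale.Agent.P067.Tw
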