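import Vale.Agent.P067.TwistP

/-!
# The zigzag and the vanishing theorem for twisted coinvariants
-/

open Finsupp

namespace Vale.Agent.P067.Tw

variable {k : Type*} [Field k] {G : Type*} [Group G]

section Swap
variable {A B : Type*} [MulAction G A] [MulAction G B]

/-- Exchange of the factors on chains. -/
noncomputable def sw (k : Type*) [Field k] (A B : Type*) : (A × B →₀ k) →ₗ[k] (B × A →₀ k) :=
  Finsupp.lmapDomain k k Prod.swap

lemma sw_single (p : A × B) (r : k) : sw k A B (single p r) = single p.swap r := by simp [sw]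

lemma sw_tp (u : A →₀ k) (v : B →₀ k) : sw k A B (tp u v) = tp v u := by
  induction u using Finsupp.induction_linear with
  | zero => simp
  | add x y hx hy => simp [hx, hy]
  | single a r =>
    have e : (single a r : A →₀ k) = r • single a 1 := by simp
    rw [e, map_smul, map_smul, LinearMap.smul_apply, map_smul, tp_single_right, tp_single_left,
      one_smul]
    congr 1
    induction v using Finsupp.induction_linear with
    | zero => simp
    | add x y hx hy => simp [hx, hy]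
    | single b s => simp [sw_single]

lemma sw_sw (c : A × B →₀ k) : sw k B A (sw k A B c) = c := by
  refine pair_induction (P := fun c => sw k B A (sw k A B c) = c) (by simp)
    (fun a b ha hb => by simp only [map_add, ha, hb])
    (fun a b hb => by simp only [map_smul, hb]) (fun a b => ?_) c
  rw [sw_tp, sw_tp]

lemma sw_act (g : G) (c : A × B →₀ k) : sw k A B (act k g c) = act k g (sw k A B c) := by
  refine pair_induction (P := fun c => sw k A B (act k g c) = act k g (sw k A B c)) (by simp)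
    (fun a b ha hb => by simp only [map_add, ha, hb])
    (fun a b hb => by simp only [map_smul, hb]) (fun a b => ?_) c
  rw [act_tp, sw_tp, sw_tp, act_tp]

lemma sw_opL (d : (A →₀ k) →ₗ[k] (A →₀ k)) (c : A × B →₀ k) :
    sw k A B (opL d c) = opR d (sw k A B c) := by
  refine pair_induction (P := fun c => sw k A B (opL d c) = opR d (sw k A B c)) (by simp)
    (fun a b ha hb => by simp only [map_add, ha, hb])
    (fun a b hb => by simp only [map_smul, hb]) (fun a b => ?_) c
  rw [opL_tp, sw_tp, sw_tp, opR_tp]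

lemma sw_supported {S : Set A} {T : Set B} {c : A × B →₀ k}
    (hc : c ∈ supported k k (S ×ˢ T)) : sw k A B c ∈ supported k k (T ×ˢ S) := by
  refine supp_induction (P := fun c => sw k A B c ∈ supported k k (T ×ˢ S)) (by simp)
    (fun a b ha hb => by simp only [map_add]; exact add_mem ha hb)
    (fun a b hb => by simp only [map_smul]; exact Submodule.smul_mem _ _ hb) ?_ hc
  rintro ⟨a, b⟩ ⟨ha, hb⟩
  rw [sw_single]
  exact Finsupp.single_mem_supported k _ ⟨hb, ha⟩

/-- Shapiro's lemma, left version. -/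
theorem shapiroL (χ : G →* k) {d : (A →₀ k) →ₗ[k] (A →₀ k)}
    (hd : ∀ (g : G) c, d (act k g c) = act k g (d c))
    {S S' : Set A} {T : Set B} (hS : ∀ (g : G), ∀ a ∈ S, g • a ∈ S)
    (hT : ∀ (g : G), ∀ b ∈ T, g • b ∈ T)
    (h : ∀ b ∈ T, Ex χ (MulAction.stabilizer G b) d S S') :
    Ex χ (⊤ : Subgroup G) (opL d) (S ×ˢ T) (S' ×ˢ T) := by
  intro c hc hdc
  obtain ⟨e, he, hce⟩ := shapiroR χ hd hT hS h (sw k A B c) (sw_supported hc) (by
    rw [← sw_opL]; exact map_tw χ _ (fun g _ c => sw_act g c) hdc)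
  refine ⟨sw k B A e, sw_supported he, ?_⟩
  have h1 := map_tw χ (H := (⊤ : Subgroup G)) (sw k B A) (fun g _ c => sw_act g c) hce
  have h2 : sw k B A (opR d e) = opL d (sw k B A e) := by
    have := sw_opL (B := B) d (sw k B A e)
    rw [sw_sw] at this
    rw [← this, sw_sw]
  rwa [map_sub, sw_sw, h2] at h1

end Swap

/-! ### The zigzag -/

/-- Abstract zigzag in a double complex modulo a submodule. -/
theorem zigzag {M : Type*} [AddCommGroup M] [Module k M] (I : Submodule k M)
    (C : ℕ → ℕ → Submodule k M) (e f : M →ₗ[k] M) (he : ∀ x ∈ I, e x ∈ I) (hf : ∀ x ∈ I, f x ∈ I)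
    (hef : ∀ x, e (f x) = f (e x)) (hee : ∀ x, e (e x) = 0) (hff : ∀ x, f (f x) = 0)
    (heC : ∀ a b, ∀ x ∈ C (a + 1) b, e x ∈ C a b) (hfC : ∀ a b, ∀ x ∈ C a (b + 1), f x ∈ C a b)
    (r D : ℕ)
    (hrow : ∀ a ≤ r, ∀ b, 1 ≤ b → ∀ x ∈ C a b, e x ∈ I → ∃ y ∈ C (a + 1) b, x - e y ∈ I)
    (hrow0 : ∀ a, ∀ x ∈ C a 0, x ∈ I)
    (hcol : ∀ a, 1 ≤ a → ∀ b ≤ D, 1 ≤ b → ∀ x ∈ C a b, f x ∈ I → ∃ y ∈ C a (b + 1), x - f y ∈ I)
    (he0 : ∀ b, ∀ x ∈ C 0 b, e x = 0) :
    ∀ b ≤ D, b ≤ r + 1 → ∀ x ∈ C 0 b, f x ∈ I → ∃ y ∈ C 0 (b + 1), x - f y ∈ I := by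
  have key : ∀ b ≤ D, ∀ a, a + b ≤ r + 1 → ∀ u ∈ C a b, e u ∈ I → f u ∈ I →
      ∃ w ∈ C (a + 1) b, u - e w ∈ I ∧ f w ∈ I := by
    intro b
    induction b with
    | zero =>
      intro _ a _ u hu _ _
      exact ⟨0, zero_mem _, by simpa using hrow0 a u hu, by simp⟩
    | succ b ih =>
      intro hb a hab u hu heu hfu
      obtain ⟨w0, hw0, huw⟩ := hrow a (by omega) (b + 1) (by omega) u hu heu
      have h1 : e (f w0) ∈ I := by
        have : e (f w0) = f u - f (u - e w0) := by rw [map_sub, hef]; abel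
        rw [this]; exact sub_mem hfu (hf _ huw)
      obtain ⟨w', hw', h2, h3⟩ := ih (by omega) (a + 1) (by omega) (f w0) (hfC _ _ _ hw0) h1
        (by rw [hff]; exact zero_mem _)
      have h4 : ∃ v ∈ C (a + 1 + 1) (b + 1), w' - f v ∈ I := by
        rcases Nat.eq_zero_or_pos b with rfl | hb0
        · exact ⟨0, zero_mem _, by simpa using hrow0 _ w' hw'⟩
        · exact hcol _ (by omega) b (by omega) hb0 w' hw' h3
      obtain ⟨v, hv, hv'⟩ := h4
      refine ⟨w0 - e v, sub_mem hw0 (heC _ _ _ hv), ?_, ?_⟩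
      · rw [map_sub, hee, sub_zero]; exact huw
      · have : f (w0 - e v) = (f w0 - e w') + e (w' - f v) := by
          rw [map_sub, map_sub, hef]; abel
        rw [this]; exact add_mem h2 (he _ hv')
  intro b hb hbr x hx hfx
  rcases Nat.eq_zero_or_pos b with rfl | hb0
  · exact ⟨0, zero_mem _, by simpa using hrow0 _ x hx⟩
  · obtain ⟨w, hw, h1, h2⟩ := key b hb 0 (by omega) x hx (by rw [he0 b x hx]; exact zero_mem _) hfx
    obtain ⟨v, hv, hv'⟩ := hcol 1 le_rfl b hb hb0 w hw h2
    refine ⟨e v, heC _ _ _ hv, ?_⟩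
    have : x - f (e v) = (x - e w) + e (w - f v) := by
      rw [map_sub, hef]; abel
    rw [this]; exact add_mem h1 (he _ hv')

/-! ### The vanishing theorem -/

section Main
variable {Z Y : Type*} [MulAction G Z] [MulAction G Y]

/-- Forgetting the first factor. -/
noncomputable def prR (k : Type*) [Field k] (Z Y : Type*) : (Z × Y →₀ k) →ₗ[k] (Y →₀ k) :=
  Finsupp.lmapDomain k k Prod.snd

lemma prR_single (p : Z × Y) (r : k) : prR k Z Y (single p r) = single p.2 r := by simp [prR]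

lemma prR_extR (z : Z) (v : Y →₀ k) : prR k Z Y (extR k Y z v) = v := by
  induction v using Finsupp.induction_linear with
  | zero => simp
  | add x y hx hy => simp [hx, hy]
  | single b s => simp [prR_single]

lemma prR_opR (d : (Y →₀ k) →ₗ[k] (Y →₀ k)) (c : Z × Y →₀ k) :
    prR k Z Y (opR d c) = d (prR k Z Y c) := by
  refine pair_induction (P := fun c => prR k Z Y (opR d c) = d (prR k Z Y c)) (by simp)
    (fun a b ha hb => by simp only [map_add, ha, hb])
    (fun a b hb => by simp only [map_smul, hb]) (fun a b => ?_) c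
  rw [opR_tp, tp_single_left, tp_single_left, one_smul, one_smul, prR_extR, prR_extR]

lemma prR_act (g : G) (c : Z × Y →₀ k) : prR k Z Y (act k g c) = act k g (prR k Z Y c) := by
  refine pair_induction (P := fun c => prR k Z Y (act k g c) = act k g (prR k Z Y c)) (by simp)
    (fun a b ha hb => by simp only [map_add, ha, hb])
    (fun a b hb => by simp only [map_smul, hb]) (fun a b => ?_) c
  rw [act_tp, tp_single_left, act_single, tp_single_left, one_smul, one_smul, prR_extR, prR_extR]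

lemma prR_supported {S : Set Z} {T : Set Y} {c : Z × Y →₀ k}
    (hc : c ∈ supported k k (S ×ˢ T)) : prR k Z Y c ∈ supported k k T := by
  refine supp_induction (P := fun c => prR k Z Y c ∈ supported k k T) (by simp)
    (fun a b ha hb => by simp only [map_add]; exact add_mem ha hb)
    (fun a b hb => by simp only [map_smul]; exact Submodule.smul_mem _ _ hb) ?_ hc
  rintro ⟨a, b⟩ ⟨ha, hb⟩
  rw [prR_single]
  exact Finsupp.single_mem_supported k _ hb

lemma Ex.bot {X : Type*} [MulAction G X] (χ χ' : G →* k) {d : (X →₀ k) →ₗ[k] (X →₀ k)}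
    {S T : Set X} (h : Ex χ (⊥ : Subgroup G) d S T) : Ex χ' (⊥ : Subgroup G) d S T := by
  intro c hc hdc
  rw [tw_bot] at hdc ⊢
  have := h c hc (by rw [tw_bot]; exact hdc)
  rwa [tw_bot] at this

lemma smul_sub_self {M : Type*} [AddCommGroup M] [Module k M] (a : k) (x : M) :
    a • x - x = (a - 1) • x := by rw [sub_smul, one_smul]

/-- **Vanishing of twisted coinvariants.**  `Y` is an (augmented) complex, exact in grades `≤ D`,
with finite stabilisers of invertible order in positive grades and trivial action on grade `0`;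
`Z` is an (augmented) complex, exact in grades `≤ r`, with one element of grade `0`; every
`z` of positive grade has in its stabiliser a normal locally finite subgroup on which `χ` is
nontrivial. -/
theorem vanishing (χ : G →* k) {grZ : Z → ℕ} {grY : Y → ℕ}
    (hgrZ : ∀ (g : G) z, grZ (g • z) = grZ z) (hgrY : ∀ (g : G) y, grY (g • y) = grY y)
    {dZ : (Z →₀ k) →ₗ[k] (Z →₀ k)} {dY : (Y →₀ k) →ₗ[k] (Y →₀ k)}
    (hdZ : ∀ (g : G) c, dZ (act k g c) = act k g (dZ c))
    (hdY : ∀ (g : G) c, dY (act k g c) = act k g (dY c))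
    (hdZZ : ∀ c, dZ (dZ c) = 0) (hdYY : ∀ c, dY (dY c) = 0)
    (hdegZ : ∀ m, ∀ c ∈ Gr k grZ (m + 1), dZ c ∈ Gr k grZ m)
    (hdegY : ∀ m, ∀ c ∈ Gr k grY (m + 1), dY c ∈ Gr k grY m)
    (hdZ0 : ∀ c ∈ Gr k grZ 0, dZ c = 0) (hdY0 : ∀ c ∈ Gr k grY 0, dY c = 0)
    (r D : ℕ)
    (hexZ : ∀ m ≤ r, Ex (1 : G →* k) (⊥ : Subgroup G) dZ {z | grZ z = m} {z | grZ z = m + 1})
    (hexY : ∀ m ≤ D, Ex (1 : G →* k) (⊥ : Subgroup G) dY {y | grY y = m} {y | grY y = m + 1})
    (hstY : ∀ y : Y, 1 ≤ grY y → Finite (MulAction.stabilizer G y) ∧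
      (Nat.card (MulAction.stabilizer G y) : k) ≠ 0)
    (hY0 : ∀ (g : G) y, grY y = 0 → g • y = y)
    (z0 : Z) (hz0 : grZ z0 = 0) (hz0' : ∀ z, grZ z = 0 → z = z0) (hχ : ∃ g : G, χ g ≠ 1)
    (hN : ∀ z : Z, 1 ≤ grZ z → ∃ N : Subgroup G, N ≤ MulAction.stabilizer G z ∧
      (∀ g ∈ MulAction.stabilizer G z, ∀ n ∈ N, g * n * g⁻¹ ∈ N) ∧ LocInv k N ∧
      ∃ g ∈ N, χ g ≠ 1) :
    ∀ m ≤ D, m ≤ r + 1 → Ex χ (⊤ : Subgroup G) dY {y | grY y = m} {y | grY y = m + 1} := by
  classical
  -- stability of grades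
  have hSY : ∀ m (g : G), ∀ y ∈ {y : Y | grY y = m}, g • y ∈ {y : Y | grY y = m} :=
    fun m g y hy => by simpa [hgrY] using hy
  have hSZ : ∀ m (g : G), ∀ z ∈ {z : Z | grZ z = m}, g • z ∈ {z : Z | grZ z = m} :=
    fun m g z hz => by simpa [hgrZ] using hz
  -- columns
  have hcolY : ∀ z : Z, 1 ≤ grZ z → ∀ m ≤ D,
      Ex χ (MulAction.stabilizer G z) dY {y | grY y = m} {y | grY y = m + 1} := by
    intro z hz
    obtain ⟨N, hNz, hnorm, hloc, g0, hg0, hχ0⟩ := hN z hz
    refine Ex.normal χ _ N hNz hnorm grY hgrY dY (fun g _ c => hdY g c) hdYY hdegY hdY0 D ?_ ?_ ?_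
    · intro m hm _
      exact Ex.loc χ N hloc (fun g _ c => hdY g c) (fun g _ => hSY m g) (Ex.bot 1 χ (hexY m hm))
    · intro c hc
      refine Gr_induction (P := fun c => c ∈ tw χ N) (zero_mem _) (fun a b => add_mem)
        (fun a b hb => Submodule.smul_mem _ _ hb) (fun y hy => ?_) hc
      have h1 := tw_gen χ hg0 y
      rw [hY0 g0 y hy, smul_sub_self] at h1
      have h2 := Submodule.smul_mem _ (χ g0 - 1)⁻¹ h1
      rwa [smul_smul, inv_mul_cancel₀ (sub_ne_zero.2 hχ0), one_smul] at h2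
    · intro y hy
      obtain ⟨h1, h2⟩ := hstY y hy
      have h3 : Finite (MulAction.stabilizer G y ⊓ MulAction.stabilizer G z : Subgroup G) :=
        Finite.of_injective (Subgroup.inclusion (inf_le_left :
          MulAction.stabilizer G y ⊓ MulAction.stabilizer G z ≤ MulAction.stabilizer G y))
          (Subgroup.inclusion_injective _)
      refine ⟨h3, fun h4 => h2 ?_⟩
      have h5 : Nat.card (MulAction.stabilizer G y ⊓ MulAction.stabilizer G z : Subgroup G) ∣
          Nat.card (MulAction.stabilizer G y) := Subgroup.card_dvd_of_le inf_le_left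
      obtain ⟨q, hq⟩ := h5
      rw [hq, Nat.cast_mul, h4, zero_mul]
  -- the double complex
  have hχz : ∀ z : Z, ∃ g ∈ MulAction.stabilizer G z, χ g ≠ 1 := by
    intro z
    rcases Nat.eq_zero_or_pos (grZ z) with h | h
    · obtain ⟨g, hg⟩ := hχ
      refine ⟨g, ?_, hg⟩
      rw [MulAction.mem_stabilizer_iff, hz0' z h, hz0' (g • z0) (by rw [hgrZ, hz0])]
    · obtain ⟨N, hNz, -, -, g, hg, hg'⟩ := hN z h
      exact ⟨g, hNz hg, hg'⟩
  have hzz := zigzag (tw χ (⊤ : Subgroup G) : Submodule k (Z × Y →₀ k))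
    (fun a b => supported k k ({z | grZ z = a} ×ˢ {y | grY y = b})) (opL dZ) (opR dY)
    (fun x hx => map_tw χ _ (fun g _ c => opL_act hdZ g c) hx)
    (fun x hx => map_tw χ _ (fun g _ c => opR_act hdY g c) hx)
    (fun x => (opR_opL dY dZ x).symm) (opL_opL dZ hdZZ) (opR_opR dY hdYY)
    (fun a b x hx => opL_supported (hdegZ a) hx) (fun a b x hx => opR_supported (hdegY b) hx)
    r D ?_ ?_ ?_ ?_
  · intro m hm hmr c hc hdc
    obtain ⟨e, he, hce⟩ := hzz m hm hmr (extR k Y z0 c) (extR_supported (S := {z | grZ z = 0}) hz0 hc) (by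
      have := opR_tp dY (single z0 (1 : k)) c
      rw [tp_single_left, tp_single_left, one_smul, one_smul] at this
      rw [this]
      refine map_tw χ (H := (⊤ : Subgroup G)) (extR k Y z0) (fun g _ v => ?_) hdc
      rw [act_extR, hz0' (g • z0) (by rw [hgrZ, hz0])])
    refine ⟨prR k Z Y e, prR_supported he, ?_⟩
    have := map_tw χ (H := (⊤ : Subgroup G)) (prR k Z Y) (fun g _ c => prR_act g c) hce
    rwa [map_sub, prR_extR, prR_opR] at this
  · -- rows
    intro a ha b hb
    refine shapiroL χ hdZ (hSZ a) (hSY b) (fun y hy => ?_)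
    have hy' : grY y = b := hy
    obtain ⟨h1, h2⟩ := hstY y (by omega)
    exact Ex.finite χ _ h2 (fun g _ c => hdZ g c) (fun g _ => hSZ a g) (Ex.bot 1 χ (hexZ a ha))
  · -- row zero
    intro a x hx
    refine supp_induction (P := fun x => x ∈ tw χ (⊤ : Subgroup G)) (zero_mem _)
      (fun a b => add_mem) (fun a b hb => Submodule.smul_mem _ _ hb) ?_ hx
    rintro ⟨z, y⟩ ⟨-, hy⟩
    obtain ⟨g, hg, hg'⟩ := hχz z
    have h1 := tw_gen χ (Subgroup.mem_top g) (z, y)
    rw [Prod.smul_mk, MulAction.mem_stabilizer_iff.1 hg, hY0 g y hy, smul_sub_self] at h1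
    have h2 := Submodule.smul_mem _ (χ g - 1)⁻¹ h1
    rwa [smul_smul, inv_mul_cancel₀ (sub_ne_zero.2 hg'), one_smul] at h2
  · -- columns
    intro a ha b hb hb1
    exact shapiroR χ hdY (hSZ a) (hSY b) (fun z (hz : grZ z = a) => hcolY z (by omega) b hb)
  · -- grade zero of `Z`
    intro b x hx
    refine supp_induction (P := fun x => opL dZ x = 0) (by simp)
      (fun a b ha hb => by simp only [map_add, ha, hb, add_zero])
      (fun a b hb => by simp only [map_smul, hb, smul_zero]) ?_ hx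
    rintro ⟨z, y⟩ ⟨hz, -⟩
    rw [single_eq_tp, opL_tp, hdZ0 _ (single_mem_Gr hz 1)]
    simp

end Main

end Vale.Agent.P067.Tw
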