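import Vale.Agent.P067.Coset
import Vale.Agent.P067.TwistZ
import Vale.Agent.P067.TwistC
import Vale.Agent.P067.Join

/-!
# P067: the induction step of part (C)

`ZF ty` = partial selections (finite sets of vertices with pairwise different types), with its
chain complex; `ex_succ` = the passage from `Γ` to `Γ'`.
-/

open Finsupp

namespace Vale.Agent.P067.CM

open Tw

/-- finite sets of vertices with pairwise different types -/
def ZF {W ι : Type*} (ty : W → ι) : Type _ := {s : Finset W // Set.InjOn ty (s : Set W)}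

section
variable {W ι : Type*} [DecidableEq W] {ty : W → ι}

/-- remove a vertex -/
def ZF.er (z : ZF ty) (x : W) : ZF ty :=
  ⟨z.1.erase x, z.2.mono (by intro y hy; exact (Finset.mem_erase.1 hy).2)⟩

/-- number of vertices -/
def ZF.gr (z : ZF ty) : ℕ := z.1.card

/-- the boundary -/
noncomputable def dZ (k : Type*) [Field k] (ty : W → ι) : (ZF ty →₀ k) →ₗ[k] (ZF ty →₀ k) :=
  Finsupp.linearCombination k fun z => ∑ x ∈ z.1, single (z.er x) (1 : k)

variable {k : Type*} [Field k]

lemma dZ_single (z : ZF ty) : dZ k ty (single z 1) = ∑ x ∈ z.1, single (z.er x) (1 : k) := by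
  simp [dZ]

/-- chains of selections as chains of finite sets -/
noncomputable def vl (k : Type*) [Field k] (ty : W → ι) :
    (ZF ty →₀ k) →ₗ[k] (Finset W →₀ k) := Finsupp.lmapDomain k k Subtype.val

lemma vl_single (z : ZF ty) (a : k) : vl k ty (single z a) = single z.1 a :=
  Finsupp.mapDomain_single

lemma vl_injective : Function.Injective (vl k ty) :=
  Finsupp.mapDomain_injective Subtype.val_injective

lemma vl_dZ (c : ZF ty →₀ k) : vl k ty (dZ k ty c) = Jn.bd k (vl k ty c) := by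
  induction c using Finsupp.induction_linear with
  | zero => simp
  | add a b ha hb => simp only [map_add, ha, hb]
  | single z a =>
    have e : (single z a : ZF ty →₀ k) = a • single z 1 := by simp
    rw [e]
    simp only [map_smul]
    congr 1
    rw [dZ_single, vl_single, Jn.bd_single, map_sum]
    refine Finset.sum_congr rfl fun x _ => ?_
    rw [vl_single]; rfl

lemma dZ_dZ [CharP k 2] (c : ZF ty →₀ k) : dZ k ty (dZ k ty c) = 0 := by
  apply vl_injective (k := k) (ty := ty)
  rw [vl_dZ, vl_dZ, Jn.bd_bd, map_zero]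

lemma dZ_deg (m : ℕ) : ∀ c ∈ Gr k (ZF.gr (ty := ty)) (m + 1), dZ k ty c ∈ Gr k ZF.gr m := by
  intro c hc
  refine Gr_induction (P := fun c => dZ k ty c ∈ Gr k ZF.gr m) (by simp)
    (fun a b ha hb => by rw [map_add]; exact add_mem ha hb)
    (fun a b hb => by rw [map_smul]; exact Submodule.smul_mem _ _ hb) (fun z hz => ?_) hc
  rw [dZ_single]
  refine Submodule.sum_mem _ fun x hx => single_mem_Gr ?_ 1
  show (z.1.erase x).card = m
  have hz' : z.1.card = m + 1 := hz
  rw [Finset.card_erase_of_mem hx, hz']; rfl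

lemma dZ_zero : ∀ c ∈ Gr k (ZF.gr (ty := ty)) 0, dZ k ty c = 0 := by
  intro c hc
  refine Gr_induction (P := fun c => dZ k ty c = 0) (by simp)
    (fun a b ha hb => by rw [map_add, ha, hb, add_zero])
    (fun a b hb => by rw [map_smul, hb, smul_zero]) (fun z hz => ?_) hc
  have hz' : z.1 = ∅ := Finset.card_eq_zero.1 hz
  rw [dZ_single, hz', Finset.sum_empty]

lemma exists_vl {m : ℕ} {e : Finset W →₀ k}
    (he : e ∈ supported k k {s : Finset W | Set.InjOn ty (s : Set W) ∧ s.card = m}) :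
    ∃ e' ∈ supported k k {z : ZF ty | z.gr = m}, vl k ty e' = e := by
  refine supp_induction (P := fun e => ∃ e' ∈ supported k k {z : ZF ty | z.gr = m},
    vl k ty e' = e) ⟨0, zero_mem _, map_zero _⟩ ?_ ?_ ?_ he
  · rintro a b ⟨a', ha', rfl⟩ ⟨b', hb', rfl⟩
    exact ⟨a' + b', add_mem ha' hb', map_add _ _ _⟩
  · rintro r b ⟨b', hb', rfl⟩
    exact ⟨r • b', Submodule.smul_mem _ _ hb', map_smul _ _ _⟩
  · rintro s ⟨hs1, hs2⟩
    exact ⟨single (⟨s, hs1⟩ : ZF ty) 1, Finsupp.single_mem_supported k _ hs2, vl_single _ _⟩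

lemma vl_supported {m : ℕ} {c : ZF ty →₀ k} (hc : c ∈ supported k k {z : ZF ty | z.gr = m}) :
    vl k ty c ∈ supported k k {s : Finset W | Set.InjOn ty (s : Set W) ∧ s.card = m} := by
  refine supp_induction (P := fun c => vl k ty c ∈ supported k k
    {s : Finset W | Set.InjOn ty (s : Set W) ∧ s.card = m}) (by simp)
    (fun a b ha hb => by rw [map_add]; exact add_mem ha hb)
    (fun a b hb => by rw [map_smul]; exact Submodule.smul_mem _ _ hb) (fun z hz => ?_) hc
  rw [vl_single]
  exact Finsupp.single_mem_supported k _ ⟨z.2, hz⟩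

lemma dZ_exact [CharP k 2] [DecidableEq ι] [Fintype ι] {G : Type*} [Group G]
    [MulAction G (ZF ty)] (hty : Function.Surjective ty) (m : ℕ) (hm : m < Fintype.card ι) :
    Ex (1 : G →* k) (⊥ : Subgroup G) (dZ k ty) {z | ZF.gr z = m} {z | ZF.gr z = m + 1} := by
  intro c hc hdc
  rw [tw_bot, Submodule.mem_bot] at hdc
  obtain ⟨e, he, hce⟩ := Jn.join_exact ty hty m hm (vl k ty c) (vl_supported hc) (by
    rw [← vl_dZ, hdc, map_zero])
  obtain ⟨e', he', rfl⟩ := exists_vl he
  refine ⟨e', he', ?_⟩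
  have : c = dZ k ty e' := by
    apply vl_injective (k := k) (ty := ty)
    rw [vl_dZ, hce]
  rw [this, sub_self]
  exact zero_mem _

end

section Act
variable {G : Type*} [Group G] {W ι : Type*} [DecidableEq W] [MulAction G W] {ty : W → ι}

/-- the action on partial selections -/
@[reducible] def actZ (hinv : ∀ (g : G) x, ty (g • x) = ty x) : MulAction G (ZF ty) where
  smul g z := ⟨z.1.image (fun x => g • x), by
    intro a ha b hb hab
    rw [Finset.coe_image] at ha hb
    obtain ⟨x, hx, rfl⟩ := ha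
    obtain ⟨y, hy, rfl⟩ := hb
    simp only [hinv] at hab
    rw [z.2 hx hy hab]⟩
  one_smul z := by
    apply Subtype.ext
    show z.1.image (fun x => (1 : G) • x) = z.1
    simp
  mul_smul g h z := by
    apply Subtype.ext
    show z.1.image (fun x => (g * h) • x) = (z.1.image (fun x => h • x)).image (fun x => g • x)
    rw [Finset.image_image]
    congr 1
    funext x
    exact mul_smul g h x

variable {k : Type*} [Field k]

lemma actZ_val (hinv : ∀ (g : G) x, ty (g • x) = ty x) (g : G) (z : ZF ty) :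
    letI := actZ hinv
    (g • z).1 = z.1.image (fun x => g • x) := rfl

lemma gr_actZ (hinv : ∀ (g : G) x, ty (g • x) = ty x) (g : G) (z : ZF ty) :
    letI := actZ hinv
    (g • z).gr = z.gr :=
  Finset.card_image_of_injective _ (MulAction.injective g)

lemma dZ_act (hinv : ∀ (g : G) x, ty (g • x) = ty x) (g : G) (c : ZF ty →₀ k) :
    letI := actZ hinv
    dZ k ty (act k g c) = act k g (dZ k ty c) := by
  letI := actZ hinv
  induction c using Finsupp.induction_linear with
  | zero => simp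
  | add a b ha hb => simp only [map_add] at *; rw [ha, hb]
  | single z a =>
    have e : (single z a : ZF ty →₀ k) = a • single z 1 := by simp
    rw [e]
    simp only [map_smul]
    congr 1
    rw [act_single, dZ_single, dZ_single, map_sum]
    rw [actZ_val hinv, Finset.sum_image (fun x _ y _ h => MulAction.injective g h)]
    refine Finset.sum_congr rfl fun x _ => ?_
    rw [act_single]
    congr 1
    apply Subtype.ext
    show (z.1.image (fun x => g • x)).erase (g • x) = (z.1.erase x).image (fun x => g • x)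
    rw [Finset.image_erase (MulAction.injective g)]

lemma stab_fix (hinv : ∀ (g : G) x, ty (g • x) = ty x) {g : G} {z : ZF ty}
    (hg : letI := actZ hinv; g • z = z) : ∀ x ∈ z.1, g • x = x := by
  intro x hx
  have h1 : g • x ∈ z.1 := by
    have : g • x ∈ z.1.image (fun x => g • x) := Finset.mem_image_of_mem _ hx
    rwa [← actZ_val hinv, hg] at this
  exact z.2 h1 hx (hinv g x)

lemma fix_stab (hinv : ∀ (g : G) x, ty (g • x) = ty x) {g : G} {z : ZF ty}
    (h : ∀ x ∈ z.1, g • x = x) : letI := actZ hinv; g • z = z := by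
  letI := actZ hinv
  apply Subtype.ext
  rw [actZ_val hinv]
  conv_rhs => rw [← Finset.image_id (s := z.1)]
  exact Finset.image_congr fun x hx => h x hx

end Act

/-- the key input: vertices with types and normal subgroups of the stabilisers -/
def KeyInput {G : Type*} [Group G] {k : Type*} [Field k] (χ : G →* k) (r : ℕ) : Prop :=
  ∃ (ι : Type) (_ : Fintype ι) (W : Type) (_ : MulAction G W) (ty : W → ι),
    r ≤ Fintype.card ι ∧ Function.Surjective ty ∧ (∀ (g : G) x, ty (g • x) = ty x) ∧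
    ∀ z : Set W, z.Nonempty → Set.InjOn ty z → ∃ N : Subgroup G,
      (∀ g ∈ N, ∀ x ∈ z, g • x = x) ∧
      (∀ g : G, (∀ x ∈ z, g • x = x) → ∀ m ∈ N, g * m * g⁻¹ ∈ N) ∧
      LocInv k N ∧ ∃ a ∈ N, χ a ≠ 1

/-- vanishing for a nontrivial character, from the key input -/
theorem ex_chi {k : Type} [Field k] [CharP k 2] {G : Type} [Group G] {Y : Type} [MulAction G Y]
    (χ : G →* k) {grY : Y → ℕ} (hgrY : ∀ (g : G) y, grY (g • y) = grY y)
    {dY : (Y →₀ k) →ₗ[k] (Y →₀ k)} (hdY : ∀ (g : G) c, dY (act k g c) = act k g (dY c))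
    (hdYY : ∀ c, dY (dY c) = 0) (hdegY : ∀ m, ∀ c ∈ Gr k grY (m + 1), dY c ∈ Gr k grY m)
    (hdY0 : ∀ c ∈ Gr k grY 0, dY c = 0) (D : ℕ)
    (hexY : ∀ m ≤ D, Ex (1 : G →* k) (⊥ : Subgroup G) dY {y | grY y = m} {y | grY y = m + 1})
    (hstY : ∀ y : Y, 1 ≤ grY y → Finite (MulAction.stabilizer G y) ∧
      (Nat.card (MulAction.stabilizer G y) : k) ≠ 0)
    (hY0 : ∀ (g : G) y, grY y = 0 → g • y = y)
    (hχ : ∃ g : G, χ g ≠ 1) (hkey : KeyInput χ (D + 1)) :
    ∀ m ≤ D, Ex χ (⊤ : Subgroup G) dY {y | grY y = m} {y | grY y = m + 1} := by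
  classical
  obtain ⟨ι, _, W, _, ty, hcard, hsurj, hinv, hN⟩ := hkey
  letI := actZ hinv
  intro m hm
  refine vanishing χ (grZ := ZF.gr) (grY := grY) (fun g z => gr_actZ hinv g z) hgrY
    (dZ := dZ k ty) (dY := dY) (fun g c => dZ_act hinv g c) hdY dZ_dZ hdYY dZ_deg hdegY dZ_zero
    hdY0 D D (fun m hm => dZ_exact hsurj m (by omega)) hexY hstY hY0
    (⟨∅, by simp⟩ : ZF ty) rfl (fun z hz => Subtype.ext (Finset.card_eq_zero.1 hz)) hχ ?_ m hm
    (by omega)
  intro z hz
  have hne : (z.1 : Set W).Nonempty := by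
    have : 0 < z.1.card := hz
    exact Finset.card_pos.1 this
  obtain ⟨N, h1, h2, h3, h4⟩ := hN z.1 hne z.2
  exact ⟨N, fun g hg => fix_stab hinv fun x hx => h1 g hg x hx,
    fun g hg m hm => h2 g (fun x hx => stab_fix hinv hg x hx) m hm, h3, h4⟩

/-- **The step of part (C).** -/
theorem ex_succ {k : Type} [Field k] [CharP k 2] {n : ℕ} {G : Type} [Group G]
    (K : Fin n → Subgroup G) (Γ Γ' : Subgroup G) (hΓ : Γ' ≤ Γ)
    [hn : (Γ'.subgroupOf Γ).Normal] [Finite (Γ ⧸ Γ'.subgroupOf Γ)]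
    (hcomm : ∀ a b : Γ ⧸ Γ'.subgroupOf Γ, a * b = b * a)
    (hcard : (Nat.card (Γ ⧸ Γ'.subgroupOf Γ) : k) ≠ 0)
    [HasEnoughRootsOfUnity k (Monoid.exponent (Γ ⧸ Γ'.subgroupOf Γ))] (D : ℕ)
    (hex : CExact k K D)
    (hst : ∀ y : CFace K, 1 ≤ y.gr → Finite (MulAction.stabilizer Γ y) ∧
      (Nat.card (MulAction.stabilizer Γ y) : k) ≠ 0)
    (hkey : ∀ χ : Γ →* k, (∀ g : Γ, (g : G) ∈ Γ' → χ g = 1) → (∃ g, χ g ≠ 1) →
      KeyInput χ (D + 1))
    (h1 : ∀ m ≤ D, Ex (1 : G →* k) Γ (cbd k K) {y | y.gr = m} {y | y.gr = m + 1}) :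
    ∀ m ≤ D, Ex (1 : G →* k) Γ' (cbd k K) {y | y.gr = m} {y | y.gr = m + 1} := by
  intro m hm
  refine Ex.step Γ Γ' hΓ hcomm hcard (fun g c => cbd_act g c)
    (fun g x hx => by simpa using hx) (h1 m hm) ?_
  intro χ hχ hne
  refine ex_chi χ (Y := CFace K) (grY := CFace.gr) (fun g y => rfl) (dY := cbd k K)
    (fun g c => cbd_act (g : G) c) cbd_cbd (fun m c hc => cbd_supp hc) (fun c hc => cbd_zero hc) D
    ?_ hst ?_ hne (hkey χ hχ hne) m hm
  · intro m hm c hc hdc
    rw [tw_bot, Submodule.mem_bot] at hdc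
    obtain ⟨e, he, hce⟩ := hex m hm c hc hdc
    exact ⟨e, he, by rw [hce, sub_self]; exact zero_mem _⟩
  · intro g y hy
    obtain ⟨J, h, rfl⟩ := CFace.exists_mk y
    have hJ : J = ∅ := Finset.card_eq_zero.1 hy
    subst hJ
    show (CFace.mk ∅ ((g : G) * h) : CFace K) = CFace.mk ∅ h
    rw [CFace.mk_eq_mk]
    simp [KJ]

end Vale.Agent.P067.CM
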