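import Mathlib

/-!
# Twisted coinvariants of permutation chains, without quotients

`X →₀ k` = chains on a `G`-set `X`; `tw χ H` = span of the twisted differences
`χ g • g x - x`, `g ∈ H`.  `Ex χ H d S T` says: every chain `c` on `S` with `d c ∈ tw χ H` is
congruent to `d e` modulo `tw χ H` for a chain `e` on `T`, i.e. exactness of the complex of
twisted `H`-coinvariants.
-/

open Finsupp

namespace Vale.Agent.P067.Tw

variable {k : Type*} [Field k] {G : Type*} [Group G] {X : Type*} [MulAction G X]

/-- The linear action of `g` on finitely supported chains on `X`. -/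
noncomputable def act (k : Type*) [Field k] {G X : Type*} [Group G] [MulAction G X] (g : G) :
    (X →₀ k) →ₗ[k] (X →₀ k) := Finsupp.lmapDomain k k (fun x => g • x)

@[simp] lemma act_single (g : G) (x : X) (a : k) : act k g (single x a) = single (g • x) a := by
  simp [act]

lemma act_mul (g h : G) (c : X →₀ k) : act k (g * h) c = act k g (act k h c) := by
  induction c using Finsupp.induction_linear with
  | zero => simp
  | add a b ha hb => simp [ha, hb]
  | single x a => simp [mul_smul]

@[simp] lemma act_one (c : X →₀ k) : act k (1 : G) c = c := by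
  induction c using Finsupp.induction_linear with
  | zero => simp
  | add a b ha hb => simp [ha, hb]
  | single x a => simp

lemma act_inv_act (g : G) (c : X →₀ k) : act k g⁻¹ (act k g c) = c := by
  rw [← act_mul]; simp

lemma act_act_inv (g : G) (c : X →₀ k) : act k g (act k g⁻¹ c) = c := by
  rw [← act_mul]; simp

/-- The span of the twisted differences `χ g • g x - x`, `g ∈ H`. -/
noncomputable def tw (χ : G →* k) (H : Subgroup G) : Submodule k (X →₀ k) :=
  Submodule.span k {c | ∃ g ∈ H, ∃ x : X, c = χ g • single (g • x) 1 - single x 1}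

lemma tw_gen (χ : G →* k) {H : Subgroup G} {g : G} (hg : g ∈ H) (x : X) :
    χ g • single (g • x) 1 - single x (1 : k) ∈ tw χ H :=
  Submodule.subset_span ⟨g, hg, x, rfl⟩

lemma tw_mem (χ : G →* k) {H : Subgroup G} {g : G} (hg : g ∈ H) (c : X →₀ k) :
    χ g • act k g c - c ∈ tw χ H := by
  induction c using Finsupp.induction_linear with
  | zero => simp
  | add a b ha hb =>
    have : χ g • act k g (a + b) - (a + b) = (χ g • act k g a - a) + (χ g • act k g b - b) := by
      rw [map_add, smul_add]; abel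
    rw [this]; exact add_mem ha hb
  | single x a =>
    have : χ g • act k g (single x a) - single x a
        = a • (χ g • single (g • x) 1 - single x (1 : k)) := by
      simp [smul_sub, mul_comm]
    rw [this]; exact Submodule.smul_mem _ _ (tw_gen χ hg x)

lemma tw_mono (χ : G →* k) {H H' : Subgroup G} (h : H ≤ H') :
    (tw χ H : Submodule k (X →₀ k)) ≤ tw χ H' :=
  Submodule.span_mono fun _ ⟨g, hg, x, e⟩ => ⟨g, h hg, x, e⟩

lemma tw_bot (χ : G →* k) : (tw χ (⊥ : Subgroup G) : Submodule k (X →₀ k)) = ⊥ := by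
  rw [tw, Submodule.span_eq_bot]
  rintro c ⟨g, hg, x, rfl⟩
  rw [Subgroup.mem_bot] at hg
  subst hg; simp

lemma chi_ne (χ : G →* k) (g : G) : χ g ≠ 0 := (Group.isUnit g).map χ |>.ne_zero

/-- A linear map between chain modules (possibly of different `G`-sets) commuting with the action
maps twisted differences to twisted differences. -/
lemma map_tw {Y : Type*} [MulAction G Y] (χ : G →* k) {H : Subgroup G}
    (d : (X →₀ k) →ₗ[k] (Y →₀ k)) (hd : ∀ g ∈ H, ∀ c, d (act k g c) = act k g (d c))
    {c : X →₀ k} (hc : c ∈ tw χ H) : d c ∈ tw χ H := by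
  induction hc using Submodule.span_induction with
  | mem c h =>
    obtain ⟨g, hg, x, rfl⟩ := h
    have : d (χ g • single (g • x) 1 - single x 1)
        = χ g • act k g (d (single x 1)) - d (single x 1) := by
      rw [map_sub, map_smul, ← hd g hg, act_single]
    rw [this]; exact tw_mem χ hg _
  | zero => simp
  | add a b _ _ ha hb => rw [map_add]; exact add_mem ha hb
  | smul a b _ hb => rw [map_smul]; exact Submodule.smul_mem _ _ hb

lemma act_tw (χ : G →* k) {N : Subgroup G} {g : G} (hg : ∀ n ∈ N, g * n * g⁻¹ ∈ N)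
    {c : X →₀ k} (hc : c ∈ tw χ N) : act k g c ∈ tw χ N := by
  induction hc using Submodule.span_induction with
  | mem c h =>
    obtain ⟨n, hn, x, rfl⟩ := h
    have : act k g (χ n • single (n • x) 1 - single x 1)
        = χ (g * n * g⁻¹) • single ((g * n * g⁻¹) • g • x) 1 - single (g • x) (1 : k) := by
      have e1 : χ (g * n * g⁻¹) = χ n := by
        rw [map_mul, map_mul, mul_right_comm, ← map_mul, mul_inv_cancel, map_one, one_mul]
      have e2 : (g * n * g⁻¹) • g • x = g • n • x := by
        rw [smul_smul, smul_smul]; simp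
      rw [map_sub, map_smul, act_single, act_single, e1, e2]
    rw [this]; exact tw_gen χ (hg n hn) _
  | zero => simp
  | add a b _ _ ha hb => rw [map_add]; exact add_mem ha hb
  | smul a b _ hb => rw [map_smul]; exact Submodule.smul_mem _ _ hb

/-- Exactness modulo twisted differences at chains on `S` (filled by chains on `T`). -/
def Ex (χ : G →* k) (H : Subgroup G) (d : (X →₀ k) →ₗ[k] (X →₀ k)) (S T : Set X) : Prop :=
  ∀ c ∈ supported k k S, d c ∈ tw χ H → ∃ e ∈ supported k k T, c - d e ∈ tw χ H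

lemma act_supported {S : Set X} {g : G} (hS : ∀ x ∈ S, g • x ∈ S) {c : X →₀ k}
    (hc : c ∈ supported k k S) : act k g c ∈ supported k k S := by
  rw [Finsupp.supported_eq_span_single] at hc ⊢
  induction hc using Submodule.span_induction with
  | mem c h =>
    obtain ⟨x, hx, rfl⟩ := h
    simp only [act_single]
    exact Submodule.subset_span ⟨g • x, hS x hx, rfl⟩
  | zero => simp
  | add a b _ _ ha hb => rw [map_add]; exact add_mem ha hb
  | smul a b _ hb => rw [map_smul]; exact Submodule.smul_mem _ _ hb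

/-! ### Averages over finite subgroups -/

/-- Twisted average over a finite subgroup. -/
noncomputable def avg (χ : G →* k) (F : Subgroup G) [Fintype F] :
    (X →₀ k) →ₗ[k] (X →₀ k) :=
  (Fintype.card F : k)⁻¹ • ∑ g : F, χ (g : G) • act k (g : G)

lemma avg_apply (χ : G →* k) (F : Subgroup G) [Fintype F] (c : X →₀ k) :
    avg χ F c = (Fintype.card F : k)⁻¹ • ∑ g : F, χ (g : G) • act k (g : G) c := by
  simp [avg]

lemma avg_tw_act (χ : G →* k) (F : Subgroup G) [Fintype F] {h : G} (hh : h ∈ F) (c : X →₀ k) :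
    avg χ F (χ h • act k h c) = avg χ F c := by
  rw [avg_apply, avg_apply]
  congr 1
  refine Fintype.sum_equiv (Equiv.mulRight (⟨h, hh⟩ : F)) _ _ fun g => ?_
  simp only [Equiv.coe_mulRight, Subgroup.coe_mul, map_mul, act_mul, map_smul]
  rw [smul_smul]

lemma avg_kill (χ : G →* k) (F : Subgroup G) [Fintype F] {c : X →₀ k} (hc : c ∈ tw χ F) :
    avg χ F c = 0 := by
  induction hc using Submodule.span_induction with
  | mem c h =>
    obtain ⟨g, hg, x, rfl⟩ := h
    have := avg_tw_act χ F hg (single x (1 : k))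
    rw [act_single] at this
    rw [map_sub, this, sub_self]
  | zero => simp
  | add a b _ _ ha hb => rw [map_add, ha, hb, add_zero]
  | smul a b _ hb => rw [map_smul, hb, smul_zero]

lemma sub_avg_mem (χ : G →* k) (F : Subgroup G) [Fintype F] (hF : (Fintype.card F : k) ≠ 0)
    (c : X →₀ k) : c - avg χ F c ∈ tw χ F := by
  have : c - avg χ F c
      = -((Fintype.card F : k)⁻¹ • ∑ g : F, (χ (g : G) • act k (g : G) c - c)) := by
    rw [Finset.sum_sub_distrib, smul_sub, avg_apply]
    simp only [Finset.sum_const, Finset.card_univ, ← Nat.cast_smul_eq_nsmul k, smul_smul,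
      inv_mul_cancel₀ hF, one_smul]
    abel
  rw [this]
  exact neg_mem (Submodule.smul_mem _ _ (Submodule.sum_mem _ fun g _ => tw_mem χ g.2 c))

lemma avg_comm {Y : Type*} [MulAction G Y] (χ : G →* k) (F : Subgroup G) [Fintype F]
    (d : (X →₀ k) →ₗ[k] (Y →₀ k)) (hd : ∀ g ∈ F, ∀ c, d (act k g c) = act k g (d c))
    (c : X →₀ k) : d (avg χ F c) = avg χ F (d c) := by
  rw [avg_apply, avg_apply, map_smul, map_sum]
  congr 1
  refine Finset.sum_congr rfl fun g _ => ?_
  rw [map_smul, hd g g.2]

lemma avg_supported (χ : G →* k) (F : Subgroup G) [Fintype F] {S : Set X}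
    (hS : ∀ g ∈ F, ∀ x ∈ S, g • x ∈ S) {c : X →₀ k}
    (hc : c ∈ supported k k S) : avg χ F c ∈ supported k k S := by
  rw [avg_apply]
  exact Submodule.smul_mem _ _ (Submodule.sum_mem _ fun g _ =>
    Submodule.smul_mem _ _ (act_supported (hS g g.2) hc))

/-- **Finite groups of invertible order.** -/
theorem Ex.finite (χ : G →* k) (F : Subgroup G) [Finite F] (hF : (Nat.card F : k) ≠ 0)
    {d : (X →₀ k) →ₗ[k] (X →₀ k)} (hd : ∀ g ∈ F, ∀ c, d (act k g c) = act k g (d c))
    {S T : Set X} (hS : ∀ g ∈ F, ∀ x ∈ S, g • x ∈ S) (h : Ex χ (⊥ : Subgroup G) d S T) :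
    Ex χ F d S T := by
  classical
  have : Fintype F := Fintype.ofFinite F
  rw [Nat.card_eq_fintype_card] at hF
  intro c hc hdc
  obtain ⟨e, he, hce⟩ := h (avg χ F c) (avg_supported χ F hS hc) (by
    rw [avg_comm χ F d hd, avg_kill χ F hdc]; exact zero_mem _)
  rw [tw_bot, Submodule.mem_bot, sub_eq_zero] at hce
  exact ⟨e, he, hce ▸ sub_avg_mem χ F hF c⟩

/-- An element of `tw χ N` lives in `tw χ F` for all `F` containing suitable finitely many
elements of `N`. -/
lemma exists_finset_of_mem_tw (χ : G →* k) {N : Subgroup G} {c : X →₀ k} (hc : c ∈ tw χ N) :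
    ∃ s : Finset G, (∀ g ∈ s, g ∈ N) ∧ ∀ F : Subgroup G, (∀ g ∈ s, g ∈ F) → c ∈ tw χ F := by
  classical
  induction hc using Submodule.span_induction with
  | mem c h =>
    obtain ⟨g, hg, x, rfl⟩ := h
    exact ⟨{g}, by simpa using hg, fun F hF => tw_gen χ (hF g (by simp)) x⟩
  | zero => exact ⟨∅, by simp, fun F _ => zero_mem _⟩
  | add a b _ _ ha hb =>
    obtain ⟨s, hs, h1⟩ := ha
    obtain ⟨t, ht, h2⟩ := hb
    refine ⟨s ∪ t, fun g hg => (Finset.mem_union.1 hg).elim (hs g) (ht g), fun F hF => ?_⟩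
    exact add_mem (h1 F fun g hg => hF g (Finset.mem_union_left _ hg))
      (h2 F fun g hg => hF g (Finset.mem_union_right _ hg))
  | smul a b _ hb =>
    obtain ⟨s, hs, h1⟩ := hb
    exact ⟨s, hs, fun F hF => Submodule.smul_mem _ _ (h1 F hF)⟩

/-- `N` is a directed union of finite subgroups of invertible order. -/
def LocInv (k : Type*) [Field k] {G : Type*} [Group G] (N : Subgroup G) : Prop :=
  ∀ s : Finset G, (∀ g ∈ s, g ∈ N) →
    ∃ F : Subgroup G, F ≤ N ∧ (∀ g ∈ s, g ∈ F) ∧ Finite F ∧ (Nat.card F : k) ≠ 0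

/-- **Lemma 1.** Locally finite groups of invertible orders. -/
theorem Ex.loc (χ : G →* k) (N : Subgroup G) (hN : LocInv k N)
    {d : (X →₀ k) →ₗ[k] (X →₀ k)} (hd : ∀ g ∈ N, ∀ c, d (act k g c) = act k g (d c))
    {S T : Set X} (hS : ∀ g ∈ N, ∀ x ∈ S, g • x ∈ S) (h : Ex χ (⊥ : Subgroup G) d S T) :
    Ex χ N d S T := by
  intro c hc hdc
  obtain ⟨s, hs, h1⟩ := exists_finset_of_mem_tw χ hdc
  obtain ⟨F, hFN, hsF, hfin, hcard⟩ := hN s hs
  obtain ⟨e, he, hce⟩ := Ex.finite χ F hcard (fun g hg => hd g (hFN hg))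
    (fun g hg => hS g (hFN hg)) h c hc (h1 F hsF)
  exact ⟨e, he, tw_mono χ hFN hce⟩

/-- An abelian group of exponent `p` (invertible in `k`) is locally finite of invertible
orders. -/
lemma locInv_of_comm {p : ℕ} [hp : Fact p.Prime] (hpk : (p : k) ≠ 0) (N : Subgroup G)
    (hcomm : ∀ a ∈ N, ∀ b ∈ N, a * b = b * a) (hexp : ∀ a ∈ N, a ^ p = 1) : LocInv k N := by
  classical
  intro s hs
  let F : Subgroup G := Subgroup.closure (s : Set G)
  have hFN : F ≤ N := (Subgroup.closure_le _).2 fun g hg => hs g hg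
  let _ : CommGroup F := { (inferInstance : Group F) with
    mul_comm := fun a b => Subtype.ext (hcomm a (hFN a.2) b (hFN b.2)) }
  have hpg : ∀ a : F, a ^ p = 1 := fun a => Subtype.ext (by simpa using hexp a (hFN a.2))
  have : Group.FG F := by
    rw [Group.fg_iff_subgroup_fg]
    exact ⟨s, rfl⟩
  have htor : IsMulTorsion F := fun a =>
    isOfFinOrder_iff_pow_eq_one.2 ⟨p, hp.out.pos, hpg a⟩
  have : Finite F := CommGroup.finite_of_fg_isMulTorsion F htor
  refine ⟨F, hFN, fun g hg => Subgroup.subset_closure hg, inferInstance, ?_⟩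
  have hP : IsPGroup p F := fun a => ⟨1, by simpa using hpg a⟩
  obtain ⟨n, hn⟩ := IsPGroup.iff_card.1 hP
  rw [hn, Nat.cast_pow]
  exact pow_ne_zero _ hpk

end Vale.Agent.P067.Tw
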