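import Vale.Agent.P067.DDefs
import Vale.Agent.P067.Twist

/-!
# P067: chains of the coset complex

Faces of type `J` are the cosets of `KJ K J`.
-/

open Finsupp

namespace Vale.Agent.P067

variable {n : ℕ} {G : Type} [Group G]

lemma KJ_le_KJ (K : Fin n → Subgroup G) {I J : Finset (Fin n)} (h : I ⊆ J) : KJ K J ≤ KJ K I :=
  le_iInf₂ fun i hi => iInf₂_le i (h hi)

/-- faces of the coset complex -/
def CFace (K : Fin n → Subgroup G) : Type := Σ J : Finset (Fin n), G ⧸ KJ K J

namespace CFace
variable {K : Fin n → Subgroup G}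

/-- number of vertices of a face -/
def gr (x : CFace K) : ℕ := x.1.card

/-- the face `g K_J` -/
def mk (J : Finset (Fin n)) (g : G) : CFace K := ⟨J, (g : G ⧸ KJ K J)⟩

instance : MulAction G (CFace K) where
  smul g x := ⟨x.1, g • x.2⟩
  one_smul x := by
    rcases x with ⟨J, q⟩
    exact congrArg (Sigma.mk J) (one_smul G q)
  mul_smul a b x := by
    rcases x with ⟨J, q⟩
    exact congrArg (Sigma.mk J) (mul_smul a b q)

lemma smul_mk (g h : G) (J : Finset (Fin n)) : g • (mk J h : CFace K) = mk J (g * h) := rfl

@[simp] lemma gr_mk (J : Finset (Fin n)) (g : G) : (mk J g : CFace K).gr = J.card := rfl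

@[simp] lemma gr_smul (g : G) (x : CFace K) : (g • x).gr = x.gr := rfl

lemma exists_mk (x : CFace K) : ∃ J g, x = mk J g := by
  rcases x with ⟨J, q⟩
  obtain ⟨g, rfl⟩ := QuotientGroup.mk_surjective q
  exact ⟨J, g, rfl⟩

lemma mk_eq_mk {J : Finset (Fin n)} {g h : G} :
    (mk J g : CFace K) = mk J h ↔ g⁻¹ * h ∈ KJ K J := by
  rw [← QuotientGroup.eq]
  constructor
  · intro e
    exact eq_of_heq (Sigma.mk.inj e).2
  · intro e
    exact congrArg (Sigma.mk J) e

/-- the codimension one face of `x` without the vertex of type `j` -/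
def face (j : Fin n) (x : CFace K) : CFace K :=
  ⟨x.1.erase j, Quotient.map' (s₁ := QuotientGroup.leftRel _) (s₂ := QuotientGroup.leftRel _) id
    (fun a b h => by
      rw [QuotientGroup.leftRel_apply] at h ⊢
      exact KJ_le_KJ K (Finset.erase_subset _ _) h) x.2⟩

@[simp] lemma face_mk (j : Fin n) (J : Finset (Fin n)) (g : G) :
    face j (mk J g : CFace K) = mk (J.erase j) g := rfl

lemma smul_face (g : G) (j : Fin n) (x : CFace K) : g • face j x = face j (g • x) := by
  obtain ⟨J, h, rfl⟩ := exists_mk x
  rw [face_mk, smul_mk, smul_mk, face_mk]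

lemma face_comm (i j : Fin n) (x : CFace K) : face i (face j x) = face j (face i x) := by
  obtain ⟨J, h, rfl⟩ := exists_mk x
  simp only [face_mk, Finset.erase_right_comm]

end CFace

/-- the boundary of the coset complex (coefficients of characteristic two) -/
noncomputable def cbd (k : Type*) [Field k] (K : Fin n → Subgroup G) :
    (CFace K →₀ k) →ₗ[k] (CFace K →₀ k) :=
  Finsupp.linearCombination k fun x => ∑ j ∈ x.1, single (CFace.face j x) (1 : k)

variable {k : Type*} [Field k] {K : Fin n → Subgroup G}

lemma cbd_single (x : CFace K) (a : k) :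
    cbd k K (single x a) = ∑ j ∈ x.1, single (CFace.face j x) a := by
  simp [cbd, Finset.smul_sum]

lemma cbd_act (g : G) (c : CFace K →₀ k) : cbd k K (Tw.act k g c) = Tw.act k g (cbd k K c) := by
  induction c using Finsupp.induction_linear with
  | zero => simp
  | add a b ha hb => simp [ha, hb]
  | single x a =>
    rw [Tw.act_single, cbd_single, cbd_single, map_sum]
    refine Finset.sum_congr rfl fun j _ => ?_
    rw [Tw.act_single, CFace.smul_face]

lemma cbd_supp {m : ℕ} {c : CFace K →₀ k} (hc : c ∈ supported k k {x : CFace K | x.gr = m + 1}) :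
    cbd k K c ∈ supported k k {x : CFace K | x.gr = m} := by
  rw [Finsupp.supported_eq_span_single] at hc
  induction hc using Submodule.span_induction with
  | mem c h =>
    obtain ⟨x, hx, rfl⟩ := h
    simp only [cbd_single]
    refine Submodule.sum_mem _ fun j hj => Finsupp.single_mem_supported k _ ?_
    show (x.1.erase j).card = m
    have : x.1.card = m + 1 := hx
    rw [Finset.card_erase_of_mem hj, this]; rfl
  | zero => simp
  | add a b _ _ ha hb => rw [map_add]; exact add_mem ha hb
  | smul a b _ hb => rw [map_smul]; exact Submodule.smul_mem _ _ hb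

lemma cbd_zero {c : CFace K →₀ k} (hc : c ∈ supported k k {x : CFace K | x.gr = 0}) :
    cbd k K c = 0 := by
  rw [Finsupp.supported_eq_span_single] at hc
  induction hc using Submodule.span_induction with
  | mem c h =>
    obtain ⟨x, hx, rfl⟩ := h
    have : x.1 = ∅ := Finset.card_eq_zero.1 hx
    simp only [cbd_single, this, Finset.sum_empty]
  | zero => simp
  | add a b _ _ ha hb => rw [map_add, ha, hb, add_zero]
  | smul a b _ hb => rw [map_smul, hb, smul_zero]

lemma add_self_zero {X : Type*} [CharP k 2] (c : X →₀ k) : c + c = 0 := by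
  ext s
  simp only [Finsupp.add_apply, Finsupp.zero_apply]
  exact CharTwo.add_self_eq_zero _

lemma cbd_cbd [CharP k 2] (c : CFace K →₀ k) : cbd k K (cbd k K c) = 0 := by
  induction c using Finsupp.induction_linear with
  | zero => simp
  | add a b ha hb => simp [ha, hb]
  | single x a =>
    rw [cbd_single, map_sum]
    simp only [cbd_single]
    rw [Finset.sum_sigma']
    refine Finset.sum_involution (fun p _ => ⟨p.2, p.1⟩) ?_ ?_ ?_ ?_
    · rintro ⟨i, j⟩ h
      simp only
      rw [CFace.face_comm j i x]
      exact add_self_zero _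
    · rintro ⟨i, j⟩ h hne heq
      simp only [Finset.mem_sigma] at h
      have h2 : j ∈ x.1.erase i := h.2
      simp only [Sigma.mk.injEq] at heq
      exact (Finset.mem_erase.1 h2).1 heq.1
    · rintro ⟨i, j⟩ h
      simp only [Finset.mem_sigma] at h ⊢
      have h2 : j ∈ x.1.erase i := h.2
      have h3 := Finset.mem_erase.1 h2
      refine ⟨h3.2, ?_⟩
      show i ∈ x.1.erase j
      exact Finset.mem_erase.2 ⟨fun e => h3.1 e.symm, h.1⟩
    · rintro ⟨i, j⟩ h
      rfl

/-- exactness of the (augmented) coset complex at sizes `≤ d` -/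
def CExact (k : Type*) [Field k] (K : Fin n → Subgroup G) (d : ℕ) : Prop :=
  ∀ m ≤ d, ∀ c ∈ supported k k {x : CFace K | x.gr = m}, cbd k K c = 0 →
    ∃ e ∈ supported k k {x : CFace K | x.gr = m + 1}, cbd k K e = c

end Vale.Agent.P067
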