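import Vale.Agent.P067.DDefs
import Vale.Agent.P067.Twist

/-!
# P067: from exact coinvariants of chains to vanishing cohomology of the coset model
-/

namespace Vale.Agent.P067.Du

open Finset Finsupp

set_option linter.unusedSectionVars false

variable {n : ℕ} {U X k : Type*} [Group U] [MulAction U X] [Field k]

/-- the cells of size `m` -/
def cells (U : Type*) [Group U] {X : Type*} [MulAction U X] (cell : Finset (Fin n) → X)
    (m : ℕ) : Set X := {x | ∃ (u : U) (J : Finset (Fin n)), J.card = m ∧ x = u • cell J}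

theorem exists_factor {V W : Type*} [AddCommGroup V] [Module k V] [AddCommGroup W] [Module k W]
    (L : V →ₗ[k] W) (F : V →ₗ[k] k) (h : LinearMap.ker L ≤ LinearMap.ker F) :
    ∃ B : W →ₗ[k] k, ∀ v, B (L v) = F v := by
  obtain ⟨B, hB⟩ := LinearMap.exists_extend
    (((LinearMap.ker L).liftQ F h).comp L.quotKerEquivRange.symm.toLinearMap)
  refine ⟨B, fun v => ?_⟩
  have h1 := LinearMap.congr_fun hB ⟨L v, LinearMap.mem_range_self L v⟩
  simp only [LinearMap.comp_apply, Submodule.subtype_apply, LinearEquiv.coe_coe] at h1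
  rw [h1]
  have h2 : L.quotKerEquivRange.symm ⟨L v, LinearMap.mem_range_self L v⟩ =
      Submodule.Quotient.mk v := by
    rw [LinearEquiv.symm_apply_eq]
    rfl
  rw [h2]
  rfl

theorem exists_factor' {V W : Type*} [AddCommGroup V] [Module k V] [AddCommGroup W] [Module k W]
    (bd : V →ₗ[k] W) (F : V →ₗ[k] k) (S : Submodule k V) (T : Submodule k W)
    (h : ∀ c ∈ S, bd c ∈ T → F c = 0) :
    ∃ B : W →ₗ[k] k, (∀ c ∈ S, B (bd c) = F c) ∧ ∀ c ∈ T, B c = 0 := by
  obtain ⟨Bq, hBq⟩ := exists_factor ((T.mkQ.comp bd).comp S.subtype) (F.comp S.subtype) (by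
    intro c hc
    rw [LinearMap.mem_ker] at hc ⊢
    exact h c.1 c.2 ((Submodule.Quotient.mk_eq_zero T).1 hc))
  refine ⟨Bq.comp T.mkQ, fun c hc => hBq ⟨c, hc⟩, fun c hc => ?_⟩
  have h1 : T.mkQ c = 0 := (Submodule.Quotient.mk_eq_zero T).2 hc
  rw [LinearMap.comp_apply, h1, map_zero]

theorem mem_KJ' {G : Type*} [Group G] {K : Fin n → Subgroup G} {J : Finset (Fin n)} {g : G} :
    g ∈ KJ K J ↔ ∀ i ∈ J, g ∈ K i := by
  simp [KJ, Subgroup.mem_iInf]

theorem exists_retr (k : Type*) [Field k] [CharP k 2] : ∃ pr : k →+ ZMod 2,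
    ∀ a : ZMod 2, pr (ZMod.castHom (dvd_refl 2) k a) = a := by
  let _ : Algebra (ZMod 2) k := ZMod.algebra k 2
  obtain ⟨pr, hpr⟩ := LinearMap.exists_leftInverse_of_injective (Algebra.linearMap (ZMod 2) k)
    (LinearMap.ker_eq_bot.2 (algebraMap (ZMod 2) k).injective)
  exact ⟨pr.toAddMonoidHom, fun a => LinearMap.congr_fun hpr a⟩

theorem mem_KJ_map {Kt : Fin n → Subgroup U} {Gam : Subgroup U} [Gam.Normal]
    {J : Finset (Fin n)} {u : U} (hu : u ∈ KJ Kt J) :
    QuotientGroup.mk' Gam u ∈ KJ (fun i => (Kt i).map (QuotientGroup.mk' Gam)) J := by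
  rw [mem_KJ'] at hu ⊢
  intro i hi
  exact Subgroup.mem_map_of_mem _ (hu i hi)

theorem exists_phi (io : ZMod 2 → k) (Kt : Fin n → Subgroup U) (Gam : Subgroup U)
    [Gam.Normal] (cell : Finset (Fin n) → X)
    (hst : ∀ (J : Finset (Fin n)) (u : U), u • cell J = cell J ↔ u ∈ KJ Kt J)
    (hdis : ∀ (J J' : Finset (Fin n)) (u : U), u • cell J = cell J' → J = J')
    (f : Finset (Fin n) → U ⧸ Gam → ZMod 2)
    (hf : IsCoch (fun i => (Kt i).map (QuotientGroup.mk' Gam)) f) :
    ∃ phi : X → k, (∀ (u : U) (J : Finset (Fin n)), phi (u • cell J) =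
      io (f J (QuotientGroup.mk' Gam u))) ∧ ∀ g ∈ Gam, ∀ x, phi (g • x) = phi x := by
  classical
  set q := QuotientGroup.mk' Gam with hq
  -- `u • cell J = u' • cell J'`
  have heq : ∀ (u u' : U) (J J' : Finset (Fin n)), u • cell J = u' • cell J' →
      J = J' ∧ u'⁻¹ * u ∈ KJ Kt J := by
    intro u u' J J' h
    have h1 : (u'⁻¹ * u) • cell J = cell J' := by
      rw [mul_smul, h, inv_smul_smul]
    have h2 := hdis _ _ _ h1
    subst h2
    exact ⟨rfl, (hst J _).1 h1⟩
  set phi : X → k := fun x => if h : ∃ p : U × Finset (Fin n), x = p.1 • cell p.2 then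
    io (f h.choose.2 (q h.choose.1)) else 0 with hphi
  have hphi1 : ∀ (u : U) (J : Finset (Fin n)), phi (u • cell J) = io (f J (q u)) := by
    intro u J
    have hex1 : ∃ p : U × Finset (Fin n), u • cell J = p.1 • cell p.2 := ⟨(u, J), rfl⟩
    simp only [hphi, dif_pos hex1]
    obtain ⟨h1, h2⟩ := heq _ _ _ _ hex1.choose_spec.symm
    rw [h1] at h2 ⊢
    congr 1
    have h3 : q hex1.choose.1 = q u * q (u⁻¹ * hex1.choose.1) := by
      rw [← map_mul, mul_inv_cancel_left]
    rw [h3]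
    exact hf J _ _ (mem_KJ_map h2)
  refine ⟨phi, hphi1, ?_⟩
  intro g hg x
  by_cases hx : ∃ p : U × Finset (Fin n), x = p.1 • cell p.2
  · obtain ⟨⟨u, J⟩, rfl⟩ := hx
    simp only
    rw [smul_smul, hphi1, hphi1]
    congr 2
    have h1 : q g = 1 := (QuotientGroup.eq_one_iff g).2 hg
    rw [map_mul, h1, one_mul]
  · have hx' : ¬ ∃ p : U × Finset (Fin n), g • x = p.1 • cell p.2 := by
      rintro ⟨⟨u, J⟩, h⟩
      refine hx ⟨(g⁻¹ * u, J), ?_⟩
      simp only at h ⊢
      rw [mul_smul, ← h, inv_smul_smul]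
    simp only [hphi, dif_neg hx, dif_neg hx']

theorem lc_zero_of_tw (Gam : Subgroup U) (phi : X → k)
    (hinv : ∀ g ∈ Gam, ∀ x, phi (g • x) = phi x)
    (c : X →₀ k) (hc : c ∈ (Tw.tw (1 : U →* k) Gam : Submodule k (X →₀ k))) :
    Finsupp.linearCombination k phi c = 0 := by
  induction hc using Submodule.span_induction with
  | mem c h =>
    obtain ⟨g, hg, x, rfl⟩ := h
    rw [map_sub, map_smul, Finsupp.linearCombination_single, Finsupp.linearCombination_single,
      hinv g hg]
    simp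
  | zero => simp
  | add a b _ _ ha hb => rw [map_add, ha, hb, add_zero]
  | smul a b _ hb => rw [map_smul, hb, smul_zero]

theorem lc_zero_of_supp (bd : (X →₀ k) →ₗ[k] (X →₀ k)) (S1 : Set X) (phi : X → k)
    (hcoc : ∀ x ∈ S1, Finsupp.linearCombination k phi (bd (single x 1)) = 0)
    (e : X →₀ k) (he : e ∈ supported k k S1) :
    Finsupp.linearCombination k phi (bd e) = 0 := by
  rw [Finsupp.supported_eq_span_single] at he
  induction he using Submodule.span_induction with
  | mem c h =>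
    obtain ⟨x, hx, rfl⟩ := h
    exact hcoc x hx
  | zero => simp
  | add a b _ _ ha hb => rw [map_add, map_add, ha, hb, add_zero]
  | smul a b _ hb => rw [map_smul, map_smul, hb, smul_zero]

theorem exists_B (Gam : Subgroup U) (bd : (X →₀ k) →ₗ[k] (X →₀ k)) (S S1 : Set X)
    (hex : Tw.Ex (1 : U →* k) Gam bd S S1) (phi : X → k)
    (hinv : ∀ g ∈ Gam, ∀ x, phi (g • x) = phi x)
    (hcoc : ∀ x ∈ S1, Finsupp.linearCombination k phi (bd (single x 1)) = 0) :
    ∃ B : (X →₀ k) →ₗ[k] k, (∀ x ∈ S, B (bd (single x 1)) = phi x) ∧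
      ∀ g ∈ Gam, ∀ x, B (single (g • x) 1) = B (single x 1) := by
  obtain ⟨B, hB1, hB2⟩ := exists_factor' bd (Finsupp.linearCombination k phi)
    (supported k k S) (Tw.tw (1 : U →* k) Gam) (fun c hc h1 => by
      obtain ⟨e, he, hce⟩ := hex c hc h1
      have h2 : c = (c - bd e) + bd e := by abel
      rw [h2, map_add, lc_zero_of_tw Gam phi hinv _ hce,
        lc_zero_of_supp bd S1 phi hcoc e he, add_zero])
  refine ⟨B, ?_, ?_⟩
  · intro x hx
    rw [hB1 _ (Finsupp.single_mem_supported k 1 hx), Finsupp.linearCombination_single, one_smul]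
  · intro g hg x
    have h0 := hB2 _ (Tw.tw_gen (1 : U →* k) hg x)
    rw [map_sub, map_smul, sub_eq_zero] at h0
    simpa using h0

end Vale.Agent.P067.Du

namespace Vale.Agent.P067

open Finset Finsupp Du

variable {n : ℕ} {U X k : Type*} [Group U] [MulAction U X] [Field k]

/-- Dualisation: if the complex of `Γ`-coinvariants of the chains on the cells is exact in the
sizes `1, …, d`, then the coset model of `U ⧸ Γ` has vanishing cohomology in these levels. -/
theorem cohZero_of_ex [CharP k 2] {d : ℕ} (Kt : Fin n → Subgroup U) (Gam : Subgroup U)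
    [Gam.Normal] (cell : Finset (Fin n) → X)
    (hst : ∀ (J : Finset (Fin n)) (u : U), u • cell J = cell J ↔ u ∈ KJ Kt J)
    (hdis : ∀ (J J' : Finset (Fin n)) (u : U), u • cell J = cell J' → J = J')
    (bd : (X →₀ k) →ₗ[k] (X →₀ k))
    (hbd : ∀ (u : U) (J : Finset (Fin n)), bd (single (u • cell J) 1) =
      ∑ i ∈ J, single (u • cell (J.erase i)) 1)
    (hK : ∀ (J : Finset (Fin n)) (g : U ⧸ Gam),
      g ∈ KJ (fun i => (Kt i).map (QuotientGroup.mk' Gam)) J →
        ∃ u ∈ KJ Kt J, (QuotientGroup.mk' Gam) u = g)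
    (hex : ∀ m, 1 ≤ m → m ≤ d →
      Tw.Ex (1 : U →* k) Gam bd (Du.cells U cell m) (Du.cells U cell (m + 1))) :
    CohZero (fun i => (Kt i).map (QuotientGroup.mk' Gam)) d := by
  classical
  intro m hm hmd f hf hfc
  obtain ⟨pr, hpr⟩ := exists_retr k
  obtain ⟨phi, hphi1, hphi2⟩ := exists_phi (fun a => ZMod.castHom (dvd_refl 2) k a) Kt Gam cell
    hst hdis f hf
  obtain ⟨B, hB1, hB2⟩ := exists_B Gam bd (Du.cells U cell m) (Du.cells U cell (m + 1))
    (hex m hm hmd) phi hphi2 (by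
      intro x hx
      obtain ⟨u, J, hJ, hxe⟩ : ∃ (u : U) (J : Finset (Fin n)), J.card = m + 1 ∧
        x = u • cell J := hx
      subst hxe
      rw [hbd, map_sum]
      simp only [Finsupp.linearCombination_single, one_smul, hphi1]
      rw [← map_sum]
      have h1 : del f J (QuotientGroup.mk' Gam u) = 0 := hfc J _ hJ
      unfold del at h1
      rw [h1, map_zero])
  set q := QuotientGroup.mk' Gam with hq
  set b : Finset (Fin n) → (U ⧸ Gam) → ZMod 2 := fun J g =>
    pr (B (single ((Function.surjInv (QuotientGroup.mk'_surjective Gam) g) • cell J) 1)) with hb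
  have hb1 : ∀ (J : Finset (Fin n)) (u : U), b J (q u) = pr (B (single (u • cell J) 1)) := by
    intro J u
    simp only [hb]
    set w := Function.surjInv (QuotientGroup.mk'_surjective Gam) (q u) with hw
    have hwq : q w = q u := Function.surjInv_eq (QuotientGroup.mk'_surjective Gam) (q u)
    have h1 : w * u⁻¹ ∈ Gam := by
      rw [← QuotientGroup.eq_one_iff]
      have : q (w * u⁻¹) = 1 := by rw [map_mul, map_inv, hwq, mul_inv_cancel]
      exact this
    have h2 : w • cell J = (w * u⁻¹) • (u • cell J) := by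
      rw [smul_smul, inv_mul_cancel_right]
    rw [h2, hB2 _ h1]
  refine ⟨b, ?_, ?_⟩
  · intro J g kk hkk
    obtain ⟨u, rfl⟩ := QuotientGroup.mk'_surjective Gam g
    obtain ⟨u', hu', rfl⟩ := hK J kk hkk
    have h1 : q u * q u' = q (u * u') := by
      rw [map_mul]
    rw [← hq, h1, hb1, hb1, mul_smul, (hst J u').2 hu']
  · intro J g hJ
    obtain ⟨u, rfl⟩ := QuotientGroup.mk'_surjective Gam g
    unfold del
    rw [← hq]
    simp only [hb1]
    rw [← map_sum, ← map_sum, ← hbd, hB1 _ ⟨u, J, hJ, rfl⟩, hphi1, hpr]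

end Vale.Agent.P067
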