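import Vale.Agent.P067.Coset
import Vale.Agent.P067.Join
import Vale.Agent.P067.Lat
import Vale.Agent.P067.DDual

/-!
# P067 (E2): exactness of the simplicial complex of cosets gives exactness of the coset complex,
and exact coinvariants give vanishing cohomology of the quotients
-/

open Finsupp

namespace Vale.Agent.P067.CE

set_option linter.unusedSectionVars false

variable {n : ℕ} {G : Type} [Group G] {K : Fin n → Subgroup G} {α : Type} [DecidableEq α]

theorem mem_KJ2 {J : Finset (Fin n)} {g : G} : g ∈ KJ K J ↔ ∀ i ∈ J, g ∈ K i := by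
  simp [KJ, Subgroup.mem_iInf]

/-- the simplex of a face -/
noncomputable def th (vtx : G → Fin n → α) (x : CFace K) : Finset α :=
  x.1.image (vtx (Quotient.out x.2))

theorem th_mk {vtx : G → Fin n → α} (ha : ∀ g h i j, vtx g i = vtx h j ↔ i = j ∧ g⁻¹ * h ∈ K i)
    (J : Finset (Fin n)) (g : G) : th vtx (CFace.mk J g : CFace K) = J.image (vtx g) := by
  unfold th
  obtain ⟨J', g', hx⟩ := CFace.exists_mk (CFace.mk J g : CFace K)
  have h1 : (CFace.mk J (Quotient.out (CFace.mk J g : CFace K).2) : CFace K) = CFace.mk J g := by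
    show (⟨J, _⟩ : Σ J : Finset (Fin n), G ⧸ KJ K J) = ⟨J, _⟩
    congr 1
    exact Quotient.out_eq _
  have h2 := CFace.mk_eq_mk.1 h1
  rw [mem_KJ2] at h2
  refine Finset.image_congr fun i hi => ?_
  exact (ha _ _ _ _).2 ⟨rfl, h2 i hi⟩

theorem th_inj {vtx : G → Fin n → α} (ha : ∀ g h i j, vtx g i = vtx h j ↔ i = j ∧ g⁻¹ * h ∈ K i) :
    Function.Injective (th vtx : CFace K → Finset α) := by
  intro x y hxy
  obtain ⟨J, g, rfl⟩ := CFace.exists_mk x
  obtain ⟨J', h, rfl⟩ := CFace.exists_mk y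
  rw [th_mk ha, th_mk ha] at hxy
  have h1 : ∀ i ∈ J, i ∈ J' ∧ g⁻¹ * h ∈ K i := by
    intro i hi
    have h2 : vtx g i ∈ J'.image (vtx h) := hxy ▸ Finset.mem_image_of_mem _ hi
    obtain ⟨j, hj, hj2⟩ := Finset.mem_image.1 h2
    obtain ⟨h3, h4⟩ := (ha g h i j).1 hj2.symm
    exact ⟨h3 ▸ hj, h4⟩
  have h2 : ∀ i ∈ J', i ∈ J := by
    intro i hi
    have h2 : vtx h i ∈ J.image (vtx g) := hxy.symm ▸ Finset.mem_image_of_mem _ hi
    obtain ⟨j, hj, hj2⟩ := Finset.mem_image.1 h2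
    obtain ⟨h3, _⟩ := (ha g h j i).1 hj2
    exact h3 ▸ hj
  have h3 : J = J' := Finset.Subset.antisymm (fun i hi => (h1 i hi).1) h2
  subst h3
  rw [CFace.mk_eq_mk, mem_KJ2]
  exact fun i hi => (h1 i hi).2

theorem vtx_injOn {vtx : G → Fin n → α}
    (ha : ∀ g h i j, vtx g i = vtx h j ↔ i = j ∧ g⁻¹ * h ∈ K i) (g : G) :
    Function.Injective (vtx g) := fun i j hij => ((ha g g i j).1 hij).1

theorem th_card {vtx : G → Fin n → α}
    (ha : ∀ g h i j, vtx g i = vtx h j ↔ i = j ∧ g⁻¹ * h ∈ K i) (x : CFace K) :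
    (th vtx x).card = x.gr := by
  obtain ⟨J, g, rfl⟩ := CFace.exists_mk x
  rw [th_mk ha, Finset.card_image_of_injective _ (vtx_injOn ha g), CFace.gr_mk]

variable {k : Type*} [Field k]

theorem bd_th {vtx : G → Fin n → α}
    (ha : ∀ g h i j, vtx g i = vtx h j ↔ i = j ∧ g⁻¹ * h ∈ K i) (c : CFace K →₀ k) :
    Jn.bd k (Finsupp.lmapDomain k k (th vtx) c) =
      Finsupp.lmapDomain k k (th vtx) (cbd k K c) := by
  induction c using Finsupp.induction_linear with
  | zero => simp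
  | add a b ha hb => simp only [map_add, ha, hb]
  | single x a =>
    have h1 : (single x a : CFace K →₀ k) = a • single x 1 := by simp
    rw [h1, map_smul, map_smul, map_smul, map_smul]
    congr 1
    rw [Finsupp.lmapDomain_apply, Finsupp.mapDomain_single, Jn.bd_single, cbd_single, map_sum]
    simp only [Finsupp.lmapDomain_apply, Finsupp.mapDomain_single]
    obtain ⟨J, g, rfl⟩ := CFace.exists_mk x
    rw [th_mk ha, Finset.sum_image fun i _ j _ h => vtx_injOn ha g h]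
    refine Finset.sum_congr rfl fun i _ => ?_
    rw [CFace.face_mk, th_mk ha, Finset.image_erase (vtx_injOn ha g)]

theorem th_image {vtx : G → Fin n → α} {A : Set (Finset α)}
    (ha : ∀ g h i j, vtx g i = vtx h j ↔ i = j ∧ g⁻¹ * h ∈ K i)
    (hA : ∀ s, s ∈ A ↔ ∃ (g : G) (J : Finset (Fin n)), s = J.image (vtx g)) (m : ℕ) :
    {s | s ∈ A ∧ s.card = m} = th vtx '' {x : CFace K | x.gr = m} := by
  ext s
  constructor
  · rintro ⟨h1, h2⟩
    obtain ⟨g, J, rfl⟩ := (hA s).1 h1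
    refine ⟨CFace.mk J g, ?_, th_mk ha J g⟩
    rw [← th_mk ha, th_card ha] at h2
    exact h2
  · rintro ⟨x, hx, rfl⟩
    refine ⟨?_, ?_⟩
    · obtain ⟨J, g, rfl⟩ := CFace.exists_mk x
      rw [hA, th_mk ha]
      exact ⟨g, J, rfl⟩
    · rw [th_card ha]
      exact hx

/-- Exactness of the simplicial complex `A` of the cosets at size `m` gives exactness of the
coset complex at size `m`. -/
theorem exact_at {vtx : G → Fin n → α} {A : Set (Finset α)}
    (ha : ∀ g h i j, vtx g i = vtx h j ↔ i = j ∧ g⁻¹ * h ∈ K i)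
    (hA : ∀ s, s ∈ A ↔ ∃ (g : G) (J : Finset (Fin n)), s = J.image (vtx g)) {m : ℕ}
    (hex : ∀ c ∈ supported k k {s | s ∈ A ∧ s.card = m}, Jn.bd k c = 0 →
      ∃ e ∈ supported k k {s | s ∈ A ∧ s.card = m + 1}, Jn.bd k e = c)
    (c : CFace K →₀ k) (hc : c ∈ supported k k {x : CFace K | x.gr = m})
    (h0 : cbd k K c = 0) :
    ∃ e ∈ supported k k {x : CFace K | x.gr = m + 1}, cbd k K e = c := by
  classical
  have hinj : Function.Injective (Finsupp.lmapDomain k k (th vtx : CFace K → Finset α)) :=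
    Finsupp.mapDomain_injective (th_inj ha)
  rw [th_image (K := K) ha hA, th_image (K := K) ha hA, ← Finsupp.lmapDomain_supported,
    ← Finsupp.lmapDomain_supported] at hex
  obtain ⟨e', he', h1⟩ := hex _ (Submodule.mem_map_of_mem hc) (by rw [bd_th ha, h0, map_zero])
  obtain ⟨e, he, rfl⟩ := Submodule.mem_map.1 he'
  refine ⟨e, he, hinj ?_⟩
  rw [← bd_th ha, h1]

/-- **(E2)** -/
theorem cExact_of {vtx : G → Fin n → α} {A : Set (Finset α)}
    (ha : ∀ g h i j, vtx g i = vtx h j ↔ i = j ∧ g⁻¹ * h ∈ K i)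
    (hA : ∀ s, s ∈ A ↔ ∃ (g : G) (J : Finset (Fin n)), s = J.image (vtx g)) {d : ℕ}
    (hex : ∀ m ≤ d, ∀ c ∈ supported k k {s | s ∈ A ∧ s.card = m}, Jn.bd k c = 0 →
      ∃ e ∈ supported k k {s | s ∈ A ∧ s.card = m + 1}, Jn.bd k e = c) :
    CExact k K d := fun m hm c hc h0 => exact_at ha hA (hex m hm) c hc h0

/-! ### the lattice model -/

section Lattice

variable {F : Type} [Field F]

/-- the vertex `g L_i⁰` -/
noncomputable def vtx (F : Type) [Field F] (n : ℕ) (g : UU F n) (i : Fin n) :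
    Submodule F (VV F) :=
  (Lo F (i : ℤ)).map (g : VV F ≃ₗ[F] VV F).toLinearMap

theorem mem_vtx {g : UU F n} {i : Fin n} {v : VV F} :
    v ∈ vtx F n g i ↔ ((g⁻¹ : UU F n) : VV F ≃ₗ[F] VV F) v ∈ Lo F (i : ℤ) := by
  unfold vtx
  constructor
  · rintro ⟨w, hw, rfl⟩
    have e : ((g⁻¹ : UU F n) : VV F ≃ₗ[F] VV F) ((g : VV F ≃ₗ[F] VV F) w) = w :=
      LinearEquiv.symm_apply_apply (g : VV F ≃ₗ[F] VV F) w
    show ((g⁻¹ : UU F n) : VV F ≃ₗ[F] VV F) ((g : VV F ≃ₗ[F] VV F) w) ∈ _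
    rw [e]
    exact hw
  · intro h
    refine ⟨((g⁻¹ : UU F n) : VV F ≃ₗ[F] VV F) v, h, ?_⟩
    exact LinearEquiv.apply_symm_apply (g : VV F ≃ₗ[F] VV F) v

theorem Lo_ne_of_lt {g : UU F n} {i j : Fin n} (hij : i < j)
    (h : ∀ v ∈ Lo F (i : ℤ), (g : VV F ≃ₗ[F] VV F) v ∈ Lo F (j : ℤ)) : False := by
  have hij' : (i : ℤ) < (j : ℤ) := by exact_mod_cast hij
  have h1 : (single ((i : ℤ) + 1) (1 : F) : VV F) ∈ Lo F (i : ℤ) := by
    rw [mem_Lo]
    intro l hl
    rw [Finsupp.single_apply, if_neg (by omega)]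
  have h2 := mem_Lo.1 (h _ h1) ((i : ℤ) + 1) (by omega)
  have h3 : (single ((i : ℤ) + 1) (1 : F) : VV F) ∈ MM F ((i : ℤ) + 1) := by
    rw [mem_MM]
    intro l hl
    rw [Finsupp.single_apply, if_neg (by omega)]
  have h4 := mem_MM.1 (g.2.2 _ _ h3) ((i : ℤ) + 1) (by omega)
  rw [Finsupp.sub_apply, h2, Finsupp.single_eq_same] at h4
  simp at h4

theorem vtx_eq_iff (g h : UU F n) (i j : Fin n) :
    vtx F n g i = vtx F n h j ↔ i = j ∧ g⁻¹ * h ∈ Ki F n i := by
  have key : vtx F n g i = vtx F n h j ↔ ∀ v : VV F,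
      ((g⁻¹ * h : UU F n) : VV F ≃ₗ[F] VV F) v ∈ Lo F (i : ℤ) ↔ v ∈ Lo F (j : ℤ) := by
    constructor
    · intro h1 v
      have h2 : (h : VV F ≃ₗ[F] VV F) v ∈ vtx F n g i ↔ (h : VV F ≃ₗ[F] VV F) v ∈ vtx F n h j := by
        rw [h1]
      rw [mem_vtx, mem_vtx] at h2
      have e : ((h⁻¹ : UU F n) : VV F ≃ₗ[F] VV F) ((h : VV F ≃ₗ[F] VV F) v) = v :=
        LinearEquiv.symm_apply_apply (h : VV F ≃ₗ[F] VV F) v
      rw [e] at h2
      exact h2
    · intro h1
      ext w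
      rw [mem_vtx, mem_vtx]
      have h2 := h1 (((h⁻¹ : UU F n) : VV F ≃ₗ[F] VV F) w)
      have e : ((g⁻¹ * h : UU F n) : VV F ≃ₗ[F] VV F) (((h⁻¹ : UU F n) : VV F ≃ₗ[F] VV F) w) =
          ((g⁻¹ : UU F n) : VV F ≃ₗ[F] VV F) w := by
        show ((g⁻¹ : UU F n) : VV F ≃ₗ[F] VV F) ((h : VV F ≃ₗ[F] VV F)
          (((h⁻¹ : UU F n) : VV F ≃ₗ[F] VV F) w)) = _
        congr 1
        exact LinearEquiv.apply_symm_apply (h : VV F ≃ₗ[F] VV F) w
      rw [e] at h2
      exact h2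
  rw [key]
  constructor
  · intro h1
    have hij : i = j := by
      rcases lt_trichotomy i j with hlt | heq | hgt
      · exfalso
        refine Lo_ne_of_lt (g := (g⁻¹ * h)⁻¹) hlt fun v hv => ?_
        have h2 := h1 ((((g⁻¹ * h)⁻¹ : UU F n) : VV F ≃ₗ[F] VV F) v)
        have e : ((g⁻¹ * h : UU F n) : VV F ≃ₗ[F] VV F)
            ((((g⁻¹ * h)⁻¹ : UU F n) : VV F ≃ₗ[F] VV F) v) = v :=
          LinearEquiv.apply_symm_apply ((g⁻¹ * h : UU F n) : VV F ≃ₗ[F] VV F) v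
        rw [e] at h2
        exact h2.1 hv
      · exact heq
      · exfalso
        exact Lo_ne_of_lt (g := g⁻¹ * h) hgt fun v hv => (h1 v).2 hv
    subst hij
    exact ⟨rfl, h1⟩
  · rintro ⟨rfl, h1⟩
    exact h1

/-- **(E2) for the lattice model**, given the description of the faces of `Y`. -/
theorem cExact_Ki {d : ℕ}
    (hA : ∀ s, s ∈ YY F n ↔ ∃ (g : UU F n) (J : Finset (Fin n)), s = J.image (vtx F n g))
    (hex : ∀ m ≤ d, ∀ c ∈ supported k k {s | s ∈ YY F n ∧ s.card = m}, Jn.bd k c = 0 →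
      ∃ e ∈ supported k k {s | s ∈ YY F n ∧ s.card = m + 1}, Jn.bd k e = c) :
    CExact k (Ki F n) d := cExact_of vtx_eq_iff hA hex

end Lattice

/-! ### vanishing cohomology of the quotients -/

/-- Exact coinvariants of the coset complex give vanishing cohomology of the coset model of
the quotient. -/
theorem cohZero_of_cosets [CharP k 2] {d : ℕ} (K : Fin n → Subgroup G) (Gam : Subgroup G)
    [Gam.Normal]
    (hK : ∀ (J : Finset (Fin n)) (g : G ⧸ Gam),
      g ∈ KJ (fun i => (K i).map (QuotientGroup.mk' Gam)) J →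
        ∃ u ∈ KJ K J, (QuotientGroup.mk' Gam) u = g)
    (hex : ∀ m, 1 ≤ m → m ≤ d → Tw.Ex (1 : G →* k) Gam (cbd k K)
      {x : CFace K | x.gr = m} {x : CFace K | x.gr = m + 1}) :
    CohZero (fun i => (K i).map (QuotientGroup.mk' Gam)) d := by
  have hcell : ∀ m, Du.cells G (fun J => (CFace.mk J 1 : CFace K)) m =
      {x : CFace K | x.gr = m} := by
    intro m
    ext x
    constructor
    · rintro ⟨u, J, hJ, rfl⟩
      exact hJ
    · intro hx
      obtain ⟨J, g, rfl⟩ := CFace.exists_mk x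
      refine ⟨g, J, hx, ?_⟩
      rw [CFace.smul_mk, mul_one]
  refine cohZero_of_ex (k := k) K Gam (fun J => (CFace.mk J 1 : CFace K)) ?_ ?_ (cbd k K) ?_ hK ?_
  · intro J u
    rw [CFace.smul_mk, mul_one, CFace.mk_eq_mk, mul_one]
    exact Subgroup.inv_mem_iff (KJ K J)
  · intro J J' u h
    exact congrArg Sigma.fst h
  · intro u J
    rw [CFace.smul_mk, mul_one, cbd_single]
    refine Finset.sum_congr rfl fun i _ => ?_
    rw [CFace.face_mk, CFace.smul_mk, mul_one]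
  · intro m hm hmd
    rw [hcell, hcell]
    exact hex m hm hmd

end Vale.Agent.P067.CE
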