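import Vale.Agent.P067.DDefs

/-!
# P067, part D: averages
-/

namespace Vale.Agent.P067

open Finset

set_option linter.unusedSectionVars false

variable {n : ℕ} {G : Type*} [Group G]

theorem mem_KJ {K : Fin n → Subgroup G} {J : Finset (Fin n)} {g : G} :
    g ∈ KJ K J ↔ ∀ i ∈ J, g ∈ K i := by
  simp [KJ, Subgroup.mem_iInf]

theorem KJ_anti {K : Fin n → Subgroup G} {R J : Finset (Fin n)} (h : R ⊆ J) :
    KJ K J ≤ KJ K R := fun _ hg => mem_KJ.2 fun i hi => mem_KJ.1 hg i (h hi)

/-- the sum of products -/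
def ip [Fintype G] (f h : G → ℝ) : ℝ := ∑ g, f g * h g

/-- the norm -/
noncomputable def nrm [Fintype G] (h : G → ℝ) : ℝ := Real.sqrt (sq h)

section

variable [Fintype G]

theorem sq_eq_ip (h : G → ℝ) : sq h = ip h h := by
  simp [sq, ip, pow_two]

theorem sq_nonneg' (h : G → ℝ) : 0 ≤ sq h := sum_nonneg fun _ _ => sq_nonneg _

theorem nrm_nonneg (h : G → ℝ) : 0 ≤ nrm h := Real.sqrt_nonneg _

theorem nrm_sq (h : G → ℝ) : nrm h ^ 2 = sq h := Real.sq_sqrt (sq_nonneg' h)

theorem ip_le (f h : G → ℝ) : ip f h ≤ nrm f * nrm h := by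
  unfold ip nrm sq
  exact Real.sum_mul_le_sqrt_mul_sqrt _ _ _

theorem ip_comm (f h : G → ℝ) : ip f h = ip h f := by
  unfold ip
  exact sum_congr rfl fun _ _ => mul_comm _ _

theorem nrm_le_of_sq_le {f : G → ℝ} {c : ℝ} (hc : 0 ≤ c) (h : sq f ≤ c ^ 2) : nrm f ≤ c := by
  unfold nrm
  exact Real.sqrt_le_iff.2 ⟨hc, h⟩

theorem nrm_add_le (f h : G → ℝ) : nrm (fun g => f g + h g) ≤ nrm f + nrm h := by
  apply nrm_le_of_sq_le (add_nonneg (nrm_nonneg f) (nrm_nonneg h))
  have h1 : sq (fun g => f g + h g) = sq f + sq h + 2 * ip f h := by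
    unfold sq ip
    rw [mul_sum, ← sum_add_distrib, ← sum_add_distrib]
    exact sum_congr rfl fun _ _ => by ring
  have h2 := ip_le f h
  rw [h1, ← nrm_sq f, ← nrm_sq h]
  nlinarith

theorem nrm_sum_le {ι : Type*} (s : Finset ι) (F : ι → G → ℝ) :
    nrm (fun g => ∑ i ∈ s, F i g) ≤ ∑ i ∈ s, nrm (F i) := by
  classical
  induction s using Finset.induction_on with
  | empty => simp [nrm, sq]
  | insert a s ha ih =>
    simp only [sum_insert ha]
    refine (nrm_add_le _ _).trans ?_
    linarith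

end

section Avg

variable [Fintype G] (K : Fin n → Subgroup G)

/-- the finset of the elements of `K_R` -/
noncomputable def KF (R : Finset (Fin n)) : Finset G := by
  classical
  exact univ.filter fun k => k ∈ KJ K R

variable {K}

theorem mem_KF {R : Finset (Fin n)} {g : G} : g ∈ KF K R ↔ g ∈ KJ K R := by
  classical
  simp [KF]

theorem one_mem_KF (R : Finset (Fin n)) : (1 : G) ∈ KF K R := mem_KF.2 (one_mem _)

theorem KF_card_pos (R : Finset (Fin n)) : 0 < ((KF K R).card : ℝ) :=
  Nat.cast_pos.2 (card_pos.2 ⟨1, one_mem_KF R⟩)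

theorem avg_eq (R : Finset (Fin n)) (h : G → ℝ) (g : G) :
    avg K R h g = (∑ k ∈ KF K R, h (g * k)) / ((KF K R).card : ℝ) := by
  classical
  simp only [avg, KF]

theorem avg_inv (R : Finset (Fin n)) (h : G → ℝ) : Inv K R (avg K R h) := by
  intro g k hk
  rw [avg_eq, avg_eq]
  congr 1
  refine sum_bij' (fun x _ => k * x) (fun x _ => k⁻¹ * x) ?_ ?_ ?_ ?_ ?_
  · intro x hx
    exact mem_KF.2 (mul_mem hk (mem_KF.1 hx))
  · intro x hx
    exact mem_KF.2 (mul_mem (inv_mem hk) (mem_KF.1 hx))
  · intro x _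
    simp
  · intro x _
    simp
  · intro x _
    rw [mul_assoc]

theorem Inv.mono {R J : Finset (Fin n)} (hRJ : R ⊆ J) {h : G → ℝ} (hh : Inv K R h) :
    Inv K J h := fun g k hk => hh g k (KJ_anti hRJ hk)

theorem avg_of_inv {R : Finset (Fin n)} {h : G → ℝ} (hh : Inv K R h) : avg K R h = h := by
  funext g
  rw [avg_eq]
  have : ∑ k ∈ KF K R, h (g * k) = ∑ k ∈ KF K R, h g :=
    sum_congr rfl fun k hk => hh g k (mem_KF.1 hk)
  rw [this, sum_const, nsmul_eq_mul, mul_div_assoc, mul_comm, div_mul_cancel₀]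
  exact (KF_card_pos R).ne'

theorem sum_avg_mul (R : Finset (Fin n)) (f h : G → ℝ) : ip f (avg K R h) = ip (avg K R f) h := by
  unfold ip
  simp only [avg_eq, mul_div_assoc', div_mul_eq_mul_div, ← sum_div, mul_sum, sum_mul]
  congr 1
  rw [sum_comm]
  conv_rhs => rw [sum_comm]
  refine sum_bij' (fun k _ => k⁻¹) (fun k _ => k⁻¹) ?_ ?_ ?_ ?_ ?_
  · intro k hk
    exact mem_KF.2 (inv_mem (mem_KF.1 hk))
  · intro k hk
    exact mem_KF.2 (inv_mem (mem_KF.1 hk))
  · intro k _
    simp
  · intro k _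
    simp
  · intro k _
    refine sum_bij' (fun g _ => g * k) (fun g _ => g * k⁻¹) ?_ ?_ ?_ ?_ ?_
    · intro g _
      exact mem_univ _
    · intro g _
      exact mem_univ _
    · intro g _
      simp
    · intro g _
      simp
    · intro g _
      simp

theorem avg_avg_le {R J : Finset (Fin n)} (hRJ : R ⊆ J) (h : G → ℝ) :
    avg K R (avg K J h) = avg K R h := by
  funext g
  rw [avg_eq, avg_eq]
  congr 1
  have h1 : ∀ k ∈ KF K R, avg K J h (g * k) =
      (∑ x ∈ KF K J, h (g * (k * x))) / ((KF K J).card : ℝ) := by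
    intro k _
    rw [avg_eq]
    simp only [mul_assoc]
  rw [sum_congr rfl h1, ← sum_div, sum_comm]
  have h2 : ∀ x ∈ KF K J, ∑ k ∈ KF K R, h (g * (k * x)) = ∑ k ∈ KF K R, h (g * k) := by
    intro x hx
    have hx' : x ∈ KJ K R := KJ_anti hRJ (mem_KF.1 hx)
    refine sum_bij' (fun k _ => k * x) (fun k _ => k * x⁻¹) ?_ ?_ ?_ ?_ ?_
    · intro k hk
      exact mem_KF.2 (mul_mem (mem_KF.1 hk) hx')
    · intro k hk
      exact mem_KF.2 (mul_mem (mem_KF.1 hk) (inv_mem hx'))
    · intro k _
      simp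
    · intro k _
      simp
    · intro k _
      rfl
  rw [sum_congr rfl h2, sum_const, nsmul_eq_mul, mul_comm, mul_div_assoc, div_self, mul_one]
  exact (KF_card_pos J).ne'

theorem avg_avg_ge {R J : Finset (Fin n)} (hRJ : R ⊆ J) (h : G → ℝ) :
    avg K J (avg K R h) = avg K R h := avg_of_inv ((avg_inv R h).mono hRJ)

theorem avg_nonneg (R : Finset (Fin n)) {h : G → ℝ} (hh : ∀ g, 0 ≤ h g) (g : G) :
    0 ≤ avg K R h g := by
  rw [avg_eq]
  exact div_nonneg (sum_nonneg fun _ _ => hh _) (KF_card_pos R).le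

theorem avg_sub (R : Finset (Fin n)) (f h : G → ℝ) :
    avg K R (fun g => f g - h g) = fun g => avg K R f g - avg K R h g := by
  funext g
  simp only [avg_eq, sum_sub_distrib, sub_div]

theorem avg_sum {ι : Type*} (s : Finset ι) (R : Finset (Fin n)) (F : ι → G → ℝ) :
    avg K R (fun g => ∑ i ∈ s, F i g) = fun g => ∑ i ∈ s, avg K R (F i) g := by
  funext g
  simp only [avg_eq, ← sum_div]
  rw [sum_comm]

theorem nrm_avg_le (R : Finset (Fin n)) (h : G → ℝ) : nrm (avg K R h) ≤ nrm h := by
  have h1 : sq (avg K R h) = ip (avg K R h) h := by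
    rw [sq_eq_ip, sum_avg_mul R (avg K R h) h, avg_of_inv (avg_inv R h)]
  have h2 := ip_le (avg K R h) h
  rw [← h1, ← nrm_sq] at h2
  by_contra hcon
  push Not at hcon
  have h3 := nrm_nonneg h
  nlinarith

/-- telescoping -/
theorem tele {lam : ℝ} (hlam : 0 ≤ lam) (hS : Spec K lam) (R : Finset (Fin n)) (i : Fin n)
    (hiR : i ∉ R) : ∀ U : Finset (Fin n), i ∉ U → Disjoint R U → ∀ h : G → ℝ, Inv K (R ∪ U) h →
      nrm (fun g => avg K (insert i R) h g - avg K R h g) ≤ U.card * lam * nrm h := by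
  intro U
  induction U using Finset.induction_on with
  | empty =>
    intro _ _ h hh
    rw [union_empty] at hh
    rw [avg_of_inv hh, avg_of_inv (hh.mono (subset_insert i R))]
    simp [nrm, sq]
  | insert u U hu ih =>
    intro hiU hd h hh
    have hiU' : i ∉ U := fun h => hiU (mem_insert_of_mem h)
    have hui : u ≠ i := fun h => hiU (h ▸ mem_insert_self u U)
    have hdU : Disjoint R U := disjoint_of_subset_right (subset_insert u U) hd
    have huR : u ∉ R := fun h => (disjoint_left.1 hd h) (mem_insert_self u U)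
    have hRU : u ∉ R ∪ U := by
      rw [mem_union]
      exact fun h => h.elim huR hu
    have hiRU : i ∉ R ∪ U := by
      rw [mem_union]
      exact fun h => h.elim hiR hiU'
    have hh' : Inv K (insert u (R ∪ U)) h := by
      have : insert u (R ∪ U) = R ∪ insert u U := by
        ext x
        simp only [mem_insert, mem_union]
        tauto
      rw [this]
      exact hh
    have hsp := hS (R ∪ U) i u hiRU hRU (Ne.symm hui) h hh'
    set D : G → ℝ := fun g => avg K (insert i (R ∪ U)) h g - avg K (R ∪ U) h g with hD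
    have hDn : nrm D ≤ lam * nrm h := by
      apply nrm_le_of_sq_le (mul_nonneg hlam (nrm_nonneg h))
      rw [mul_pow, nrm_sq]
      exact hsp
    set H := avg K (R ∪ U) h with hH
    have h1 : nrm (fun g => avg K (insert i R) h g - avg K (insert i R) H g) ≤ lam * nrm h := by
      have h2 : (fun g => avg K (insert i R) h g - avg K (insert i R) H g) =
          avg K (insert i R) D := by
        rw [hD, avg_sub, avg_avg_le (insert_subset_insert i subset_union_left)]
      rw [h2]
      exact (nrm_avg_le _ _).trans hDn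
    have h3 : nrm (fun g => avg K (insert i R) H g - avg K R H g) ≤ U.card * lam * nrm H :=
      ih hiU' hdU H (avg_inv _ _)
    have h4 : avg K R H = avg K R h := avg_avg_le subset_union_left h
    have h5 : nrm H ≤ nrm h := nrm_avg_le _ _
    have h6 : (fun g => avg K (insert i R) h g - avg K R h g) = fun g =>
        (avg K (insert i R) h g - avg K (insert i R) H g) +
        (avg K (insert i R) H g - avg K R H g) := by
      funext g
      rw [h4]
      ring
    rw [h6, card_insert_of_notMem hu]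
    refine (nrm_add_le _ _).trans ?_
    push_cast
    have h7 : (U.card : ℝ) * lam * nrm H ≤ U.card * lam * nrm h :=
      mul_le_mul_of_nonneg_left h5 (mul_nonneg (Nat.cast_nonneg _) hlam)
    linarith

end Avg

end Vale.Agent.P067
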