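import Mathlib

/-!
# P067, part D: the coset model (definitions)

A finite group `G` with subgroups `K i`, `i : Fin n`.  A cochain is a family of functions
`f J : G → ZMod 2`, one for every type `J : Finset (Fin n)`, with `f J` right invariant under
`KJ K J`, the intersection of the `K i`, `i ∈ J`.  Level `m` means `J.card = m`.
-/

namespace Vale.Agent.P067

open Finset

variable {n : ℕ} {G : Type*} [Group G]

/-- the intersection of the `K i`, `i ∈ J` (the whole group for `J = ∅`) -/
def KJ (K : Fin n → Subgroup G) (J : Finset (Fin n)) : Subgroup G := ⨅ i ∈ J, K i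

/-- cochains: `f J` is right invariant under `KJ K J` -/
def IsCoch (K : Fin n → Subgroup G) (f : Finset (Fin n) → G → ZMod 2) : Prop :=
  ∀ J g k, k ∈ KJ K J → f J (g * k) = f J g

/-- the coboundary -/
def del (f : Finset (Fin n) → G → ZMod 2) : Finset (Fin n) → G → ZMod 2 :=
  fun J g => ∑ i ∈ J, f (J.erase i) g

/-- the types of level `m` -/
def typ (n m : ℕ) : Finset (Finset (Fin n)) := univ.filter fun J => J.card = m

/-- the number of pairs `(J, g)`, `J.card = m`, with `f J g ≠ 0` -/
def cntm [Fintype G] (m : ℕ) (f : Finset (Fin n) → G → ZMod 2) : ℕ :=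
  ∑ J ∈ typ n m, (univ.filter fun g => f J g ≠ 0).card

/-- the average over right multiplication by `KJ K R` -/
noncomputable def avg [Fintype G] (K : Fin n → Subgroup G) (R : Finset (Fin n)) (h : G → ℝ) :
    G → ℝ := by
  classical
  exact fun g => (∑ k ∈ univ.filter (fun k => k ∈ KJ K R), h (g * k)) /
    ((univ.filter fun k => k ∈ KJ K R).card : ℝ)

/-- sum of squares -/
def sq [Fintype G] (h : G → ℝ) : ℝ := ∑ g, h g ^ 2

/-- right invariance under `KJ K R` -/
def Inv (K : Fin n → Subgroup G) (R : Finset (Fin n)) (h : G → ℝ) : Prop :=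
  ∀ g k, k ∈ KJ K R → h (g * k) = h g

/-- spectral condition: for all types `R` and all `i ≠ j` not in `R` the averages over
`K_{R+i}` and `K_{R+j}` are almost independent over `K_R` -/
def Spec [Fintype G] (K : Fin n → Subgroup G) (lam : ℝ) : Prop :=
  ∀ (R : Finset (Fin n)) (i j : Fin n), i ∉ R → j ∉ R → i ≠ j → ∀ h : G → ℝ,
    Inv K (insert j R) h →
      sq (fun g => avg K (insert i R) h g - avg K R h g) ≤ lam ^ 2 * sq h

/-- the number of pairs `(J, k)`, `R ⊆ J`, `J.card = m`, `k ∈ K_R`, with `f J (g * k) ≠ 0` -/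
noncomputable def cntL [Fintype G] (K : Fin n → Subgroup G) (R : Finset (Fin n)) (m : ℕ)
    (f : Finset (Fin n) → G → ZMod 2) (g : G) : ℕ := by
  classical
  exact ∑ J ∈ (typ n m).filter (fun J => R ⊆ J),
    (univ.filter fun k => k ∈ KJ K R ∧ f J (g * k) ≠ 0).card

/-- supported on the types that contain `R` -/
def SuppOn (R : Finset (Fin n)) (f : Finset (Fin n) → G → ZMod 2) : Prop :=
  ∀ J, ¬ R ⊆ J → ∀ g, f J g = 0

/-- local coboundary expansion: for every nonempty type `R` and every `m` with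
`R.card ≤ m ≤ d + 1`, cochains of level `m` supported on the types containing `R` -/
def LocExp [Fintype G] (K : Fin n → Subgroup G) (d : ℕ) (beta : ℝ) : Prop :=
  ∀ (R : Finset (Fin n)) (m : ℕ), R.Nonempty → R.card ≤ m → m ≤ d + 1 →
    ∀ f : Finset (Fin n) → G → ZMod 2, IsCoch K f → SuppOn R f →
      ∃ c : Finset (Fin n) → G → ZMod 2, IsCoch K c ∧ SuppOn R c ∧
        ∀ g, beta * (cntL K R m (fun J x => f J x - del c J x) g : ℝ) ≤
          (cntL K R (m + 1) (del f) g : ℝ)

/-- cocycles of level `m ≤ d` are coboundaries -/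
def CohZero (K : Fin n → Subgroup G) (d : ℕ) : Prop :=
  ∀ m, 1 ≤ m → m ≤ d → ∀ f : Finset (Fin n) → G → ZMod 2, IsCoch K f →
    (∀ J g, J.card = m + 1 → del f J g = 0) →
      ∃ b : Finset (Fin n) → G → ZMod 2, IsCoch K b ∧ ∀ J g, J.card = m → f J g = del b J g

/-- the conclusion: coboundary expansion at the levels `1, …, d` -/
def Expand [Fintype G] (K : Fin n → Subgroup G) (d : ℕ) (eps : ℝ) : Prop :=
  ∀ m, 1 ≤ m → m ≤ d → ∀ f : Finset (Fin n) → G → ZMod 2, IsCoch K f →
    ∃ b : Finset (Fin n) → G → ZMod 2, IsCoch K b ∧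
      eps * (cntm m (fun J x => f J x - del b J x) : ℝ) ≤ (cntm (m + 1) (del f) : ℝ)

end Vale.Agent.P067
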