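import Vale.Agent.P067.DAvg

/-!
# P067, part D: small locally minimal cocycles vanish
-/

namespace Vale.Agent.P067.PD

open Finset

set_option linter.unusedSectionVars false

variable {n : ℕ} {G : Type*} [Group G] [Fintype G] {K : Fin n → Subgroup G}

/-- indicator of the support -/
noncomputable def ind (f : Finset (Fin n) → G → ZMod 2) (J : Finset (Fin n)) : G → ℝ :=
  fun g => if f J g = 0 then 0 else 1

theorem ind_nonneg (f : Finset (Fin n) → G → ZMod 2) (J : Finset (Fin n)) (g : G) :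
    0 ≤ ind f J g := by
  unfold ind
  split_ifs <;> norm_num

theorem ind_sq (f : Finset (Fin n) → G → ZMod 2) (J : Finset (Fin n)) (g : G) :
    ind f J g ^ 2 = ind f J g := by
  unfold ind
  split_ifs <;> norm_num

theorem sum_ind (s : Finset G) (f : Finset (Fin n) → G → ZMod 2) (J : Finset (Fin n)) :
    ∑ g ∈ s, ind f J g = ((s.filter fun g => f J g ≠ 0).card : ℝ) := by
  rw [card_filter]
  push_cast
  refine sum_congr rfl fun g _ => ?_
  unfold ind
  split_ifs <;> simp_all

theorem ind_inv {f : Finset (Fin n) → G → ZMod 2} (hf : IsCoch K f) (J : Finset (Fin n)) :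
    Inv K J (ind f J) := by
  intro g k hk
  unfold ind
  rw [hf J g k hk]

/-- the functions `A_R` -/
noncomputable def AR (K : Fin n → Subgroup G) (m : ℕ) (f : Finset (Fin n) → G → ZMod 2)
    (R : Finset (Fin n)) : G → ℝ :=
  fun g => ∑ J ∈ (typ n m).filter (fun J => R ⊆ J), avg K R (ind f J) g

theorem cntL_eq_sum (R : Finset (Fin n)) (m : ℕ) (f : Finset (Fin n) → G → ZMod 2) (g : G) :
    (cntL K R m f g : ℝ) = ∑ J ∈ (typ n m).filter (fun J => R ⊆ J),
      ∑ k ∈ KF K R, ind f J (g * k) := by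
  classical
  unfold cntL KF
  push_cast
  refine sum_congr rfl fun J _ => ?_
  rw [← filter_filter, card_filter]
  push_cast
  refine sum_congr (by congr) fun k _ => ?_
  unfold ind
  split_ifs <;> simp_all

theorem sum_KF_ind (R : Finset (Fin n)) (h : G → ℝ) (g : G) :
    ∑ k ∈ KF K R, h (g * k) = (KF K R).card * avg K R h g := by
  rw [avg_eq, mul_div_cancel₀]
  exact (KF_card_pos R).ne'

theorem cntL_eq (R : Finset (Fin n)) (m : ℕ) (f : Finset (Fin n) → G → ZMod 2) (g : G) :
    (cntL K R m f g : ℝ) = (KF K R).card * AR K m f R g := by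
  rw [cntL_eq_sum, AR, mul_sum]
  exact sum_congr rfl fun J _ => sum_KF_ind R _ g

/-- local minimality -/
def LocMin (K : Fin n → Subgroup G) (m : ℕ) (f : Finset (Fin n) → G → ZMod 2) : Prop :=
  ∀ R : Finset (Fin n), R.Nonempty → ∀ c : Finset (Fin n) → G → ZMod 2, IsCoch K c →
    SuppOn R c → ∀ g, cntL K R m f g ≤ cntL K R m (fun J x => f J x - del c J x) g

theorem mem_typ {m : ℕ} {J : Finset (Fin n)} : J ∈ typ n m ↔ J.card = m := by
  simp [typ]

theorem key {d m : ℕ} {beta : ℝ} (hb : 0 ≤ beta) (hmd : m ≤ d + 1)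
    (hL : LocExp K d beta) {z : Finset (Fin n) → G → ZMod 2} (hz : IsCoch K z)
    (hcoc : ∀ J g, J.card = m + 1 → del z J g = 0) (hmin : LocMin K m z)
    (R : Finset (Fin n)) (hR : R.Nonempty) (hRm : R.card ≤ m) (g : G) :
    beta * AR K m z R g ≤ ∑ i ∈ R, ∑ J ∈ (typ n m).filter (fun J => R.erase i ⊆ J ∧ i ∉ J),
      avg K R (ind z J) g := by
  classical
  set φ : Finset (Fin n) → G → ZMod 2 := fun J x => if R ⊆ J then z J x else 0 with hφ
  have hφc : IsCoch K φ := by
    intro J x k hk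
    simp only [hφ]
    split_ifs
    · exact hz J x k hk
    · rfl
  have hφs : SuppOn R φ := by
    intro J hJ x
    simp only [hφ, if_neg hJ]
  obtain ⟨c, hc, hcR, hc3⟩ := hL R m hR hRm hmd φ hφc hφs
  have h1 : cntL K R m (fun J x => φ J x - del c J x) g =
      cntL K R m (fun J x => z J x - del c J x) g := by
    unfold cntL
    refine sum_congr rfl fun J hJ => ?_
    have hJ' := (mem_filter.1 hJ).2
    simp only [hφ, if_pos hJ']
  have h2 := hmin R hR c hc hcR g
  have h3 := hc3 g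
  rw [h1] at h3
  have h4 : beta * (cntL K R m z g : ℝ) ≤ (cntL K R (m + 1) (del φ) g : ℝ) :=
    (mul_le_mul_of_nonneg_left (Nat.cast_le.2 h2) hb).trans h3
  -- the coboundary of the restriction
  have h5 : ∀ J ∈ (typ n (m + 1)).filter (fun J => R ⊆ J), ∀ x,
      ind (del φ) J x ≤ ∑ i ∈ R, ind z (J.erase i) x := by
    intro J hJ x
    obtain ⟨hJm, hRJ⟩ := mem_filter.1 hJ
    have hJm := mem_typ.1 hJm
    have h6 : del φ J x + ∑ i ∈ R, z (J.erase i) x = 0 := by
      rw [← hcoc J x hJm]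
      unfold del
      rw [← sum_sdiff hRJ, ← sum_sdiff hRJ, add_assoc]
      have h7 : ∑ i ∈ R, φ (J.erase i) x = 0 := by
        refine sum_eq_zero fun i hi => ?_
        have : ¬ R ⊆ J.erase i := fun h => (mem_erase.1 (h hi)).1 rfl
        simp only [hφ, if_neg this]
      rw [h7, zero_add]
      congr 1
      refine sum_congr rfl fun i hi => ?_
      obtain ⟨hiJ, hiR⟩ := mem_sdiff.1 hi
      have : R ⊆ J.erase i := fun y hy => mem_erase.2 ⟨fun h => hiR (h ▸ hy), hRJ hy⟩
      simp only [hφ, if_pos this]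
    by_cases h8 : del φ J x = 0
    · unfold ind at *
      rw [if_pos h8]
      exact sum_nonneg fun i _ => ind_nonneg z (J.erase i) x
    · have h9 : ∃ i ∈ R, z (J.erase i) x ≠ 0 := by
        by_contra hcon
        push Not at hcon
        rw [sum_eq_zero hcon, add_zero] at h6
        exact h8 h6
      obtain ⟨i, hi, hi2⟩ := h9
      have h10 : ind (del φ) J x = 1 := by
        unfold ind
        rw [if_neg h8]
      have h11 : ind z (J.erase i) x = 1 := by
        unfold ind
        rw [if_neg hi2]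
      rw [h10, ← h11]
      exact single_le_sum (f := fun i => ind z (J.erase i) x)
        (fun i _ => ind_nonneg z (J.erase i) x) hi
  have h12 : (cntL K R (m + 1) (del φ) g : ℝ) ≤ ∑ i ∈ R,
      ∑ J ∈ (typ n m).filter (fun J => R.erase i ⊆ J ∧ i ∉ J),
        ∑ k ∈ KF K R, ind z J (g * k) := by
    rw [cntL_eq_sum]
    have h13 : ∑ J ∈ (typ n (m + 1)).filter (fun J => R ⊆ J), ∑ k ∈ KF K R,
        ind (del φ) J (g * k) ≤ ∑ J ∈ (typ n (m + 1)).filter (fun J => R ⊆ J),
          ∑ i ∈ R, ∑ k ∈ KF K R, ind z (J.erase i) (g * k) := by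
      refine sum_le_sum fun J hJ => ?_
      rw [sum_comm]
      exact sum_le_sum fun k _ => h5 J hJ (g * k)
    refine h13.trans (le_of_eq ?_)
    rw [sum_comm]
    refine sum_congr rfl fun i hi => ?_
    refine sum_bij' (fun J _ => J.erase i) (fun J _ => insert i J) ?_ ?_ ?_ ?_ ?_
    · intro J hJ
      obtain ⟨hJm, hRJ⟩ := mem_filter.1 hJ
      have hJm := mem_typ.1 hJm
      refine mem_filter.2 ⟨mem_typ.2 ?_, erase_subset_erase i hRJ, notMem_erase i J⟩
      rw [card_erase_of_mem (hRJ hi), hJm]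
      rfl
    · intro J hJ
      obtain ⟨hJm, hRJ, hiJ⟩ := mem_filter.1 hJ
      have hJm := mem_typ.1 hJm
      refine mem_filter.2 ⟨mem_typ.2 ?_, ?_⟩
      · rw [card_insert_of_notMem hiJ, hJm]
      · intro y hy
        by_cases hyi : y = i
        · rw [hyi]
          exact mem_insert_self i J
        · exact mem_insert_of_mem (hRJ (mem_erase.2 ⟨hyi, hy⟩))
    · intro J hJ
      exact insert_erase ((mem_filter.1 hJ).2 hi)
    · intro J hJ
      exact erase_insert (mem_filter.1 hJ).2.2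
    · intro J _
      rfl
  have h14 := h4.trans h12
  rw [cntL_eq] at h14
  simp only [sum_KF_ind, ← mul_sum] at h14
  have hpos := KF_card_pos (K := K) R
  have h15 : ((KF K R).card : ℝ) * (beta * AR K m z R g) ≤ ((KF K R).card : ℝ) *
      ∑ i ∈ R, ∑ J ∈ (typ n m).filter (fun J => R.erase i ⊆ J ∧ i ∉ J),
        avg K R (ind z J) g := by
    linarith
  exact le_of_mul_le_mul_left h15 hpos

theorem AR_nonneg (m : ℕ) (f : Finset (Fin n) → G → ZMod 2) (R : Finset (Fin n)) (g : G) :
    0 ≤ AR K m f R g := sum_nonneg fun J _ => avg_nonneg R (ind_nonneg f J) g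

theorem AR_inv (m : ℕ) (f : Finset (Fin n) → G → ZMod 2) (R : Finset (Fin n)) :
    Inv K R (AR K m f R) := by
  intro g k hk
  unfold AR
  exact sum_congr rfl fun J _ => avg_inv R _ g k hk

theorem sq_ind (f : Finset (Fin n) → G → ZMod 2) (J : Finset (Fin n)) :
    sq (ind f J) = ((univ.filter fun g => f J g ≠ 0).card : ℝ) := by
  rw [← sum_ind]
  exact sum_congr rfl fun g _ => ind_sq f J g

theorem nrm_ind_le {m : ℕ} (f : Finset (Fin n) → G → ZMod 2) {J : Finset (Fin n)}
    (hJ : J ∈ typ n m) : nrm (ind f J) ≤ Real.sqrt (cntm m f : ℝ) := by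
  apply nrm_le_of_sq_le (Real.sqrt_nonneg _)
  rw [Real.sq_sqrt (Nat.cast_nonneg _), sq_ind]
  exact_mod_cast single_le_sum (f := fun J => (univ.filter fun g => f J g ≠ 0).card)
    (fun _ _ => Nat.zero_le _) hJ

theorem card_le_two_pow (s : Finset (Finset (Fin n))) : (s.card : ℝ) ≤ 2 ^ n := by
  have h : s.card ≤ 2 ^ n := by
    refine (card_le_univ s).trans ?_
    rw [Fintype.card_finset, Fintype.card_fin]
  exact_mod_cast h

theorem nrm_AR_le (m : ℕ) (f : Finset (Fin n) → G → ZMod 2) (R : Finset (Fin n)) :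
    nrm (AR K m f R) ≤ 2 ^ n * Real.sqrt (cntm m f : ℝ) := by
  unfold AR
  refine (nrm_sum_le _ _).trans ?_
  have h1 : ∑ J ∈ (typ n m).filter (fun J => R ⊆ J), nrm (avg K R (ind f J)) ≤
      ∑ J ∈ (typ n m).filter (fun J => R ⊆ J), Real.sqrt (cntm m f : ℝ) :=
    sum_le_sum fun J hJ => (nrm_avg_le _ _).trans (nrm_ind_le f (mem_filter.1 hJ).1)
  refine h1.trans ?_
  rw [sum_const, nsmul_eq_mul]
  exact mul_le_mul_of_nonneg_right (card_le_two_pow _) (Real.sqrt_nonneg _)

theorem ip_mono {f h h' : G → ℝ} (hf : ∀ g, 0 ≤ f g) (hh : ∀ g, h g ≤ h' g) :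
    ip f h ≤ ip f h' := sum_le_sum fun g _ => mul_le_mul_of_nonneg_left (hh g) (hf g)

theorem ip_sum {ι : Type*} (s : Finset ι) (f : G → ℝ) (F : ι → G → ℝ) :
    ip f (fun g => ∑ i ∈ s, F i g) = ∑ i ∈ s, ip f (F i) := by
  unfold ip
  simp only [mul_sum]
  rw [sum_comm]

theorem ip_add (f h h' : G → ℝ) : ip f (fun g => h g + h' g) = ip f h + ip f h' := by
  unfold ip
  simp only [mul_add, sum_add_distrib]

/-- the recursion for the second moments -/
theorem step {d m : ℕ} {beta lam : ℝ} (hb : 0 ≤ beta) (hlam : 0 ≤ lam) (hmd : m ≤ d + 1)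
    (hS : Spec K lam) (hL : LocExp K d beta) {z : Finset (Fin n) → G → ZMod 2}
    (hz : IsCoch K z) (hcoc : ∀ J g, J.card = m + 1 → del z J g = 0) (hmin : LocMin K m z)
    (R : Finset (Fin n)) (hR : R.Nonempty) (hRm : R.card ≤ m) :
    beta * sq (AR K m z R) ≤ ∑ i ∈ R, (sq (AR K m z (R.erase i)) +
      2 ^ n * (2 ^ n * (m * lam * (cntm m z : ℝ)))) := by
  classical
  set N : ℝ := (cntm m z : ℝ) with hN
  have hN0 : 0 ≤ N := Nat.cast_nonneg _
  set A := AR K m z R with hA
  have hA0 : ∀ g, 0 ≤ A g := AR_nonneg m z R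
  have h1 : beta * sq A ≤ ∑ i ∈ R,
      ∑ J ∈ (typ n m).filter (fun J => R.erase i ⊆ J ∧ i ∉ J), ip A (avg K R (ind z J)) := by
    have h2 : beta * sq A = ip A (fun g => beta * A g) := by
      unfold sq ip
      rw [mul_sum]
      exact sum_congr rfl fun _ _ => by ring
    rw [h2]
    refine (ip_mono hA0 (key hb hmd hL hz hcoc hmin R hR hRm)).trans (le_of_eq ?_)
    rw [ip_sum]
    exact sum_congr rfl fun i _ => ip_sum _ _ _
  refine h1.trans (sum_le_sum fun i hi => ?_)
  set S := (typ n m).filter (fun J => R.erase i ⊆ J ∧ i ∉ J) with hSd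
  have h3 : ∀ J ∈ S, ip A (avg K R (ind z J)) ≤ ip A (avg K (R.erase i) (ind z J)) +
      2 ^ n * (m * lam * N) := by
    intro J hJ
    obtain ⟨hJm, hRJ, hiJ⟩ := mem_filter.1 hJ
    have hins : insert i (R.erase i) = R := insert_erase hi
    have hU : R.erase i ∪ (J \ R.erase i) = J := union_sdiff_of_subset hRJ
    have ht := tele hlam hS (R.erase i) i (notMem_erase i R) (J \ R.erase i)
      (fun h => hiJ (mem_sdiff.1 h).1) disjoint_sdiff (ind z J)
      (by rw [hU]; exact ind_inv hz J)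
    rw [hins] at ht
    have hcard : ((J \ R.erase i).card : ℝ) ≤ m := by
      have : (J \ R.erase i).card ≤ J.card := card_le_card sdiff_subset
      rw [mem_typ.1 hJm] at this
      exact_mod_cast this
    have h4 : nrm (fun g => avg K R (ind z J) g - avg K (R.erase i) (ind z J) g) ≤
        m * lam * Real.sqrt N := by
      refine ht.trans ?_
      refine mul_le_mul (mul_le_mul_of_nonneg_right hcard hlam) (nrm_ind_le z hJm)
        (nrm_nonneg _) (mul_nonneg (Nat.cast_nonneg _) hlam)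
    have h5 : avg K R (ind z J) = fun g => avg K (R.erase i) (ind z J) g +
        (avg K R (ind z J) g - avg K (R.erase i) (ind z J) g) := by
      funext g
      ring
    rw [h5, ip_add]
    have h6 := ip_le A (fun g => avg K R (ind z J) g - avg K (R.erase i) (ind z J) g)
    have h7 : nrm A * nrm (fun g => avg K R (ind z J) g - avg K (R.erase i) (ind z J) g) ≤
        (2 ^ n * Real.sqrt N) * (m * lam * Real.sqrt N) :=
      mul_le_mul (nrm_AR_le m z R) h4 (nrm_nonneg _)
        (mul_nonneg (by positivity) (Real.sqrt_nonneg _))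
    have h8 : (2 ^ n * Real.sqrt N) * (m * lam * Real.sqrt N) = 2 ^ n * (m * lam * N) := by
      have := Real.mul_self_sqrt hN0
      calc (2 ^ n * Real.sqrt N) * (m * lam * Real.sqrt N)
          = 2 ^ n * (m * lam * (Real.sqrt N * Real.sqrt N)) := by ring
        _ = _ := by rw [this]
    linarith
  have h9 : ∑ J ∈ S, ip A (avg K R (ind z J)) ≤
      ∑ J ∈ S, ip A (avg K (R.erase i) (ind z J)) + 2 ^ n * (2 ^ n * (m * lam * N)) := by
    refine (sum_le_sum h3).trans ?_
    rw [sum_add_distrib, sum_const, nsmul_eq_mul]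
    have h10 : (S.card : ℝ) * (2 ^ n * (m * lam * N)) ≤ 2 ^ n * (2 ^ n * (m * lam * N)) :=
      mul_le_mul_of_nonneg_right (card_le_two_pow _) (by positivity)
    linarith
  have h11 : ∑ J ∈ S, ip A (avg K (R.erase i) (ind z J)) ≤ sq (AR K m z (R.erase i)) := by
    set B := AR K m z (R.erase i) with hB
    have hB0 : ∀ g, 0 ≤ B g := AR_nonneg m z _
    rw [← ip_sum]
    have h12 : ∀ g, ∑ J ∈ S, avg K (R.erase i) (ind z J) g ≤ B g := by
      intro g
      refine sum_le_sum_of_subset_of_nonneg ?_ fun J _ _ => avg_nonneg _ (ind_nonneg z J) g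
      intro J hJ
      obtain ⟨hJm, hRJ, _⟩ := mem_filter.1 hJ
      exact mem_filter.2 ⟨hJm, hRJ⟩
    refine (ip_mono hA0 h12).trans ?_
    have h13 : ip A B = ip (avg K (R.erase i) A) B := by
      rw [← sum_avg_mul, avg_of_inv (AR_inv m z _)]
    have h14 : ∀ g, avg K (R.erase i) A g ≤ B g := by
      intro g
      rw [hA]
      unfold AR
      rw [avg_sum]
      simp only [avg_avg_le (K := K) (erase_subset i R)]
      refine sum_le_sum_of_subset_of_nonneg ?_ fun J _ _ => avg_nonneg _ (ind_nonneg z J) g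
      intro J hJ
      obtain ⟨hJm, hRJ⟩ := mem_filter.1 hJ
      exact mem_filter.2 ⟨hJm, (erase_subset i R).trans hRJ⟩
    rw [h13, ip_comm, sq_eq_ip]
    exact ip_mono hB0 h14
  linarith

/-- the bound for the second moments -/
theorem moment {d m : ℕ} {beta lam : ℝ} (hb : 0 < beta) (hb1 : beta ≤ 1) (hlam : 0 ≤ lam)
    (hm : 1 ≤ m) (hmd : m ≤ d + 1)
    (hS : Spec K lam) (hL : LocExp K d beta) {z : Finset (Fin n) → G → ZMod 2}
    (hz : IsCoch K z) (hcoc : ∀ J g, J.card = m + 1 → del z J g = 0) (hmin : LocMin K m z) :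
    ∀ r, r ≤ m → ∀ R : Finset (Fin n), R.card = r → sq (AR K m z R) ≤
      (m / beta) ^ r * (sq (AR K m z ∅) + r * (2 ^ n * (2 ^ n * (m * lam * (cntm m z : ℝ))))) := by
  set Y : ℝ := 2 ^ n * (2 ^ n * (m * lam * (cntm m z : ℝ))) with hY
  have hY0 : 0 ≤ Y := by positivity
  set X : ℝ := sq (AR K m z ∅) with hX
  have hX0 : 0 ≤ X := sq_nonneg' _
  set B : ℝ := m / beta with hB
  have hm1 : (1 : ℝ) ≤ m := by exact_mod_cast hm
  have hB1 : 1 ≤ B := by
    rw [hB, le_div_iff₀ hb]
    linarith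
  intro r
  induction r with
  | zero =>
    intro _ R hR
    rw [card_eq_zero.1 hR]
    simp [hX]
  | succ r ih =>
    intro hr R hR
    have hRn : R.Nonempty := card_pos.1 (by omega)
    have h1 := step hb.le hlam hmd hS hL hz hcoc hmin R hRn (by omega)
    have h2 : ∀ i ∈ R, sq (AR K m z (R.erase i)) + Y ≤ B ^ r * (X + (r + 1) * Y) := by
      intro i hi
      have h3 := ih (by omega) (R.erase i) (by rw [card_erase_of_mem hi, hR]; rfl)
      have h4 : 1 ≤ B ^ r := one_le_pow₀ hB1
      nlinarith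
    have h5 : ∑ i ∈ R, (sq (AR K m z (R.erase i)) + Y) ≤ m * (B ^ r * (X + (r + 1) * Y)) := by
      refine (sum_le_sum h2).trans ?_
      rw [sum_const, nsmul_eq_mul]
      refine mul_le_mul_of_nonneg_right ?_ (by positivity)
      have : R.card ≤ m := by omega
      exact_mod_cast this
    have h6 : beta * sq (AR K m z R) ≤ m * (B ^ r * (X + (r + 1) * Y)) := h1.trans h5
    have h7 : sq (AR K m z R) ≤ m * (B ^ r * (X + (r + 1) * Y)) / beta := by
      rw [le_div_iff₀ hb]
      linarith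
    have h8 : m * (B ^ r * (X + (r + 1) * Y)) / beta = B * (B ^ r * (X + (r + 1) * Y)) := by
      rw [hB]
      ring
    rw [h8] at h7
    refine h7.trans (le_of_eq ?_)
    push_cast
    ring

theorem AR_empty (m : ℕ) (z : Finset (Fin n) → G → ZMod 2) :
    sq (AR K m z ∅) * Fintype.card G = (cntm m z : ℝ) ^ 2 := by
  classical
  have hKF : KF K ∅ = univ := by
    ext g
    simp [mem_KF, mem_KJ]
  have h1 : ∀ g, AR K m z ∅ g = (cntm m z : ℝ) / Fintype.card G := by
    intro g
    unfold AR cntm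
    push_cast
    rw [sum_div]
    refine sum_congr (by simp) fun J _ => ?_
    rw [avg_eq, hKF, card_univ]
    congr 1
    have h2 : ∑ k : G, ind z J (g * k) = ∑ k : G, ind z J k :=
      Fintype.sum_equiv (Equiv.mulLeft g) _ _ fun k => rfl
    rw [h2, sum_ind]
  have hG : (Fintype.card G : ℝ) ≠ 0 := Nat.cast_ne_zero.2 Fintype.card_ne_zero
  unfold sq
  simp only [h1, sum_const, nsmul_eq_mul, card_univ]
  field_simp

theorem sq_AR_top {m : ℕ} {z : Finset (Fin n) → G → ZMod 2} (hz : IsCoch K z)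
    {R : Finset (Fin n)} (hR : R.card = m) :
    sq (AR K m z R) = ((univ.filter fun g => z R g ≠ 0).card : ℝ) := by
  classical
  have h1 : AR K m z R = ind z R := by
    funext g
    unfold AR
    have h2 : (typ n m).filter (fun J => R ⊆ J) = {R} := by
      ext J
      rw [mem_filter, mem_typ, mem_singleton]
      constructor
      · rintro ⟨h3, h4⟩
        exact (eq_of_subset_of_card_le h4 (by omega)).symm
      · rintro rfl
        exact ⟨hR, Subset.refl _⟩
    rw [h2, sum_singleton, avg_of_inv (ind_inv hz R)]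
  rw [h1, sq_ind]

/-- Small locally minimal cocycles vanish. -/
theorem small_zero (n d : ℕ) {beta : ℝ} (hb : 0 < beta) (hb1 : beta ≤ 1) :
    ∃ lam > 0, ∃ eta > 0, ∀ (G : Type) [Group G] [Fintype G] (K : Fin n → Subgroup G),
      Spec K lam → LocExp K d beta → ∀ m, 1 ≤ m → m ≤ d + 1 →
        ∀ z : Finset (Fin n) → G → ZMod 2, IsCoch K z →
          (∀ J g, J.card = m + 1 → del z J g = 0) → LocMin K m z →
            (cntm m z : ℝ) < eta * Fintype.card G → cntm m z = 0 := by
  set P : ℝ := 2 ^ n * ((d + 1 : ℕ) / beta) ^ (d + 1) with hP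
  have hdb : 1 ≤ ((d + 1 : ℕ) : ℝ) / beta := by
    rw [le_div_iff₀ hb]
    have : (1 : ℝ) ≤ ((d + 1 : ℕ) : ℝ) := by exact_mod_cast Nat.succ_le_succ (Nat.zero_le d)
    linarith
  have hP1 : 1 ≤ P := by
    have h1 : (1 : ℝ) ≤ 2 ^ n := one_le_pow₀ (by norm_num)
    have h2 : 1 ≤ ((d + 1 : ℕ) / beta : ℝ) ^ (d + 1) := one_le_pow₀ hdb
    nlinarith
  set Q : ℝ := (d + 1 : ℕ) * (2 ^ n * (2 ^ n * ((d + 1 : ℕ) : ℝ))) with hQ
  have hQ0 : 0 < Q := by positivity
  refine ⟨1 / (4 * P * Q), by positivity, 1 / (4 * P), by positivity, ?_⟩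
  intro G _ _ K hS hL m hm hmd z hz hcoc hmin hsmall
  set lam : ℝ := 1 / (4 * P * Q) with hlam
  have hlam0 : 0 < lam := by positivity
  set N : ℝ := (cntm m z : ℝ) with hN
  have hN0 : 0 ≤ N := Nat.cast_nonneg _
  have hG : (0 : ℝ) < Fintype.card G := Nat.cast_pos.2 Fintype.card_pos
  set X : ℝ := sq (AR K m z ∅) with hX
  have hXN : X * Fintype.card G = N ^ 2 := AR_empty m z
  have hX0 : 0 ≤ X := sq_nonneg' _
  have hm' : (m : ℝ) ≤ ((d + 1 : ℕ) : ℝ) := by exact_mod_cast hmd
  have h1 : ∀ R ∈ typ n m, ((univ.filter fun g => z R g ≠ 0).card : ℝ) ≤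
      ((d + 1 : ℕ) / beta) ^ (d + 1) * (X + Q * lam * N) := by
    intro R hR
    have hR' := mem_typ.1 hR
    have h2 := moment hb hb1 hlam0.le hm hmd hS hL hz hcoc hmin m le_rfl R hR'
    rw [sq_AR_top hz hR'] at h2
    refine h2.trans ?_
    have hmb : 1 ≤ (m : ℝ) / beta := by
      rw [le_div_iff₀ hb]
      have : (1 : ℝ) ≤ m := by exact_mod_cast hm
      linarith
    have h3 : ((m : ℝ) / beta) ^ m ≤ ((d + 1 : ℕ) / beta) ^ (d + 1) :=
      (pow_le_pow_left₀ (by positivity) (div_le_div_of_nonneg_right hm' hb.le) m).trans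
        (pow_le_pow_right₀ hdb hmd)
    have h4 : (m : ℝ) * (2 ^ n * (2 ^ n * (m * lam * N))) ≤ Q * lam * N := by
      have h5 : (m : ℝ) * (2 ^ n * (2 ^ n * (m * lam * N))) =
          ((m : ℝ) * m) * (2 ^ n * 2 ^ n * (lam * N)) := by ring
      have h6 : Q * lam * N = (((d + 1 : ℕ) : ℝ) * ((d + 1 : ℕ) : ℝ)) *
          (2 ^ n * 2 ^ n * (lam * N)) := by
        rw [hQ]
        ring
      rw [h5, h6]
      refine mul_le_mul_of_nonneg_right ?_ (by positivity)
      exact mul_le_mul hm' hm' (Nat.cast_nonneg _) (Nat.cast_nonneg _)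
    refine mul_le_mul h3 (by linarith) (by positivity) (by positivity)
  have h2 : N ≤ P * (X + Q * lam * N) := by
    have h3 : N = ∑ R ∈ typ n m, ((univ.filter fun g => z R g ≠ 0).card : ℝ) := by
      rw [hN]
      unfold cntm
      push_cast
      rfl
    calc N = ∑ R ∈ typ n m, ((univ.filter fun g => z R g ≠ 0).card : ℝ) := h3
      _ ≤ ∑ R ∈ typ n m, ((d + 1 : ℕ) / beta) ^ (d + 1) * (X + Q * lam * N) := sum_le_sum h1
      _ = (typ n m).card * (((d + 1 : ℕ) / beta) ^ (d + 1) * (X + Q * lam * N)) := by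
          rw [sum_const, nsmul_eq_mul]
      _ ≤ 2 ^ n * (((d + 1 : ℕ) / beta) ^ (d + 1) * (X + Q * lam * N)) :=
          mul_le_mul_of_nonneg_right (card_le_two_pow _) (by positivity)
      _ = P * (X + Q * lam * N) := by rw [hP]; ring
  have h3 : P * (Q * lam * N) = N / 4 := by
    rw [hlam]
    field_simp
  have h4 : N * (3 / 4) ≤ P * X := by nlinarith
  by_contra hne
  have hNpos : 0 < N := by
    rw [hN]
    exact Nat.cast_pos.2 (Nat.pos_of_ne_zero hne)
  have h5 : N * (3 / 4) * Fintype.card G ≤ P * N ^ 2 := by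
    rw [← hXN]
    nlinarith
  have h6 : 3 / 4 * (Fintype.card G : ℝ) ≤ P * N := by
    have : N * (3 / 4 * Fintype.card G) ≤ N * (P * N) := by nlinarith
    exact le_of_mul_le_mul_left this hNpos
  have h7 : P * N < Fintype.card G / 4 := by
    have h8 : N < 1 / (4 * P) * Fintype.card G := hsmall
    have h9 : P * N < P * (1 / (4 * P) * Fintype.card G) :=
      mul_lt_mul_of_pos_left h8 (by linarith)
    have h10 : P * (1 / (4 * P) * Fintype.card G) = Fintype.card G / 4 := by
      field_simp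
    rw [h10] at h9
    exact h9
  linarith

end Vale.Agent.P067.PD
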