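import Mathlib

namespace Vale.Agent.P067

/-- A finite pure `d`-dimensional simplicial complex with vertices in `ℕ`, given by the nonempty
finite set of its `d`-faces (sets of `d + 1` vertices). Its faces are the subsets of these. -/
structure PureComplex (d : ℕ) where
  /-- the set `X(d)` of `d`-faces -/
  facets : Finset (Finset ℕ)
  card_of_mem : ∀ τ ∈ facets, τ.card = d + 1
  facets_nonempty : facets.Nonempty

namespace PureComplex

variable {d : ℕ} (X : PureComplex d)

/-- `X(i)`: the faces with `i + 1` vertices. -/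
def faces (i : ℕ) : Finset (Finset ℕ) :=
  X.facets.biUnion fun τ => τ.powersetCard (i + 1)

/-- The vertices of `X`. -/
def vertices : Finset ℕ := X.facets.biUnion fun τ => τ

/-- The number of `d`-faces containing `σ`. -/
def cofaces (σ : Finset ℕ) : ℕ := (X.facets.filter fun τ => σ ⊆ τ).card

/-- The degree of `X`: the largest number of `d`-faces containing a single vertex. -/
def degree : ℕ := X.vertices.sup fun v => X.cofaces {v}

/-- `X` is connected: any two vertices are joined by a path of vertices, successive ones lying in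
a common face. -/
def Connected : Prop := ∀ u ∈ X.vertices, ∀ v ∈ X.vertices,
  Relation.ReflTransGen (fun a b => ∃ τ ∈ X.facets, a ∈ τ ∧ b ∈ τ) u v

/-- The weight `w_i(σ)`. -/
noncomputable def weight (i : ℕ) (σ : Finset ℕ) : ℝ :=
  X.cofaces σ / ((d + 1).choose (i + 1) * X.facets.card)

/-- `C^i(X)`: functions `X(i) → 𝔽₂`. -/
abbrev Cochain (i : ℕ) : Type := X.faces i → ZMod 2

/-- The norm `‖f‖_i`. -/
noncomputable def norm (i : ℕ) (f : X.Cochain i) : ℝ :=
  ∑ σ : X.faces i with f σ ≠ 0, X.weight i σ

/-- The coboundary `δ_i : C^i(X) → C^{i+1}(X)`. -/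
def coboundary (i : ℕ) (f : X.Cochain i) : X.Cochain (i + 1) :=
  fun τ => ∑ σ : X.faces i with σ.1 ⊆ τ.1, f σ

/-- `B^i`: the image of `δ_{i-1}` for `i ≥ 1`, and the constant functions for `i = 0`. -/
def B : (i : ℕ) → Set (X.Cochain i)
  | 0 => {a | ∃ c, ∀ v, a v = c}
  | i + 1 => Set.range (X.coboundary i)

/-- The distance of `f` to a set `A` of cochains. -/
noncomputable def dist (i : ℕ) (f : X.Cochain i) (A : Set (X.Cochain i)) : ℝ :=
  sInf ((fun a => X.norm i (f - a)) '' A)

/-- `X` is an `ε`-coboundary expander. -/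
def IsCoboundaryExpander (ε : ℝ) : Prop := ∀ i < d, ∀ f : X.Cochain i,
  ε * X.dist i f (X.B i) ≤ X.norm (i + 1) (X.coboundary i f)

end PureComplex

end Vale.Agent.P067
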