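import Mathlib

/-!
# P067: linear forms killing some perturbed columns of an invertible matrix
-/

namespace Vale.Agent.P067.Dp

open Matrix

set_option linter.unusedSectionVars false

variable {R : Type*} [CommRing R] {n : Type*} [Fintype n] [DecidableEq n]

/-- **The form.**  `B` invertible with inverse `B'`, `v i` congruent to the column `i` of `B`
modulo `τ` for `i ∈ S`, `i0 ∉ S`: a linear form `φ`, congruent to the row `i0` of `B'` modulo
`τ`, with `φ (v i) = 0` for all `i ∈ S`. -/
theorem exists_phi (τ : R) (B B' : Matrix n n R) (hB : B' * B = 1) (i0 : n) (S : Finset n)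
    (hS : i0 ∉ S) (v : n → n → R) (hv : ∀ i ∈ S, ∀ j, ∃ r, v i j = B j i + τ * r) :
    ∃ φ : n → R, (∀ i ∈ S, φ ⬝ᵥ v i = 0) ∧ ∀ j, ∃ r, φ j = B' i0 j + τ * r := by
  let A : Matrix n n R := Matrix.of fun j i => if i ∈ S then v i j else B j i
  have hBd : B'.det * B.det = 1 := by rw [← det_mul, hB, det_one]
  have hadjB : B'.det • B.adjugate = B' := by
    have h1 : B * B.adjugate = B.det • 1 := mul_adjugate B
    calc B'.det • B.adjugate = B'.det • ((B' * B) * B.adjugate) := by rw [hB, one_mul]
      _ = B'.det • (B' * (B.det • (1 : Matrix n n R))) := by rw [mul_assoc, h1]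
      _ = B' := by
        rw [Matrix.mul_smul, mul_one, smul_smul, hBd, one_smul]
  let π := Ideal.Quotient.mk (Ideal.span {τ})
  have hA : π.mapMatrix A = π.mapMatrix B := by
    ext j i
    simp only [RingHom.mapMatrix_apply, Matrix.map_apply, A, Matrix.of_apply]
    split_ifs with hi
    · obtain ⟨r, hr⟩ := hv i hi j
      rw [hr]
      show Ideal.Quotient.mk _ _ = Ideal.Quotient.mk _ _
      rw [Ideal.Quotient.mk_eq_mk_iff_sub_mem, add_sub_cancel_left]
      exact Ideal.mul_mem_right _ _ (Ideal.mem_span_singleton_self τ)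
    · rfl
  refine ⟨fun j => B'.det * A.adjugate i0 j, fun i hi => ?_, fun j => ?_⟩
  · have h1 : (A.adjugate * A) i0 i = 0 := by
      rw [adjugate_mul, Matrix.smul_apply, one_apply_ne (fun h => hS (by rw [h]; exact hi)),
        smul_zero]
    rw [Matrix.mul_apply] at h1
    have h2 : ∀ j, A j i = v i j := by
      intro j
      simp only [A, Matrix.of_apply, if_pos hi]
    have h3 : (fun j => B'.det * A.adjugate i0 j) ⬝ᵥ v i =
        B'.det * ∑ j, A.adjugate i0 j * A j i := by
      simp only [dotProduct, Finset.mul_sum, h2, mul_assoc]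
    rw [h3, h1, mul_zero]
  · have h1 : π (B'.det * A.adjugate i0 j) = π (B' i0 j) := by
      have h2 : π (A.adjugate i0 j) = π (B.adjugate i0 j) := by
        have h3 := RingHom.map_adjugate π A
        have h4 := RingHom.map_adjugate π B
        rw [hA] at h3
        have h5 := congrFun (congrFun (h3.trans h4.symm) i0) j
        exact h5
      rw [map_mul, h2, ← map_mul]
      congr 1
      exact congrFun (congrFun hadjB i0) j
    have h6 : B'.det * A.adjugate i0 j - B' i0 j ∈ Ideal.span {τ} :=
      (Ideal.Quotient.mk_eq_mk_iff_sub_mem _ _).mp h1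
    obtain ⟨r, hr⟩ := Ideal.mem_span_singleton'.mp h6
    refine ⟨r, ?_⟩
    show B'.det * A.adjugate i0 j = _
    have : B'.det * A.adjugate i0 j = B' i0 j + (B'.det * A.adjugate i0 j - B' i0 j) := by ring
    rw [this, ← hr]
    ring

/-- the transvection `1 + u φ` -/
def tv (u φ : n → R) : Matrix n n R := 1 + vecMulVec u φ

theorem tv_mul (u φ ψ : n → R) (h : φ ⬝ᵥ u = 0) : tv u φ * tv u ψ = tv u (φ + ψ) := by
  unfold tv
  rw [add_mul, one_mul, mul_add, mul_one, vecMulVec_mul_vecMulVec, h]
  ext i j
  simp [vecMulVec_apply, mul_add]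
  ring

theorem tv_zero (u : n → R) : tv u (0 : n → R) = 1 := by
  unfold tv
  ext i j
  simp

theorem tv_mulVec (u φ x : n → R) : tv u φ *ᵥ x = x + (φ ⬝ᵥ x) • u := by
  unfold tv
  rw [add_mulVec, one_mulVec, vecMulVec_mulVec]
  ext i
  simp [mul_comm]

theorem det_tv (u φ : n → R) (h : φ ⬝ᵥ u = 0) : (tv u φ).det = 1 := by
  unfold tv
  rw [vecMulVec_eq Unit, det_one_add_replicateCol_mul_replicateRow, h, add_zero]

end Vale.Agent.P067.Dp
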