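import Vale.Agent.P067.Join

/-!
# P067: the abstract Morse lemma

Chains are `Finset X →₀ k` with `char k = 2` and `Jn.bd`.
-/

open Finsupp

namespace Vale.Agent.P067.Mo

set_option linter.unusedSectionVars false

variable {k : Type*} [Field k] {X : Type*} [DecidableEq X]

/-- chains of size `m` on a family of faces -/
def Ch (k : Type*) [Field k] (L : Set (Finset X)) (m : ℕ) : Submodule k (Finset X →₀ k) :=
  supported k k {s | s ∈ L ∧ s.card = m}

/-- exactness in size `m` -/
def Exact (k : Type*) [Field k] (L : Set (Finset X)) (m : ℕ) : Prop :=
  ∀ z ∈ Ch k L m, Jn.bd k z = 0 → ∃ c ∈ Ch k L (m + 1), Jn.bd k c = z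

lemma single_mem {L : Set (Finset X)} {m : ℕ} {s : Finset X} (h : s ∈ L) (hs : s.card = m)
    (a : k) : single s a ∈ Ch k L m := by
  classical
  rw [Ch, mem_supported]
  intro t ht
  have := Finsupp.support_single_subset ht
  rw [Finset.mem_singleton] at this
  subst this
  exact ⟨h, hs⟩

lemma mem_Ch {L : Set (Finset X)} {m : ℕ} {c : Finset X →₀ k} :
    c ∈ Ch k L m ↔ ∀ s ∈ c.support, s ∈ L ∧ s.card = m := by
  rw [Ch, mem_supported]; rfl

/-- induction on chains -/
lemma Ch_induction {L : Set (Finset X)} {m : ℕ} {P : (Finset X →₀ k) → Prop}
    (h0 : P 0) (h1 : ∀ s ∈ L, s.card = m → ∀ a : k, P (single s a))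
    (h2 : ∀ c ∈ Ch k L m, ∀ c' ∈ Ch k L m, P c → P c' → P (c + c'))
    {c : Finset X →₀ k} (hc : c ∈ Ch k L m) : P c := by
  classical
  induction c using Finsupp.induction with
  | zero => exact h0
  | single_add s a c hs ha ih =>
    rw [mem_Ch] at hc
    have hsc : s ∈ (single s a + c).support := by
      rw [Finsupp.mem_support_iff, Finsupp.add_apply, single_eq_same,
        Finsupp.notMem_support_iff.mp hs, add_zero]
      exact ha
    have hcs : ∀ t ∈ c.support, t ∈ L ∧ t.card = m := by
      intro t ht
      apply hc
      have hts : t ≠ s := fun h => hs (h ▸ ht)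
      rw [Finsupp.mem_support_iff, Finsupp.add_apply, single_eq_of_ne (by exact hts), zero_add]
      exact Finsupp.mem_support_iff.mp ht
    have h3 := hc s hsc
    exact h2 _ (single_mem h3.1 h3.2 a) _ (mem_Ch.mpr hcs) (h1 s h3.1 h3.2 a)
      (ih (mem_Ch.mpr hcs))

lemma bd_single' (s : Finset X) (a : k) :
    Jn.bd k (single s a) = ∑ x ∈ s, single (s.erase x) a := by
  have : single s a = a • single s (1 : k) := by simp
  rw [this, map_smul, Jn.bd_single, Finset.smul_sum]
  refine Finset.sum_congr rfl fun x _ => ?_
  simp

lemma bd_mem {L : Set (Finset X)} (hL : ∀ s ∈ L, ∀ x ∈ s, s.erase x ∈ L) {m : ℕ}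
    {c : Finset X →₀ k} (hc : c ∈ Ch k L (m + 1)) : Jn.bd k c ∈ Ch k L m := by
  refine Ch_induction (P := fun c => Jn.bd k c ∈ Ch k L m) ?_ ?_ ?_ hc
  · rw [map_zero]; exact Submodule.zero_mem _
  · intro s hs hm a
    rw [bd_single']
    apply Submodule.sum_mem
    intro x hx
    exact single_mem (hL s hs x hx) (by rw [Finset.card_erase_of_mem hx, hm]; rfl) a
  · intro c _ c' _ h h'
    rw [map_add]
    exact Submodule.add_mem _ h h'

lemma Ch_mono {L L' : Set (Finset X)} (h : L ⊆ L') {m : ℕ} : Ch k L m ≤ Ch k L' m :=
  supported_mono fun _ hs => ⟨h hs.1, hs.2⟩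

/-- the join with the face `t` -/
noncomputable def jn (k : Type*) [Field k] (t : Finset X) :
    (Finset X →₀ k) →ₗ[k] (Finset X →₀ k) := Finsupp.lmapDomain k k (fun r => t ∪ r)

lemma jn_single (t r : Finset X) (a : k) : jn k t (single r a) = single (t ∪ r) a := by
  simp [jn]

/-- the part of the boundary of `t * r` in the direction of `t` -/
noncomputable def dj (k : Type*) [Field k] (t : Finset X) :
    (Finset X →₀ k) →ₗ[k] (Finset X →₀ k) := ∑ x ∈ t, jn k (t.erase x)

lemma bd_jn {t : Finset X} {L : Set (Finset X)} (hL : ∀ r ∈ L, Disjoint t r) {m : ℕ}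
    {e : Finset X →₀ k} (he : e ∈ Ch k L m) :
    Jn.bd k (jn k t e) = dj k t e + jn k t (Jn.bd k e) := by
  refine Ch_induction (P := fun e => Jn.bd k (jn k t e) = dj k t e + jn k t (Jn.bd k e))
    ?_ ?_ ?_ he
  · simp
  · intro r hr hm a
    have hd := hL r hr
    rw [jn_single, bd_single', bd_single', map_sum, Finset.sum_union hd, dj,
      LinearMap.sum_apply]
    congr 1
    · refine Finset.sum_congr rfl fun x hx => ?_
      rw [jn_single]
      congr 1
      have hxr : x ∉ r := Finset.disjoint_left.mp hd hx
      rw [Finset.erase_union_distrib, Finset.erase_eq_of_notMem hxr]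
    · refine Finset.sum_congr rfl fun x hx => ?_
      rw [jn_single]
      congr 1
      have hxt : x ∉ t := Finset.disjoint_right.mp hd hx
      rw [Finset.erase_union_distrib, Finset.erase_eq_of_notMem hxt]
  · intro c _ c' _ h h'
    rw [map_add, map_add, map_add, map_add, map_add, h, h']
    abel

/-- Morse data: a down-closed family `Lam`, the set `tau s` of bad vertices of `s` and the
energy `E`. -/
structure Morse (Lam : Set (Finset X)) (tau : Finset X → Finset X) (E : Finset X → ℕ) :
    Prop where
  down : ∀ s ∈ Lam, ∀ x ∈ s, s.erase x ∈ Lam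
  sub : ∀ s, tau s ⊆ s
  good_tau : ∀ s ∈ Lam, ∀ x ∈ s, x ∉ tau s → tau (s.erase x) = tau s
  good_E : ∀ s ∈ Lam, ∀ x ∈ s, x ∉ tau s → E (s.erase x) = E s
  bad_E : ∀ s ∈ Lam, ∀ x ∈ tau s, E (s.erase x) < E s

/-- the filling complex of the face `t` -/
def DD (Lam : Set (Finset X)) (tau : Finset X → Finset X) (t : Finset X) : Set (Finset X) :=
  {r | Disjoint t r ∧ t ∪ r ∈ Lam ∧ tau (t ∪ r) = t}

variable {Lam : Set (Finset X)} {tau : Finset X → Finset X} {E : Finset X → ℕ}

lemma union_erase {t r : Finset X} {x : X} (hx : x ∉ t) : t ∪ r.erase x = (t ∪ r).erase x := by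
  rw [Finset.erase_union_distrib, Finset.erase_eq_of_notMem hx]

lemma DD_down (hM : Morse Lam tau E) {t : Finset X} :
    ∀ r ∈ DD Lam tau t, ∀ x ∈ r, r.erase x ∈ DD Lam tau t := by
  intro r hr x hx
  obtain ⟨h1, h2, h3⟩ := hr
  have hxt : x ∉ t := Finset.disjoint_right.mp h1 hx
  have hxu : x ∈ t ∪ r := Finset.mem_union_right _ hx
  have hnt : x ∉ tau (t ∪ r) := by rw [h3]; exact hxt
  refine ⟨h1.mono_right (Finset.erase_subset _ _), ?_, ?_⟩
  · rw [union_erase hxt]; exact hM.down _ h2 x hxu
  · rw [union_erase hxt, hM.good_tau _ h2 x hxu hnt, h3]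

lemma E_DD (hM : Morse Lam tau E) {t r : Finset X} (hr : r ∈ DD Lam tau t) :
    E (t ∪ r) = E t ∧ tau t = t := by
  induction r using Finset.induction_on with
  | empty =>
    have := hr.2.2
    rw [Finset.union_empty] at this ⊢
    exact ⟨rfl, this⟩
  | insert y r hy ih =>
    have h1 := DD_down hM _ hr y (Finset.mem_insert_self y r)
    have hyt : y ∉ t := Finset.disjoint_right.mp hr.1 (Finset.mem_insert_self y r)
    have hnt : y ∉ tau (t ∪ insert y r) := by rw [hr.2.2]; exact hyt
    have h2 := hM.good_E _ hr.2.1 y (Finset.mem_union_right _ (Finset.mem_insert_self y r)) hnt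
    rw [← union_erase hyt] at h2
    rw [Finset.erase_insert hy] at h1 h2
    exact ⟨h2.symm.trans (ih h1).1, (ih h1).2⟩

/-- projection to the faces with bad part `t` -/
noncomputable def pr (k : Type*) [Field k] (tau : Finset X → Finset X) (t : Finset X) :
    (Finset X →₀ k) →ₗ[k] (Finset X →₀ k) :=
  Finsupp.linearCombination k fun s => if tau s = t then single s (1 : k) else 0

lemma pr_single (t s : Finset X) (a : k) :
    pr k tau t (single s a) = if tau s = t then single s a else 0 := by
  rw [pr, linearCombination_single]
  split_ifs <;> simp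

lemma pr_apply (t : Finset X) (c : Finset X →₀ k) (s : Finset X) :
    pr k tau t c s = if tau s = t then c s else 0 := by
  classical
  induction c using Finsupp.induction_linear with
  | zero => simp
  | add c c' h h' => rw [map_add, Finsupp.add_apply, h, h', Finsupp.add_apply]; split_ifs <;> simp
  | single s' a =>
    rw [pr_single]
    by_cases h : tau s' = t
    · rw [if_pos h]
      by_cases h2 : s' = s
      · subst h2; rw [if_pos h]
      · rw [single_eq_of_ne (by exact fun e => h2 e.symm)]; simp
    · rw [if_neg h]
      by_cases h2 : s' = s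
      · subst h2; rw [if_neg h]; rfl
      · rw [single_eq_of_ne (by exact fun e => h2 e.symm)]; simp

/-- removal of `t` -/
noncomputable def un (k : Type*) [Field k] (t : Finset X) :
    (Finset X →₀ k) →ₗ[k] (Finset X →₀ k) := Finsupp.lmapDomain k k (fun s => s \ t)

lemma un_single (t s : Finset X) (a : k) : un k t (single s a) = single (s \ t) a := by
  simp [un]

lemma un_jn {t : Finset X} {L : Set (Finset X)} (hL : ∀ r ∈ L, Disjoint t r) {m : ℕ}
    {e : Finset X →₀ k} (he : e ∈ Ch k L m) : un k t (jn k t e) = e := by
  refine Ch_induction (P := fun e => un k t (jn k t e) = e) ?_ ?_ ?_ he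
  · simp
  · intro r hr hm a
    rw [jn_single, un_single]
    congr 1
    rw [Finset.union_sdiff_cancel_left (hL r hr)]
  · intro c _ c' _ h h'
    rw [map_add, map_add, h, h']

lemma jn_mem {t : Finset X} {L L' : Set (Finset X)} {m m' : ℕ}
    (h : ∀ r ∈ L, r.card = m → t ∪ r ∈ L' ∧ (t ∪ r).card = m') {e : Finset X →₀ k}
    (he : e ∈ Ch k L m) : jn k t e ∈ Ch k L' m' := by
  refine Ch_induction (P := fun e => jn k t e ∈ Ch k L' m') ?_ ?_ ?_ he
  · rw [map_zero]; exact Submodule.zero_mem _
  · intro r hr hm a
    rw [jn_single]
    exact single_mem (h r hr hm).1 (h r hr hm).2 a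
  · intro c _ c' _ h h'
    rw [map_add]; exact Submodule.add_mem _ h h'

/-- **Push lemma** -/
theorem push [CharP k 2] (hM : Morse Lam tau E) {m : ℕ}
    (hD : ∀ t ∈ Lam, t.Nonempty → tau t = t → t.card ≤ m → Exact k (DD Lam tau t) (m - t.card))
    {c : Finset X →₀ k} (hc : c ∈ Ch k Lam m)
    (hb : ∀ s ∈ (Jn.bd k c).support, tau s = ∅) :
    ∃ w ∈ Ch k Lam (m + 1), c + Jn.bd k w ∈ Ch k {s | s ∈ Lam ∧ tau s = ∅} m := by
  classical
  -- induction on the energy
  have main : ∀ N : ℕ, ∀ c : Finset X →₀ k, c ∈ Ch k Lam m →
      (∀ s ∈ (Jn.bd k c).support, tau s = ∅) →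
      (∀ s ∈ c.support, tau s ≠ ∅ → E s < N) →
      ∃ w ∈ Ch k Lam (m + 1), c + Jn.bd k w ∈ Ch k {s | s ∈ Lam ∧ tau s = ∅} m := by
    intro N
    induction N with
    | zero =>
      intro c hc _ hE
      refine ⟨0, Submodule.zero_mem _, ?_⟩
      rw [map_zero, add_zero, mem_Ch]
      intro s hs
      refine ⟨⟨(mem_Ch.mp hc s hs).1, ?_⟩, (mem_Ch.mp hc s hs).2⟩
      by_contra h
      exact absurd (hE s hs h) (Nat.not_lt_zero _)
    | succ N ihN =>
      have inner : ∀ q : ℕ, ∀ c : Finset X →₀ k, c ∈ Ch k Lam m →
          (∀ s ∈ (Jn.bd k c).support, tau s = ∅) →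
          (∀ s ∈ c.support, tau s ≠ ∅ → E s < N + 1) →
          (c.support.filter (fun s => tau s ≠ ∅ ∧ E s = N)).card ≤ q →
          ∃ w ∈ Ch k Lam (m + 1), c + Jn.bd k w ∈ Ch k {s | s ∈ Lam ∧ tau s = ∅} m := by
        intro q
        induction q with
        | zero =>
          intro c hc hb hE hq
          apply ihN c hc hb
          intro s hs hs'
          have h1 := hE s hs hs'
          rcases Nat.lt_succ_iff_lt_or_eq.mp h1 with h | h
          · exact h
          · exfalso
            have : s ∈ c.support.filter (fun s => tau s ≠ ∅ ∧ E s = N) :=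
              Finset.mem_filter.mpr ⟨hs, hs', h⟩
            rw [Finset.card_eq_zero.mp (Nat.le_zero.mp hq)] at this
            simp at this
        | succ q ihq =>
          intro c hc hb hE hq
          by_cases hex : (c.support.filter (fun s => tau s ≠ ∅ ∧ E s = N)).Nonempty
          swap
          · rw [Finset.not_nonempty_iff_eq_empty] at hex
            apply ihq c hc hb hE
            rw [hex]; simp
          obtain ⟨s0, hs0⟩ := hex
          obtain ⟨hs0c, hs0t, hs0E⟩ := Finset.mem_filter.mp hs0
          set t := tau s0 with ht
          have htne : t.Nonempty := Finset.nonempty_iff_ne_empty.mpr hs0t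
          have hs0L := (mem_Ch.mp hc s0 hs0c).1
          have hts0 : t ⊆ s0 := hM.sub s0
          -- faces with bad part `t`
          have hDDof : ∀ s ∈ Lam, tau s = t → s \ t ∈ DD Lam tau t ∧ t ∪ (s \ t) = s := by
            intro s hs hst
            have h1 : t ⊆ s := hst ▸ hM.sub s
            have h2 : t ∪ (s \ t) = s := Finset.union_sdiff_of_subset h1
            exact ⟨⟨Finset.disjoint_sdiff, by rw [h2]; exact hs, by rw [h2]; exact hst⟩, h2⟩
          have htt : tau t = t := (E_DD hM (hDDof s0 hs0L rfl).1).2
          have hEt : E t = N := by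
            rw [← (E_DD hM (hDDof s0 hs0L rfl).1).1, (hDDof s0 hs0L rfl).2]; exact hs0E
          have hEof : ∀ s ∈ Lam, tau s = t → E s = N := by
            intro s hs hst
            rw [← (hDDof s hs hst).2, (E_DD hM (hDDof s hs hst).1).1, hEt]
          have htL : t ∈ Lam := by
            have : ∀ r : Finset X, t ∪ r ∈ Lam → Disjoint t r → t ∈ Lam := by
              intro r
              induction r using Finset.induction_on with
              | empty => intro h _; rwa [Finset.union_empty] at h
              | insert y r hy ih =>
                intro h hd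
                have hyt : y ∉ t := Finset.disjoint_right.mp hd (Finset.mem_insert_self y r)
                have h1 := hM.down _ h y (Finset.mem_union_right _ (Finset.mem_insert_self y r))
                rw [← union_erase hyt, Finset.erase_insert hy] at h1
                exact ih h1 (hd.mono_right (Finset.subset_insert _ _))
            exact this (s0 \ t) (by rw [(hDDof s0 hs0L rfl).2]; exact hs0L) Finset.disjoint_sdiff
          have htm : t.card ≤ m := by
            rw [← (mem_Ch.mp hc s0 hs0c).2]; exact Finset.card_le_card hts0
          have hDdis : ∀ r ∈ DD Lam tau t, Disjoint t r := fun r hr => hr.1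
          -- the chain `e0`
          set ct := pr k tau t c with hct
          have hctm : ct ∈ Ch k {s | s ∈ Lam ∧ tau s = t} m := by
            rw [mem_Ch]
            intro s hs
            rw [Finsupp.mem_support_iff, hct, pr_apply] at hs
            split_ifs at hs with h
            · have := mem_Ch.mp hc s (Finsupp.mem_support_iff.mpr hs)
              exact ⟨⟨this.1, h⟩, this.2⟩
            · exact absurd rfl hs
          set e0 := un k t ct with he0
          have he0m : e0 ∈ Ch k (DD Lam tau t) (m - t.card) := by
            rw [he0]
            refine Ch_induction (P := fun e => un k t e ∈ Ch k (DD Lam tau t) (m - t.card))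
              ?_ ?_ ?_ hctm
            · rw [map_zero]; exact Submodule.zero_mem _
            · intro s hs hm a
              rw [un_single]
              refine single_mem (hDDof s hs.1 hs.2).1 ?_ a
              rw [Finset.card_sdiff_of_subset (hs.2 ▸ hM.sub s), hm]
            · intro c _ c' _ h h'
              rw [map_add]; exact Submodule.add_mem _ h h'
          have hjn0 : jn k t e0 = ct := by
            rw [he0]
            refine Ch_induction (P := fun e => jn k t (un k t e) = e) ?_ ?_ ?_ hctm
            · simp
            · intro s hs hm a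
              rw [un_single, jn_single, (hDDof s hs.1 hs.2).2]
            · intro c _ c' _ h h'
              rw [map_add, map_add, h, h']
          -- `e0` is a cycle
          have hcyc : Jn.bd k e0 = 0 := by
            have h1 : pr k tau t (Jn.bd k c) = 0 := by
              ext s
              rw [pr_apply]
              split_ifs with h
              · by_contra hne
                have := hb s (Finsupp.mem_support_iff.mpr hne)
                rw [h] at this
                exact htne.ne_empty this
              · rfl
            have h2 : pr k tau t (Jn.bd k (c - ct)) = 0 := by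
              have hrest : c - ct ∈ Ch k {s | s ∈ Lam ∧ tau s ≠ t ∧ (tau s ≠ ∅ → E s < N + 1)}
                  m := by
                rw [mem_Ch]
                intro s hs
                rw [Finsupp.mem_support_iff, Finsupp.sub_apply, hct, pr_apply] at hs
                split_ifs at hs with h
                · exact absurd (sub_self _) hs
                · rw [sub_zero] at hs
                  have := mem_Ch.mp hc s (Finsupp.mem_support_iff.mpr hs)
                  exact ⟨⟨this.1, h, hE s (Finsupp.mem_support_iff.mpr hs)⟩, this.2⟩
              refine Ch_induction (P := fun e => pr k tau t (Jn.bd k e) = 0) ?_ ?_ ?_ hrest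
              · simp
              · intro s hs hm a
                rw [bd_single', map_sum]
                refine Finset.sum_eq_zero fun x hx => ?_
                rw [pr_single, if_neg]
                intro hcon
                by_cases hxt : x ∈ tau s
                · have h3 := hM.bad_E s hs.1 x hxt
                  rw [hEof _ (hM.down s hs.1 x hx) hcon] at h3
                  have h4 := hs.2.2 (Finset.ne_empty_of_mem hxt)
                  omega
                · rw [hM.good_tau s hs.1 x hx hxt] at hcon
                  exact hs.2.1 hcon
              · intro c _ c' _ h h'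
                rw [map_add, map_add, h, h', add_zero]
            have h3 : pr k tau t (Jn.bd k ct) = 0 := by
              rw [map_sub, map_sub, h1, zero_sub, neg_eq_zero] at h2
              exact h2
            rw [← hjn0, bd_jn hDdis he0m, map_add] at h3
            have h4 : pr k tau t (dj k t e0) = 0 := by
              refine Ch_induction (P := fun e => pr k tau t (dj k t e) = 0) ?_ ?_ ?_ he0m
              · simp
              · intro r hr hm a
                rw [dj, LinearMap.sum_apply, map_sum]
                refine Finset.sum_eq_zero fun x hx => ?_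
                rw [jn_single, pr_single, if_neg]
                intro hcon
                have h5 : x ∈ t.erase x ∪ r := by
                  apply hM.sub
                  rw [hcon]; exact hx
                rw [Finset.mem_union] at h5
                rcases h5 with h5 | h5
                · exact Finset.notMem_erase x t h5
                · exact Finset.disjoint_left.mp hr.1 hx h5
              · intro c _ c' _ h h'
                rw [map_add, map_add, h, h', add_zero]
            rw [h4, zero_add] at h3
            rcases Nat.eq_zero_or_pos (m - t.card) with h0 | h0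
            · -- size zero
              rw [h0] at he0m
              refine Ch_induction (P := fun e => Jn.bd k e = 0) ?_ ?_ ?_ he0m
              · simp
              · intro r hr hm a
                rw [bd_single', Finset.card_eq_zero.mp hm, Finset.sum_empty]
              · intro c _ c' _ h h'
                rw [map_add, h, h', add_zero]
            · obtain ⟨l, hl⟩ : ∃ l, m - t.card = l + 1 := ⟨m - t.card - 1, by omega⟩
              rw [hl] at he0m
              have h5 : Jn.bd k e0 ∈ Ch k (DD Lam tau t) l := bd_mem (DD_down hM) he0m
              have h6 : pr k tau t (jn k t (Jn.bd k e0)) = jn k t (Jn.bd k e0) := by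
                refine Ch_induction (P := fun e => pr k tau t (jn k t e) = jn k t e)
                  ?_ ?_ ?_ h5
                · simp
                · intro r hr hm a
                  rw [jn_single, pr_single, if_pos hr.2.2]
                · intro c _ c' _ h h'
                  rw [map_add, map_add, h, h']
              rw [h6] at h3
              rw [← un_jn hDdis h5, h3, map_zero]
          -- fill it
          obtain ⟨e, hem, hee⟩ := hD t htL htne htt htm e0 he0m hcyc
          have hsz : m - t.card + 1 + t.card = m + 1 := by omega
          have hjm : jn k t e ∈ Ch k Lam (m + 1) := by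
            refine jn_mem ?_ hem
            intro r hr hm
            refine ⟨hr.2.1, ?_⟩
            rw [Finset.card_union_of_disjoint hr.1, hm]; omega
          set c' := c + Jn.bd k (jn k t e) with hc'
          have hc'm : c' ∈ Ch k Lam m := Submodule.add_mem _ hc (bd_mem hM.down hjm)
          have hbd : Jn.bd k c' = Jn.bd k c := by
            rw [hc', map_add, Jn.bd_bd, add_zero]
          have hc'2 : c' = (c - ct) + dj k t e := by
            rw [hc', bd_jn hDdis hem, hee, hjn0]
            have h2 : ct + ct = 0 := Jn.char2 ct
            have h3 : -ct = ct := by rw [neg_eq_iff_add_eq_zero]; exact h2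
            rw [sub_eq_add_neg, h3]
            abel
          have hdj : ∀ s ∈ (dj k t e).support, E s < N := by
            have : dj k t e ∈ supported k k {s : Finset X | E s < N} := by
              refine Ch_induction (P := fun e => dj k t e ∈ supported k k
                {s : Finset X | E s < N}) ?_ ?_ ?_ hem
              · rw [map_zero]; exact Submodule.zero_mem _
              · intro r hr hm a
                rw [dj, LinearMap.sum_apply]
                apply Submodule.sum_mem
                intro x hx
                rw [jn_single]
                apply Finsupp.single_mem_supported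
                show E (t.erase x ∪ r) < N
                have hxr : x ∉ r := Finset.disjoint_left.mp hr.1 hx
                have e1 : t.erase x ∪ r = (t ∪ r).erase x := by
                  rw [Finset.erase_union_distrib, Finset.erase_eq_of_notMem hxr]
                rw [e1, ← hEt, ← (E_DD hM hr).1]
                exact hM.bad_E _ hr.2.1 x (by rw [hr.2.2]; exact hx)
              · intro c _ c' _ h h'
                rw [map_add]; exact Submodule.add_mem _ h h'
            rwa [mem_supported] at this
          have hsupp : ∀ s ∈ c'.support, (s ∈ c.support ∧ tau s ≠ t) ∨ E s < N := by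
            intro s hs
            by_cases hd : s ∈ (dj k t e).support
            · exact Or.inr (hdj s hd)
            · left
              rw [Finsupp.mem_support_iff, hc'2, Finsupp.add_apply,
                Finsupp.notMem_support_iff.mp hd, add_zero, Finsupp.sub_apply, hct,
                pr_apply] at hs
              split_ifs at hs with h
              · exact absurd (sub_self _) hs
              · rw [sub_zero] at hs
                exact ⟨Finsupp.mem_support_iff.mpr hs, h⟩
          obtain ⟨w, hw, hw2⟩ := ihq c' hc'm (by rw [hbd]; exact hb) (by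
              intro s hs hs'
              rcases hsupp s hs with h | h
              · exact hE s h.1 hs'
              · omega) (by
              have hsub : c'.support.filter (fun s => tau s ≠ ∅ ∧ E s = N) ⊆
                  (c.support.filter (fun s => tau s ≠ ∅ ∧ E s = N)).erase s0 := by
                intro s hs
                obtain ⟨h1, h2, h3⟩ := Finset.mem_filter.mp hs
                rcases hsupp s h1 with h | h
                · rw [Finset.mem_erase, Finset.mem_filter]
                  refine ⟨?_, h.1, h2, h3⟩
                  rintro rfl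
                  exact h.2 rfl
                · omega
              have := Finset.card_le_card hsub
              rw [Finset.card_erase_of_mem hs0] at this
              omega)
          refine ⟨jn k t e + w, Submodule.add_mem _ hjm hw, ?_⟩
          rw [map_add, ← add_assoc]
          exact hw2
      intro c hc hb hE
      exact inner _ c hc hb hE le_rfl
  obtain ⟨N, hN⟩ : ∃ N, ∀ s ∈ c.support, E s < N := by
    refine ⟨c.support.sup E + 1, fun s hs => ?_⟩
    exact Nat.lt_succ_of_le (Finset.le_sup (f := E) hs)
  exact main N c hc hb fun s hs _ => hN s hs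

/-- `Y` is exact if `Lam` and the filling complexes are. -/
theorem exact_good [CharP k 2] (hM : Morse Lam tau E) {m : ℕ}
    (hD : ∀ t ∈ Lam, t.Nonempty → tau t = t → t.card ≤ m + 1 →
      Exact k (DD Lam tau t) (m + 1 - t.card))
    (hL : Exact k Lam m) : Exact k {s | s ∈ Lam ∧ tau s = ∅} m := by
  intro z hz hbz
  obtain ⟨c, hc, hcz⟩ := hL z (Ch_mono (fun s hs => hs.1) hz) hbz
  obtain ⟨w, hw, hcw⟩ := push hM hD hc (by
    rw [hcz]
    intro s hs
    exact (mem_Ch.mp hz s hs).1.2)
  exact ⟨_, hcw, by rw [map_add, hcz, Jn.bd_bd, add_zero]⟩

/-- `Lam` is exact if `Y` and the filling complexes are. -/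
theorem exact_all [CharP k 2] (hM : Morse Lam tau E) {m : ℕ}
    (hD : ∀ t ∈ Lam, t.Nonempty → tau t = t → t.card ≤ m → Exact k (DD Lam tau t) (m - t.card))
    (hY : Exact k {s | s ∈ Lam ∧ tau s = ∅} m) : Exact k Lam m := by
  intro z hz hbz
  obtain ⟨w, hw, hzw⟩ := push hM hD hz (by rw [hbz]; simp)
  obtain ⟨c, hc, hcz⟩ := hY _ hzw (by rw [map_add, hbz, Jn.bd_bd, add_zero])
  refine ⟨c + w, Submodule.add_mem _ (Ch_mono (fun s hs => hs.1) hc) hw, ?_⟩
  rw [map_add, hcz, add_assoc, Jn.char2, add_zero]

/-- A family with a cone vertex is exact. -/
theorem exact_cone [CharP k 2] {L : Set (Finset X)} (hL : ∀ s ∈ L, ∀ x ∈ s, s.erase x ∈ L)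
    (y : X) (hy : ∀ s ∈ L, insert y s ∈ L) (m : ℕ) : Exact k L m := by
  classical
  -- bad vertices: those different from `y`
  intro z hz hbz
  -- the part without `y`
  set P : Finset X → Prop := fun s => y ∉ s
  set z1 := z.filter P with hz1
  set z2 := z.filter (fun s => ¬ P s) with hz2
  have hz12 : z1 + z2 = z := Finsupp.filter_add_filter_not z P
  have hz1m : z1 ∈ Ch k {s | s ∈ L ∧ y ∉ s} m := by
    rw [mem_Ch]
    intro s hs
    rw [hz1, Finsupp.support_filter, Finset.mem_filter] at hs
    have := mem_Ch.mp hz s hs.1
    exact ⟨⟨this.1, hs.2⟩, this.2⟩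
  have hz2m : z2 ∈ Ch k {s | s ∈ L ∧ y ∈ s} m := by
    rw [mem_Ch]
    intro s hs
    rw [hz2, Finsupp.support_filter, Finset.mem_filter] at hs
    have := mem_Ch.mp hz s hs.1
    exact ⟨⟨this.1, not_not.mp hs.2⟩, this.2⟩
  have hdis : ∀ r ∈ ({s | s ∈ L ∧ y ∉ s} : Set (Finset X)), Disjoint {y} r := by
    intro r hr
    rw [Finset.disjoint_singleton_left]; exact hr.2
  refine ⟨jn k {y} z1, ?_, ?_⟩
  · refine jn_mem ?_ hz1m
    intro r hr hm
    refine ⟨by rw [← Finset.insert_eq]; exact hy r hr.1, ?_⟩
    rw [← Finset.insert_eq, Finset.card_insert_of_notMem hr.2, hm]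
  · rw [bd_jn hdis hz1m]
    have h1 : dj k {y} z1 = z1 := by
      rw [dj, Finset.sum_singleton, Finset.erase_singleton]
      refine Ch_induction (P := fun e => jn k ∅ e = e) ?_ ?_ ?_ hz1m
      · simp
      · intro r hr hm a
        rw [jn_single, Finset.empty_union]
      · intro c _ c' _ h h'
        rw [map_add, h, h']
    rw [h1]
    -- the part of the boundary without `y`
    rcases m with _ | m
    · -- size zero
      have h2 : z2 = 0 := by
        ext s
        by_contra hne
        have := mem_Ch.mp hz2m s (Finsupp.mem_support_iff.mpr hne)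
        rw [Finset.card_eq_zero.mp this.2] at this
        simp at this
      have h3 : Jn.bd k z1 = 0 := by rw [← hz12, h2, add_zero] at hbz; exact hbz
      rw [h3, map_zero, ← hz12, h2]
    · -- `z2 = y * e`
      set e := un k {y} z2 with he
      have hem : e ∈ Ch k {s | s ∈ L ∧ y ∉ s} m := by
        rw [he]
        refine Ch_induction (P := fun e => un k {y} e ∈ Ch k {s | s ∈ L ∧ y ∉ s} m)
          ?_ ?_ ?_ hz2m
        · rw [map_zero]; exact Submodule.zero_mem _
        · intro s hs hm a
          rw [un_single, Finset.sdiff_singleton_eq_erase]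
          refine single_mem (L := {s | s ∈ L ∧ y ∉ s})
            ⟨hL s hs.1 y hs.2, Finset.notMem_erase y s⟩ ?_ a
          rw [Finset.card_erase_of_mem hs.2, hm]; rfl
        · intro c _ c' _ h h'
          rw [map_add]; exact Submodule.add_mem _ h h'
      have hje : jn k {y} e = z2 := by
        rw [he]
        refine Ch_induction (P := fun e => jn k {y} (un k {y} e) = e) ?_ ?_ ?_ hz2m
        · simp
        · intro s hs hm a
          rw [un_single, jn_single, Finset.sdiff_singleton_eq_erase, ← Finset.insert_eq,
            Finset.insert_erase hs.2]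
        · intro c _ c' _ h h'
          rw [map_add, map_add, h, h']
      have hde : dj k {y} e = e := by
        rw [dj, Finset.sum_singleton, Finset.erase_singleton]
        refine Ch_induction (P := fun e => jn k ∅ e = e) ?_ ?_ ?_ hem
        · simp
        · intro r hr hm a
          rw [jn_single, Finset.empty_union]
        · intro c _ c' _ h h'
          rw [map_add, h, h']
      have hb2 : Jn.bd k z2 = e + jn k {y} (Jn.bd k e) := by
        rw [← hje, bd_jn hdis hem, hde]
      have hzero : Jn.bd k z1 + (e + jn k {y} (Jn.bd k e)) = 0 := by
        rw [← hb2, ← map_add, hz12, hbz]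
      -- compare the parts without `y`
      have hLy : ∀ s ∈ ({s | s ∈ L ∧ y ∉ s} : Set (Finset X)), ∀ x ∈ s,
          s.erase x ∈ ({s | s ∈ L ∧ y ∉ s} : Set (Finset X)) := by
        intro s hs x hx
        exact ⟨hL s hs.1 x hx, fun h => hs.2 (Finset.mem_of_mem_erase h)⟩
      have hkey : Jn.bd k z1 + e = 0 := by
        ext s
        by_cases hys : y ∈ s
        · have h1 : Jn.bd k z1 s = 0 := by
            by_contra hne
            exact (mem_Ch.mp (bd_mem hLy hz1m) s (Finsupp.mem_support_iff.mpr hne)).1.2 hys
          have h2 : e s = 0 := by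
            by_contra hne
            exact (mem_Ch.mp hem s (Finsupp.mem_support_iff.mpr hne)).1.2 hys
          rw [Finsupp.add_apply, h1, h2, add_zero]; rfl
        · have h1 : jn k {y} (Jn.bd k e) s = 0 := by
            have : jn k {y} (Jn.bd k e) ∈ supported k k {s : Finset X | y ∈ s} := by
              generalize Jn.bd k e = f
              induction f using Finsupp.induction_linear with
              | zero => rw [map_zero]; exact Submodule.zero_mem _
              | add f g hf hg => rw [map_add]; exact Submodule.add_mem _ hf hg
              | single r a =>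
                rw [jn_single]
                apply Finsupp.single_mem_supported
                show y ∈ {y} ∪ r
                simp
            by_contra hne
            rw [mem_supported] at this
            exact hys (this (Finsupp.mem_support_iff.mpr hne))
          have h2 := DFunLike.congr_fun hzero s
          rw [Finsupp.add_apply, Finsupp.add_apply, h1, add_zero] at h2
          rw [Finsupp.add_apply]; exact h2
      have hb1 : Jn.bd k z1 = e := by
        have : Jn.bd k z1 = -e := by rw [eq_neg_iff_add_eq_zero]; exact hkey
        rw [this, neg_eq_iff_add_eq_zero]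
        exact Jn.char2 e
      rw [hb1, hje, hz12]

end Vale.Agent.P067.Mo
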