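import Vale.Agent.P067.GapIso
import Vale.Agent.P067.Push

/-!
P067, (B4): exactness of `DD n τ` in the form of `Push.lean`.
-/

namespace Vale.Agent.P067.Gap

open Finset

/-- `Jn.bd` is the boundary of `GapChain.lean` -/
theorem jn_bd_eq {k : Type*} [Field k] {X : Type*} [inst : DecidableEq X] (c : Finset X →₀ k) :
    Jn.bd k c = bd c := by
  have h : (Jn.bd k : (Finset X →₀ k) →ₗ[k] (Finset X →₀ k)) = bd := by
    apply lin_ext
    intro s
    rw [Jn.bd_single, bd_single]
    refine Finset.sum_congr rfl fun x _ => ?_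
    have e : inst = fun a b => Classical.propDecidable (a = b) := Subsingleton.elim _ _
    rw [e]
  rw [h]

/-- exactness in size `m` from a cone function -/
theorem IsCone.moExact {k : Type*} [Field k] [CharP k 2] {X : Type*} [DecidableEq X]
    {L : Set (Finset X)} {S N : ℕ} {h : Finset X → Ch k X}
    (H : IsCone (fun σ => σ ∈ L) S N h) {m : ℕ} (hm : m ≤ S) : Mo.Exact k L m := by
  intro z hz hbz
  rw [jn_bd_eq] at hbz
  have h1 : On (fun σ => σ ∈ L ∧ σ.card = m) z := fun σ hσ => (Mo.mem_Ch.1 hz) σ hσ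
  obtain ⟨b, hb, hbd⟩ := H.exact hm h1 hbz
  refine ⟨b, Mo.mem_Ch.2 fun σ hσ => hb σ hσ, ?_⟩
  rw [jn_bd_eq, hbd]

/-- exactness of the filling complexes `DD n τ` -/
theorem exact_DD {F : Type} [Field F] [Fintype F] [DecidableEq (Submodule F (VV F))]
    {k : Type*} [Field k] [CharP k 2] {n : ℕ} {τ : Finset (Submodule F (VV F))}
    (hτ : τ ∈ Lam F n) (hne : τ.Nonempty) (S : ℕ) (hS : τ.card * (S + 2) ≤ n)
    (hK : Cp S ≤ Fintype.card F) {m : ℕ} (hm : m ≤ S) : Mo.Exact k (DD n τ) m := by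
  obtain ⟨h, H⟩ := cone_DD (k := k) hτ hne S hS hK
  exact H.moExact hm

end Vale.Agent.P067.Gap
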