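import Vale.Agent.P067.Lat

/-!
# P067: lattice numerics

`uu j L - vv j L = j - ind L`, monotonicity, shifts, finiteness, invariance under `UU`.
-/

namespace Vale.Agent.P067

open Finsupp

/-! ### General linear algebra (abstract space) -/

section General
variable {F : Type*} [Field F] {V : Type*} [AddCommGroup V] [Module F V]

lemma gen_finite_of_le {M N : Submodule F V} (h : M ≤ N) (hN : Module.Finite F N) :
    Module.Finite F M :=
  Module.Finite.of_injective (Submodule.inclusion h) (Submodule.inclusion_injective h)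

lemma gen_finite_quot_of_le {N N' : Submodule F V} (h : N ≤ N')
    (hN : Module.Finite F (V ⧸ N)) : Module.Finite F (V ⧸ N') :=
  Module.Finite.of_surjective (Submodule.factor h) (Submodule.factor_surjective h)

lemma gen_finrank_quot_sup_span (N : Submodule F V) (hN : Module.Finite F (V ⧸ N)) {x : V}
    (hx : x ∉ N) :
    Module.finrank F (V ⧸ N) = Module.finrank F (V ⧸ (N ⊔ Submodule.span F {x})) + 1 := by
  have hle : N ≤ N ⊔ Submodule.span F {x} := le_sup_left
  have h1 := LinearMap.finrank_range_add_finrank_ker (Submodule.factor hle)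
  rw [LinearMap.range_eq_top.2 (Submodule.factor_surjective hle), finrank_top] at h1
  have h2 : LinearMap.ker (Submodule.factor hle) = Submodule.span F {N.mkQ x} := by
    ext y
    obtain ⟨v, rfl⟩ := Submodule.Quotient.mk_surjective _ y
    rw [LinearMap.mem_ker]
    have : Submodule.factor hle (Submodule.Quotient.mk v) = (N ⊔ Submodule.span F {x}).mkQ v := rfl
    rw [this, Submodule.mkQ_apply, Submodule.Quotient.mk_eq_zero, Submodule.mem_sup]
    constructor
    · rintro ⟨a, ha, b, hb, rfl⟩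
      obtain ⟨c, rfl⟩ := Submodule.mem_span_singleton.1 hb
      rw [Submodule.mem_span_singleton]
      refine ⟨c, ?_⟩
      rw [← map_smul, Submodule.mkQ_apply, eq_comm, Submodule.Quotient.eq]
      simpa using ha
    · intro h
      obtain ⟨c, hc⟩ := Submodule.mem_span_singleton.1 h
      rw [← map_smul, Submodule.mkQ_apply, eq_comm, Submodule.Quotient.eq] at hc
      exact ⟨v - c • x, hc, c • x, Submodule.smul_mem _ _ (Submodule.mem_span_singleton_self _),
        by abel⟩
  rw [h2, finrank_span_singleton (by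
    rw [Submodule.mkQ_apply, Ne, Submodule.Quotient.mk_eq_zero]; exact hx)] at h1
  omega

/-- One step of a flag. -/
lemma gen_step (L M M' : Submodule F V) (x : V) (φ : V →ₗ[F] F) (hx : φ x = 1)
    (hM' : M' = M ⊔ Submodule.span F {x}) (hφM : ∀ m ∈ M, φ m = 0)
    (hf0 : Module.Finite F ↥(L ⊓ M')) (hq : Module.Finite F (V ⧸ (L ⊔ M))) :
    (Module.finrank F ↥(L ⊓ M') = Module.finrank F ↥(L ⊓ M) + 1 ∧
      Module.finrank F (V ⧸ (L ⊔ M')) = Module.finrank F (V ⧸ (L ⊔ M))) ∨
    (Module.finrank F ↥(L ⊓ M') = Module.finrank F ↥(L ⊓ M) ∧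
      Module.finrank F (V ⧸ (L ⊔ M)) = Module.finrank F (V ⧸ (L ⊔ M')) + 1) := by
  have hMM' : M ≤ M' := hM' ▸ le_sup_left
  have hsup : L ⊔ M' = (L ⊔ M) ⊔ Submodule.span F {x} := by rw [hM', sup_assoc]
  have hφM' : ∀ m ∈ M', φ m = 0 → m ∈ M := by
    intro m hm h0
    rw [hM', Submodule.mem_sup] at hm
    obtain ⟨a, ha, b, hb, rfl⟩ := hm
    obtain ⟨c, rfl⟩ := Submodule.mem_span_singleton.1 hb
    rw [map_add, hφM a ha, map_smul, hx, zero_add, smul_eq_mul, mul_one] at h0
    rw [h0, zero_smul, add_zero]; exact ha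
  let ψ : ↥(L ⊓ M') →ₗ[F] F := φ.comp (Submodule.subtype _)
  have hψ := LinearMap.finrank_range_add_finrank_ker ψ
  have hker : Module.finrank F (LinearMap.ker ψ) = Module.finrank F ↥(L ⊓ M) := by
    have e : (LinearMap.ker ψ).map (Submodule.subtype _) = L ⊓ M := by
      ext y
      rw [Submodule.mem_map]
      constructor
      · rintro ⟨⟨z, hz⟩, hz0, rfl⟩
        exact ⟨hz.1, hφM' z hz.2 hz0⟩
      · intro hy
        exact ⟨⟨y, hy.1, hMM' hy.2⟩, hφM y hy.2, rfl⟩
    rw [← e, ← LinearEquiv.finrank_eq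
      (Submodule.equivMapOfInjective _ (Submodule.injective_subtype _) (LinearMap.ker ψ))]
  by_cases hx' : x ∈ L ⊔ M
  · left
    obtain ⟨l, hl, m, hm, hlm⟩ := Submodule.mem_sup.1 hx'
    have hl' : l = x - m := by rw [← hlm]; abel
    have hlM : l ∈ M' := by
      rw [hl', hM']
      exact sub_mem (Submodule.mem_sup_right (Submodule.mem_span_singleton_self _))
        (Submodule.mem_sup_left hm)
    have hl1 : φ l = 1 := by rw [hl', map_sub, hx, hφM m hm, sub_zero]
    have hr : LinearMap.range ψ = ⊤ := by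
      rw [LinearMap.range_eq_top]
      intro c
      refine ⟨c • ⟨l, hl, hlM⟩, ?_⟩
      show φ (c • l) = c
      rw [map_smul, hl1]; simp
    rw [hr, finrank_top, Module.finrank_self, hker] at hψ
    refine ⟨by omega, ?_⟩
    have : L ⊔ M' = L ⊔ M := by
      rw [hsup, sup_eq_left, Submodule.span_le, Set.singleton_subset_iff]; exact hx'
    rw [this]
  · right
    have hr : LinearMap.range ψ = ⊥ := by
      rw [LinearMap.range_eq_bot]
      ext ⟨y, hy⟩
      by_contra hne
      have hne' : φ y ≠ 0 := hne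
      apply hx'
      have h2 : x = (φ y)⁻¹ • y + (x - (φ y)⁻¹ • y) := by abel
      rw [h2]
      have h3 : x - (φ y)⁻¹ • y ∈ M' := by
        refine sub_mem ?_ (Submodule.smul_mem _ _ hy.2)
        rw [hM']; exact Submodule.mem_sup_right (Submodule.mem_span_singleton_self _)
      refine Submodule.add_mem_sup (Submodule.smul_mem _ _ hy.1) (hφM' _ h3 ?_)
      rw [map_sub, map_smul, hx, smul_eq_mul, inv_mul_cancel₀ hne', sub_self]
    rw [hr, finrank_bot, hker, zero_add] at hψ
    refine ⟨hψ.symm, ?_⟩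
    rw [hsup]
    exact gen_finrank_quot_sup_span _ hq hx'

lemma gen_bot_of_finrank {M : Submodule F V} (hM : Module.Finite F M)
    (h : Module.finrank F M = 0) : M = ⊥ := Submodule.finrank_eq_zero.1 h

lemma gen_top_of_finrank {M : Submodule F V} (hM : Module.Finite F (V ⧸ M))
    (h : Module.finrank F (V ⧸ M) = 0) : M = ⊤ :=
  Submodule.Quotient.subsingleton_iff.1 (Module.finrank_zero_iff.1 h)

lemma gen_finrank_mono {M N : Submodule F V} (hN : Module.Finite F N) (h : M ≤ N) :
    Module.finrank F M ≤ Module.finrank F N := Submodule.finrank_mono h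

lemma gen_eq_of_finrank {M N : Submodule F V} (hN : Module.Finite F N) (h : M ≤ N)
    (he : Module.finrank F M = Module.finrank F N) : M = N :=
  Submodule.eq_of_le_of_finrank_eq h he

lemma gen_quot_anti {M N : Submodule F V} (hM : Module.Finite F (V ⧸ M)) (h : M ≤ N) :
    Module.finrank F (V ⧸ N) ≤ Module.finrank F (V ⧸ M) :=
  LinearMap.finrank_le_finrank_of_surjective (Submodule.factor_surjective h)

lemma gen_eq_of_quot {M N : Submodule F V} (hM : Module.Finite F (V ⧸ M)) (hle : M ≤ N)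
    (he : Module.finrank F (V ⧸ M) = Module.finrank F (V ⧸ N)) : M = N := by
  have h1 := LinearMap.finrank_range_add_finrank_ker (Submodule.factor hle)
  rw [LinearMap.range_eq_top.2 (Submodule.factor_surjective hle), finrank_top] at h1
  have h2 : Module.finrank F (LinearMap.ker (Submodule.factor hle)) = 0 := by omega
  have h3 : LinearMap.ker (Submodule.factor hle) = ⊥ := Submodule.finrank_eq_zero.1 h2
  refine le_antisymm hle fun y hy => ?_
  have h4 : Submodule.factor hle (M.mkQ y) = 0 := by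
    have : Submodule.factor hle (M.mkQ y) = N.mkQ y := rfl
    rw [this, Submodule.mkQ_apply, Submodule.Quotient.mk_eq_zero]; exact hy
  have h5 : M.mkQ y ∈ LinearMap.ker (Submodule.factor hle) := h4
  rw [h3, Submodule.mem_bot, Submodule.mkQ_apply, Submodule.Quotient.mk_eq_zero] at h5
  exact h5

lemma gen_finrank_map (g : V ≃ₗ[F] V) (M : Submodule F V) :
    Module.finrank F (M.map g.toLinearMap) = Module.finrank F M :=
  (LinearEquiv.finrank_eq (g.submoduleMap M)).symm

lemma gen_finrank_quot_map (g : V ≃ₗ[F] V) (M : Submodule F V) :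
    Module.finrank F (V ⧸ M.map g.toLinearMap) = Module.finrank F (V ⧸ M) :=
  (LinearEquiv.finrank_eq (Submodule.Quotient.equiv M _ g rfl)).symm

lemma gen_finite_quot_of_sup {N P : Submodule F V} (hP : Module.Finite F P) (h : N ⊔ P = ⊤) :
    Module.Finite F (V ⧸ N) := by
  refine Module.Finite.of_surjective (N.mkQ.comp P.subtype) ?_
  intro y
  obtain ⟨v, rfl⟩ := Submodule.Quotient.mk_surjective _ y
  have hv : v ∈ N ⊔ P := h ▸ Submodule.mem_top
  obtain ⟨a, ha, b, hb, rfl⟩ := Submodule.mem_sup.1 hv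
  refine ⟨⟨b, hb⟩, ?_⟩
  simp only [LinearMap.comp_apply, Submodule.subtype_apply, Submodule.mkQ_apply]
  rw [Submodule.Quotient.eq]
  have : b - (a + b) = -a := by abel
  rw [this]; exact neg_mem ha

end General

variable {F : Type} [Field F]

/-! ### Supported submodules -/

lemma supported_finite (s : Set ℤ) (hs : s.Finite) :
    Module.Finite F (Finsupp.supported F F s : Submodule F (VV F)) := by
  have := hs.to_subtype
  exact Module.Finite.equiv (Finsupp.supportedEquivFinsupp (M := F) (R := F) s).symm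

lemma MM_inf_Lo (i j : ℤ) : MM F j ⊓ Lo F i = Finsupp.supported F F (Set.Ioc i j) := by
  rw [MM, Lo, ← Finsupp.supported_inter]
  congr 1
  ext x; simp [and_comm]

lemma MM_sup_Lo (i j : ℤ) : MM F j ⊔ Lo F i = Finsupp.supported F F (Set.Iic j ∪ Set.Ioi i) := by
  rw [MM, Lo, ← Finsupp.supported_union]

lemma Lo_mono {i j : ℤ} (h : i ≤ j) : Lo F j ≤ Lo F i :=
  Finsupp.supported_mono (Set.Ioi_subset_Ioi h)

lemma MM_sup_Lo_top {i j : ℤ} (h : i ≤ j) : MM F j ⊔ Lo F i = ⊤ := by
  rw [MM_sup_Lo]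
  have : Set.Iic j ∪ Set.Ioi i = Set.univ := by
    ext x; simp only [Set.mem_union, Set.mem_Iic, Set.mem_Ioi, Set.mem_univ, iff_true]; omega
  rw [this, Finsupp.supported_univ]

lemma MM_inf_Lo_bot {i j : ℤ} (h : j ≤ i) : MM F j ⊓ Lo F i = ⊥ := by
  rw [MM_inf_Lo]
  have : Set.Ioc i j = ∅ := Set.Ioc_eq_empty (by omega)
  rw [this, Finsupp.supported_empty]

lemma single_mem_MM {i j : ℤ} (h : i ≤ j) (a : F) : (single i a : VV F) ∈ MM F j :=
  Finsupp.single_mem_supported F a h

lemma single_mem_Lo {i j : ℤ} (h : j < i) (a : F) : (single i a : VV F) ∈ Lo F j :=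
  Finsupp.single_mem_supported F a h

lemma MM_succ (j : ℤ) : MM F (j + 1) = MM F j ⊔ Submodule.span F {(single (j + 1) 1 : VV F)} := by
  refine le_antisymm ?_ (sup_le (MM_mono (by omega)) ?_)
  · intro y hy
    have h : y = (y - y (j + 1) • single (j + 1) 1) + y (j + 1) • single (j + 1) (1 : F) := by
      abel
    rw [h]
    refine Submodule.add_mem_sup ?_ (Submodule.smul_mem _ _ (Submodule.mem_span_singleton_self _))
    rw [mem_MM] at hy ⊢
    intro i hi
    by_cases h1 : i = j + 1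
    · subst h1; simp
    · have : y i = 0 := hy i (by omega)
      simp [this, h1, Finsupp.single_apply, Ne.symm h1]
  · rw [Submodule.span_le, Set.singleton_subset_iff]
    exact single_mem_MM le_rfl 1

/-! ### Finiteness -/

lemma finite_inf {n : ℕ} {L : Submodule F (VV F)} (hL : IsLat n L) (j : ℤ) :
    Module.Finite F ↥(L ⊓ MM F j) := by
  obtain ⟨b, hb⟩ := hL.upper
  have h1 : L ⊓ MM F j ≤ Finsupp.supported F F (Set.Ioc b j) := by
    rw [← MM_inf_Lo, inf_comm]
    exact inf_le_inf_left _ hb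
  exact gen_finite_of_le h1 (supported_finite (F := F) _ (Set.finite_Ioc b j))

lemma finite_quot_std (i j : ℤ) : Module.Finite F (VV F ⧸ (MM F j ⊔ Lo F i)) := by
  refine gen_finite_quot_of_sup (supported_finite (F := F) _ (Set.finite_Ioc j i)) ?_
  rw [MM_sup_Lo, ← Finsupp.supported_union]
  have : Set.Iic j ∪ Set.Ioi i ∪ Set.Ioc j i = Set.univ := by
    ext x
    simp only [Set.mem_union, Set.mem_Iic, Set.mem_Ioi, Set.mem_Ioc, Set.mem_univ, iff_true]
    omega
  rw [this, Finsupp.supported_univ]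

lemma finite_quot {n : ℕ} {L : Submodule F (VV F)} (hL : IsLat n L) (j : ℤ) :
    Module.Finite F (VV F ⧸ (L ⊔ MM F j)) := by
  obtain ⟨a, ha⟩ := hL.lower
  exact gen_finite_quot_of_le (sup_le le_sup_right (ha.trans le_sup_left))
    (finite_quot_std (F := F) a j)

/-! ### One step -/

/-- The step `j → j + 1`: either `u` grows by one and `v` is unchanged, or `u` is unchanged and
`v` drops by one. -/
lemma uu_vv_succ {n : ℕ} {L : Submodule F (VV F)} (hL : IsLat n L) (j : ℤ) :
    (uu (j + 1) L = uu j L + 1 ∧ vv (j + 1) L = vv j L) ∨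
    (uu (j + 1) L = uu j L ∧ vv j L = vv (j + 1) L + 1) :=
  gen_step L (MM F j) (MM F (j + 1)) (single (j + 1) 1) (Finsupp.lapply (j + 1)) (by simp)
    (MM_succ j) (fun m hm => mem_MM.1 hm (j + 1) (by omega)) (finite_inf hL (j + 1))
    (finite_quot hL j)

/-- `u_j - v_j = j - ind`. -/
theorem uu_sub_vv {n : ℕ} {L : Submodule F (VV F)} (hL : IsLat n L) (j : ℤ) :
    (uu j L : ℤ) - vv j L = j - ind L := by
  induction j using Int.induction_on with
  | zero => rw [ind]; ring
  | succ i ih => rcases uu_vv_succ hL i with ⟨h1, h2⟩ | ⟨h1, h2⟩ <;> omega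
  | pred i ih =>
    have := uu_vv_succ hL (-(i : ℤ) - 1)
    rw [show -(i : ℤ) - 1 + 1 = -(i : ℤ) by ring] at this
    rcases this with ⟨h1, h2⟩ | ⟨h1, h2⟩ <;> omega

lemma uu_mono_idx {n : ℕ} {L : Submodule F (VV F)} (hL : IsLat n L) {i j : ℤ} (h : i ≤ j) :
    uu i L ≤ uu j L := by
  obtain ⟨m, rfl⟩ : ∃ m : ℕ, j = i + m := ⟨(j - i).toNat, by omega⟩
  induction m with
  | zero => simp
  | succ m ih =>
    have := uu_vv_succ hL (i + m)
    rw [show i + (m : ℤ) + 1 = i + ((m + 1 : ℕ) : ℤ) by push_cast; ring] at this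
    have := ih (by omega)
    omega

lemma vv_anti_idx {n : ℕ} {L : Submodule F (VV F)} (hL : IsLat n L) {i j : ℤ} (h : i ≤ j) :
    vv j L ≤ vv i L := by
  obtain ⟨m, rfl⟩ : ∃ m : ℕ, j = i + m := ⟨(j - i).toNat, by omega⟩
  induction m with
  | zero => simp
  | succ m ih =>
    have := uu_vv_succ hL (i + m)
    rw [show i + (m : ℤ) + 1 = i + ((m + 1 : ℕ) : ℤ) by push_cast; ring] at this
    have := ih (by omega)
    omega

lemma uu_eq_zero {L : Submodule F (VV F)} {b j : ℤ} (hb : L ≤ Lo F b) (hj : j ≤ b) :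
    uu j L = 0 := by
  have : L ⊓ MM F j = ⊥ := by
    rw [eq_bot_iff, ← MM_inf_Lo_bot hj, inf_comm]
    exact inf_le_inf_left _ hb
  rw [uu, this, finrank_bot]

lemma vv_eq_zero {L : Submodule F (VV F)} {a j : ℤ} (ha : Lo F a ≤ L) (hj : a ≤ j) :
    vv j L = 0 := by
  have : L ⊔ MM F j = ⊤ := by
    rw [eq_top_iff, ← MM_sup_Lo_top hj]
    exact sup_le le_sup_right (ha.trans le_sup_left)
  rw [vv, this]
  exact Module.finrank_zero_of_subsingleton

lemma inf_eq_bot_of_uu {n : ℕ} {L : Submodule F (VV F)} (hL : IsLat n L) {j : ℤ}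
    (h : uu j L = 0) : L ⊓ MM F j = ⊥ := gen_bot_of_finrank (finite_inf hL j) h

lemma sup_eq_top_of_vv {n : ℕ} {L : Submodule F (VV F)} (hL : IsLat n L) {j : ℤ}
    (h : vv j L = 0) : L ⊔ MM F j = ⊤ := gen_top_of_finrank (finite_quot hL j) h

/-- all boxes empty: a complement of `M_(ind L)` -/
lemma isCompl_of_box {n : ℕ} {L : Submodule F (VV F)} (hL : IsLat n L)
    (h : uu (ind L) L = 0 ∨ vv (ind L) L = 0) : IsCompl L (MM F (ind L)) := by
  have h1 := uu_sub_vv hL (ind L)
  have h2 : uu (ind L) L = 0 := by omega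
  have h3 : vv (ind L) L = 0 := by omega
  exact ⟨disjoint_iff.2 (inf_eq_bot_of_uu hL h2), codisjoint_iff.2 (sup_eq_top_of_vv hL h3)⟩

lemma ind_of_isCompl {n : ℕ} {L : Submodule F (VV F)} (hL : IsLat n L) {i : ℤ}
    (h : IsCompl L (MM F i)) : ind L = i := by
  have h1 := uu_sub_vv hL i
  have h2 : uu i L = 0 := by rw [uu, h.inf_eq_bot, finrank_bot]
  have h3 : vv i L = 0 := by
    rw [vv, h.sup_eq_top]; exact Module.finrank_zero_of_subsingleton
  omega

lemma box_of_isCompl {n : ℕ} {L : Submodule F (VV F)} (hL : IsLat n L) {i : ℤ}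
    (h : IsCompl L (MM F i)) (j : ℤ) : uu j L = 0 ∨ vv j L = 0 := by
  have h2 : uu i L = 0 := by rw [uu, h.inf_eq_bot, finrank_bot]
  have h3 : vv i L = 0 := by
    rw [vv, h.sup_eq_top]; exact Module.finrank_zero_of_subsingleton
  rcases le_total i j with h4 | h4
  · right; have := vv_anti_idx hL h4; omega
  · left; have := uu_mono_idx hL h4; omega

/-! ### Comparison of lattices -/

lemma uu_le_of_le {n : ℕ} {A B : Submodule F (VV F)} (hB : IsLat n B) (h : A ≤ B) (j : ℤ) :
    uu j A ≤ uu j B := gen_finrank_mono (finite_inf hB j) (inf_le_inf_right _ h)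

lemma vv_le_of_le {n : ℕ} {A B : Submodule F (VV F)} (hA : IsLat n A) (h : A ≤ B) (j : ℤ) :
    vv j B ≤ vv j A := gen_quot_anti (finite_quot hA j) (sup_le_sup_right h _)

lemma inf_eq_of_uu_eq {n : ℕ} {A B : Submodule F (VV F)} (hB : IsLat n B) (h : A ≤ B) {j : ℤ}
    (hj : uu j A = uu j B) : A ⊓ MM F j = B ⊓ MM F j :=
  gen_eq_of_finrank (finite_inf hB j) (inf_le_inf_right _ h) hj

lemma sup_eq_of_vv_eq {n : ℕ} {A B : Submodule F (VV F)} (hA : IsLat n A) (h : A ≤ B) {j : ℤ}
    (hj : vv j A = vv j B) : A ⊔ MM F j = B ⊔ MM F j :=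
  gen_eq_of_quot (finite_quot hA j) (sup_le_sup_right h _) hj

lemma ind_le_of_le {n : ℕ} {A B : Submodule F (VV F)} (hA : IsLat n A) (hB : IsLat n B)
    (h : A ≤ B) : ind B ≤ ind A := by
  have h1 := uu_sub_vv hA 0
  have h2 := uu_sub_vv hB 0
  have h3 := uu_le_of_le hB h 0
  have h4 := vv_le_of_le hA h 0
  omega

/-- comparable lattices with the same index are equal -/
lemma eq_of_le_of_ind_eq {n : ℕ} {A B : Submodule F (VV F)} (hA : IsLat n A) (hB : IsLat n B)
    (h : A ≤ B) (hi : ind A = ind B) : A = B := by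
  have key : ∀ j, uu j A = uu j B := fun j => by
    have h1 := uu_sub_vv hA j
    have h2 := uu_sub_vv hB j
    have h3 := uu_le_of_le hB h j
    have h4 := vv_le_of_le hA h j
    omega
  refine le_antisymm h fun y hy => ?_
  classical
  -- `y` lies in some `M_j`
  obtain ⟨j, hj⟩ : ∃ j : ℤ, y ∈ MM F j := by
    rcases y.support.eq_empty_or_nonempty with h0 | h0
    · exact ⟨0, by rw [Finsupp.support_eq_empty.1 h0]; exact zero_mem _⟩
    · refine ⟨y.support.max' h0, mem_MM.2 fun i hi => ?_⟩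
      by_contra hne
      have := Finset.le_max' _ _ (Finsupp.mem_support_iff.2 hne)
      omega
  have := inf_eq_of_uu_eq hB h (key j)
  have h5 : y ∈ B ⊓ MM F j := ⟨hy, hj⟩
  rw [← this] at h5
  exact h5.1

lemma ind_lt_of_lt {n : ℕ} {A B : Submodule F (VV F)} (hA : IsLat n A) (hB : IsLat n B)
    (h : A < B) : ind B < ind A :=
  lt_of_le_of_ne (ind_le_of_le hA hB h.le) fun e =>
    h.ne (eq_of_le_of_ind_eq hA hB h.le e.symm)

/-! ### Shifts -/

lemma sh_apply (c : ℤ) (v : VV F) (i : ℤ) : sh F c v i = v (i - c) := by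
  rw [sh, Finsupp.domLCongr_apply, Finsupp.domCongr_apply, Finsupp.equivMapDomain_apply]
  congr 1

lemma sh_single (c i : ℤ) (a : F) : sh F c (single i a) = single (i + c) a := by
  rw [sh, Finsupp.domLCongr_single]; rfl

lemma sh_add (c c' : ℤ) (v : VV F) : sh F (c + c') v = sh F c (sh F c' v) := by
  ext i
  rw [sh_apply, sh_apply, sh_apply]
  congr 1; ring

lemma sh_zero (v : VV F) : sh F 0 v = v := by
  ext i; rw [sh_apply]; simp

lemma map_sh_map_sh (c c' : ℤ) (L : Submodule F (VV F)) :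
    (L.map (sh F c').toLinearMap).map (sh F c).toLinearMap
      = L.map (sh F (c + c')).toLinearMap := by
  rw [← Submodule.map_comp]
  congr 1
  ext1 i
  ext v : 1
  simp only [LinearMap.comp_apply, LinearEquiv.coe_coe, Finsupp.lsingle_apply]
  rw [sh_add]

lemma map_sh_zero (L : Submodule F (VV F)) : L.map (sh F 0).toLinearMap = L := by
  have : (sh F 0).toLinearMap = LinearMap.id := by
    ext1 i
    ext v : 1
    simp [sh_zero]
  rw [this, Submodule.map_id]

lemma mem_map_sh {c : ℤ} {L : Submodule F (VV F)} {v : VV F} :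
    v ∈ L.map (sh F c).toLinearMap ↔ sh F (-c) v ∈ L := by
  constructor
  · rintro ⟨w, hw, rfl⟩
    rw [LinearEquiv.coe_coe, ← sh_add]
    simpa [sh_zero] using hw
  · intro h
    refine ⟨_, h, ?_⟩
    rw [LinearEquiv.coe_coe, ← sh_add]
    simp [sh_zero]

lemma map_sh_mono {c : ℤ} {L L' : Submodule F (VV F)} :
    L.map (sh F c).toLinearMap ≤ L'.map (sh F c).toLinearMap ↔ L ≤ L' := by
  constructor
  · intro h v hv
    have h1 : sh F c v ∈ L.map (sh F c).toLinearMap := ⟨v, hv, rfl⟩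
    have h2 := mem_map_sh.1 (h h1)
    rw [← sh_add] at h2
    simpa [sh_zero] using h2
  · exact fun h => Submodule.map_mono h

lemma map_sh_MM (c j : ℤ) : (MM F j).map (sh F c).toLinearMap = MM F (j + c) := by
  ext v
  rw [mem_map_sh, mem_MM, mem_MM]
  simp only [sh_apply]
  constructor
  · intro h i hi
    have := h (i - c) (by omega)
    rwa [sub_neg_eq_add, sub_add_cancel] at this
  · intro h i hi
    exact h _ (by omega)

lemma map_sh_Lo (c j : ℤ) : (Lo F j).map (sh F c).toLinearMap = Lo F (j + c) := by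
  ext v
  rw [mem_map_sh, mem_Lo, mem_Lo]
  simp only [sh_apply]
  constructor
  · intro h i hi
    have := h (i - c) (by omega)
    rwa [sub_neg_eq_add, sub_add_cancel] at this
  · intro h i hi
    exact h _ (by omega)

lemma sh_injective (c : ℤ) : Function.Injective (sh F c).toLinearMap := (sh F c).injective

lemma uu_map_sh (c j : ℤ) (L : Submodule F (VV F)) :
    uu j (L.map (sh F c).toLinearMap) = uu (j - c) L := by
  have h : L.map (sh F c).toLinearMap ⊓ MM F j
      = (L ⊓ MM F (j - c)).map (sh F c).toLinearMap := by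
    rw [Submodule.map_inf _ (sh_injective c), map_sh_MM, sub_add_cancel]
  rw [uu, h, uu]
  exact gen_finrank_map (sh F c) _

lemma vv_map_sh (c j : ℤ) (L : Submodule F (VV F)) :
    vv j (L.map (sh F c).toLinearMap) = vv (j - c) L := by
  have h : L.map (sh F c).toLinearMap ⊔ MM F j
      = (L ⊔ MM F (j - c)).map (sh F c).toLinearMap := by
    rw [Submodule.map_sup, map_sh_MM, sub_add_cancel]
  rw [vv, h, vv]
  exact gen_finrank_quot_map (sh F c) _

lemma IsLat.map_sh {n : ℕ} {L : Submodule F (VV F)} (hL : IsLat n L) (c : ℤ) :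
    IsLat n (L.map (sh F c).toLinearMap) := by
  obtain ⟨a, ha⟩ := hL.lower
  obtain ⟨b, hb⟩ := hL.upper
  refine ⟨?_, ⟨a + c, ?_⟩, ⟨b + c, ?_⟩⟩
  · rw [map_sh_map_sh, add_comm, ← map_sh_map_sh, map_sh_mono]
    exact hL.stable
  · rw [← map_sh_Lo, map_sh_mono]; exact ha
  · rw [← map_sh_Lo, map_sh_mono]; exact hb

lemma ind_map_sh {n : ℕ} {L : Submodule F (VV F)} (hL : IsLat n L) (c : ℤ) :
    ind (L.map (sh F c).toLinearMap) = ind L + c := by
  have h1 := uu_sub_vv (hL.map_sh c) 0
  rw [uu_map_sh, vv_map_sh] at h1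
  have h2 := uu_sub_vv hL (0 - c)
  omega

lemma map_sh_le_of_nonneg {n : ℕ} {L : Submodule F (VV F)} (hL : IsLat n L) {k : ℤ} (hk : 0 ≤ k) :
    L.map (sh F (n * k)).toLinearMap ≤ L := by
  obtain ⟨m, rfl⟩ := Int.eq_ofNat_of_zero_le hk
  induction m with
  | zero => simp [map_sh_zero]
  | succ m ih =>
    have e : (n : ℤ) * ((m + 1 : ℕ) : ℤ) = n * m + n := by push_cast; ring
    have := ih (by omega)
    rw [Nat.cast_succ] at *
    rw [show (n : ℤ) * ((m : ℤ) + 1) = n * m + n by ring, ← map_sh_map_sh]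
    exact le_trans (map_sh_mono.2 hL.stable) this

/-! ### Action of `UU` -/

lemma uu_map_equiv {n : ℕ} (g : UU F n) (j : ℤ) (L : Submodule F (VV F)) :
    uu j (L.map (g : VV F ≃ₗ[F] VV F).toLinearMap) = uu j L := by
  have hM : (MM F j).map (g : VV F ≃ₗ[F] VV F).toLinearMap = MM F j := by
    refine le_antisymm ?_ ?_
    · rintro _ ⟨x, hx, rfl⟩
      exact UU_mem_MM g hx
    · intro x hx
      refine ⟨((g⁻¹ : UU F n) : VV F ≃ₗ[F] VV F) x, UU_mem_MM g⁻¹ hx, ?_⟩
      exact LinearEquiv.apply_symm_apply (g : VV F ≃ₗ[F] VV F) x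
  have h : L.map (g : VV F ≃ₗ[F] VV F).toLinearMap ⊓ MM F j
      = (L ⊓ MM F j).map (g : VV F ≃ₗ[F] VV F).toLinearMap := by
    rw [Submodule.map_inf _ (g : VV F ≃ₗ[F] VV F).injective, hM]
  rw [uu, h, uu]
  exact gen_finrank_map (g : VV F ≃ₗ[F] VV F) _

lemma map_equiv_MM {n : ℕ} (g : UU F n) (j : ℤ) :
    (MM F j).map (g : VV F ≃ₗ[F] VV F).toLinearMap = MM F j := by
  refine le_antisymm ?_ ?_
  · rintro _ ⟨x, hx, rfl⟩
    exact UU_mem_MM g hx
  · intro x hx
    refine ⟨((g⁻¹ : UU F n) : VV F ≃ₗ[F] VV F) x, UU_mem_MM g⁻¹ hx, ?_⟩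
    exact LinearEquiv.apply_symm_apply (g : VV F ≃ₗ[F] VV F) x

lemma vv_map_equiv {n : ℕ} (g : UU F n) (j : ℤ) (L : Submodule F (VV F)) :
    vv j (L.map (g : VV F ≃ₗ[F] VV F).toLinearMap) = vv j L := by
  have h : L.map (g : VV F ≃ₗ[F] VV F).toLinearMap ⊔ MM F j
      = (L ⊔ MM F j).map (g : VV F ≃ₗ[F] VV F).toLinearMap := by
    rw [Submodule.map_sup, map_equiv_MM]
  rw [vv, h, vv]
  exact gen_finrank_quot_map (g : VV F ≃ₗ[F] VV F) _

lemma ind_map_equiv {n : ℕ} (g : UU F n) (L : Submodule F (VV F)) :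
    ind (L.map (g : VV F ≃ₗ[F] VV F).toLinearMap) = ind L := by
  rw [ind, ind, uu_map_equiv, vv_map_equiv]

end Vale.Agent.P067
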