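import Vale.Agent.P067.LamRet
import Vale.Agent.P067.LatDim

/-!
# P067: the building is exact
-/

namespace Vale.Agent.P067

/-- The complex of lattices with index in the window `[0, n)` is exact in all sizes. -/
theorem lam_exact {F : Type} [Field F] [DecidableEq (Submodule F (VV F))] {k : Type*} [Field k]
    [CharP k 2] {n : ℕ} (hn : 0 < n) (m : ℕ) : Mo.Exact k (Lam F n) m :=
  Ret.lam_exact_of hn (fun c _ hL => ind_map_sh hL c)
    (fun _ _ hL hL' h => ind_le_of_le hL hL' h) m

end Vale.Agent.P067
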