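import Vale.Agent.P067.MorseNum
import Vale.Agent.P067.Push
import Vale.Agent.P067.LamExact
import Vale.Agent.P067.GapExact

/-!
# P067: `Y` is acyclic in small sizes
-/

namespace Vale.Agent.P067.YX

open Finset Classical Morse

variable {F : Type} [Field F] {n : ℕ}

lemma num_of_lam {σ : Finset (Submodule F (VV F))} (hσ : σ ∈ Lam F n) :
    Num n (uu (F := F)) (vv (F := F)) ind σ where
  diff X hX j := uu_sub_vv (hσ.1 X hX).1 j
  lo X hX := (hσ.1 X hX).2.1
  hi X hX := (hσ.1 X hX).2.2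
  inj X hX Y hY h := by
    rcases hσ.2 X hX Y hY with h1 | h1
    · exact eq_of_le_of_ind_eq (hσ.1 X hX).1 (hσ.1 Y hY).1 h1.1 h
    · exact (eq_of_le_of_ind_eq (hσ.1 Y hY).1 (hσ.1 X hX).1 h1.1 h.symm).symm
  fin X hX := by
    obtain ⟨a, ha⟩ := (hσ.1 X hX).1.lower
    obtain ⟨b, hb⟩ := (hσ.1 X hX).1.upper
    refine (Set.finite_Ioo b a).subset ?_
    rintro j ⟨h1, h2⟩
    refine ⟨?_, ?_⟩
    · by_contra h
      rw [uu_eq_zero hb (not_lt.1 h)] at h1
      exact lt_irrefl _ h1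
    · by_contra h
      rw [vv_eq_zero ha (not_lt.1 h)] at h2
      exact lt_irrefl _ h2

lemma lam_sub {σ τ : Finset (Submodule F (VV F))} (hσ : σ ∈ Lam F n) (h : τ ⊆ σ) :
    τ ∈ Lam F n :=
  ⟨fun L hL => hσ.1 L (h hL), fun L hL L' hL' => hσ.2 L (h hL) L' (h hL')⟩

/-- the bad vertices -/
noncomputable def bad (n : ℕ) (σ : Finset (Submodule F (VV F))) : Finset (Submodule F (VV F)) :=
  σ.filter fun X => ¬ GoodN n (uu (F := F)) (vv (F := F)) σ X

lemma mem_bad {σ : Finset (Submodule F (VV F))} {X : Submodule F (VV F)} :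
    X ∈ bad n σ ↔ X ∈ σ ∧ ¬ GoodN n (uu (F := F)) (vv (F := F)) σ X := by
  rw [bad, Finset.mem_filter]

lemma morse : Mo.Morse (Lam F n) (bad n) (EE n (uu (F := F)) (vv (F := F))) where
  down s hs x _ := lam_sub hs (Finset.erase_subset _ _)
  sub s := Finset.filter_subset _ _
  good_tau s hs x hx hxb := by
    have hg : GoodN n (uu (F := F)) (vv (F := F)) s x := by
      by_contra h
      exact hxb (mem_bad.2 ⟨hx, h⟩)
    ext y
    rw [mem_bad, mem_bad, Finset.mem_erase]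
    constructor
    · rintro ⟨⟨h1, h2⟩, h3⟩
      exact ⟨h2, fun h4 => h3 (((num_of_lam hs).good_erase_iff hg h2).2 h4)⟩
    · rintro ⟨h1, h2⟩
      refine ⟨⟨?_, h1⟩, fun h4 => h2 (((num_of_lam hs).good_erase_iff hg h1).1 h4)⟩
      rintro rfl
      exact h2 hg
  good_E s hs x hx hxb := by
    have hg : GoodN n (uu (F := F)) (vv (F := F)) s x := by
      by_contra h
      exact hxb (mem_bad.2 ⟨hx, h⟩)
    exact (num_of_lam hs).EE_erase hg
  bad_E s hs x hx := (num_of_lam hs).EE_erase_lt (mem_bad.1 hx).1 (mem_bad.1 hx).2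

lemma yy_eq : {s : Finset (Submodule F (VV F)) | s ∈ Lam F n ∧ bad n s = ∅} = YY F n := by
  ext s
  simp only [Set.mem_setOf_eq, YY]
  refine and_congr_right fun hs => ?_
  have h1 : bad n s = ∅ ↔ ∀ X ∈ s, GoodN n (uu (F := F)) (vv (F := F)) s X := by
    rw [Finset.eq_empty_iff_forall_notMem]
    constructor
    · intro h X hX
      by_contra hg
      exact h X (mem_bad.2 ⟨hX, hg⟩)
    · intro h X hX
      exact (mem_bad.1 hX).2 (h X (mem_bad.1 hX).1)
  rw [h1, (num_of_lam hs).all_good_iff]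
  constructor
  · intro h X hX
    refine ⟨ind X, isCompl_of_box (hs.1 X hX).1 ?_⟩
    exact Nat.mul_eq_zero.1 (h X hX (ind X))
  · intro h X hX j
    obtain ⟨i, hi⟩ := h X hX
    exact Nat.mul_eq_zero.2 (box_of_isCompl (hs.1 X hX).1 hi j)

lemma dd_eq {t : Finset (Submodule F (VV F))} (ht : bad n t = t) :
    Mo.DD (Lam F n) (bad n) t = DD n t := by
  ext r
  constructor
  · rintro ⟨h1, h2, h3⟩
    have hg : ∀ X ∈ r, GoodN n (uu (F := F)) (vv (F := F)) (t ∪ r) X := by
      intro X hX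
      by_contra h
      have : X ∈ bad n (t ∪ r) := mem_bad.2 ⟨Finset.mem_union_right _ hX, h⟩
      rw [h3] at this
      exact (Finset.disjoint_left.1 h1 this) hX
    refine ⟨fun X hX hXt => Finset.disjoint_left.1 h1 hXt hX,
      ⟨t ∪ r, h2, Finset.subset_union_left, Finset.subset_union_right⟩, ?_⟩
    exact ((num_of_lam h2).good_union_iff h1).1 hg
  · rintro ⟨h1, ⟨σ, hσ, h2, h3⟩, h4⟩
    have hd : Disjoint t r := Finset.disjoint_right.2 fun X hX => h1 X hX
    have hu : t ∪ r ∈ Lam F n := lam_sub hσ (Finset.union_subset h2 h3)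
    refine ⟨hd, hu, ?_⟩
    have hg := ((num_of_lam hu).good_union_iff hd).2 h4
    ext X
    rw [mem_bad, Finset.mem_union]
    constructor
    · rintro ⟨h5 | h5, h6⟩
      · exact h5
      · exact absurd (hg X h5) h6
    · intro hX
      refine ⟨Or.inl hX, fun h6 => ?_⟩
      have h7 := ((num_of_lam hu).good_union_left_iff hg hX).1 h6
      rw [← ht] at hX
      exact (mem_bad.1 hX).2 h7

theorem yy_exact [Fintype F] {k : Type*} [Field k] [CharP k 2] {d : ℕ}
    (hn : (d + 1) * (d + 2) ≤ n) (hK : Gap.Cp d ≤ Fintype.card F) {m : ℕ} (hm : m ≤ d) :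
    Mo.Exact k (YY F n) m := by
  have hn0 : 0 < n := lt_of_lt_of_le (by positivity) hn
  rw [← yy_eq]
  refine Mo.exact_good morse (fun t ht hne htb htc => ?_) (lam_exact hn0 m)
  rw [dd_eq htb]
  have h1 : 0 < t.card := Finset.card_pos.2 hne
  refine Gap.exact_DD ht hne d ?_ hK (by omega)
  calc t.card * (d + 2) ≤ (d + 1) * (d + 2) := Nat.mul_le_mul_right _ (by omega)
    _ ≤ n := hn

end Vale.Agent.P067.YX
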