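import Vale.Agent.P067.FinalOf2
import Vale.Agent.P067.YExact91

/-!
# P067: bounded-degree coboundary expanders in every dimension
-/

namespace Vale.Agent.P067

open Classical in
theorem final {d : ℕ} (hd : 1 ≤ d) :
    ∃ D : ℕ, ∃ ε' : ℝ, 0 < ε' ∧ ∀ N : ℕ, ∃ X : PureComplex d,
      N ≤ X.vertices.card ∧ X.Connected ∧ X.degree ≤ D ∧ X.IsCoboundaryExpander ε' := by
  refine final_of_yy (n := (d + 1) * (d + 3)) hd le_rfl fun p _ hp m hm => ?_
  have hF : Gap.Cp d ≤ Fintype.card (ZMod p) := by rwa [ZMod.card]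
  exact YX.yy_exact (by nlinarith) hF hm

end Vale.Agent.P067
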