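import Vale.Agent.P067.Lat
import Vale.Agent.P067.Coset
import Vale.Agent.P067.DAvg

/-!
# P067: the congruence subgroups `Gam F n s`: normality, finiteness, intersections
-/

open Finsupp

namespace Vale.Agent.P067

namespace GF

variable {F : Type} [Field F]

/-- The basis vector. -/
noncomputable def xb (F : Type) [Field F] (a : ℤ) : VV F := single a 1

theorem sh_apply (c : ℤ) (v : VV F) (i : ℤ) : sh F c v i = v (i - c) := by
  simp [sh, Finsupp.domLCongr_apply, Finsupp.domCongr_apply, Finsupp.equivMapDomain_apply]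
  rfl

theorem sh_xb (c a : ℤ) : sh F c (xb F a) = xb F (a + c) := by
  ext i
  rw [sh_apply, xb, xb, Finsupp.single_apply, Finsupp.single_apply]
  congr 1
  simp only [eq_iff_iff]
  omega

theorem sh_mem_MM {c : ℤ} {v : VV F} {j : ℤ} : sh F c v ∈ MM F (j + c) ↔ v ∈ MM F j := by
  rw [mem_MM, mem_MM]
  constructor
  · intro h i hi
    have := h (i + c) (by omega)
    rwa [sh_apply, add_sub_cancel_right] at this
  · intro h i hi
    rw [sh_apply]
    exact h _ (by omega)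

theorem sh_mem_Lo {c : ℤ} {v : VV F} {j : ℤ} : sh F c v ∈ Lo F (j + c) ↔ v ∈ Lo F j := by
  rw [mem_Lo, mem_Lo]
  constructor
  · intro h i hi
    have := h (i + c) (by omega)
    rwa [sh_apply, add_sub_cancel_right] at this
  · intro h i hi
    rw [sh_apply]
    exact h _ (by omega)

theorem Lo_anti {i j : ℤ} (h : i ≤ j) : Lo F j ≤ Lo F i := by
  intro v hv
  rw [mem_Lo] at hv ⊢
  exact fun k hk => hv k (by omega)

theorem Lo_inf_MM {i j : ℤ} (h : j ≤ i) {v : VV F} (h1 : v ∈ Lo F i) (h2 : v ∈ MM F j) :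
    v = 0 := by
  rw [mem_Lo] at h1
  rw [mem_MM] at h2
  ext k
  rcases le_or_gt k i with hk | hk
  · exact h1 k hk
  · exact h2 k (by omega)

theorem exists_mem_MM (v : VV F) : ∃ j, v ∈ MM F j := by
  obtain ⟨j, hj⟩ := v.support.finite_toSet.bddAbove
  refine ⟨j, mem_MM.2 fun i hi => ?_⟩
  by_contra h
  have := hj (Finset.mem_coe.2 (Finsupp.mem_support_iff.2 h))
  omega

theorem exists_mem_Lo (v : VV F) : ∃ j, v ∈ Lo F j := by
  obtain ⟨j, hj⟩ := v.support.finite_toSet.bddBelow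
  refine ⟨j - 1, mem_Lo.2 fun i hi => ?_⟩
  by_contra h
  have := hj (Finset.mem_coe.2 (Finsupp.mem_support_iff.2 h))
  omega

theorem xb_mem_MM {a j : ℤ} (h : a ≤ j) : xb F a ∈ MM F j := by
  rw [mem_MM]
  intro i hi
  rw [xb, Finsupp.single_apply, if_neg (by omega)]

theorem xb_mem_Lo {a j : ℤ} (h : j < a) : xb F a ∈ Lo F j := by
  rw [mem_Lo]
  intro i hi
  rw [xb, Finsupp.single_apply, if_neg (by omega)]

theorem ext_xb {f g : VV F →ₗ[F] VV F} (h : ∀ a, f (xb F a) = g (xb F a)) : f = g := by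
  apply Finsupp.lhom_ext
  intro a c
  have h1 : (single a c : VV F) = c • xb F a := by
    rw [xb, Finsupp.smul_single, smul_eq_mul, mul_one]
  rw [h1, map_smul, map_smul, h]

theorem map_MM {f : VV F →ₗ[F] VV F} {j : ℤ} {P : Submodule F (VV F)}
    (h : ∀ a ≤ j, f (xb F a) ∈ P) {v : VV F} (hv : v ∈ MM F j) : f v ∈ P := by
  rw [MM, Finsupp.supported_eq_span_single] at hv
  induction hv using Submodule.span_induction with
  | mem c hc =>
    obtain ⟨a, ha, rfl⟩ := hc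
    exact h a ha
  | zero => rw [map_zero]; exact P.zero_mem
  | add x y _ _ hx hy => rw [map_add]; exact P.add_mem hx hy
  | smul c x _ hx => rw [map_smul]; exact P.smul_mem c hx

theorem map_Lo {f : VV F →ₗ[F] VV F} {j : ℤ} {P : Submodule F (VV F)}
    (h : ∀ a, j < a → f (xb F a) ∈ P) {v : VV F} (hv : v ∈ Lo F j) : f v ∈ P := by
  rw [Lo, Finsupp.supported_eq_span_single] at hv
  induction hv using Submodule.span_induction with
  | mem c hc =>
    obtain ⟨a, ha, rfl⟩ := hc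
    exact h a ha
  | zero => rw [map_zero]; exact P.zero_mem
  | add x y _ _ hx hy => rw [map_add]; exact P.add_mem hx hy
  | smul c x _ hx => rw [map_smul]; exact P.smul_mem c hx


variable {F : Type} [Field F] {n : ℕ}

/-- The element of `U` as a linear equivalence applied to a vector. -/
theorem UU_inv_apply (g : UU F n) (v : VV F) :
    (g : VV F ≃ₗ[F] VV F) (((g⁻¹ : UU F n) : VV F ≃ₗ[F] VV F) v) = v :=
  LinearEquiv.apply_symm_apply (g : VV F ≃ₗ[F] VV F) v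

theorem UU_inv_apply' (g : UU F n) (v : VV F) :
    ((g⁻¹ : UU F n) : VV F ≃ₗ[F] VV F) ((g : VV F ≃ₗ[F] VV F) v) = v :=
  LinearEquiv.symm_apply_apply (g : VV F ≃ₗ[F] VV F) v

theorem UU_mul_apply (g h : UU F n) (v : VV F) :
    ((g * h : UU F n) : VV F ≃ₗ[F] VV F) v =
      (g : VV F ≃ₗ[F] VV F) ((h : VV F ≃ₗ[F] VV F) v) := rfl

theorem UU_ext {g h : UU F n}
    (H : ∀ a, (g : VV F ≃ₗ[F] VV F) (xb F a) = (h : VV F ≃ₗ[F] VV F) (xb F a)) : g = h := by
  apply Subtype.ext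
  apply LinearEquiv.toLinearMap_injective
  exact ext_xb H

theorem mem_Gam {s : ℕ} {g : UU F n} : g ∈ Gam F n s ↔
    ∀ k : ℤ, ∀ x ∈ MM F (n * k), (g : VV F ≃ₗ[F] VV F) x - x ∈ MM F (n * (k - s)) := Iff.rfl

instance Gam_normal (s : ℕ) : (Gam F n s).Normal := ⟨by
  intro g hg h
  rw [mem_Gam]
  intro k v hv
  rw [UU_mul_apply, UU_mul_apply]
  have h1 : (h : VV F ≃ₗ[F] VV F) ((g : VV F ≃ₗ[F] VV F)
      (((h⁻¹ : UU F n) : VV F ≃ₗ[F] VV F) v)) - v =
      (h : VV F ≃ₗ[F] VV F) ((g : VV F ≃ₗ[F] VV F)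
      (((h⁻¹ : UU F n) : VV F ≃ₗ[F] VV F) v) - ((h⁻¹ : UU F n) : VV F ≃ₗ[F] VV F) v) := by
    rw [map_sub, UU_inv_apply]
  rw [h1]
  exact UU_mem_MM h (hg k _ (UU_mem_MM h⁻¹ hv))⟩

theorem Gam_anti {s s' : ℕ} (h : s ≤ s') : Gam F n s' ≤ Gam F n s := by
  intro g hg k v hv
  refine MM_mono ?_ (hg k v hv)
  have : (s : ℤ) ≤ s' := by exact_mod_cast h
  nlinarith [Int.natCast_nonneg (n := n)]

/-- `g⁻¹ * h ∈ Gam s` in terms of differences. -/
theorem inv_mul_mem_Gam {s : ℕ} {g h : UU F n} : g⁻¹ * h ∈ Gam F n s ↔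
    ∀ k : ℤ, ∀ x ∈ MM F (n * k),
      (h : VV F ≃ₗ[F] VV F) x - (g : VV F ≃ₗ[F] VV F) x ∈ MM F (n * (k - s)) := by
  rw [mem_Gam]
  refine forall_congr' fun k => forall_congr' fun x => forall_congr' fun _ => ?_
  rw [UU_mul_apply]
  constructor
  · intro H
    have := UU_mem_MM g H
    rwa [map_sub, UU_inv_apply] at this
  · intro H
    have := UU_mem_MM g⁻¹ H
    rwa [map_sub, UU_inv_apply'] at this

/-- It suffices to check one inclusion. -/
theorem mem_Lo_of_inclusion (g : UU F n) {i : ℤ}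
    (h : ∀ v ∈ Lo F i, (g : VV F ≃ₗ[F] VV F) v ∈ Lo F i) (v : VV F) :
    (g : VV F ≃ₗ[F] VV F) v ∈ Lo F i ↔ v ∈ Lo F i := by
  refine ⟨fun hv => ?_, h v⟩
  have key : ∀ m : ℕ, ∀ w ∈ Lo F i, w ∈ MM F (i + m) →
      ∃ u ∈ Lo F i, (g : VV F ≃ₗ[F] VV F) u = w := by
    intro m
    induction m with
    | zero =>
      intro w hw hw'
      refine ⟨0, (Lo F i).zero_mem, ?_⟩
      rw [map_zero]
      exact (Lo_inf_MM (by simp) hw hw').symm
    | succ m ih =>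
      intro w hw hw'
      obtain ⟨u, hu, hu'⟩ := ih ((g : VV F ≃ₗ[F] VV F) w - w) ((Lo F i).sub_mem (h w hw) hw)
        (MM_mono (by push_cast; omega) (g.2.2 _ w hw'))
      refine ⟨w - u, (Lo F i).sub_mem hw hu, ?_⟩
      rw [map_sub, hu']
      abel
  obtain ⟨j, hj⟩ := exists_mem_MM ((g : VV F ≃ₗ[F] VV F) v)
  obtain ⟨u, hu, hu'⟩ := key (j - i).toNat _ hv (MM_mono (by omega) hj)
  rwa [(g : VV F ≃ₗ[F] VV F).injective hu'] at hu

theorem mem_Ki {i : Fin n} {g : UU F n} : g ∈ Ki F n i ↔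
    ∀ v : VV F, (g : VV F ≃ₗ[F] VV F) v ∈ Lo F (i : ℤ) ↔ v ∈ Lo F (i : ℤ) := Iff.rfl

theorem mem_Ki_of {i : Fin n} {g : UU F n}
    (h : ∀ a : ℤ, (i : ℤ) < a → (g : VV F ≃ₗ[F] VV F) (xb F a) ∈ Lo F (i : ℤ)) :
    g ∈ Ki F n i :=
  mem_Lo_of_inclusion g fun v hv =>
    map_Lo (f := (g : VV F ≃ₗ[F] VV F).toLinearMap) (P := Lo F (i : ℤ)) h hv

/-- The elements of `K_i` stabilise all `Lo (i + n k)`. -/
theorem Ki_periodic {i : Fin n} {g : UU F n} (hg : g ∈ Ki F n i) (k : ℤ) :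
    ∀ v : VV F, (g : VV F ≃ₗ[F] VV F) v ∈ Lo F (i + n * k) ↔ v ∈ Lo F (i + n * k) := by
  have key : ∀ j : ℤ, (∀ v : VV F, (g : VV F ≃ₗ[F] VV F) v ∈ Lo F j ↔ v ∈ Lo F j) ↔
      (∀ v : VV F, (g : VV F ≃ₗ[F] VV F) v ∈ Lo F (j + n) ↔ v ∈ Lo F (j + n)) := by
    intro j
    constructor
    · intro h v
      obtain ⟨w, rfl⟩ := (sh F n).surjective v
      rw [g.2.1, sh_mem_Lo, sh_mem_Lo, h]
    · intro h w
      rw [← sh_mem_Lo (c := n), ← sh_mem_Lo (c := n) (v := w), ← g.2.1, h]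
  induction k using Int.induction_on with
  | zero =>
    rw [mul_zero, add_zero]
    exact hg
  | succ k ih =>
    rw [key] at ih
    have h1 : (i : ℤ) + n * (k + 1) = i + n * k + n := by ring
    rw [h1]
    exact ih
  | pred k ih =>
    rw [key]
    have h1 : (i : ℤ) + n * (-k - 1) + n = i + n * (-k) := by ring
    rw [h1]
    exact ih

theorem exists_between (hn : 0 < n) (i a : ℤ) : ∃ l : ℤ, a - n ≤ i + n * l ∧ i + n * l < a := by
  have hn' : (0 : ℤ) < n := by exact_mod_cast hn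
  refine ⟨(a - 1 - i) / n, ?_, ?_⟩
  · have := Int.emod_add_mul_ediv (a - 1 - i) n
    have h2 := Int.emod_lt_of_pos (a - 1 - i) hn'
    omega
  · have := Int.emod_add_mul_ediv (a - 1 - i) n
    have h2 := Int.emod_nonneg (a - 1 - i) hn'.ne'
    omega

theorem Ki_xb {i : Fin n} {g : UU F n} (hg : g ∈ Ki F n i) (a : ℤ) :
    (g : VV F ≃ₗ[F] VV F) (xb F a) ∈ Lo F (a - n) := by
  obtain ⟨l, hl1, hl2⟩ := exists_between (n := n) i.pos i a
  exact Lo_anti hl1 ((Ki_periodic hg l _).2 (xb_mem_Lo hl2))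

/-- Elements of the `K_i` which agree modulo `t ^ 2` are equal. -/
theorem eq_of_mem_Gam {i j : Fin n} {g h : UU F n} (hg : g ∈ Ki F n i) (hh : h ∈ Ki F n j)
    {s : ℕ} (hs : 2 ≤ s) (hgh : g⁻¹ * h ∈ Gam F n s) : g = h := by
  rw [inv_mul_mem_Gam] at hgh
  apply UU_ext
  intro a
  obtain ⟨l, hl1, hl2⟩ := exists_between (n := n) i.pos 0 a
  have h1 := hgh (l + 1) (xb F a) (xb_mem_MM (by
    have : (n : ℤ) * (l + 1) = 0 + n * l + n := by ring
    omega))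
  have h2 := (Lo F (a - n)).sub_mem (Ki_xb hh a) (Ki_xb hg a)
  have h3 : (n : ℤ) * (l + 1 - s) ≤ a - n := by
    have h4 : (2 : ℤ) ≤ s := by exact_mod_cast hs
    have h5 : (n : ℤ) * (l + 1 - s) ≤ n * (l - 1) :=
      mul_le_mul_of_nonneg_left (by omega) (Int.natCast_nonneg n)
    have h6 : (n : ℤ) * (l - 1) = 0 + n * l - n := by ring
    omega
  have := Lo_inf_MM h3 h2 h1
  rw [sub_eq_zero] at this
  exact this.symm

end GF

open GF

variable {F : Type} [Field F] {n : ℕ}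

/-- For `s ≥ 2` and `R` nonempty `K_R` embeds into `U / Gam s`. -/
theorem KJ_inj {R : Finset (Fin n)} (hR : R.Nonempty) {s : ℕ} (hs : 2 ≤ s) {g : UU F n}
    (hg : g ∈ KJ (Ki F n) R) (h : g ∈ Gam F n s) : g = 1 := by
  obtain ⟨i, hi⟩ := hR
  have h1 := mem_KJ.1 hg i hi
  refine (eq_of_mem_Gam (Ki F n i).one_mem h1 hs ?_).symm
  rwa [inv_one, one_mul]

/-- The images of the `K_i` in `U / Gam s`. -/
noncomputable def Kbar (F : Type) [Field F] (n s : ℕ) (i : Fin n) :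
    Subgroup (UU F n ⧸ Gam F n s) :=
  (Ki F n i).map (QuotientGroup.mk' (Gam F n s))

theorem Kbar_mem {s : ℕ} {J : Finset (Fin n)} {g : UU F n} (hg : g ∈ KJ (Ki F n) J) :
    (QuotientGroup.mk' (Gam F n s)) g ∈ KJ (Kbar F n s) J :=
  mem_KJ.2 fun i hi => ⟨g, mem_KJ.1 hg i hi, rfl⟩

/-- For `s ≥ 2` and `J` nonempty the intersection of the images is the image of the
intersection. -/
theorem Kbar_surj {s : ℕ} (hs : 2 ≤ s) {J : Finset (Fin n)} (hJ : J.Nonempty)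
    {y : UU F n ⧸ Gam F n s} (hy : y ∈ KJ (Kbar F n s) J) :
    ∃ x, x ∈ KJ (Ki F n) J ∧ (QuotientGroup.mk' (Gam F n s)) x = y := by
  obtain ⟨i₀, hi₀⟩ := hJ
  obtain ⟨g₀, hg₀, hgy⟩ := mem_KJ.1 hy i₀ hi₀
  refine ⟨g₀, mem_KJ.2 fun i hi => ?_, hgy⟩
  obtain ⟨g, hg, hgy'⟩ := mem_KJ.1 hy i hi
  have h1 : g⁻¹ * g₀ ∈ Gam F n s := by
    rw [← QuotientGroup.eq]
    exact hgy'.trans hgy.symm
  rw [← eq_of_mem_Gam hg hg₀ hs h1]
  exact hg

end Vale.Agent.P067
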