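import Vale.Agent.P067.GapIso3

/-!
P067, (B4): the filling complex `DD n τ` has a long gap; cone functions of bounded size.
-/

namespace Vale.Agent.P067.Gap

open Finset Classical

variable {F : Type} [Field F] {n : ℕ}

/-- domination by the periodic chain of `τ` -/
def Dom (n : ℕ) (τ : Finset (Submodule F (VV F))) (X : Submodule F (VV F)) : Prop :=
  ∀ j : ℤ, 0 < uu j X → 0 < vv j X → (∃ Y ∈ τ, ∃ k : ℤ,
      uu j X ≤ uu (j - n * k) Y ∧ vv j X ≤ vv (j - n * k) Y)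

/-- conditions on one vertex of `DD n τ` -/
structure Vx (n : ℕ) (τ : Finset (Submodule F (VV F))) (X : Submodule F (VV F)) : Prop where
  notMem : X ∉ τ
  lat : IsLat n X
  ind0 : 0 ≤ ind X
  indn : ind X < n
  cmp : ∀ Y ∈ τ, Cmp n X Y
  dom : Dom n τ X

theorem mem_DD_iff {τ : Finset (Submodule F (VV F))} (hτ : τ ∈ Lam F n)
    {ρ : Finset (Submodule F (VV F))} :
    ρ ∈ DD n τ ↔ (∀ X ∈ ρ, Vx n τ X) ∧ ∀ X ∈ ρ, ∀ Y ∈ ρ, Cmp n X Y := by
  constructor
  · rintro ⟨h1, ⟨σ, hσ, hτσ, hρσ⟩, h3⟩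
    have hl : ∀ X ∈ σ, IsLat n X := fun X hX => (hσ.1 X hX).1
    constructor
    · intro X hX
      refine ⟨h1 X hX, hl X (hρσ hX), (hσ.1 X (hρσ hX)).2.1, (hσ.1 X (hρσ hX)).2.2, ?_, h3 X hX⟩
      intro Y hY
      exact cmp_of_adj (hl X (hρσ hX)) (hl Y (hτσ hY)) (hσ.2 X (hρσ hX) Y (hτσ hY))
    · intro X hX Y hY
      exact cmp_of_adj (hl X (hρσ hX)) (hl Y (hρσ hY)) (hσ.2 X (hρσ hX) Y (hρσ hY))
  · rintro ⟨h1, h2⟩
    refine ⟨fun X hX => (h1 X hX).notMem, ⟨τ ∪ ρ, ⟨?_, ?_⟩, Finset.subset_union_left,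
      Finset.subset_union_right⟩, fun X hX => (h1 X hX).dom⟩
    · intro X hX
      rcases Finset.mem_union.1 hX with h | h
      · exact hτ.1 X h
      · exact ⟨(h1 X h).lat, (h1 X h).ind0, (h1 X h).indn⟩
    · intro X hX Y hY
      rcases Finset.mem_union.1 hX with h | h <;> rcases Finset.mem_union.1 hY with h' | h'
      · exact hτ.2 X h Y h'
      · obtain ⟨l1, l2, l3⟩ := hτ.1 X h
        exact adj_of_cmp l1 (h1 Y h').lat l2 l3 (h1 Y h').ind0 (h1 Y h').indn ((h1 Y h').cmp X h).symm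
      · obtain ⟨l1, l2, l3⟩ := hτ.1 Y h'
        exact adj_of_cmp (h1 X h).lat l1 (h1 X h).ind0 (h1 X h).indn l2 l3 ((h1 X h).cmp Y h')
      · exact adj_of_cmp (h1 X h).lat (h1 Y h').lat (h1 X h).ind0 (h1 X h).indn
          (h1 Y h').ind0 (h1 Y h').indn (h2 X h Y h')

/-- normalisation: translate with index in `[0, n)` -/
noncomputable def nrm (n : ℕ) (X : Submodule F (VV F)) : Submodule F (VV F) :=
  tr n (-(ind X / (n : ℤ))) X

theorem nrm_ind (hn : 0 < n) {X : Submodule F (VV F)} (hX : IsLat n X) :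
    0 ≤ ind (nrm n X) ∧ ind (nrm n X) < n := by
  have hn' : (0 : ℤ) < n := by exact_mod_cast hn
  have h1 : ind (nrm n X) = ind X % (n : ℤ) := by
    rw [nrm, ind_tr hX]
    have := Int.emod_add_mul_ediv (ind X) n
    linear_combination -this
  rw [h1]
  exact ⟨Int.emod_nonneg _ hn'.ne', Int.emod_lt_of_pos _ hn'⟩

theorem nrm_tr (hn : 0 < n) {X : Submodule F (VV F)} (hX : IsLat n X) (h0 : 0 ≤ ind X)
    (h1 : ind X < n) (k : ℤ) : nrm n (tr n k X) = X := by
  have hn' : (0 : ℤ) < n := by exact_mod_cast hn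
  rw [nrm, ind_tr hX, Int.add_mul_ediv_left _ _ hn'.ne', Int.ediv_eq_zero_of_lt h0 h1, tr_tr]
  rw [zero_add, neg_add_cancel, tr_zero]

/-- the dichotomy gives domination -/
theorem dom_of_dich {τ : Finset (Submodule F (VV F))} (hτ : τ ∈ Lam F n)
    {A B X : Submodule F (VV F)} (D : GapData n τ A B) (hX : IsLat n X) (hA : A ≤ X) (hB : X ≤ B)
    (h : Dich A B X) : Dom n τ X := by
  intro j _ _
  rcases h j with h1 | h1
  · obtain ⟨Y, hY, k, hk⟩ := D.memA
    refine ⟨Y, hY, k, ?_⟩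
    rw [← uu_tr, ← vv_tr, ← hk]
    refine ⟨?_, vv_le_of_le D.latA hA j⟩
    have h2 : X ⊓ MM F j ≤ A ⊓ MM F j := le_inf h1 inf_le_right
    exact gen_finrank_mono (finite_inf D.latA j) h2
  · obtain ⟨Y, hY, k, hk⟩ := D.memB
    refine ⟨Y, hY, k, ?_⟩
    rw [← uu_tr, ← vv_tr, ← hk]
    refine ⟨uu_le_of_le D.latB hB j, ?_⟩
    have h2 : B ⊔ MM F j ≤ X ⊔ MM F j := sup_le h1 le_sup_right
    exact gen_quot_anti (finite_quot D.latB j) h2

/-- domination gives the dichotomy -/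
theorem dich_of_dom {τ : Finset (Submodule F (VV F))} (hτ : τ ∈ Lam F n)
    {A B X : Submodule F (VV F)} (D : GapData n τ A B) (hX : IsLat n X) (hA : A ≤ X) (hB : X ≤ B)
    (h : Dom n τ X) : Dich A B X := by
  intro j
  by_cases hu : uu j X = 0
  · left
    rw [inf_eq_bot_of_uu hX hu]
    exact bot_le
  by_cases hv : vv j X = 0
  · right
    rw [sup_eq_top_of_vv hX hv]
    exact le_top
  obtain ⟨Y, hY, k, h1, h2⟩ := h j (Nat.pos_of_ne_zero hu) (Nat.pos_of_ne_zero hv)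
  rw [← uu_tr] at h1
  rw [← vv_tr] at h2
  have hYl : IsLat n (tr n k Y) := isLat_tr (hτ.1 Y hY).1 k
  rcases D.cons Y hY k with h3 | h3
  · left
    have h4 : uu j A = uu j X :=
      le_antisymm (uu_le_of_le hX hA j) (h1.trans (uu_le_of_le D.latA h3 j))
    rw [← inf_eq_of_uu_eq hX hA h4]
    exact inf_le_left
  · right
    have h4 : vv j X = vv j B :=
      le_antisymm (h2.trans (vv_le_of_le D.latB h3 j)) (vv_le_of_le hX hB j)
    rw [sup_eq_of_vv_eq hX hB h4]
    exact le_sup_left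

theorem dom_tr {τ : Finset (Submodule F (VV F))} {X : Submodule F (VV F)} (c : ℤ)
    (h : Dom n τ X) : Dom n τ (tr n c X) := by
  intro j h1 h2
  rw [uu_tr] at h1
  rw [vv_tr] at h2
  obtain ⟨Y, hY, k, h3, h4⟩ := h _ h1 h2
  refine ⟨Y, hY, k + c, ?_⟩
  rw [uu_tr, vv_tr]
  have : j - n * (k + c) = j - n * c - n * k := by ring
  rw [this]
  exact ⟨h3, h4⟩

theorem dom_of_tr {τ : Finset (Submodule F (VV F))} {X : Submodule F (VV F)} {c : ℤ}
    (h : Dom n τ (tr n c X)) : Dom n τ X := by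
  have := dom_tr (n := n) (-c) h
  rwa [tr_tr, neg_add_cancel, tr_zero] at this

section Main

variable {τ : Finset (Submodule F (VV F))} {A B : Submodule F (VV F)}

theorem lat_of_between (D : GapData n τ A B) {X : Submodule F (VV F)} (hA : A ≤ X) (hB : X ≤ B) :
    IsLat n X := by
  obtain ⟨a, ha⟩ := D.latA.lower
  obtain ⟨b, hb⟩ := D.latB.upper
  refine ⟨?_, ⟨a, ha.trans hA⟩, ⟨b, hB.trans hb⟩⟩
  have h1 : tr n 1 X ≤ X := ((tr_le_tr.2 hB).trans D.per).trans hA
  rwa [tr, mul_one] at h1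

/-- the rest: the vertices outside the gap form a face of `DD n τ` -/
def Rest (n : ℕ) (τ : Finset (Submodule F (VV F))) (A B : Submodule F (VV F))
    (σ : Finset (Submodule F (VV F))) : Prop :=
  σ.filter (fun x => ¬ ∃ X, (A < X ∧ X < B) ∧ x = nrm n X) ∈ DD n τ

theorem DD_down (hτ : τ ∈ Lam F n) {σ σ' : Finset (Submodule F (VV F))} (h : σ' ∈ DD n τ)
    (hs : σ ⊆ σ') : σ ∈ DD n τ := by
  rw [mem_DD_iff hτ] at h ⊢
  exact ⟨fun X hX => h.1 X (hs hX), fun X hX Y hY => h.2 X (hs hX) Y (hs hY)⟩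

theorem not_between (D : GapData n τ A B) {X : Submodule F (VV F)} (hX : A < X ∧ X < B)
    {c : ℤ} (h1 : A < tr n c X) (h2 : tr n c X < B) : c = 0 := by
  rcases lt_trichotomy c 0 with h | h | h
  · exfalso
    -- `X = tr (-c) (tr c X) ≤ tr 1 B ≤ A`
    have hl : IsLat n (tr n c X) := isLat_tr (lat_of_between D hX.1.le hX.2.le) c
    have h3 : X = tr n (-c) (tr n c X) := by rw [tr_tr, neg_add_cancel, tr_zero]
    have h4 : tr n (-c) (tr n c X) ≤ tr n 1 (tr n c X) := tr_anti hl (by omega)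
    have h5 : X ≤ A := by
      rw [h3]
      exact (h4.trans (tr_le_tr.2 h2.le)).trans D.per
    exact absurd hX.1 h5.not_gt
  · exact h
  · exfalso
    have hl : IsLat n X := lat_of_between D hX.1.le hX.2.le
    have h4 : tr n c X ≤ tr n 1 X := tr_anti hl (by omega)
    have h5 : tr n c X ≤ A := (h4.trans (tr_le_tr.2 hX.2.le)).trans D.per
    exact absurd h1 h5.not_gt

theorem env (hτ : τ ∈ Lam F n) (D : GapData n τ A B) :
    Env (nrm n) (fun X => A < X ∧ X < B) (Rest n τ A B) := by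
  refine ⟨?_, ?_, ?_⟩
  · intro X Y hX hY h
    have h1 : X = tr n (ind X / n - ind Y / n) Y := by
      have h2 := congrArg (tr n (ind X / n)) h
      rw [nrm, nrm, tr_tr, tr_tr, add_neg_cancel, tr_zero] at h2
      exact h2
    have h3 := not_between D hY (h1 ▸ hX.1) (h1 ▸ hX.2)
    rw [h3, tr_zero] at h1
    exact h1
  · intro σ x h
    refine DD_down hτ h ?_
    exact Finset.filter_subset_filter _ (Finset.erase_subset _ _)
  · intro σ X hX h
    refine DD_down hτ h ?_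
    intro y hy
    obtain ⟨h1, h2⟩ := Finset.mem_filter.1 hy
    rcases Finset.mem_insert.1 h1 with h3 | h3
    · exact absurd ⟨X, hX, h3⟩ h2
    · exact Finset.mem_filter.2 ⟨h3, h2⟩

theorem vx_of_gap (hn : 0 < n) (hτ : τ ∈ Lam F n) (D : GapData n τ A B)
    {X : Submodule F (VV F)} (hX : A < X ∧ X < B) (hD : Dich A B X) : Vx n τ (nrm n X) := by
  have hl := lat_of_between D hX.1.le hX.2.le
  obtain ⟨h0, h1⟩ := nrm_ind hn hl
  have hne : ∀ Y ∈ τ, ∀ k : ℤ, X ≠ tr n k Y := by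
    intro Y hY k h
    rcases D.cons Y hY k with h2 | h2
    · rw [← h] at h2
      exact absurd hX.1 h2.not_gt
    · rw [← h] at h2
      exact absurd hX.2 h2.not_gt
  refine ⟨?_, isLat_tr hl _, h0, h1, ?_, dom_tr _ (dom_of_dich hτ D hl hX.1.le hX.2.le hD)⟩
  · intro h2
    apply hne _ h2 (ind X / n)
    rw [nrm, tr_tr, add_neg_cancel, tr_zero]
  · intro Y hY
    have : Cmp n Y X := by
      intro k
      rcases D.cons Y hY k with h2 | h2
      · exact Or.inl (h2.trans hX.1.le)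
      · exact Or.inr (hX.2.le.trans h2)
    exact this.symm.tr_left _

/-- `DD n τ` is the complex of the gap `[A, B]` -/
theorem DD_eq_Cx (hn : 0 < n) (hτ : τ ∈ Lam F n) (D : GapData n τ A B) {g : ℕ}
    {Fl : ℕ → Submodule F (VV F)}
    (hGV : ∀ X, (A < X ∧ X < B ∧ Dich A B X) ↔ GV A B g Fl X)
    (σ : Finset (Submodule F (VV F))) :
    σ ∈ DD n τ ↔ Cx (nrm n) (fun X => A < X ∧ X < B) (Rest n τ A B) A B g Fl σ := by
  constructor
  · intro h
    have h' := (mem_DD_iff hτ).1 h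
    refine ⟨DD_down hτ h (Finset.filter_subset _ _), ?_, ?_⟩
    · intro X hX hm
      have hl := lat_of_between D hX.1.le hX.2.le
      exact (hGV X).1 ⟨hX.1, hX.2, dich_of_dom hτ D hl hX.1.le hX.2.le
        (dom_of_tr (h'.1 _ hm).dom)⟩
    · intro X Y hX hY hmX hmY
      have h1 := ((h'.2 _ hmX _ hmY).of_tr_left).of_tr_right 0
      rwa [tr_zero] at h1
  · intro h
    rw [mem_DD_iff hτ]
    have hrest := (mem_DD_iff hτ).1 (show _ ∈ DD n τ from h.rest)
    have hdich : ∀ X, (A < X ∧ X < B) → nrm n X ∈ σ → Dich A B X := fun X hX hm =>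
      ((hGV X).2 (h.gen X hX hm)).2.2
    -- a vertex outside the gap has no translate in the gap
    have hout : ∀ y ∈ σ, (¬ ∃ X, (A < X ∧ X < B) ∧ y = nrm n X) → Vx n τ y →
        ∀ k : ℤ, tr n k y ≤ A ∨ B ≤ tr n k y := by
      intro y _ hy hVx k
      by_contra hcon
      push Not at hcon
      obtain ⟨h1, h2⟩ := hcon
      obtain ⟨YA, hYA, ka, hka⟩ := D.memA
      obtain ⟨YB, hYB, kb, hkb⟩ := D.memB
      have hA : A < tr n k y := by
        have h3 := ((hVx.cmp YA hYA).tr_right ka) k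
        rw [← hka] at h3
        rcases h3 with h3 | h3
        · exact absurd h3 h1
        · exact lt_of_le_of_ne h3 (fun h4 => h1 h4.ge)
      have hB : tr n k y < B := by
        have h3 := ((hVx.cmp YB hYB).tr_right kb) k
        rw [← hkb] at h3
        rcases h3 with h3 | h3
        · exact lt_of_le_of_ne h3 (fun h4 => h2 h4.ge)
        · exact absurd h3 h2
      exact hy ⟨tr n k y, ⟨hA, hB⟩, (nrm_tr hn hVx.lat hVx.ind0 hVx.indn k).symm⟩
    have hmix : ∀ X, (A < X ∧ X < B) → ∀ y ∈ σ, (¬ ∃ X, (A < X ∧ X < B) ∧ y = nrm n X) →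
        Vx n τ y → Cmp n y X := by
      intro X hX y hy hy' hVx k
      rcases hout y hy hy' hVx k with h1 | h1
      · exact Or.inl (h1.trans hX.1.le)
      · exact Or.inr (hX.2.le.trans h1)
    constructor
    · intro x hx
      by_cases hg : ∃ X, (A < X ∧ X < B) ∧ x = nrm n X
      · obtain ⟨X, hX, rfl⟩ := hg
        exact vx_of_gap hn hτ D hX (hdich X hX hx)
      · exact hrest.1 x (Finset.mem_filter.2 ⟨hx, hg⟩)
    · intro x hx y hy
      by_cases hgx : ∃ X, (A < X ∧ X < B) ∧ x = nrm n X <;>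
        by_cases hgy : ∃ X, (A < X ∧ X < B) ∧ y = nrm n X
      · obtain ⟨X, hX, rfl⟩ := hgx
        obtain ⟨Y, hY, rfl⟩ := hgy
        refine Cmp.tr_left (Cmp.tr_right ?_ _) _
        have hlX := lat_of_between D hX.1.le hX.2.le
        have hlY := lat_of_between D hY.1.le hY.2.le
        rcases h.cmp X Y hX hY hx hy with h1 | h1
        · exact cmp_of_sandwich hlX h1 (((tr_le_tr.2 hY.2.le).trans D.per).trans hX.1.le)
        · exact (cmp_of_sandwich hlY h1 (((tr_le_tr.2 hX.2.le).trans D.per).trans hY.1.le)).symm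
      · obtain ⟨X, hX, rfl⟩ := hgx
        exact Cmp.tr_left (hmix X hX y hy hgy (hrest.1 y (Finset.mem_filter.2 ⟨hy, hgy⟩))).symm _
      · obtain ⟨Y, hY, rfl⟩ := hgy
        exact Cmp.tr_right (hmix Y hY x hx hgx (hrest.1 x (Finset.mem_filter.2 ⟨hx, hgx⟩))) _
      · exact hrest.2 x (Finset.mem_filter.2 ⟨hx, hgx⟩) y (Finset.mem_filter.2 ⟨hy, hgy⟩)

/-- **(B4)** cone functions of bounded size on the filling complexes -/
theorem cone_DD [Fintype F] {k : Type*} [CommRing k] [CharP k 2] (hτ : τ ∈ Lam F n)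
    (hne : τ.Nonempty) (S : ℕ) (hS : τ.card * (S + 2) ≤ n) (hK : Cp S ≤ Fintype.card F) :
    ∃ h : Finset (Submodule F (VV F)) → Ch k (Submodule F (VV F)),
      IsCone (fun ρ => ρ ∈ DD n τ) S (Cc S) h := by
  have hn : 0 < n := lt_of_lt_of_le (Nat.mul_pos (Finset.card_pos.2 hne) (by omega)) hS
  obtain ⟨A, B, D, hAB⟩ := exists_gap hτ hne (S + 2) (by omega) hS
  obtain ⟨a, ha⟩ := D.latA.lower
  obtain ⟨b, hb⟩ := D.latB.upper
  obtain ⟨g, Fl, hF, hGV⟩ := exists_flag D.lt.le ha hb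
  have hg : S + 2 ≤ g := by
    have := flag_ind D.latA D.latB D.lt.le hF
    omega
  have heq : (fun ρ => ρ ∈ DD n τ) =
      Cx (nrm n) (fun X => A < X ∧ X < B) (Rest n τ A B) A B g Fl := by
    funext σ
    exact propext (DD_eq_Cx hn hτ D hGV σ)
  rw [heq]
  refine exists_cone (env hτ D) hF ?_ S hg hK
  intro X hX
  have := (hGV X).2 hX
  exact ⟨this.1, this.2.1⟩

end Main

end Vale.Agent.P067.Gap
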