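import Vale.Agent.P067.LatDim
import Vale.Agent.P067.GamFacts
import Vale.Agent.P067.CosetExact

/-!
# P067: the faces of `Y` are the sets `{g L_i⁰ : i ∈ J}`
-/

open Finsupp

namespace Vale.Agent.P067

namespace UL

open GF CE

variable {F : Type} [Field F] {n : ℕ}

/-! ### The vertices `g L_i⁰` -/

theorem isCompl_Lo (i : ℤ) : IsCompl (Lo F i) (MM F i) := by
  constructor
  · rw [_root_.disjoint_iff, inf_comm]
    exact MM_inf_Lo_bot le_rfl
  · rw [codisjoint_iff, sup_comm]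
    exact MM_sup_Lo_top le_rfl

theorem map_MM_eq (g : UU F n) (j : ℤ) :
    (MM F j).map (g : VV F ≃ₗ[F] VV F).toLinearMap = MM F j := by
  apply le_antisymm
  · rintro _ ⟨v, hv, rfl⟩
    exact UU_mem_MM g hv
  · intro v hv
    exact ⟨_, UU_mem_MM g⁻¹ hv, UU_inv_apply g v⟩

theorem isCompl_vtx (g : UU F n) (i : Fin n) : IsCompl (vtx F n g i) (MM F (i : ℤ)) := by
  have h := (isCompl_Lo (F := F) (i : ℤ)).map (Submodule.orderIsoMapComap (g : VV F ≃ₗ[F] VV F))
  have h1 : Submodule.orderIsoMapComap (g : VV F ≃ₗ[F] VV F) (Lo F (i : ℤ)) = vtx F n g i := rfl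
  have h2 : Submodule.orderIsoMapComap (g : VV F ≃ₗ[F] VV F) (MM F (i : ℤ)) = MM F (i : ℤ) :=
    map_MM_eq g i
  rwa [h1, h2] at h

/-- the image of a vector is bounded below -/
theorem exists_lower (hn : 0 < n) (g : UU F n) : ∃ c : ℤ, ∀ a : ℤ,
    (g : VV F ≃ₗ[F] VV F) (xb F a) ∈ Lo F (a - c) := by
  have h1 : ∀ a : ℤ, ∃ c : ℤ, (g : VV F ≃ₗ[F] VV F) (xb F a) ∈ Lo F c := fun a => exists_mem_Lo _
  choose c hc using h1
  obtain ⟨m, hm⟩ : ∃ m : ℤ, ∀ a ∈ Finset.Ico (0 : ℤ) n, m ≤ c a - a := by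
    have : ((Finset.Ico (0 : ℤ) n).image fun a => c a - a).Nonempty := by
      refine Finset.Nonempty.image ⟨0, Finset.mem_Ico.2 ⟨le_rfl, by exact_mod_cast hn⟩⟩ _
    exact ⟨((Finset.Ico (0 : ℤ) n).image fun a => c a - a).min' this, fun a ha =>
      Finset.min'_le _ _ (Finset.mem_image_of_mem _ ha)⟩
  have hsh : ∀ (k : ℤ) (a : ℤ) (j : ℤ), (g : VV F ≃ₗ[F] VV F) (xb F a) ∈ Lo F j →
      (g : VV F ≃ₗ[F] VV F) (xb F (a + n * k)) ∈ Lo F (j + n * k) := by
    have key : ∀ a j : ℤ, (g : VV F ≃ₗ[F] VV F) (xb F a) ∈ Lo F j ↔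
        (g : VV F ≃ₗ[F] VV F) (xb F (a + n)) ∈ Lo F (j + n) := by
      intro a j
      rw [← sh_xb, g.2.1, sh_mem_Lo]
    intro k a j h
    induction k using Int.induction_on with
    | zero =>
      rw [mul_zero, add_zero, add_zero]
      exact h
    | succ k ih =>
      rw [key] at ih
      have h1 : a + (n : ℤ) * (k + 1) = a + n * k + n := by ring
      have h2 : j + (n : ℤ) * (k + 1) = j + n * k + n := by ring
      rw [h1, h2]
      exact ih
    | pred k ih =>
      rw [key]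
      have h1 : a + (n : ℤ) * (-k - 1) + n = a + n * (-k) := by ring
      have h2 : j + (n : ℤ) * (-k - 1) + n = j + n * (-k) := by ring
      rw [h1, h2]
      exact ih
  refine ⟨-m, fun a => ?_⟩
  have hn' : (0 : ℤ) < n := by exact_mod_cast hn
  have e : a = a % n + n * (a / n) := (Int.emod_add_mul_ediv a n).symm
  have h2 := hsh (a / n) (a % n) _ (hc (a % n))
  rw [← e] at h2
  have h3 := hm (a % n) (Finset.mem_Ico.2 ⟨Int.emod_nonneg _ hn'.ne', Int.emod_lt_of_pos _ hn'⟩)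
  refine Lo_anti ?_ h2
  omega

theorem isLat_vtx (g : UU F n) (i : Fin n) : IsLat n (vtx F n g i) := by
  have hn : 0 < n := i.pos
  refine ⟨?_, ?_, ?_⟩
  · rintro _ ⟨_, ⟨v, hv, rfl⟩, rfl⟩
    refine ⟨sh F n v, ?_, g.2.1 v⟩
    have h1 : sh F n v ∈ Lo F ((i : ℤ) + n) := sh_mem_Lo.2 hv
    exact Lo_anti (by omega) h1
  · obtain ⟨c, hc⟩ := exists_lower hn g⁻¹
    refine ⟨i + c, fun v hv => mem_vtx.2 ?_⟩
    refine map_Lo (f := ((g⁻¹ : UU F n) : VV F ≃ₗ[F] VV F).toLinearMap) (P := Lo F (i : ℤ)) ?_ hv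
    intro a ha
    exact Lo_anti (by omega) (hc a)
  · obtain ⟨c, hc⟩ := exists_lower hn g
    refine ⟨i - c, ?_⟩
    rintro _ ⟨v, hv, rfl⟩
    refine map_Lo (f := (g : VV F ≃ₗ[F] VV F).toLinearMap) (P := Lo F (i - c : ℤ)) ?_ hv
    intro a ha
    exact Lo_anti (by omega) (hc a)

theorem ind_vtx (g : UU F n) (i : Fin n) : ind (vtx F n g i) = i :=
  ind_of_isCompl (isLat_vtx g i) (isCompl_vtx g i)

theorem vtx_anti (g : UU F n) {i j : Fin n} (h : i ≤ j) : vtx F n g j ≤ vtx F n g i :=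
  Submodule.map_mono (Lo_anti (by exact_mod_cast h))

theorem sh_vtx_le (g : UU F n) (i j : Fin n) :
    (vtx F n g i).map (sh F n).toLinearMap ≤ vtx F n g j := by
  rintro _ ⟨_, ⟨v, hv, rfl⟩, rfl⟩
  refine ⟨sh F n v, ?_, g.2.1 v⟩
  have h1 : sh F n v ∈ Lo F ((i : ℤ) + n) := sh_mem_Lo.2 hv
  have := j.2
  exact Lo_anti (by omega) h1

theorem adj_vtx (g : UU F n) (i j : Fin n) : Adj n (vtx F n g i) (vtx F n g j) := by
  rcases le_total i j with h | h
  · exact Or.inr ⟨vtx_anti g h, sh_vtx_le g i j⟩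
  · exact Or.inl ⟨vtx_anti g h, sh_vtx_le g j i⟩

open Classical in
theorem image_mem_YY (g : UU F n) (J : Finset (Fin n)) : J.image (vtx F n g) ∈ YY F n := by
  refine ⟨⟨?_, ?_⟩, ?_⟩
  · intro L hL
    obtain ⟨i, _, rfl⟩ := Finset.mem_image.1 hL
    refine ⟨isLat_vtx g i, ?_, ?_⟩
    · rw [ind_vtx]
      exact Int.natCast_nonneg _
    · rw [ind_vtx]
      exact_mod_cast i.2
  · intro L hL L' hL'
    obtain ⟨i, _, rfl⟩ := Finset.mem_image.1 hL
    obtain ⟨j, _, rfl⟩ := Finset.mem_image.1 hL'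
    exact adj_vtx g i j
  · intro L hL
    obtain ⟨i, _, rfl⟩ := Finset.mem_image.1 hL
    exact ⟨i, isCompl_vtx g i⟩

/-! ### Every face is of this form -/

/-- membership in `T^k L` -/
def InT (n : ℕ) (k : ℤ) (L : Submodule F (VV F)) (v : VV F) : Prop := sh F (-(n * k)) v ∈ L

theorem InT_zero {L : Submodule F (VV F)} {v : VV F} : InT n 0 L v ↔ v ∈ L := by
  unfold InT
  have : sh F (-(n * 0 : ℤ)) v = v := by
    ext i
    rw [sh_apply]
    congr 1
    ring
  rw [this]

theorem sh_sh (c c' : ℤ) (v : VV F) : sh F c (sh F c' v) = sh F (c + c') v := by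
  ext i
  rw [sh_apply, sh_apply, sh_apply]
  congr 1
  ring

theorem InT_sh {L : Submodule F (VV F)} {k : ℤ} {v : VV F} :
    InT n (k + 1) L (sh F n v) ↔ InT n k L v := by
  unfold InT
  rw [sh_sh]
  have : (-(n * (k + 1)) + n : ℤ) = -(n * k) := by ring
  rw [this]

theorem InT_sub {L : Submodule F (VV F)} {k : ℤ} {v w : VV F} (hv : InT n k L v)
    (hw : InT n k L w) : InT n k L (v - w) := by
  unfold InT at *
  rw [map_sub]
  exact L.sub_mem hv hw

theorem InT_smul {L : Submodule F (VV F)} {k : ℤ} {v : VV F} (c : F) (hv : InT n k L v) :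
    InT n k L (c • v) := by
  unfold InT at *
  rw [map_smul]
  exact L.smul_mem c hv

theorem mem_MM_shift {c : ℤ} {v : VV F} {j : ℤ} : sh F c v ∈ MM F j ↔ v ∈ MM F (j - c) := by
  have := sh_mem_MM (F := F) (c := c) (v := v) (j := j - c)
  rwa [sub_add_cancel] at this

/-- A face of `Y`: hypotheses. -/
structure Fc (n : ℕ) (σ : Finset (Submodule F (VV F))) : Prop where
  lat : ∀ L ∈ σ, IsLat n L
  lo : ∀ L ∈ σ, 0 ≤ ind L
  hi : ∀ L ∈ σ, ind L < n
  cpl : ∀ L ∈ σ, IsCompl L (MM F (ind L))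
  adj : ∀ L ∈ σ, ∀ L' ∈ σ, Adj n L L'

theorem fc_of {σ : Finset (Submodule F (VV F))} (h : σ ∈ YY F n) : Fc n σ := by
  obtain ⟨⟨h1, h2⟩, h3⟩ := h
  refine ⟨fun L hL => (h1 L hL).1, fun L hL => (h1 L hL).2.1, fun L hL => (h1 L hL).2.2,
    fun L hL => ?_, h2⟩
  obtain ⟨i, hi⟩ := h3 L hL
  rw [ind_of_isCompl (h1 L hL).1 hi]
  exact hi

section

variable {σ : Finset (Submodule F (VV F))} (h : Fc n σ)

include h

theorem stable_le {L : Submodule F (VV F)} (hL : L ∈ σ) {v : VV F} (hv : v ∈ L) :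
    sh F n v ∈ L := (h.lat L hL).stable ⟨v, hv, rfl⟩

/-- comparable complements of the same space are equal -/
theorem eq_of_ind {L L' : Submodule F (VV F)} (hL : L ∈ σ) (hL' : L' ∈ σ)
    (hle : L ≤ L') (hi : ind L ≤ ind L') : L = L' := by
  refine le_antisymm hle fun v hv => ?_
  have h1 : v ∈ L ⊔ MM F (ind L) := by
    rw [(h.cpl L hL).sup_eq_top]
    trivial
  obtain ⟨l, hl, m, hm, rfl⟩ := Submodule.mem_sup.1 h1
  have h2 : m ∈ L' := by
    have := L'.sub_mem hv (hle hl)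
    rwa [add_sub_cancel_left] at this
  have h3 : m ∈ L' ⊓ MM F (ind L') := ⟨h2, MM_mono hi hm⟩
  rw [(h.cpl L' hL').inf_eq_bot, Submodule.mem_bot] at h3
  rw [h3, add_zero]
  exact hl

theorem le_of_ind {L L' : Submodule F (VV F)} (hL : L ∈ σ) (hL' : L' ∈ σ)
    (hi : ind L ≤ ind L') : L' ≤ L := by
  rcases h.adj L hL L' hL' with h1 | h1
  · rw [eq_of_ind h hL hL' h1.1 hi]
  · exact h1.1

theorem sh_mem {L L' : Submodule F (VV F)} (hL : L ∈ σ) (hL' : L' ∈ σ) {v : VV F}
    (hv : v ∈ L') : sh F n v ∈ L := by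
  rcases h.adj L hL L' hL' with h1 | h1
  · exact h1.2 ⟨v, hv, rfl⟩
  · exact h1.1 (stable_le h hL' hv)

theorem sh_mul_mem {L : Submodule F (VV F)} (hL : L ∈ σ) (m : ℕ) {v : VV F} (hv : v ∈ L) :
    sh F (n * m) v ∈ L := by
  induction m with
  | zero =>
    have : sh F (n * (0 : ℕ) : ℤ) v = v := by
      ext i
      rw [sh_apply]
      congr 1
      simp
    rw [this]
    exact hv
  | succ m ih =>
    have := stable_le h hL ih
    rw [sh_sh] at this
    have e : (n * ((m + 1 : ℕ) : ℤ) : ℤ) = n + n * m := by push_cast; ring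
    rw [e]
    exact this

/-- the periodic chain is decreasing -/
theorem InT_mono {L L' : Submodule F (VV F)} (hL : L ∈ σ) (hL' : L' ∈ σ) {k k' : ℤ}
    (hlev : ind L + n * k ≤ ind L' + n * k') {v : VV F} (hv : InT n k' L' v) : InT n k L v := by
  have h1 := h.lo L hL
  have h2 := h.hi L' hL'
  have hkk : k ≤ k' := by
    by_contra hcon
    push Not at hcon
    have : (n : ℤ) * (k' + 1) ≤ n * k := mul_le_mul_of_nonneg_left (by omega) (by omega)
    have e : (n : ℤ) * (k' + 1) = n * k' + n := by ring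
    omega
  unfold InT at *
  rcases hkk.eq_or_lt with rfl | hlt
  · exact le_of_ind h hL hL' (by omega) hv
  · obtain ⟨m, hm⟩ : ∃ m : ℕ, k' = k + 1 + m := ⟨(k' - k - 1).toNat, by omega⟩
    have h3 := sh_mem h hL hL' (sh_mul_mem h hL' m hv)
    rw [sh_sh, sh_sh] at h3
    have e : (n + n * m + -(n * k') : ℤ) = -(n * k) := by rw [hm]; ring
    rwa [e] at h3

/-- the complement property for the periodic chain -/
theorem InT_inf {L : Submodule F (VV F)} (hL : L ∈ σ) {k : ℤ} {v : VV F} (hv : InT n k L v)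
    (hv' : v ∈ MM F (ind L + n * k)) : v = 0 := by
  have h1 : sh F (-(n * k)) v ∈ MM F (ind L) := by
    rw [mem_MM_shift]
    exact MM_mono (by omega) hv'
  have h2 : sh F (-(n * k)) v ∈ L ⊓ MM F (ind L) := ⟨hv, h1⟩
  rw [(h.cpl L hL).inf_eq_bot, Submodule.mem_bot] at h2
  exact (sh F (-(n * k))).injective (h2.trans (map_zero _).symm)

theorem InT_sup {L : Submodule F (VV F)} (hL : L ∈ σ) (k : ℤ) (v : VV F) :
    ∃ w, InT n k L w ∧ w - v ∈ MM F (ind L + n * k) := by
  have h1 : sh F (-(n * k)) v ∈ L ⊔ MM F (ind L) := by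
    rw [(h.cpl L hL).sup_eq_top]
    trivial
  obtain ⟨l, hl, m, hm, hlm⟩ := Submodule.mem_sup.1 h1
  refine ⟨sh F (n * k) l, ?_, ?_⟩
  · unfold InT
    rw [sh_sh, neg_add_cancel]
    have : sh F 0 l = l := by
      ext i
      rw [sh_apply, sub_zero]
    rw [this]
    exact hl
  · have e : sh F (n * k) l - v = - sh F (n * k) m := by
      have h2 : v = sh F (n * k) (sh F (-(n * k)) v) := by
        rw [sh_sh, add_neg_cancel]
        ext i
        rw [sh_apply, sub_zero]
      rw [h2, ← hlm, map_add]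
      abel
    rw [e]
    refine (MM F _).neg_mem ?_
    rw [mem_MM_shift]
    exact MM_mono (by omega) hm

/-- The defining property of `g x_a`. -/
def QQ (n : ℕ) (σ : Finset (Submodule F (VV F))) (a : ℤ) (f : VV F) : Prop :=
  (∀ L ∈ σ, ∀ k : ℤ, ind L + n * k < a → InT n k L f) ∧
    ∃ L ∈ σ, ∃ k : ℤ, ind L + n * k < a ∧ f - xb F a ∈ MM F (ind L + n * k)

theorem QQ_unique {a : ℤ} {f f' : VV F} (hf : QQ n σ a f) (hf' : QQ n σ a f') : f = f' := by
  obtain ⟨h1, L, hL, k, hk, h2⟩ := hf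
  obtain ⟨h1', L', hL', k', hk', h2'⟩ := hf'
  rw [← sub_eq_zero]
  rcases le_total (ind L + n * k) (ind L' + n * k') with hle | hle
  · refine InT_inf h hL' (InT_sub (h1 L' hL' k' hk') (h1' L' hL' k' hk')) ?_
    have := (MM F (ind L' + n * k')).sub_mem (MM_mono hle h2) h2'
    rwa [sub_sub_sub_cancel_right] at this
  · refine InT_inf h hL (InT_sub (h1 L hL k hk) (h1' L hL k hk)) ?_
    have := (MM F (ind L + n * k)).sub_mem h2 (MM_mono hle h2')
    rwa [sub_sub_sub_cancel_right] at this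

omit h in
theorem QQ_sh {a : ℤ} {f : VV F} (hf : QQ n σ a f) : QQ n σ (a + n) (sh F n f) := by
  obtain ⟨h1, L, hL, k, hk, h2⟩ := hf
  refine ⟨fun L hL k hk => ?_, L, hL, k + 1, ?_, ?_⟩
  · have h3 := h1 L hL (k - 1) (by
      have : (n : ℤ) * (k - 1) = n * k - n := by ring
      omega)
    rw [← InT_sh, sub_add_cancel] at h3
    exact h3
  · have : (n : ℤ) * (k + 1) = n * k + n := by ring
    omega
  · rw [← sh_xb, ← map_sub, mem_MM_shift]
    refine MM_mono ?_ h2
    have : (n : ℤ) * (k + 1) = n * k + n := by ring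
    omega

theorem QQ_exists (hn : 0 < n) (hσ : σ.Nonempty) (a : ℤ) : ∃ f, QQ n σ a f := by
  -- the largest level below `a`
  obtain ⟨L₀, hL₀⟩ := hσ
  have hne : ∃ z : ℤ, z < a ∧ ∃ L ∈ σ, ∃ k : ℤ, z = ind L + n * k := by
    obtain ⟨l, _, hl⟩ := exists_between hn (ind L₀) a
    exact ⟨_, hl, L₀, hL₀, l, rfl⟩
  have hbd : ∀ z : ℤ, (z < a ∧ ∃ L ∈ σ, ∃ k : ℤ, z = ind L + n * k) → z ≤ a :=
    fun z hz => hz.1.le
  obtain ⟨z, ⟨hza, L, hL, k, rfl⟩, hmax⟩ := Int.exists_greatest_of_bdd ⟨a, hbd⟩ hne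
  obtain ⟨w, hw, hw'⟩ := InT_sup h hL k (xb F a)
  refine ⟨w, fun L' hL' k' hk' => ?_, L, hL, k, hza, hw'⟩
  exact InT_mono h hL' hL (hmax _ ⟨hk', L', hL', k', rfl⟩) hw

end

/-- The linear map `g`. -/
theorem exists_g' {σ : Finset (Submodule F (VV F))} (h : Fc n σ) (hn : 0 < n) (hσ : σ.Nonempty) :
    ∃ g : UU F n, (∀ L ∈ σ, ∀ v : VV F, (g : VV F ≃ₗ[F] VV F) v ∈ L ↔ v ∈ Lo F (ind L)) ∧
      ∀ a, QQ n σ a ((g : VV F ≃ₗ[F] VV F) (xb F a)) := by
  choose f hf using QQ_exists h hn hσ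
  -- the map
  set G : VV F →ₗ[F] VV F := Finsupp.linearCombination F f with hG
  have hGx : ∀ a, G (xb F a) = f a := by
    intro a
    rw [hG, xb, Finsupp.linearCombination_single, one_smul]
  have hlow : ∀ a, G (xb F a) - xb F a ∈ MM F (a - 1) := by
    intro a
    obtain ⟨_, L, hL, k, hk, h2⟩ := hf a
    rw [hGx]
    exact MM_mono (by omega) h2
  have hcomm : ∀ v, G (sh F n v) = sh F n (G v) := by
    have : G ∘ₗ (sh F n).toLinearMap = (sh F n).toLinearMap ∘ₗ G := by
      apply ext_xb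
      intro a
      change G (sh F n (xb F a)) = sh F n (G (xb F a))
      rw [sh_xb, hGx, hGx]
      exact QQ_unique h (hf (a + n)) (QQ_sh (hf a))
    intro v
    exact LinearMap.congr_fun this v
  have huni : ∀ j : ℤ, ∀ v ∈ MM F j, G v - v ∈ MM F (j - 1) := by
    intro j v hv
    have := map_MM (f := G - LinearMap.id) (P := MM F (j - 1)) (j := j) (fun a ha => by
      rw [LinearMap.sub_apply, LinearMap.id_apply]
      exact MM_mono (by omega) (hlow a)) hv
    simpa using this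
  have hinj : Function.Injective G := by
    rw [injective_iff_map_eq_zero]
    intro v hv
    obtain ⟨i, hi⟩ := exists_mem_Lo v
    refine Lo_inf_MM le_rfl hi ?_
    apply mem_MM_of_unip (g := G) huni
    rw [hv]
    exact (MM F i).zero_mem
  -- `G` maps `Lo (ind L)` onto `L`
  have hmaps : ∀ L ∈ σ, ∀ v ∈ Lo F (ind L), G v ∈ L := by
    intro L hL v hv
    refine map_Lo (f := G) (P := L) (fun a ha => ?_) hv
    rw [hGx]
    have := (hf a).1 L hL 0 (by rw [mul_zero, add_zero]; exact ha)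
    rwa [InT_zero] at this
  have honto : ∀ L ∈ σ, ∀ m : ℕ, ∀ v ∈ L, v ∈ MM F (ind L + m) →
      ∃ u ∈ Lo F (ind L), G u = v := by
    intro L hL m
    induction m with
    | zero =>
      intro v hv hv'
      refine ⟨0, (Lo F _).zero_mem, ?_⟩
      have : v ∈ L ⊓ MM F (ind L) := ⟨hv, by simpa using hv'⟩
      rw [(h.cpl L hL).inf_eq_bot, Submodule.mem_bot] at this
      rw [map_zero, this]
    | succ m ih =>
      intro v hv hv'
      set a : ℤ := ind L + (m + 1 : ℕ) with ha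
      have h1 : v - v a • f a ∈ L := by
        refine L.sub_mem hv (L.smul_mem _ ?_)
        rw [← hGx]
        exact hmaps L hL _ (xb_mem_Lo (by rw [ha]; push_cast; omega))
      have h2 : v - v a • f a ∈ MM F (ind L + m) := by
        rw [mem_MM]
        intro i hi
        have h3 : f a ∈ MM F a := by
          have := (MM F a).add_mem (MM_mono (by omega) (hlow a)) (xb_mem_MM le_rfl)
          rwa [sub_add_cancel, hGx] at this
        have h4 : f a a = 1 := by
          have := mem_MM.1 (hlow a) a (by omega)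
          rw [hGx, Finsupp.sub_apply, xb, Finsupp.single_eq_same, sub_eq_zero] at this
          exact this
        rw [Finsupp.sub_apply, Finsupp.smul_apply, smul_eq_mul]
        rcases (show a ≤ i by rw [ha]; push_cast; omega).eq_or_lt with rfl | hlt
        · rw [h4, mul_one, sub_self]
        · rw [mem_MM.1 hv' i hlt, mem_MM.1 h3 i hlt, mul_zero, sub_zero]
      obtain ⟨u, hu, hu'⟩ := ih _ h1 h2
      refine ⟨u + v a • xb F a, (Lo F _).add_mem hu ((Lo F _).smul_mem _
        (xb_mem_Lo (by rw [ha]; push_cast; omega))), ?_⟩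
      rw [map_add, map_smul, hu', hGx]
      abel
  have honto' : ∀ L ∈ σ, ∀ v ∈ L, ∃ u ∈ Lo F (ind L), G u = v := by
    intro L hL v hv
    obtain ⟨j, hj⟩ := exists_mem_MM v
    exact honto L hL (j - ind L).toNat v hv (MM_mono (by omega) hj)
  have hsurj : Function.Surjective G := by
    intro v
    obtain ⟨L, hL⟩ := hσ
    obtain ⟨a, ha⟩ := (h.lat L hL).lower
    obtain ⟨j, hj⟩ := exists_mem_Lo v
    have hcommk : ∀ (k : ℕ) (v : VV F), G (sh F (n * k) v) = sh F (n * k) (G v) := by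
      intro k
      induction k with
      | zero =>
        intro v
        have : ∀ w : VV F, sh F (n * (0 : ℕ) : ℤ) w = w := by
          intro w
          ext i
          rw [sh_apply]
          congr 1
          simp
        rw [this, this]
      | succ k ih =>
        intro v
        have e : (n * ((k + 1 : ℕ) : ℤ) : ℤ) = n + n * k := by push_cast; ring
        rw [e, ← sh_sh, ← sh_sh, hcomm, ih]
    have hmem : sh F (n * (a - j).toNat) v ∈ L := by
      apply ha
      have h1 : sh F (n * (a - j).toNat) v ∈ Lo F (j + n * (a - j).toNat) := sh_mem_Lo.2 hj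
      refine Lo_anti ?_ h1
      have h2 : (a - j : ℤ) ≤ (a - j).toNat := Int.self_le_toNat _
      have h3 : ((a - j).toNat : ℤ) ≤ n * (a - j).toNat := by
        have : (1 : ℤ) ≤ n := by exact_mod_cast hn
        nlinarith [Int.natCast_nonneg (a - j).toNat]
      omega
    obtain ⟨u, _, hu⟩ := honto' L hL _ hmem
    refine ⟨sh F (-(n * (a - j).toNat)) u, ?_⟩
    apply (sh F (n * (a - j).toNat)).injective
    rw [← hcommk, sh_sh, add_neg_cancel]
    have : sh F 0 u = u := by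
      ext i
      rw [sh_apply, sub_zero]
    rw [this, hu]
  refine ⟨⟨LinearEquiv.ofBijective G ⟨hinj, hsurj⟩, ?_, ?_⟩, ?_, ?_⟩
  · intro v
    exact hcomm v
  · intro j v hv
    exact huni j v hv
  · intro L hL v
    constructor
    · intro hv
      obtain ⟨u, hu, hu'⟩ := honto' L hL _ hv
      have : u = v := hinj hu'
      rwa [this] at hu
    · intro hv
      exact hmaps L hL v hv
  · intro a
    change QQ n σ a (G (xb F a))
    rw [hGx]
    exact hf a

theorem exists_g {σ : Finset (Submodule F (VV F))} (h : Fc n σ) (hn : 0 < n) (hσ : σ.Nonempty) :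
    ∃ g : UU F n, ∀ L ∈ σ, ∀ v : VV F, (g : VV F ≃ₗ[F] VV F) v ∈ L ↔ v ∈ Lo F (ind L) := by
  obtain ⟨g, hg, _⟩ := exists_g' h hn hσ
  exact ⟨g, hg⟩

end UL

open GF UL CE

variable {F : Type} [Field F] {n : ℕ}

open Classical in
/-- **(E1)** The faces of `Y` are the sets `{g L_i⁰ : i ∈ J}`. -/
theorem mem_YY_iff (hn : 0 < n) (s : Finset (Submodule F (VV F))) :
    s ∈ YY F n ↔ ∃ (g : UU F n) (J : Finset (Fin n)), s = J.image (vtx F n g) := by
  constructor
  · intro hs
    have h := fc_of hs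
    rcases s.eq_empty_or_nonempty with rfl | hne
    · exact ⟨1, ∅, by simp⟩
    · obtain ⟨g, hg⟩ := exists_g h hn hne
      have hvtx : ∀ L ∈ s, ∀ i : Fin n, (i : ℤ) = ind L → vtx F n g i = L := by
        intro L hL i hi
        ext v
        rw [mem_vtx, hi, ← hg L hL, UU_inv_apply]
      have hlt : ∀ L ∈ s, (ind L).toNat < n := by
        intro L hL
        have h1 := h.lo L hL
        have h2 := h.hi L hL
        omega
      refine ⟨g, Finset.univ.filter fun i : Fin n => ∃ L ∈ s, (i : ℤ) = ind L, ?_⟩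
      ext L
      rw [Finset.mem_image]
      constructor
      · intro hL
        have h1 : (((⟨(ind L).toNat, hlt L hL⟩ : Fin n) : ℕ) : ℤ) = ind L := by
          have := h.lo L hL
          simp only
          omega
        exact ⟨⟨(ind L).toNat, hlt L hL⟩, Finset.mem_filter.2 ⟨Finset.mem_univ _, L, hL, h1⟩,
          hvtx L hL _ h1⟩
      · rintro ⟨i, hi, rfl⟩
        obtain ⟨_, L, hL, hi⟩ := Finset.mem_filter.1 hi
        rw [hvtx L hL i hi]
        exact hL
  · rintro ⟨g, J, rfl⟩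
    exact image_mem_YY g J

end Vale.Agent.P067
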