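import Vale.Agent.P067.UConeAbs
import Vale.Agent.P067.GapIso
import Vale.Agent.P067.ULat
import Vale.Agent.P067.GamFacts

/-!
P067, (E3): cone functions on the links of the coset complexes of `U / Gam s`.
-/

namespace Vale.Agent.P067.UC

open Finset Classical Gap

variable {F : Type} [Field F] {n : ℕ}

/-- for a face `τ` of `Y` the filling complex `DD n τ` is the link of `τ` in `Y` -/
theorem mem_DD_YY {τ : Finset (Submodule F (VV F))} (hτ : τ ∈ YY F n)
    (ρ : Finset (Submodule F (VV F))) :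
    ρ ∈ DD n τ ↔ (∀ x ∈ ρ, x ∉ τ) ∧ τ ∪ ρ ∈ YY F n := by
  constructor
  · rintro ⟨h1, ⟨σ, hσ, hτσ, hρσ⟩, h3⟩
    refine ⟨h1, ⟨⟨fun L hL => hσ.1 L (Finset.union_subset hτσ hρσ hL), fun L hL L' hL' =>
      hσ.2 L (Finset.union_subset hτσ hρσ hL) L' (Finset.union_subset hτσ hρσ hL')⟩, ?_⟩⟩
    intro L hL
    rcases Finset.mem_union.1 hL with h | h
    · exact hτ.2 L h
    · have hlat : IsLat n L := (hσ.1 L (hρσ h)).1
      refine ⟨ind L, isCompl_of_box hlat ?_⟩
      by_contra hcon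
      push Not at hcon
      obtain ⟨Y, hY, k, h4, h5⟩ := h3 L h (ind L) (Nat.pos_of_ne_zero hcon.1)
        (Nat.pos_of_ne_zero hcon.2)
      obtain ⟨i, hi⟩ := hτ.2 Y hY
      have h6 := Nat.pos_of_ne_zero hcon.1
      have h7 := Nat.pos_of_ne_zero hcon.2
      rcases box_of_isCompl (hτ.1.1 Y hY).1 hi (ind L - n * k) with h8 | h8
      · omega
      · omega
  · rintro ⟨h1, h2⟩
    refine ⟨h1, ⟨τ ∪ ρ, h2.1, Finset.subset_union_left, Finset.subset_union_right⟩, ?_⟩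
    intro X hX j h3 h4
    obtain ⟨i, hi⟩ := h2.2 X (Finset.mem_union_right _ hX)
    rcases box_of_isCompl (h2.1.1 X (Finset.mem_union_right _ hX)).1 hi j with h8 | h8
    · omega
    · omega

/-- cone functions for the coset complex of `U` -/
theorem coneFn_UU [Fintype F] {d : ℕ} (hn : (d + 1) * (d + 2) ≤ n)
    (hK : Cp d ≤ Fintype.card F) {R : Finset (Fin n)} (hR : R.Nonempty) (hRd : R.card ≤ d + 1) :
    ∃ H, ConeFn (Ki F n) R d (Cc d) H := by
  have hn0 : 0 < n := lt_of_lt_of_le (by positivity) hn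
  have hτ : R.image (CE.vtx F n 1) ∈ YY F n := UL.image_mem_YY 1 R
  have hcard : (R.image (CE.vtx F n 1)).card * (d + 2) ≤ n :=
    (Nat.mul_le_mul_right _ (Finset.card_image_le.trans hRd)).trans hn
  obtain ⟨h, H⟩ := cone_DD (k := ZMod 2) hτ.1 (hR.image _) d hcard hK
  have heq : (fun ρ => ρ ∈ DD n (R.image (CE.vtx F n 1))) =
      fun ρ => (∀ x ∈ ρ, x ∉ R.image (CE.vtx F n 1)) ∧ R.image (CE.vtx F n 1) ∪ ρ ∈ YY F n := by
    funext ρ
    exact propext (mem_DD_YY hτ ρ)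
  rw [heq] at H
  exact coneFn_of CE.vtx_eq_iff (mem_YY_iff hn0) hR H

/-- **(E3)** cone functions for the finite quotients (hypothesis `hcone` of `assemble`) -/
theorem coneFn_Kbar {d : ℕ} (hn : (d + 1) * (d + 2) ≤ n) (p : ℕ) [Fact p.Prime] (s : ℕ)
    (hp : Cp d ≤ p) (hs : 2 ≤ s) (R : Finset (Fin n)) (hR : R.Nonempty) (hRd : R.card ≤ d + 1) :
    ∃ H, ConeFn (Kbar (ZMod p) n s) R d (Cc d) H := by
  obtain ⟨H, hH⟩ := coneFn_UU (F := ZMod p) (n := n) hn (by rwa [ZMod.card]) hR hRd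
  refine hH.transport (QuotientGroup.mk' (Gam (ZMod p) n s)) (fun J x hx => Kbar_mem hx) ?_ ?_
  · intro x hx h
    exact KJ_inj hR hs hx ((QuotientGroup.eq_one_iff x).1 h)
  · intro J hJ y hy
    exact Kbar_surj hs (hR.mono hJ) hy

end Vale.Agent.P067.UC
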