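import Vale.Agent.P067.CMain
import Vale.Agent.P067.Bridge
import Vale.Agent.P067.GamFacts
import Vale.Agent.P067.CosetExact

/-!
# P067: vanishing for all congruence quotients

From exactness of the coset complex of `(UU; Ki)` over a field of characteristic two with roots of
unity to exactness of its `Gam s`-coinvariants, `s ≥ 1`, and to the vanishing of the cohomology
of the finite quotients.
-/

open Finsupp

namespace Vale.Agent.P067.Va

open Tw Key Br CM

variable {p : ℕ} [Fact p.Prime] {n : ℕ}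

/-- the matrix of an element of `Gam s`, to first order -/
lemma first_order (hn : 0 < n) {s : ℕ} {g : UU (ZMod p) n} (hg : g ∈ Gam (ZMod p) n s) :
    ∃ A : Matrix (Fin n) (Fin n) (ZMod p),
      Cg (s + 1) (rho hn g) (1 + ((Polynomial.X : Polynomial (ZMod p)) ^ s) • cm A) := by
  obtain ⟨D, hD⟩ := (mem_Gam_iff hn s g).1 hg
  rw [hD]
  exact ⟨_, cg_const s D⟩

lemma mem_of_cg (hn : 0 < n) {s : ℕ} {g h : UU (ZMod p) n}
    (hc : Cg s (rho hn g) (rho hn h)) : h⁻¹ * g ∈ Gam (ZMod p) n s := by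
  rw [mem_Gam_iff hn]
  have h1 := (Cg.refl s (rho hn h⁻¹)).mul hc
  rwa [← map_mul, ← map_mul, inv_mul_cancel, map_one] at h1

lemma quot_comm (hn : 0 < n) {s : ℕ} (hs : 1 ≤ s)
    (a b : Gam (ZMod p) n s ⧸ (Gam (ZMod p) n (s + 1)).subgroupOf (Gam (ZMod p) n s)) :
    a * b = b * a := by
  obtain ⟨g, rfl⟩ := QuotientGroup.mk_surjective a
  obtain ⟨h, rfl⟩ := QuotientGroup.mk_surjective b
  rw [← QuotientGroup.mk_mul, ← QuotientGroup.mk_mul, QuotientGroup.eq, Subgroup.mem_subgroupOf]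
  obtain ⟨A, hA⟩ := first_order hn g.2
  obtain ⟨B, hB⟩ := first_order hn h.2
  have h1 := cg_add hs hA hB
  have h2 := cg_add hs hB hA
  rw [add_comm B A] at h2
  rw [← map_mul] at h1 h2
  exact mem_of_cg hn (h2.trans h1.symm)

lemma quot_pow (hn : 0 < n) {s : ℕ} (hs : 1 ≤ s)
    (a : Gam (ZMod p) n s ⧸ (Gam (ZMod p) n (s + 1)).subgroupOf (Gam (ZMod p) n s)) :
    a ^ p = 1 := by
  obtain ⟨g, rfl⟩ := QuotientGroup.mk_surjective a
  rw [← QuotientGroup.mk_pow, QuotientGroup.eq_one_iff, Subgroup.mem_subgroupOf]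
  obtain ⟨A, hA⟩ := first_order hn g.2
  have key : ∀ m : ℕ, Cg (s + 1) (rho hn ((g : UU (ZMod p) n) ^ m))
      (1 + ((Polynomial.X : Polynomial (ZMod p)) ^ s) • cm ((m : ZMod p) • A)) := by
    intro m
    induction m with
    | zero =>
      refine Cg.of_eq ?_
      rw [pow_zero, map_one, Nat.cast_zero, zero_smul, cm_zero, smul_zero, add_zero]
    | succ m ih =>
      rw [pow_succ, map_mul, Nat.cast_succ, add_smul, one_smul]
      exact cg_add hs ih hA
  have h1 := key p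
  rw [CharP.cast_eq_zero, zero_smul, cm_zero, smul_zero, add_zero] at h1
  rw [Subgroup.coe_pow]
  exact (mem_Gam_iff hn (s + 1) _).2 h1

instance (s : ℕ) : ((Gam (ZMod p) n (s + 1)).subgroupOf (Gam (ZMod p) n s)).Normal :=
  Subgroup.Normal.subgroupOf inferInstance _

/-- the key input for `Gam s` -/
lemma keyInput {k : Type} [Field k] (hpk : (p : k) ≠ 0) (hn : 0 < n) {s : ℕ} (hs : 1 ≤ s) {r : ℕ}
    (hr : r + 1 ≤ n) (χ : Gam (ZMod p) n s →* k)
    (hχ : ∀ g : Gam (ZMod p) n s, (g : UU (ZMod p) n) ∈ Gam (ZMod p) n (s + 1) → χ g = 1)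
    (hne : ∃ g, χ g ≠ 1) : KeyInput χ r := by
  obtain ⟨W, act, ty, h1, h2, h3⟩ := key (isCong (p := p) hn hs) hs (χ := χ)
    (fun g hg => hχ g ((mem_Gam_iff hn (s + 1) _).2 hg)) hne ⟨0, hn⟩
  refine ⟨{i : Fin n // i ≠ ⟨0, hn⟩}, inferInstance, W, act, ty, ?_, h1, h2, ?_⟩
  · rw [Fintype.card_subtype_compl, Fintype.card_fin, Fintype.card_subtype_eq]
    omega
  · intro z hz hinj
    obtain ⟨N, hN1, hN2, hN3, hN4, hN5⟩ := h3 z hz hinj
    exact ⟨N, hN1, hN2, locInv_of_comm hpk N hN3 hN4, hN5⟩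

/-- **Exactness of the `Gam s`-coinvariants.** -/
theorem ex_Gam {k : Type} [Field k] [CharP k 2]
    (hroot : ∀ m : ℕ, (m : k) ≠ 0 → HasEnoughRootsOfUnity k m)
    (hp3 : 3 ≤ p) {d : ℕ} (hn : d + 2 ≤ n)
    (hfin : ∀ s, Finite (UU (ZMod p) n ⧸ Gam (ZMod p) n s))
    (hst : ∀ (s : ℕ) (y : CFace (Ki (ZMod p) n)), 1 ≤ y.gr →
      Finite (MulAction.stabilizer (Gam (ZMod p) n s) y) ∧
      ∃ e, Nat.card (MulAction.stabilizer (Gam (ZMod p) n s) y) = p ^ e)
    (h1 : ∀ m, Ex (1 : UU (ZMod p) n →* k) (Gam (ZMod p) n 1) (cbd k (Ki (ZMod p) n))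
      {y | y.gr = m} {y | y.gr = m + 1})
    (hex : CExact k (Ki (ZMod p) n) d) :
    ∀ s, 1 ≤ s → ∀ m ≤ d, Ex (1 : UU (ZMod p) n →* k) (Gam (ZMod p) n s)
      (cbd k (Ki (ZMod p) n)) {y | y.gr = m} {y | y.gr = m + 1} := by
  have hp := Fact.out (p := p.Prime)
  have hodd : Odd p := hp.odd_of_ne_two (by omega)
  have hpk : (p : k) ≠ 0 := by
    intro h0
    have := (CharP.cast_eq_zero_iff k 2 p).1 h0
    rcases hodd with ⟨q, hq⟩
    omega
  intro s hs
  induction s, hs using Nat.le_induction with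
  | base => exact fun m _ => h1 m
  | succ s hs ih =>
    have hn0 : 0 < n := by omega
    set Γ := Gam (ZMod p) n s with hΓ
    set Γ' := Gam (ZMod p) n (s + 1) with hΓ'
    have hle : Γ' ≤ Γ := GF.Gam_anti (by omega)
    have hfi : Γ'.FiniteIndex := by
      have := hfin (s + 1)
      exact Subgroup.finiteIndex_of_finite_quotient
    have hfin' : Finite (Γ ⧸ Γ'.subgroupOf Γ) := inferInstance
    have hP : IsPGroup p (Γ ⧸ Γ'.subgroupOf Γ) := fun a => ⟨1, by
      rw [pow_one]; exact quot_pow hn0 hs a⟩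
    obtain ⟨e, he⟩ := IsPGroup.iff_card.1 hP
    have hcard : (Nat.card (Γ ⧸ Γ'.subgroupOf Γ) : k) ≠ 0 := by
      rw [he, Nat.cast_pow]; exact pow_ne_zero _ hpk
    have hexp : (Monoid.exponent (Γ ⧸ Γ'.subgroupOf Γ) : k) ≠ 0 := by
      obtain ⟨q, hq⟩ := Group.exponent_dvd_nat_card (G := Γ ⧸ Γ'.subgroupOf Γ)
      intro h0
      apply hcard
      rw [hq, Nat.cast_mul, h0, zero_mul]
    have := hroot _ hexp
    exact ex_succ (Ki (ZMod p) n) Γ Γ' hle (quot_comm hn0 hs) hcard d hex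
      (fun y hy => by
        obtain ⟨h2, e, h3⟩ := hst s y hy
        exact ⟨h2, by rw [h3, Nat.cast_pow]; exact pow_ne_zero _ hpk⟩)
      (fun χ hχ hne => keyInput hpk hn0 hs (by omega) χ hχ hne) ih

instance : CharP (AlgebraicClosure (ZMod 2)) 2 :=
  charP_of_injective_algebraMap (algebraMap (ZMod 2) (AlgebraicClosure (ZMod 2))).injective 2

lemma roots_two (m : ℕ) (hm : (m : AlgebraicClosure (ZMod 2)) ≠ 0) :
    HasEnoughRootsOfUnity (AlgebraicClosure (ZMod 2)) m := by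
  have : NeZero (m : ZMod 2) := ⟨fun h => hm (by
    have := congrArg (algebraMap (ZMod 2) (AlgebraicClosure (ZMod 2))) h
    simpa using this)⟩
  infer_instance

/-- **Vanishing cohomology of the finite quotients.** -/
theorem cohZero_Kbar (hp3 : 3 ≤ p) {d : ℕ} (hn : d + 2 ≤ n)
    (hfin : ∀ s, Finite (UU (ZMod p) n ⧸ Gam (ZMod p) n s))
    (hst : ∀ (s : ℕ) (y : CFace (Ki (ZMod p) n)), 1 ≤ y.gr →
      Finite (MulAction.stabilizer (Gam (ZMod p) n s) y) ∧
      ∃ e, Nat.card (MulAction.stabilizer (Gam (ZMod p) n s) y) = p ^ e)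
    (h1 : ∀ m, Ex (1 : UU (ZMod p) n →* AlgebraicClosure (ZMod 2)) (Gam (ZMod p) n 1)
      (cbd (AlgebraicClosure (ZMod 2)) (Ki (ZMod p) n)) {y | y.gr = m} {y | y.gr = m + 1})
    (hex : CExact (AlgebraicClosure (ZMod 2)) (Ki (ZMod p) n) d) {s : ℕ} (hs : 2 ≤ s) :
    CohZero (Kbar (ZMod p) n s) d := by
  refine CE.cohZero_of_cosets (k := AlgebraicClosure (ZMod 2)) (Ki (ZMod p) n) (Gam (ZMod p) n s)
    ?_ fun m _ hm => ex_Gam roots_two hp3 hn hfin hst h1 hex s (by omega) m hm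
  intro J g hg
  rcases J.eq_empty_or_nonempty with rfl | hJ
  · obtain ⟨u, rfl⟩ := QuotientGroup.mk'_surjective _ g
    exact ⟨u, by simp [KJ], rfl⟩
  · exact Kbar_surj hs hJ hg

end Vale.Agent.P067.Va
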