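import Vale.Agent.P067.Assemble
import Vale.Agent.P067.UCone
import Vale.Agent.P067.ULat
import Vale.Agent.P067.Vanish
import Vale.Agent.P067.Push

/-!
# P067: the final theorem from the last inputs
-/

namespace Vale.Agent.P067

open Classical in
theorem final_of {d n : ℕ} (hd : 1 ≤ d) (hn : (d + 1) * (d + 3) ≤ n)
    (hfin : ∀ (p : ℕ) [Fact p.Prime] (s : ℕ), Finite (UU (ZMod p) n ⧸ Gam (ZMod p) n s))
    (hgrow : ∀ (p : ℕ) [Fact p.Prime] (s : ℕ), s ≤ Nat.card (UU (ZMod p) n ⧸ Gam (ZMod p) n s))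
    (hst : ∀ (p : ℕ) [Fact p.Prime] (s : ℕ) (y : CFace (Ki (ZMod p) n)), 1 ≤ y.gr →
      Finite (MulAction.stabilizer (Gam (ZMod p) n s) y) ∧
      ∃ e, Nat.card (MulAction.stabilizer (Gam (ZMod p) n s) y) = p ^ e)
    (h1 : ∀ (p : ℕ) [Fact p.Prime] (m : ℕ),
      Tw.Ex (1 : UU (ZMod p) n →* AlgebraicClosure (ZMod 2)) (Gam (ZMod p) n 1)
      (cbd (AlgebraicClosure (ZMod 2)) (Ki (ZMod p) n)) {y | y.gr = m} {y | y.gr = m + 1})
    (hyy : ∀ (p : ℕ) [Fact p.Prime], Gap.Cp d ≤ p → ∀ m ≤ d,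
      Mo.Exact (AlgebraicClosure (ZMod 2)) (YY (ZMod p) n) m) :
    ∃ D : ℕ, ∃ ε' : ℝ, 0 < ε' ∧ ∀ N : ℕ, ∃ X : PureComplex d,
      N ≤ X.vertices.card ∧ X.Connected ∧ X.degree ≤ D ∧ X.IsCoboundaryExpander ε' := by
  have hn2 : d + 2 ≤ n := by nlinarith
  have hn3 : 3 ≤ n := by omega
  have hn4 : (d + 1) * (d + 2) ≤ n := by nlinarith
  refine assemble (n := n) (Cc := Gap.Cc d) (Cp := Gap.Cp d) hd hn3 (by omega) hfin hgrow
    (fun p _ s hp hs R hR hRd => UC.coneFn_Kbar hn4 p s hp hs R hR hRd)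
    (fun p _ s hp hp3 hs => ?_)
  refine Va.cohZero_Kbar hp3 hn2 (hfin p) (hst p) (h1 p) ?_ hs
  exact CE.cExact_Ki (mem_YY_iff (by omega)) fun m hm => hyy p hp m hm

end Vale.Agent.P067
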