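import Vale.Agent.P067.GamFacts2

/-!
# P067: stabilisers of faces are finite `p`-groups
-/

namespace Vale.Agent.P067

open KGen CE GF GF2

variable {F : Type} [Field F] {n : ℕ}

theorem stab_pow {p : ℕ} [Fact p.Prime] [Finite F] [CharP F p] (H : Subgroup (UU F n))
    (y : CFace (Ki F n)) (hy : 1 ≤ y.gr) :
    Finite (MulAction.stabilizer H y) ∧ ∃ e, Nat.card (MulAction.stabilizer H y) = p ^ e := by
  obtain ⟨J, g₀, rfl⟩ := CFace.exists_mk y
  have hJ : J.Nonempty := Finset.card_pos.1 hy
  have hfin := finite_KJ (F := F) hJ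
  set S := MulAction.stabilizer H (CFace.mk J g₀ : CFace (Ki F n)) with hS
  set φ : S →* UU F n :=
    (MulAut.conj g₀⁻¹).toMonoidHom.comp (H.subtype.comp S.subtype) with hφ
  have hφapp : ∀ γ : S, φ γ = g₀⁻¹ * ((γ : H) : UU F n) * g₀ := by
    intro γ
    simp [hφ]
  have hmem : ∀ γ : S, φ γ ∈ KJ (Ki F n) J := by
    intro γ
    have h1 : ((γ : H) : UU F n) • (CFace.mk J g₀ : CFace (Ki F n)) = CFace.mk J g₀ := γ.2
    rw [CFace.smul_mk] at h1
    have h2 := CFace.mk_eq_mk.1 h1.symm
    rw [hφapp, mul_assoc]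
    exact h2
  have hinj : Function.Injective (φ.codRestrict (KJ (Ki F n) J) hmem) := by
    intro γ γ' h
    have h1 : φ γ = φ γ' := congrArg Subtype.val h
    rw [hφapp, hφapp] at h1
    have h2 : ((γ : H) : UU F n) = ((γ' : H) : UU F n) := by
      have := mul_right_cancel h1
      exact mul_left_cancel this
    exact Subtype.ext (Subtype.ext h2)
  have hfS : Finite S := Finite.of_injective _ hinj
  have hP : IsPGroup p S := (isPGroup_KJ (p := p) hJ).of_injective _ hinj
  exact ⟨hfS, (IsPGroup.iff_card).1 hP⟩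

end Vale.Agent.P067
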