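import Vale.Agent.P067.FinalOf
import Vale.Agent.P067.StabP

/-!
# P067: the final theorem from exactness of `Y`
-/

namespace Vale.Agent.P067

open Classical in
theorem final_of_yy {d n : ℕ} (hd : 1 ≤ d) (hn : (d + 1) * (d + 3) ≤ n)
    (hyy : ∀ (p : ℕ) [Fact p.Prime], Gap.Cp d ≤ p → ∀ m ≤ d,
      Mo.Exact (AlgebraicClosure (ZMod 2)) (YY (ZMod p) n) m) :
    ∃ D : ℕ, ∃ ε' : ℝ, 0 < ε' ∧ ∀ N : ℕ, ∃ X : PureComplex d,
      N ≤ X.vertices.card ∧ X.Connected ∧ X.degree ≤ D ∧ X.IsCoboundaryExpander ε' := by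
  have hn2 : d + 2 ≤ n := by nlinarith
  have hchar : CharP (AlgebraicClosure (ZMod 2)) 2 := inferInstance
  refine final_of hd hn (fun p _ s => GF2.finite_quot_Gam (by omega) s)
    (fun p _ s => GF2.le_card_quot_Gam (by omega) s)
    (fun p _ s y hy => stab_pow (Gam (ZMod p) n s) y hy)
    (fun p _ m => GF2.ex_one (by omega) m) hyy

end Vale.Agent.P067
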