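import Vale.Agent.P067.KCo

/-!
# P067, D1c: generation of `K_R`, size of `K_i`, structure of `K_R` for `|R| = n - 2`
-/

open Finset

set_option linter.unusedSectionVars false
set_option linter.unusedVariables false

namespace Vale.Agent.P067

namespace KGen

open KCo

variable {F : Type} [Field F] {n : ℕ}

theorem mul_apply' (g h : UU F n) (v : VV F) :
    ((g * h : UU F n) : VV F ≃ₗ[F] VV F) v =
      (g : VV F ≃ₗ[F] VV F) ((h : VV F ≃ₗ[F] VV F) v) := rfl

theorem ext_v {g h : UU F n} (H : ∀ v : VV F, (g : VV F ≃ₗ[F] VV F) v = (h : VV F ≃ₗ[F] VV F) v) :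
    g = h := Subtype.ext (LinearEquiv.ext H)

theorem no_mult {m : ℤ} (h0 : 0 < (n : ℤ) * m) (h1 : (n : ℤ) * m < n) : False := by
  have hn : (0 : ℤ) ≤ n := Int.natCast_nonneg n
  by_cases hm : 1 ≤ m
  · nlinarith
  · push Not at hm
    have : m ≤ 0 := by omega
    nlinarith

open Classical in
theorem co_mul_el (g : UU F n) (a0 : ℤ) {δ : ℤ} (h0 : 0 < δ) (h1 : δ < n) (c : F) (a b : ℤ) :
    co (g * el a0 h0 h1 c) b a =
      co g b a + (if (n : ℤ) ∣ a - a0 then c * co g b (a - δ) else 0) := by
  unfold co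
  rw [mul_apply', el_apply, map_add, map_smul, Finsupp.add_apply, Finsupp.smul_apply, Em_xx]
  congr 1
  by_cases h2 : (n : ℤ) ∣ a - a0
  · rw [if_pos h2, if_pos h2, smul_eq_mul]
  · rw [if_neg h2, if_neg h2]; simp

theorem commEl {a j : ℤ} {δ1 δ2 : ℤ} (h1 : 0 < δ1) (h1' : δ1 < n) (h2 : 0 < δ2) (h2' : δ2 < n)
    (h3 : 0 < δ1 + δ2) (h3' : δ1 + δ2 < n) (hj : j = a - δ1) (c : F) :
    el a h3 h3' c * (el a h1 h1' c * el j h2 h2' 1) = el j h2 h2' 1 * el a h1 h1' c := by
  classical
  apply ext_v
  intro v
  simp only [mul_apply', el_apply, map_add, map_smul]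
  have e1 : Em n j δ2 (Em n a δ1 v) = Em n a (δ1 + δ2) v := by
    rw [Em_Em, if_pos, add_comm]
    rw [hj]; simp
  have nd : ∀ d : ℤ, 0 < d → d < n → ∀ e : ℤ, e = -d → ¬ (n : ℤ) ∣ e := by
    rintro d hd hd' e rfl h
    exact not_dvd hd hd' ((dvd_neg).1 h)
  have e2 : Em n a δ1 (Em n j δ2 v) = 0 := by
    rw [Em_Em, if_neg (nd _ h3 h3' _ (by omega))]
  have e3 : Em n a (δ1 + δ2) (Em n a δ1 v) = 0 := by
    rw [Em_Em, if_neg (nd _ h1 h1' _ (by omega))]
  have e4 : Em n a (δ1 + δ2) (Em n j δ2 v) = 0 := by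
    rw [Em_Em, if_neg (nd _ h3 h3' _ (by omega))]
  simp only [e1, e2, e3, e4, smul_zero, map_zero, add_zero, one_smul]
  module

theorem el_mem_sup_aux {R : Finset (Fin n)} {i j : Fin n} {a : ℤ} {δ : ℤ} (h0 : 0 < δ)
    (h1 : δ < n) (c : F) (hc : ¬ Cut R (a - δ) a) {k l : ℤ} (hk : a - δ ≤ (i : ℕ) + n * k)
    (hkl : ((i : ℕ) : ℤ) + n * k < (j : ℕ) + n * l) (hl : ((j : ℕ) : ℤ) + n * l < a) :
    el a h0 h1 c ∈ KJ (Ki F n) (insert i R) ⊔ KJ (Ki F n) (insert j R) := by
  obtain ⟨j', hj'⟩ : ∃ j' : ℤ, j' = (j : ℕ) + n * l := ⟨_, rfl⟩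
  obtain ⟨i', hi'⟩ : ∃ i' : ℤ, i' = (i : ℕ) + n * k := ⟨_, rfl⟩
  rw [← hj'] at hkl hl
  rw [← hi'] at hkl hk
  have h2 : 0 < a - j' := by omega
  have h2' : a - j' < n := by omega
  have h3 : 0 < j' - (a - δ) := by omega
  have h3' : j' - (a - δ) < n := by omega
  have m1 : el a h2 h2' c ∈ KJ (Ki F n) (insert i R) := by
    apply el_mem
    rw [cut_insert]
    rintro (⟨x, hx, m, hm, hm'⟩ | h)
    · rw [mem_singleton] at hx
      subst hx
      refine no_mult (n := n) (m := m - k) ?_ ?_
      · rw [mul_sub]; omega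
      · rw [mul_sub]; omega
    · exact hc (h.mono (by omega) le_rfl)
  have m2 : el j' h3 h3' (1 : F) ∈ KJ (Ki F n) (insert j R) := by
    apply el_mem
    rw [cut_insert]
    rintro (⟨x, hx, m, hm, hm'⟩ | h)
    · rw [mem_singleton] at hx
      subst hx
      refine no_mult (n := n) (m := l - m) ?_ ?_
      · rw [mul_sub]; omega
      · rw [mul_sub]; omega
    · exact hc (h.mono (by omega) (by omega))
  have h4 : 0 < a - j' + (j' - (a - δ)) := by omega
  have h4' : a - j' + (j' - (a - δ)) < n := by omega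
  have key := commEl (F := F) (a := a) (j := j') h2 h2' h3 h3' h4 h4' (by omega) c
  have e : el a h4 h4' c = el a h0 h1 c := by
    have : a - j' + (j' - (a - δ)) = δ := by omega
    simp only [this]
  rw [e] at key
  have key2 : el a h0 h1 c = (el j' h3 h3' 1 * el a h2 h2' c) *
      (el a h2 h2' c * el j' h3 h3' 1)⁻¹ := by
    rw [← key, mul_inv_cancel_right]
  rw [key2]
  have m1' : el a h2 h2' c ∈ KJ (Ki F n) (insert i R) ⊔ KJ (Ki F n) (insert j R) :=
    (le_sup_left : KJ (Ki F n) (insert i R) ≤ _) m1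
  have m2' : el j' h3 h3' (1 : F) ∈ KJ (Ki F n) (insert i R) ⊔ KJ (Ki F n) (insert j R) :=
    (le_sup_right : KJ (Ki F n) (insert j R) ≤ _) m2
  exact mul_mem (mul_mem m2' m1') (inv_mem (mul_mem m1' m2'))

theorem el_mem_sup {R : Finset (Fin n)} {i j : Fin n} (hij : i ≠ j) {a : ℤ} {δ : ℤ} (h0 : 0 < δ)
    (h1 : δ < n) (c : F) (hc : ¬ Cut R (a - δ) a) :
    el a h0 h1 c ∈ KJ (Ki F n) (insert i R) ⊔ KJ (Ki F n) (insert j R) := by
  by_cases hci : Cut {i} (a - δ) a
  · by_cases hcj : Cut {j} (a - δ) a
    · obtain ⟨x, hx, k, hk, hk'⟩ := hci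
      obtain ⟨y, hy, l, hl, hl'⟩ := hcj
      rw [mem_singleton] at hx hy
      subst hx hy
      rcases lt_trichotomy (((x : ℕ) : ℤ) + n * k) ((y : ℕ) + n * l) with h | h | h
      · exact el_mem_sup_aux h0 h1 c hc hk h hl'
      · exfalso
        apply hij
        have h2 := x.2
        have h3 := y.2
        have h4 : ((x : ℕ) : ℤ) - (y : ℕ) = n * (l - k) := by rw [mul_sub]; omega
        apply Fin.ext
        rcases lt_trichotomy (((x : ℕ) : ℤ) - (y : ℕ)) 0 with h5 | h5 | h5
        · exfalso
          refine no_mult (n := n) (m := k - l) ?_ ?_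
          · rw [mul_sub] at h4 ⊢; omega
          · rw [mul_sub] at h4 ⊢; omega
        · omega
        · exfalso
          refine no_mult (n := n) (m := l - k) ?_ ?_
          · omega
          · omega
      · rw [sup_comm]
        exact el_mem_sup_aux h0 h1 c hc hl h hk'
    · refine (le_sup_right : KJ (Ki F n) (insert j R) ≤ _) (el_mem h0 h1 c ?_)
      rw [cut_insert]
      exact fun h => h.elim hcj hc
  · refine (le_sup_left : KJ (Ki F n) (insert i R) ≤ _) (el_mem h0 h1 c ?_)
    rw [cut_insert]
    exact fun h => h.elim hci hc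

theorem co_one (a b : ℤ) : co (1 : UU F n) b a = if b = a then 1 else 0 := by
  have h1 : co (1 : UU F n) b a = xx F a b := rfl
  rw [h1]
  unfold xx
  rw [Finsupp.single_apply]
  congr 1
  exact propext eq_comm

theorem exists_window (hn : 0 < n) (a : ℤ) : ∃ a0 : ℕ, a0 < n ∧ ∃ k : ℤ, a = a0 + n * k := by
  have hn' : (0 : ℤ) < n := by exact_mod_cast hn
  have h0 := Int.emod_nonneg a hn'.ne'
  have h1 := Int.emod_lt_of_pos a hn'
  have h2 := Int.emod_add_mul_ediv a n
  refine ⟨(a % n).toNat, by omega, a / n, ?_⟩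
  rw [Int.toNat_of_nonneg h0]
  omega

/-- a subgroup containing all the root elements of `K_R` contains `K_R` -/
theorem KJ_le_of_el {R : Finset (Fin n)} (hR : R.Nonempty) (S : Subgroup (UU F n))
    (hS : ∀ (a δ : ℤ) (h0 : 0 < δ) (h1 : δ < n) (c : F), ¬ Cut R (a - δ) a →
      el a h0 h1 c ∈ S) : KJ (Ki F n) R ≤ S := by
  classical
  have hn : 0 < n := by
    obtain ⟨i, -⟩ := hR
    have := i.2
    omega
  have main : ∀ m δ : ℕ, δ + m = n → 1 ≤ δ → ∀ g ∈ KJ (Ki F n) R,
      (∀ a b : ℤ, 0 < a - b → a - b < δ → co g b a = 0) → g ∈ S := by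
    intro m
    induction m with
    | zero =>
      intro δ hδ _ g hg hz
      have : g = 1 := by
        apply ext_co
        intro a b
        rw [co_one]
        rcases lt_trichotomy a b with h | h | h
        · rw [co_above g h, if_neg (by omega)]
        · subst h
          rw [co_self, if_pos rfl]
        · rw [if_neg (by omega)]
          by_cases h2 : a - b < n
          · exact hz a b (by omega) (by omega)
          · exact co_far hR hg (by omega)
      rw [this]; exact one_mem S
    | succ m ih =>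
      intro δ hδ hδ1 g hg hz
      have hδn : (δ : ℤ) < n := by exact_mod_cast (show δ < n by omega)
      have hδ0 : (0 : ℤ) < δ := by exact_mod_cast hδ1
      have inner : ∀ N : ℕ, ∀ g ∈ KJ (Ki F n) R,
          (∀ a b : ℤ, 0 < a - b → a - b < δ → co g b a = 0) →
          ((range n).filter fun a : ℕ => co g ((a : ℤ) - δ) a ≠ 0).card = N → g ∈ S := by
        intro N
        induction N with
        | zero =>
          intro g hg hz hN
          refine ih (δ + 1) (by omega) (by omega) g hg fun a b h0 h1 => ?_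
          by_cases h2 : a - b < δ
          · exact hz a b h0 h2
          · have h3 : b = a - δ := by push_cast at h1; omega
            subst h3
            obtain ⟨a0, ha0, k, rfl⟩ := exists_window hn a
            have e : (a0 : ℤ) + n * k - δ = (a0 - δ) + n * k := by ring
            rw [e, co_add_mul]
            rw [card_eq_zero, filter_eq_empty_iff] at hN
            have := hN (mem_range.2 ha0)
            push Not at this
            exact this
        | succ N ihN =>
          intro g hg hz hN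
          have hne : ((range n).filter fun a : ℕ => co g ((a : ℤ) - δ) a ≠ 0).Nonempty := by
            rw [← card_pos]; omega
          obtain ⟨a0, ha0⟩ := hne
          have h2 := (mem_filter.1 ha0).2
          have h3 := mem_range.1 (mem_filter.1 ha0).1
          have hncut : ¬ Cut R ((a0 : ℤ) - δ) a0 := fun h => h2 (mem_KJ_iff.1 hg _ _ h)
          set c := co g ((a0 : ℤ) - δ) a0 with hc
          have hel : el (a0 : ℤ) hδ0 hδn (-c) ∈ S := hS _ _ _ _ _ hncut
          have hg' : g * el (a0 : ℤ) hδ0 hδn (-c) ∈ KJ (Ki F n) R :=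
            mul_mem hg (el_mem hδ0 hδn _ hncut)
          have hz' : ∀ a b : ℤ, 0 < a - b → a - b < δ →
              co (g * el (a0 : ℤ) hδ0 hδn (-c)) b a = 0 := by
            intro a b h4 h5
            rw [co_mul_el, hz a b h4 h5, co_above g (show a - (δ : ℤ) < b by omega)]
            simp
          have hval : ∀ a : ℕ, a < n → co (g * el (a0 : ℤ) hδ0 hδn (-c)) ((a : ℤ) - δ) a =
              if a = a0 then 0 else co g ((a : ℤ) - δ) a := by
            intro a ha
            rw [co_mul_el, co_self]
            by_cases h4 : a = a0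
            · subst h4
              rw [if_pos rfl, if_pos (by simp)]
              rw [← hc]; ring
            · rw [if_neg h4, if_neg, add_zero]
              rintro ⟨m', hm'⟩
              rcases lt_trichotomy ((a : ℤ) - a0) 0 with h5 | h5 | h5
              · refine no_mult (n := n) (m := -m') ?_ ?_
                · rw [mul_neg, ← hm']; omega
                · rw [mul_neg, ← hm']; omega
              · omega
              · refine no_mult (n := n) (m := m') ?_ ?_
                · rw [← hm']; omega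
                · rw [← hm']; omega
          have hcard : ((range n).filter fun a : ℕ =>
              co (g * el (a0 : ℤ) hδ0 hδn (-c)) ((a : ℤ) - δ) a ≠ 0).card = N := by
            have h4 : ((range n).filter fun a : ℕ =>
                co (g * el (a0 : ℤ) hδ0 hδn (-c)) ((a : ℤ) - δ) a ≠ 0) =
                ((range n).filter fun a : ℕ => co g ((a : ℤ) - δ) a ≠ 0).erase a0 := by
              ext a
              simp only [mem_filter, mem_range, mem_erase]
              constructor
              · rintro ⟨h5, h6⟩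
                rw [hval a h5] at h6
                split_ifs at h6 with h7
                · exact absurd rfl h6
                · exact ⟨h7, h5, h6⟩
              · rintro ⟨h5, h6, h7⟩
                refine ⟨h6, ?_⟩
                rw [hval a h6, if_neg h5]
                exact h7
            rw [h4, card_erase_of_mem ha0, hN]; rfl
          have h4 := ihN _ hg' hz' hcard
          have h5 : g = (g * el (a0 : ℤ) hδ0 hδn (-c)) * (el (a0 : ℤ) hδ0 hδn (-c))⁻¹ := by
            rw [mul_inv_cancel_right]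
          rw [h5]
          exact mul_mem h4 (inv_mem hel)
      exact inner _ g hg hz rfl
  intro g hg
  refine main (n - 1) 1 (by omega) le_rfl g hg fun a b h0 h1 => ?_
  push_cast at h1
  omega

/-- GENERATION for nonempty `R` -/
theorem genAt {R : Finset (Fin n)} (hR : R.Nonempty) : Pair.GenAt (Ki F n) R := by
  intro i j hi hj hij
  exact KJ_le_of_el hR _ fun a δ h0 h1 c hc => el_mem_sup hij h0 h1 c hc

/-! ## the size of `K_i` -/

/-- the coordinates of an element of `K_i` -/
noncomputable def coords (g : UU F n) : Fin n × Fin n → F :=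
  fun q => co g (((q.1 : ℕ) : ℤ) - (q.2 : ℕ)) (q.1 : ℕ)

theorem coords_inj {J : Finset (Fin n)} (hJ : J.Nonempty) {g h : UU F n}
    (hg : g ∈ KJ (Ki F n) J) (hh : h ∈ KJ (Ki F n) J) (H : coords g = coords h) : g = h := by
  have hn : 0 < n := by
    obtain ⟨i, -⟩ := hJ
    have := i.2
    omega
  apply ext_co
  intro a b
  rcases lt_or_ge a b with h1 | h1
  · rw [co_above g h1, co_above h h1]
  · by_cases h2 : a - b < n
    · obtain ⟨a0, ha0, k, rfl⟩ := exists_window hn a
      obtain ⟨δ, hδ⟩ : ∃ δ : ℕ, (δ : ℤ) = a0 + n * k - b :=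
        ⟨((a0 : ℤ) + n * k - b).toNat, Int.toNat_of_nonneg (by omega)⟩
      have e : b = (a0 - δ) + n * k := by omega
      rw [e, co_add_mul, co_add_mul]
      exact congrFun H (⟨a0, ha0⟩, ⟨δ, by omega⟩)
    · rw [co_far hJ hg (by omega), co_far hJ hh (by omega)]

theorem KJ_singleton (i : Fin n) : KJ (Ki F n) {i} = Ki F n i := by
  ext x; simp [mem_KJ]

theorem finite_KJ [Finite F] {J : Finset (Fin n)} (hJ : J.Nonempty) :
    Finite (KJ (Ki F n) J) :=
  Finite.of_injective (fun g : KJ (Ki F n) J => coords (g : UU F n))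
    fun g h H => Subtype.ext (coords_inj hJ g.2 h.2 H)

theorem card_KJ_le [Finite F] {J : Finset (Fin n)} (hJ : J.Nonempty) :
    Nat.card (KJ (Ki F n) J) ≤ Nat.card F ^ (n * n) := by
  have h1 := Nat.card_le_card_of_injective
    (fun g : KJ (Ki F n) J => coords (g : UU F n))
    fun g h H => Subtype.ext (coords_inj hJ g.2 h.2 H)
  refine h1.trans (le_of_eq ?_)
  rw [Nat.card_fun, Nat.card_prod, Nat.card_fin]

theorem card_Ki_le [Finite F] (i : Fin n) : Nat.card (Ki F n i) ≤ Nat.card F ^ (n * n) := by
  have := card_KJ_le (F := F) (singleton_nonempty i)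
  rwa [KJ_singleton] at this

theorem finite_Ki [Finite F] (i : Fin n) : Finite (Ki F n i) := by
  have := finite_KJ (F := F) (singleton_nonempty i)
  rwa [KJ_singleton] at this

end KGen

end Vale.Agent.P067
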