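import Vale.Agent.P067.ULat
import Vale.Agent.P067.KGen
import Vale.Agent.P067.Coset

/-!
# P067: the congruence subgroups, part 2

Finite index, growth of the index, finite odd stabilisers, the case `s = 1`.
-/

open Finsupp

namespace Vale.Agent.P067

namespace GF2

open GF UL CE KCo KGen

variable {F : Type} [Field F] {n : ℕ}

theorem xx_eq_xb (a : ℤ) : xx F a = xb F a := rfl

/-! ### Finite index -/

/-- the entries of `g` modulo `t ^ s` -/
noncomputable def dat (s : ℕ) (g : UU F n) : Fin n × Fin (n * s) → F :=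
  fun q => co g (-((q.2 : ℕ) : ℤ)) (-((q.1 : ℕ) : ℤ))

theorem mem_Gam_of_dat (hn : 0 < n) {s : ℕ} {g h : UU F n} (H : dat s g = dat s h) :
    g⁻¹ * h ∈ Gam F n s := by
  rw [inv_mul_mem_Gam]
  intro k x hx
  have hn' : (0 : ℤ) < n := by exact_mod_cast hn
  have key := map_MM (f := (h : VV F ≃ₗ[F] VV F).toLinearMap - (g : VV F ≃ₗ[F] VV F).toLinearMap)
    (P := MM F (n * (k - s))) (j := n * k) ?_ hx
  · exact key
  intro a ha
  rw [mem_MM]
  intro b hb
  change ((h : VV F ≃ₗ[F] VV F) (xb F a) - (g : VV F ≃ₗ[F] VV F) (xb F a)) b = 0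
  rw [Finsupp.sub_apply]
  change co h b a - co g b a = 0
  set q : ℤ := (-a) / n with hq
  set r : ℤ := (-a) % n with hr
  have h1 : r + n * q = -a := Int.emod_add_mul_ediv (-a) n
  have h2 : 0 ≤ r := Int.emod_nonneg _ hn'.ne'
  have h3 : r < n := Int.emod_lt_of_pos _ hn'
  have ea : a = -r + n * (-q) := by
    have : (n : ℤ) * (-q) = -(n * q) := by ring
    omega
  have eb : b = (b + n * q) + n * (-q) := by ring
  rw [ea, eb, co_add_mul, co_add_mul]
  have h4 : -k ≤ q := by
    by_contra hcon
    push Not at hcon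
    have h5 : (n : ℤ) * q ≤ n * (-k - 1) := mul_le_mul_of_nonneg_left (by omega) hn'.le
    have h6 : (n : ℤ) * (-k - 1) = -(n * k) - n := by ring
    omega
  have h5 : (n : ℤ) * (-k) ≤ n * q := mul_le_mul_of_nonneg_left h4 hn'.le
  have h6 : (n : ℤ) * (k - s) = n * k - n * s := by ring
  have h7 : (n : ℤ) * (-k) = -(n * k) := by ring
  rcases le_or_gt (b + n * q) 0 with hle | hgt
  · have h8 : (-(b + n * q)).toNat < n * s := by
      have : (((-(b + n * q)).toNat : ℕ) : ℤ) < ((n * s : ℕ) : ℤ) := by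
        push_cast
        rw [Int.toNat_of_nonneg (by omega)]
        omega
      exact_mod_cast this
    have h9 : r.toNat < n := by omega
    have h10 := congrFun H (⟨r.toNat, h9⟩, ⟨(-(b + n * q)).toNat, h8⟩)
    unfold dat at h10
    simp only at h10
    rw [Int.toNat_of_nonneg h2, Int.toNat_of_nonneg (by omega), neg_neg] at h10
    rw [h10, sub_self]
  · rw [co_above h (by omega), co_above g (by omega), sub_self]

theorem finite_quot_Gam [Finite F] (hn : 0 < n) (s : ℕ) : Finite (UU F n ⧸ Gam F n s) := by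
  refine Finite.of_injective (fun q : UU F n ⧸ Gam F n s => dat s q.out) ?_
  intro q q' hqq
  have h1 := mem_Gam_of_dat hn hqq
  rw [← QuotientGroup.eq] at h1
  simpa using h1

/-! ### Growth -/

/-- root elements with a long jump -/
noncomputable def elG (a : ℤ) {δ : ℤ} (h0 : 0 < δ) (h1 : ¬ (n : ℤ) ∣ δ) (c : F) : UU F n :=
  ⟨elE a h1 c, by
    constructor
    · intro v
      rw [elE_apply, elE_apply, map_add, map_smul]
      congr 2
      classical
      ext m
      rw [Em_apply, KCo.sh_apply, KCo.sh_apply, Em_apply]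
      have e1 : m + δ - (n : ℤ) = m - n + δ := by ring
      rw [e1]
      congr 1
      apply propext
      constructor
      · intro h
        have := dvd_sub h (dvd_refl (n : ℤ))
        have e : m + δ - a - n = m - n + δ - a := by ring
        rwa [e] at this
      · intro h
        have := dvd_add h (dvd_refl (n : ℤ))
        have e : m - n + δ - a + n = m + δ - a := by ring
        rwa [e] at this
    · intro j v hv
      rw [elE_apply, add_sub_cancel_left]
      refine Submodule.smul_mem _ _ ?_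
      classical
      rw [mem_MM] at hv ⊢
      intro m hm
      rw [Em_apply]
      split_ifs
      · exact hv _ (by omega)
      · rfl⟩

theorem elG_apply (a : ℤ) {δ : ℤ} (h0 : 0 < δ) (h1 : ¬ (n : ℤ) ∣ δ) (c : F) (v : VV F) :
    ((elG a h0 h1 c : UU F n) : VV F ≃ₗ[F] VV F) v = v + c • Em n a δ v := rfl

theorem not_dvd_one_add (hn : 2 ≤ n) (m : ℕ) : ¬ (n : ℤ) ∣ 1 + n * m := by
  intro h
  have h1 : (n : ℤ) ∣ 1 := by
    have := dvd_sub h (dvd_mul_right (n : ℤ) (m : ℤ))
    rwa [add_sub_cancel_right] at this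
  have := Int.le_of_dvd one_pos h1
  omega

theorem le_card_quot_Gam [Finite F] (hn : 2 ≤ n) (s : ℕ) :
    s ≤ Nat.card (UU F n ⧸ Gam F n s) := by
  classical
  have := finite_quot_Gam (F := F) (n := n) (by omega) s
  set e : Fin s → UU F n := fun m =>
    elG 0 (δ := 1 + n * (m : ℕ)) (by positivity) (not_dvd_one_add hn m) 1 with he
  have hinj : Function.Injective fun m : Fin s => ((e m : UU F n) : UU F n ⧸ Gam F n s) := by
    intro m m' hmm
    simp only at hmm
    rw [QuotientGroup.eq, inv_mul_mem_Gam] at hmm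
    by_contra hne
    have hne' : ((m : ℕ) : ℤ) ≠ (m' : ℕ) := by
      intro h
      exact hne (Fin.ext (by exact_mod_cast h))
    have h1 := hmm 0 (xb F 0) (xb_mem_MM (by simp))
    have h2 := mem_MM.1 h1 (0 - (1 + n * (m : ℕ))) (by
      have h3 : (m : ℤ) + 1 ≤ s := by exact_mod_cast m.2
      have h4 : (n : ℤ) * (m + 1) ≤ n * s := mul_le_mul_of_nonneg_left h3 (by omega)
      have h5 : (n : ℤ) * (m + 1) = n * m + n := by ring
      have h6 : (n : ℤ) * (0 - s) = -(n * s) := by ring
      omega)
    rw [he] at h2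
    simp only [elG_apply, one_smul, ← xx_eq_xb, Em_xx, sub_self, dvd_zero, if_true] at h2
    simp only [xx, Finsupp.sub_apply, Finsupp.add_apply] at h2
    rw [Finsupp.single_eq_same, Finsupp.single_apply (a := 0 - (1 + (n : ℤ) * (m' : ℕ))),
      if_neg] at h2
    · simp at h2
    · intro h
      apply hne'
      have h7 : (n : ℤ) * (m' : ℕ) = n * (m : ℕ) := by omega
      have h8 : (n : ℤ) ≠ 0 := by omega
      exact (mul_left_cancel₀ h8 h7).symm
  have := Nat.card_le_card_of_injective _ hinj
  rwa [Nat.card_eq_fintype_card, Fintype.card_fin] at this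

/-! ### The stabilisers are finite `p`-groups -/

theorem pow_eq_one {p : ℕ} [Fact p.Prime] [CharP F p] {J : Finset (Fin n)} (hJ : J.Nonempty)
    {g : UU F n} (hg : g ∈ KJ (Ki F n) J) : ∃ k : ℕ, g ^ p ^ k = 1 := by
  obtain ⟨i, hi⟩ := hJ
  have hgi := mem_KJ.1 hg i hi
  set G : Module.End F (VV F) := (g : VV F ≃ₗ[F] VV F).toLinearMap with hG
  set N : Module.End F (VV F) := G - 1 with hN
  have hNapp : ∀ v, N v = (g : VV F ≃ₗ[F] VV F) v - v := fun v => rfl
  have h1 : ∀ k : ℕ, ∀ j : ℤ, ∀ v ∈ MM F j, (N ^ k) v ∈ MM F (j - k) := by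
    intro k
    induction k with
    | zero =>
      intro j v hv
      simpa using hv
    | succ k ih =>
      intro j v hv
      rw [pow_succ, Module.End.mul_apply]
      have := ih (j - 1) (N v) (by rw [hNapp]; exact g.2.2 j v hv)
      have e : j - 1 - (k : ℤ) = j - (k + 1 : ℕ) := by push_cast; ring
      rwa [e] at this
  have h2 : ∀ k : ℕ, ∀ l : ℤ, ∀ v ∈ Lo F (i + n * l), (N ^ k) v ∈ Lo F (i + n * l) := by
    intro k l
    induction k with
    | zero =>
      intro v hv
      simpa using hv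
    | succ k ih =>
      intro v hv
      rw [pow_succ, Module.End.mul_apply]
      apply ih
      rw [hNapp]
      exact (Lo F _).sub_mem ((Ki_periodic hgi l v).2 hv) hv
  have h3 : ∀ k : ℕ, n ≤ k → N ^ k = 0 := by
    intro k hk
    apply ext_xb
    intro a
    obtain ⟨l, hl1, hl2⟩ := exists_between (n := n) i.pos i a
    have h4 := h1 k a (xb F a) (xb_mem_MM le_rfl)
    have h5 := h2 k l (xb F a) (xb_mem_Lo hl2)
    rw [Lo_inf_MM (by omega) h5 h4]
    rfl
  have hchar : CharP (Module.End F (VV F)) p := by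
    have : Nontrivial (Module.End F (VV F)) := by
      refine ⟨⟨1, 0, fun h => ?_⟩⟩
      have h6 := congrFun (congrArg DFunLike.coe h) (xb F 0)
      have h7 := congrArg (fun v : VV F => v 0) h6
      simp [xb] at h7
    exact charP_of_injective_algebraMap (algebraMap F (Module.End F (VV F))).injective p
  obtain ⟨k, hk⟩ : ∃ k : ℕ, n ≤ p ^ k :=
    ⟨n, (Nat.lt_pow_self (Fact.out : p.Prime).one_lt).le⟩
  refine ⟨k, ?_⟩
  have h6 : G ^ p ^ k = 1 := by
    have h7 : G = 1 + N := by rw [hN]; abel
    rw [h7, add_pow_char_pow_of_commute p k (Commute.one_left N), one_pow, h3 _ hk, add_zero]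
  have h8 : ∀ m : ℕ, ∀ v, ((g ^ m : UU F n) : VV F ≃ₗ[F] VV F) v = (G ^ m) v := by
    intro m
    induction m with
    | zero => intro v; rfl
    | succ m ih =>
      intro v
      rw [pow_succ, UU_mul_apply, ih, pow_succ, Module.End.mul_apply]
      rfl
  apply UU_ext
  intro a
  rw [h8, h6]
  rfl

theorem isPGroup_KJ {p : ℕ} [Fact p.Prime] [CharP F p] {J : Finset (Fin n)} (hJ : J.Nonempty) :
    IsPGroup p (KJ (Ki F n) J) := by
  intro g
  obtain ⟨k, hk⟩ := pow_eq_one (p := p) hJ g.2
  exact ⟨k, Subtype.ext (by rw [Subgroup.coe_pow, hk]; rfl)⟩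

/-- The stabilisers in `Gam s` of the faces of positive size are finite of odd order. -/
theorem stab_finite_odd {p : ℕ} [Fact p.Prime] (hp : p ≠ 2) [Finite F] [CharP F p] {k : Type*}
    [Field k] [CharP k 2] (H : Subgroup (UU F n)) (y : CFace (Ki F n)) (hy : 1 ≤ y.gr) :
    Finite (MulAction.stabilizer H y) ∧ ((Nat.card (MulAction.stabilizer H y) : ℕ) : k) ≠ 0 := by
  obtain ⟨J, g₀, rfl⟩ := CFace.exists_mk y
  have hJ : J.Nonempty := Finset.card_pos.1 hy
  have hfin := finite_KJ (F := F) hJ
  set S := MulAction.stabilizer H (CFace.mk J g₀ : CFace (Ki F n)) with hS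
  set φ : S →* UU F n :=
    (MulAut.conj g₀⁻¹).toMonoidHom.comp (H.subtype.comp S.subtype) with hφ
  have hφapp : ∀ γ : S, φ γ = g₀⁻¹ * ((γ : H) : UU F n) * g₀ := by
    intro γ
    simp [hφ]
  have hmem : ∀ γ : S, φ γ ∈ KJ (Ki F n) J := by
    intro γ
    have h1 : ((γ : H) : UU F n) • (CFace.mk J g₀ : CFace (Ki F n)) = CFace.mk J g₀ := γ.2
    rw [CFace.smul_mk] at h1
    have h2 := CFace.mk_eq_mk.1 h1.symm
    rw [hφapp, mul_assoc]
    exact h2
  have hinj : Function.Injective (φ.codRestrict (KJ (Ki F n) J) hmem) := by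
    intro γ γ' h
    have h1 : φ γ = φ γ' := congrArg Subtype.val h
    rw [hφapp, hφapp] at h1
    have h2 : ((γ : H) : UU F n) = ((γ' : H) : UU F n) := by
      have := mul_right_cancel h1
      exact mul_left_cancel this
    exact Subtype.ext (Subtype.ext h2)
  have hfS : Finite S := Finite.of_injective _ hinj
  refine ⟨hfS, ?_⟩
  have hP : IsPGroup p S := (isPGroup_KJ (p := p) hJ).of_injective _ hinj
  obtain ⟨m, hm⟩ := (IsPGroup.iff_card).1 hP
  rw [hm, Ne, CharP.cast_eq_zero_iff k 2]
  intro h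
  have h1 := (Nat.prime_two.dvd_of_dvd_pow h)
  exact hp ((Nat.prime_dvd_prime_iff_eq Nat.prime_two Fact.out).1 h1).symm

/-! ### `s = 1` -/

/-- The decomposition `K_J = (Gam 1 ∩ K_J) K_{J ∪ 0}`. -/
theorem exists_dec (hn : 0 < n) {J : Finset (Fin n)} {h : UU F n} (hh : h ∈ KJ (Ki F n) J) :
    ∃ γ ∈ Gam F n 1, ∃ h' ∈ KJ (Ki F n) (insert ⟨0, hn⟩ J), h = γ * h' := by
  classical
  set z : Fin n := ⟨0, hn⟩ with hz
  have hz0 : ((z : ℕ) : ℤ) = 0 := by simp [hz]
  set L : Submodule F (VV F) := vtx F n h z with hL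
  have hindL : ind L = 0 := by rw [hL, ind_vtx, hz0]
  have hσ : ({L} : Finset (Submodule F (VV F))) ∈ YY F n := by
    have := image_mem_YY h {z}
    rwa [Finset.image_singleton] at this
  have hF := fc_of hσ
  obtain ⟨γ, hγ, hγQ⟩ := exists_g' hF hn ⟨L, Finset.mem_singleton_self L⟩
  have hγL := hγ L (Finset.mem_singleton_self L)
  rw [hindL] at hγL
  have hγG : γ ∈ Gam F n 1 := by
    rw [mem_Gam]
    intro k x hx
    have key := map_MM (f := (γ : VV F ≃ₗ[F] VV F).toLinearMap - LinearMap.id)
      (P := MM F (n * (k - (1 : ℕ)))) (j := n * k) ?_ hx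
    · exact key
    intro a ha
    change (γ : VV F ≃ₗ[F] VV F) (xb F a) - xb F a ∈ _
    obtain ⟨_, L', hL', k', hk', h2⟩ := hγQ a
    rw [Finset.mem_singleton] at hL'
    subst hL'
    rw [hindL, zero_add] at hk' h2
    refine MM_mono ?_ h2
    have h3 : (n : ℤ) * k' < n * k := by omega
    have h4 : k' < k := lt_of_mul_lt_mul_left h3 (by omega)
    refine mul_le_mul_of_nonneg_left ?_ (by omega)
    push_cast
    omega
  -- `γ` is in `K_J`
  have hγJ : γ ∈ KJ (Ki F n) J := by
    refine mem_KJ.2 fun j hj => ?_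
    have hhj := mem_KJ.1 hh j hj
    have hinvj : h⁻¹ ∈ Ki F n j := (Ki F n j).inv_mem hhj
    refine mem_Ki_of fun a ha => ?_
    have hjn := j.2
    rcases le_or_gt a n with han | han
    · have hx : QQ n {L} a (xb F a) := by
        refine ⟨fun L' hL' k hk => ?_, L, Finset.mem_singleton_self L, 0, ?_, ?_⟩
        · rw [Finset.mem_singleton] at hL'
          subst hL'
          rw [hindL, zero_add] at hk
          have hk0 : k ≤ 0 := by
            by_contra hcon
            push Not at hcon
            have : (n : ℤ) * 1 ≤ n * k := mul_le_mul_of_nonneg_left (by omega) (by omega)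
            omega
          unfold InT
          rw [hL, mem_vtx, hz0]
          have h5 : sh F (-(n * k)) (xb F a) = xb F (a + -(n * k)) := sh_xb _ _
          rw [h5]
          have h6 : 0 ≤ (n : ℤ) * (-k) := mul_nonneg (by omega) (by omega)
          have h7 : (n : ℤ) * (-k) = -(n * k) := by ring
          have h8 : xb F (a + -(n * k)) ∈ Lo F (j : ℤ) := xb_mem_Lo (by omega)
          have h9 := (hinvj _).2 h8
          exact Lo_anti (by omega) h9
        · rw [hindL]
          omega
        · rw [sub_self]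
          exact (MM F _).zero_mem
      rw [QQ_unique hF (hγQ a) hx]
      exact xb_mem_Lo ha
    · have h1 := (hγQ a).1 L (Finset.mem_singleton_self L) 1 (by rw [hindL]; omega)
      unfold InT at h1
      rw [hL, mem_vtx, hz0] at h1
      have h2 : ((h⁻¹ : UU F n) : VV F ≃ₗ[F] VV F)
          (sh F (-(n * 1)) ((γ : VV F ≃ₗ[F] VV F) (xb F a))) ∈ Lo F ((j : ℤ) + n * (-1)) :=
        Lo_anti (by omega) h1
      have h3 := (Ki_periodic hinvj (-1) _).1 h2
      have h4 := sh_mem_Lo (F := F) (c := n) (v := sh F (-(n * 1)) ((γ : VV F ≃ₗ[F] VV F)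
        (xb F a))) (j := (j : ℤ) + n * (-1))
      rw [sh_sh] at h4
      have e1 : ((n : ℤ) + -(n * 1)) = 0 := by ring
      have e2 : ((j : ℤ) + n * (-1) + n) = j := by ring
      have e3 : ∀ w : VV F, sh F 0 w = w := by
        intro w
        ext i
        rw [GF.sh_apply, sub_zero]
      rw [e1, e2, e3] at h4
      exact h4.2 h3
  refine ⟨γ, hγG, γ⁻¹ * h, mem_KJ.2 fun j hj => ?_, by group⟩
  rcases Finset.mem_insert.1 hj with rfl | hj
  · intro v
    rw [hz0, UU_mul_apply]
    have h1 := hγL (((γ⁻¹ : UU F n) : VV F ≃ₗ[F] VV F) ((h : VV F ≃ₗ[F] VV F) v))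
    rw [UU_inv_apply] at h1
    rw [← h1, hL, mem_vtx, UU_inv_apply', hz0]
  · exact (Ki F n j).mul_mem ((Ki F n j).inv_mem (mem_KJ.1 hγJ j hj)) (mem_KJ.1 hh j hj)

section Cone

variable {k : Type*} [Field k]

/-- faces of type `J ∪ 0` over the same face of type `J` agree modulo `Gam 1` -/
theorem cone_congr (hn : 0 < n) {J : Finset (Fin n)} {g g' : UU F n}
    (hgg : g⁻¹ * g' ∈ KJ (Ki F n) J) :
    (single (CFace.mk (insert ⟨0, hn⟩ J) g' : CFace (Ki F n)) (1 : k) -
      single (CFace.mk (insert ⟨0, hn⟩ J) g) 1) ∈ Tw.tw (1 : UU F n →* k) (Gam F n 1) := by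
  obtain ⟨γ, hγ, h', hh', e⟩ := exists_dec hn hgg
  have e1 : (CFace.mk (insert ⟨0, hn⟩ J) g' : CFace (Ki F n)) =
      (g * γ * g⁻¹) • CFace.mk (insert ⟨0, hn⟩ J) g := by
    rw [CFace.smul_mk, CFace.mk_eq_mk]
    have e2 : g' = g * (γ * h') := by rw [← e]; group
    have e3 : g'⁻¹ * (g * γ * g⁻¹ * g) = h'⁻¹ := by rw [e2]; group
    rw [e3]
    exact inv_mem hh'
  rw [e1]
  have := Tw.tw_gen (1 : UU F n →* k) (H := Gam F n 1)
    ((Gam_normal 1).conj_mem γ hγ g) (CFace.mk (insert ⟨0, hn⟩ J) g : CFace (Ki F n))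
  rw [MonoidHom.one_apply, one_smul] at this
  exact this

/-- a representative of a face -/
noncomputable def rep (y : CFace (Ki F n)) : UU F n := (CFace.exists_mk y).choose_spec.choose

theorem mk_rep (y : CFace (Ki F n)) : CFace.mk y.1 (rep y) = y := by
  have h := (CFace.exists_mk y).choose_spec.choose_spec
  have h1 : y.1 = (CFace.exists_mk y).choose := by
    conv_lhs => rw [h]
    rfl
  rw [h1]
  exact h.symm

open Classical in
/-- the cone operator -/
noncomputable def hc (k : Type*) [Field k] (hn : 0 < n) :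
    (CFace (Ki F n) →₀ k) →ₗ[k] (CFace (Ki F n) →₀ k) :=
  Finsupp.linearCombination k fun y =>
    if (⟨0, hn⟩ : Fin n) ∈ y.1 then 0 else single (CFace.mk (insert ⟨0, hn⟩ y.1) (rep y)) 1

theorem hc_mem (hn : 0 < n) {J : Finset (Fin n)} (hJ : (⟨0, hn⟩ : Fin n) ∈ J) (g : UU F n) :
    hc k hn (single (CFace.mk J g) 1) = 0 := by
  rw [hc, Finsupp.linearCombination_single, if_pos, smul_zero]
  exact hJ

theorem hc_notMem (hn : 0 < n) {J : Finset (Fin n)} (hJ : (⟨0, hn⟩ : Fin n) ∉ J) (g : UU F n) :
    hc k hn (single (CFace.mk J g) 1) - single (CFace.mk (insert ⟨0, hn⟩ J) g) 1 ∈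
      Tw.tw (1 : UU F n →* k) (Gam F n 1) := by
  rw [hc, Finsupp.linearCombination_single, if_neg, one_smul]
  · refine cone_congr hn ?_
    have h1 := mk_rep (CFace.mk J g : CFace (Ki F n))
    exact CFace.mk_eq_mk.1 h1.symm
  · exact hJ

theorem hc_tw (hn : 0 < n) {c : CFace (Ki F n) →₀ k}
    (hcc : c ∈ Tw.tw (1 : UU F n →* k) (Gam F n 1)) :
    hc k hn c ∈ Tw.tw (1 : UU F n →* k) (Gam F n 1) := by
  induction hcc using Submodule.span_induction with
  | mem c h =>
    obtain ⟨g, hg, x, rfl⟩ := h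
    obtain ⟨J, h, rfl⟩ := CFace.exists_mk x
    rw [MonoidHom.one_apply, one_smul, map_sub, CFace.smul_mk]
    by_cases hJ : (⟨0, hn⟩ : Fin n) ∈ J
    · rw [hc_mem hn hJ, hc_mem hn hJ, sub_zero]
      exact zero_mem _
    · have h1 := hc_notMem (k := k) hn hJ (g * h)
      have h2 := hc_notMem (k := k) hn hJ h
      have h3 := Tw.tw_gen (1 : UU F n →* k) hg
        (CFace.mk (insert ⟨0, hn⟩ J) h : CFace (Ki F n))
      rw [MonoidHom.one_apply, one_smul, CFace.smul_mk] at h3
      have := add_mem (sub_mem h1 h2) h3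
      convert this using 1
      abel
  | zero => rw [map_zero]; exact zero_mem _
  | add a b _ _ ha hb => rw [map_add]; exact add_mem ha hb
  | smul a b _ hb => rw [map_smul]; exact Submodule.smul_mem _ _ hb

theorem hc_supported (hn : 0 < n) {m : ℕ} {c : CFace (Ki F n) →₀ k}
    (hcc : c ∈ supported k k {x : CFace (Ki F n) | x.gr = m}) :
    hc k hn c ∈ supported k k {x : CFace (Ki F n) | x.gr = m + 1} := by
  rw [Finsupp.supported_eq_span_single] at hcc
  induction hcc using Submodule.span_induction with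
  | mem c h =>
    obtain ⟨x, hx, rfl⟩ := h
    rw [hc, Finsupp.linearCombination_single, one_smul]
    split_ifs with h1
    · exact zero_mem _
    · refine Finsupp.single_mem_supported k _ ?_
      change (insert (⟨0, hn⟩ : Fin n) x.1).card = m + 1
      rw [Finset.card_insert_of_notMem h1]
      have h2 : x.1.card = m := hx
      rw [h2]
  | zero => rw [map_zero]; exact zero_mem _
  | add a b _ _ ha hb => rw [map_add]; exact add_mem ha hb
  | smul a b _ hb => rw [map_smul]; exact Submodule.smul_mem _ _ hb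

theorem homotopy (hn : 0 < n) [CharP k 2] (c : CFace (Ki F n) →₀ k) :
    cbd k (Ki F n) (hc k hn c) + hc k hn (cbd k (Ki F n) c) - c ∈
      Tw.tw (1 : UU F n →* k) (Gam F n 1) := by
  classical
  induction c using Finsupp.induction_linear with
  | zero => simp
  | add a b ha hb =>
    have := add_mem ha hb
    convert this using 1
    simp only [map_add]
    abel
  | single x a =>
    have e0 : (single x a : CFace (Ki F n) →₀ k) = a • single x 1 := by
      rw [Finsupp.smul_single, smul_eq_mul, mul_one]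
    suffices h : cbd k (Ki F n) (hc k hn (single x 1)) + hc k hn (cbd k (Ki F n) (single x 1)) -
        single x 1 ∈ Tw.tw (1 : UU F n →* k) (Gam F n 1) by
      have := Submodule.smul_mem _ a h
      convert this using 1
      rw [e0]
      simp only [map_smul, smul_sub, smul_add]
    set g := rep x with hg
    have hx : x = CFace.mk x.1 g := (mk_rep x).symm
    set J := x.1 with hJdef
    set z : Fin n := ⟨0, hn⟩ with hz
    have e1 : cbd k (Ki F n) (single x 1) =
        ∑ i ∈ J, single (CFace.mk (J.erase i) g : CFace (Ki F n)) (1 : k) := by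
      rw [cbd_single]
      refine Finset.sum_congr rfl fun i _ => ?_
      conv_lhs => rw [hx]
      rw [CFace.face_mk]
    by_cases hJ : z ∈ J
    · have e2 : hc k hn (single x 1) = 0 := by
        rw [hx]
        exact hc_mem hn hJ g
      rw [e2, map_zero, zero_add, e1, map_sum, ← Finset.add_sum_erase _ _ hJ,
        Finset.sum_eq_zero, add_zero]
      · have h1 := hc_notMem (k := k) hn (J := J.erase z) (Finset.notMem_erase z J) g
        rw [← hz, Finset.insert_erase hJ] at h1
        rw [hx]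
        exact h1
      · intro i hi
        rw [Finset.mem_erase] at hi
        exact hc_mem hn (Finset.mem_erase.2 ⟨hi.1.symm, hJ⟩) g
    · have e2 : hc k hn (single x 1) = single (CFace.mk (insert z J) g) 1 := by
        rw [hc, Finsupp.linearCombination_single, one_smul, if_neg hJ]
      have e3 : cbd k (Ki F n) (single (CFace.mk (insert z J) g) 1) = single x 1 +
          ∑ i ∈ J, single (CFace.mk (insert z (J.erase i)) g : CFace (Ki F n)) (1 : k) := by
        rw [cbd_single]
        have e4 : ((CFace.mk (insert z J) g : CFace (Ki F n)).1) = insert z J := rfl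
        rw [e4, Finset.sum_insert hJ]
        congr 1
        · rw [CFace.face_mk, Finset.erase_insert hJ, ← hx]
        · refine Finset.sum_congr rfl fun i hi => ?_
          have hiz : z ≠ i := fun h => hJ (h ▸ hi)
          rw [CFace.face_mk, Finset.erase_insert_of_ne hiz]
      rw [e2, e3, e1, map_sum]
      have e5 : single x 1 + ∑ i ∈ J, single (CFace.mk (insert z (J.erase i)) g) 1 +
          ∑ i ∈ J, hc k hn (single (CFace.mk (J.erase i) g) 1) - single x 1 =
          ∑ i ∈ J, (hc k hn (single (CFace.mk (J.erase i) g) 1) -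
            single (CFace.mk (insert z (J.erase i)) g : CFace (Ki F n)) (1 : k)) := by
        rw [Finset.sum_sub_distrib, sub_eq_add_neg (∑ i ∈ J, hc k hn _)]
        have e6 : -(∑ i ∈ J, single (CFace.mk (insert z (J.erase i)) g : CFace (Ki F n))
            (1 : k)) = ∑ i ∈ J, single (CFace.mk (insert z (J.erase i)) g) 1 := by
          rw [neg_eq_iff_add_eq_zero]
          exact add_self_zero _
        rw [e6]
        abel
      rw [e5]
      refine Submodule.sum_mem _ fun i hi => ?_
      exact hc_notMem hn (fun h => hJ (Finset.mem_of_mem_erase h)) g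

/-- **The case `s = 1`.** -/
theorem ex_one (hn : 0 < n) [CharP k 2] (m : ℕ) :
    Tw.Ex (1 : UU F n →* k) (Gam F n 1) (cbd k (Ki F n))
      {x : CFace (Ki F n) | x.gr = m} {x : CFace (Ki F n) | x.gr = m + 1} := by
  intro c hcc hdc
  refine ⟨hc k hn c, hc_supported hn hcc, ?_⟩
  have h1 := homotopy (k := k) hn c
  have h2 := hc_tw hn hdc
  have := sub_mem h2 h1
  convert this using 1
  abel

end Cone

end GF2

end Vale.Agent.P067
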