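import Vale.Agent.P067.Bridge

/-!
# P067: the quotient `Γ_s / Γ_{s+1}` is a finite elementary abelian `p`-group
-/

namespace Vale.Agent.P067.Gq

open Matrix Polynomial Key Br

variable {p : ℕ} [Fact p.Prime] {n : ℕ}

theorem coeff_of_cg {s : ℕ} {M N : Mt p n} (h : Cg (s + 1) M N) (i j : Fin n) :
    (M i j).coeff s = (N i j).coeff s := by
  obtain ⟨D, rfl⟩ := h
  rw [Matrix.add_apply, Matrix.smul_apply, smul_eq_mul, coeff_add, coeff_X_pow_mul',
    if_neg (by omega), add_zero]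

theorem coeff_std {s : ℕ} (hs : 1 ≤ s) (A : Matrix (Fin n) (Fin n) (ZMod p)) (i j : Fin n) :
    ((1 + (X ^ s : (ZMod p)[X]) • cm A : Mt p n) i j).coeff s = A i j := by
  rw [Matrix.add_apply, Matrix.smul_apply, smul_eq_mul, coeff_add, coeff_X_pow_mul',
    if_pos le_rfl, Nat.sub_self]
  have h1 : ((1 : Mt p n) i j).coeff s = 0 := by
    rw [Matrix.one_apply]
    split_ifs
    · rw [coeff_one, if_neg (by omega)]
    · simp
  rw [h1, zero_add]
  simp [cm]

/-- the coefficient matrix -/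
noncomputable def co (hn : 0 < n) (s : ℕ) (g : UU (ZMod p) n) : Matrix (Fin n) (Fin n) (ZMod p) :=
  Matrix.of fun i j => (rho hn g i j).coeff s

theorem cg_co (hn : 0 < n) {s : ℕ} (hs : 1 ≤ s) {g : UU (ZMod p) n}
    (hg : g ∈ Gam (ZMod p) n s) :
    Cg (s + 1) (rho hn g) (1 + (X ^ s : (ZMod p)[X]) • cm (co hn s g)) := by
  obtain ⟨D, hD⟩ := (mem_Gam_iff hn s g).mp hg
  have h1 := cg_const s D
  rw [← hD] at h1
  have h2 : co hn s g = D.map (eval 0) := by
    ext i j
    show (rho hn g i j).coeff s = _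
    rw [coeff_of_cg h1, coeff_std hs]
  rw [h2]
  exact h1

theorem co_mul (hn : 0 < n) {s : ℕ} (hs : 1 ≤ s) {g h : UU (ZMod p) n}
    (hg : g ∈ Gam (ZMod p) n s) (hh : h ∈ Gam (ZMod p) n s) :
    co hn s (g * h) = co hn s g + co hn s h := by
  have h1 := cg_add hs (cg_co hn hs hg) (cg_co hn hs hh)
  rw [← map_mul] at h1
  ext i j
  show (rho hn (g * h) i j).coeff s = _
  rw [coeff_of_cg h1, coeff_std hs]

theorem co_eq_zero_iff (hn : 0 < n) {s : ℕ} (hs : 1 ≤ s) {g : UU (ZMod p) n}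
    (hg : g ∈ Gam (ZMod p) n s) : co hn s g = 0 ↔ g ∈ Gam (ZMod p) n (s + 1) := by
  rw [mem_Gam_iff hn]
  constructor
  · intro h
    have h1 := cg_co hn hs hg
    rwa [h, cm_zero, smul_zero, add_zero] at h1
  · intro h
    ext i j
    show (rho hn g i j).coeff s = _
    rw [coeff_of_cg h, Matrix.one_apply]
    split_ifs
    · rw [coeff_one, if_neg (by omega)]
      rfl
    · simp

/-- the coefficient map on `Γ_s` -/
noncomputable def coFun (hn : 0 < n) (s : ℕ) (g : Gam (ZMod p) n s) :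
    Multiplicative (Matrix (Fin n) (Fin n) (ZMod p)) :=
  Multiplicative.ofAdd (co hn s (g : UU (ZMod p) n))

theorem coFun_mul (hn : 0 < n) {s : ℕ} (hs : 1 ≤ s) (g h : Gam (ZMod p) n s) :
    coFun hn s (g * h) = coFun hn s g * coFun hn s h := by
  unfold coFun
  rw [Subgroup.coe_mul, co_mul hn hs g.2 h.2, ofAdd_add]

/-- the coefficient homomorphism -/
noncomputable def coHom (hn : 0 < n) {s : ℕ} (hs : 1 ≤ s) :
    Gam (ZMod p) n s →* Multiplicative (Matrix (Fin n) (Fin n) (ZMod p)) :=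
  MonoidHom.mk' (coFun hn s) (coFun_mul hn hs)

theorem coHom_apply (hn : 0 < n) {s : ℕ} (hs : 1 ≤ s) (g : Gam (ZMod p) n s) :
    coHom hn hs g = Multiplicative.ofAdd (co hn s (g : UU (ZMod p) n)) := rfl

theorem ker_coHom (hn : 0 < n) {s : ℕ} (hs : 1 ≤ s) :
    (coHom (p := p) hn hs).ker = (Gam (ZMod p) n (s + 1)).subgroupOf (Gam (ZMod p) n s) := by
  ext g
  rw [MonoidHom.mem_ker, Subgroup.mem_subgroupOf, ← co_eq_zero_iff hn hs g.2, coHom_apply]
  exact ofAdd_eq_one

section quot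

variable (hn : 0 < n) {s : ℕ} (hs : 1 ≤ s)
  [((Gam (ZMod p) n (s + 1)).subgroupOf (Gam (ZMod p) n s)).Normal]

/-- the quotient embeds in the additive group of matrices -/
noncomputable def quotHom : (Gam (ZMod p) n s ⧸ (Gam (ZMod p) n (s + 1)).subgroupOf
    (Gam (ZMod p) n s)) →* Multiplicative (Matrix (Fin n) (Fin n) (ZMod p)) :=
  QuotientGroup.lift _ (coHom hn hs) (by
    intro g hg
    have : g ∈ (coHom (p := p) hn hs).ker := by
      rw [ker_coHom]
      exact hg
    exact this)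

theorem quotHom_injective : Function.Injective (quotHom (p := p) hn hs) := by
  rw [injective_iff_map_eq_one]
  intro a
  induction a using QuotientGroup.induction_on with
  | H g =>
    intro h
    have h1 : coHom (p := p) hn hs g = 1 := h
    have h2 : g ∈ (coHom (p := p) hn hs).ker := h1
    rw [ker_coHom] at h2
    exact (QuotientGroup.eq_one_iff g).mpr h2

include hn hs

theorem quot_comm (a b : Gam (ZMod p) n s ⧸ (Gam (ZMod p) n (s + 1)).subgroupOf
    (Gam (ZMod p) n s)) : a * b = b * a := by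
  apply quotHom_injective hn hs
  rw [map_mul, map_mul, mul_comm]

theorem quot_pow (a : Gam (ZMod p) n s ⧸ (Gam (ZMod p) n (s + 1)).subgroupOf
    (Gam (ZMod p) n s)) : a ^ p = 1 := by
  apply quotHom_injective hn hs
  rw [map_pow, map_one]
  apply Multiplicative.toAdd.injective
  rw [toAdd_pow, toAdd_one]
  ext i j
  rw [Matrix.smul_apply, nsmul_eq_mul, CharP.cast_eq_zero, zero_mul]
  rfl

theorem quot_finite : Finite (Gam (ZMod p) n s ⧸ (Gam (ZMod p) n (s + 1)).subgroupOf
    (Gam (ZMod p) n s)) := by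
  have : Finite (Multiplicative (Matrix (Fin n) (Fin n) (ZMod p))) :=
    inferInstanceAs (Finite (Matrix (Fin n) (Fin n) (ZMod p)))
  exact Finite.of_injective _ (quotHom_injective (p := p) hn hs)

theorem quot_card : ∃ e : ℕ, Nat.card (Gam (ZMod p) n s ⧸ (Gam (ZMod p) n (s + 1)).subgroupOf
    (Gam (ZMod p) n s)) = p ^ e := by
  have := quot_finite (p := p) hn hs
  have hP : IsPGroup p (Gam (ZMod p) n s ⧸ (Gam (ZMod p) n (s + 1)).subgroupOf
    (Gam (ZMod p) n s)) := fun a => ⟨1, by rw [pow_one]; exact quot_pow hn hs a⟩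
  exact IsPGroup.iff_card.1 hP

end quot

end Vale.Agent.P067.Gq
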