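import Vale.Agent.P067.Bridge
import Vale.Agent.P067.Join
import Vale.Agent.P067.TwistZ

/-!
# P067: vanishing of the coinvariants of `Γ_s` twisted by a nontrivial character

The complex `Z` of partial selections for `Tw.vanishing`, from `Key.key` and `Br.isCong`.
-/

open Finsupp

namespace Vale.Agent.P067.Zc

open Tw

variable {k : Type*} [Field k] {G : Type*} [Group G] {W ι : Type} [MulAction G W]

/-- the faces of the join -/
abbrev Fc (ty : W → ι) : Type := {z : Finset W // Set.InjOn ty (z : Set W)}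

open Classical in
/-- removal of a vertex -/
noncomputable def er {ty : W → ι} (z : Fc ty) (x : W) : Fc ty :=
  ⟨z.1.erase x, z.2.mono (by
    intro y hy
    exact Finset.mem_of_mem_erase hy)⟩

open Classical in
/-- the boundary -/
noncomputable def dZ (k : Type*) [Field k] (ty : W → ι) : (Fc ty →₀ k) →ₗ[k] (Fc ty →₀ k) :=
  Finsupp.linearCombination k fun z : Fc ty => ∑ x ∈ z.1, single (er z x) (1 : k)

theorem dZ_single {ty : W → ι} (z : Fc ty) (a : k) :
    dZ k ty (single z a) = a • ∑ x ∈ z.1, single (er z x) (1 : k) := by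
  rw [dZ, linearCombination_single]

open Classical in
/-- the action on the faces -/
noncomputable def actF {ty : W → ι} (hty : ∀ (g : G) x, ty (g • x) = ty x) (g : G)
    (z : Fc ty) : Fc ty :=
  ⟨z.1.image fun x => g • x, by
    intro a ha b hb hab
    rw [Finset.mem_coe, Finset.mem_image] at ha hb
    obtain ⟨a, ha, rfl⟩ := ha
    obtain ⟨b, hb, rfl⟩ := hb
    rw [hty, hty] at hab
    rw [z.2 ha hb hab]⟩

theorem mem_actF {ty : W → ι} (hty : ∀ (g : G) x, ty (g • x) = ty x) (g : G)
    (z : Fc ty) (x : W) : x ∈ (actF hty g z).1 ↔ ∃ y ∈ z.1, g • y = x := by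
  classical
  unfold actF
  exact Finset.mem_image

/-- the action on the faces -/
@[reducible] noncomputable def actM {ty : W → ι} (hty : ∀ (g : G) x, ty (g • x) = ty x) :
    MulAction G (Fc ty) where
  smul g z := actF hty g z
  one_smul z := by
    apply Subtype.ext
    ext x
    show x ∈ (actF hty 1 z).1 ↔ _
    rw [mem_actF]
    simp
  mul_smul g h z := by
    apply Subtype.ext
    ext x
    show x ∈ (actF hty (g * h) z).1 ↔ x ∈ (actF hty g (actF hty h z)).1
    rw [mem_actF, mem_actF]
    constructor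
    · rintro ⟨y, hy, rfl⟩
      exact ⟨h • y, (mem_actF _ _ _ _).mpr ⟨y, hy, rfl⟩, by rw [mul_smul]⟩
    · rintro ⟨y, hy, rfl⟩
      obtain ⟨w, hw, rfl⟩ := (mem_actF _ _ _ _).mp hy
      exact ⟨w, hw, by rw [mul_smul]⟩

theorem card_actF {ty : W → ι} (hty : ∀ (g : G) x, ty (g • x) = ty x) (g : G)
    (z : Fc ty) : (actF hty g z).1.card = z.1.card := by
  classical
  unfold actF
  exact Finset.card_image_of_injective _ (MulAction.injective g)

theorem er_actF {ty : W → ι} (hty : ∀ (g : G) x, ty (g • x) = ty x) (g : G)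
    (z : Fc ty) (x : W) : er (actF hty g z) (g • x) = actF hty g (er z x) := by
  classical
  apply Subtype.ext
  unfold er actF
  exact (Finset.image_erase (MulAction.injective g) _ _).symm

/-- chains on faces as chains on finite sets -/
noncomputable def emb (k : Type*) [Field k] (ty : W → ι) : (Fc ty →₀ k) →ₗ[k] (Finset W →₀ k) :=
  Finsupp.lmapDomain k k (Subtype.val : Fc ty → Finset W)

theorem emb_single {ty : W → ι} (z : Fc ty) (a : k) :
    emb k ty (single z a) = single z.1 a := by
  rw [emb, Finsupp.lmapDomain_apply, Finsupp.mapDomain_single]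

theorem emb_injective {ty : W → ι} : Function.Injective (emb k ty) :=
  Finsupp.mapDomain_injective Subtype.val_injective

open Classical in
theorem emb_dZ {ty : W → ι} (c : Fc ty →₀ k) :
    emb k ty (dZ k ty c) = Jn.bd k (emb k ty c) := by
  induction c using Finsupp.induction_linear with
  | zero => simp
  | add a b ha hb => rw [map_add, map_add, map_add, map_add, ha, hb]
  | single z a =>
    have e : (single z.1 a : Finset W →₀ k) = a • single z.1 (1 : k) := by simp
    rw [dZ_single, map_smul, map_sum, emb_single, e, map_smul, Jn.bd_single]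
    congr 1
    refine Finset.sum_congr rfl fun x _ => ?_
    rw [emb_single]
    rfl

open Classical in
theorem exists_emb {ty : W → ι} (m : ℕ) {e : Finset W →₀ k}
    (he : e ∈ supported k k {s : Finset W | Set.InjOn ty (s : Set W) ∧ s.card = m}) :
    ∃ e' ∈ supported k k {z : Fc ty | z.1.card = m}, emb k ty e' = e := by
  refine Jn.supported_induction he (P := fun e => ∃ e' ∈ supported k k {z : Fc ty | z.1.card = m},
    emb k ty e' = e) ⟨0, zero_mem _, map_zero _⟩ ?_ ?_ ?_
  · rintro a b ⟨a', ha', rfl⟩ ⟨b', hb', rfl⟩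
    exact ⟨a' + b', add_mem ha' hb', map_add _ _ _⟩
  · rintro r a ⟨a', ha', rfl⟩
    exact ⟨r • a', Submodule.smul_mem _ _ ha', map_smul _ _ _⟩
  · rintro s ⟨h1, h2⟩
    exact ⟨single ⟨s, h1⟩ 1, Finsupp.single_mem_supported k _ h2, emb_single _ _⟩

theorem emb_supported {ty : W → ι} (m : ℕ) {c : Fc ty →₀ k}
    (hc : c ∈ supported k k {z : Fc ty | z.1.card = m}) :
    emb k ty c ∈ supported k k {s : Finset W | Set.InjOn ty (s : Set W) ∧ s.card = m} := by
  rw [Finsupp.supported_eq_span_single] at hc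
  induction hc using Submodule.span_induction with
  | mem c h =>
    obtain ⟨z, hz, rfl⟩ := h
    rw [emb_single]
    exact Finsupp.single_mem_supported k _ ⟨z.2, hz⟩
  | zero => rw [map_zero]; exact zero_mem _
  | add a b _ _ ha hb => rw [map_add]; exact add_mem ha hb
  | smul a b _ hb => rw [map_smul]; exact Submodule.smul_mem _ _ hb

end Vale.Agent.P067.Zc

namespace Vale.Agent.P067

open Tw Zc

/-- **Vanishing for a nontrivial character of `Γ_s / Γ_{s+1}`.** -/
theorem gam_vanishing {p n : ℕ} [Fact p.Prime] (hn : 2 ≤ n) {s : ℕ} (hs : 1 ≤ s)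
    {k : Type*} [Field k] [CharP k 2] (hpk : (p : k) ≠ 0)
    (χ : Gam (ZMod p) n s →* k)
    (hχ1 : ∀ g : Gam (ZMod p) n s, (g : UU (ZMod p) n) ∈ Gam (ZMod p) n (s + 1) → χ g = 1)
    (hχ : ∃ g, χ g ≠ 1)
    {Y : Type*} [MulAction (Gam (ZMod p) n s) Y] {grY : Y → ℕ}
    (hgrY : ∀ (g : Gam (ZMod p) n s) y, grY (g • y) = grY y)
    {dY : (Y →₀ k) →ₗ[k] (Y →₀ k)}
    (hdY : ∀ (g : Gam (ZMod p) n s) c, dY (act k g c) = act k g (dY c))
    (hdYY : ∀ c, dY (dY c) = 0)
    (hdegY : ∀ m, ∀ c ∈ Gr k grY (m + 1), dY c ∈ Gr k grY m)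
    (hdY0 : ∀ c ∈ Gr k grY 0, dY c = 0) (D : ℕ)
    (hexY : ∀ m ≤ D, Ex (1 : Gam (ZMod p) n s →* k) (⊥ : Subgroup (Gam (ZMod p) n s)) dY
      {y | grY y = m} {y | grY y = m + 1})
    (hstY : ∀ y : Y, 1 ≤ grY y → Finite (MulAction.stabilizer (Gam (ZMod p) n s) y) ∧
      (Nat.card (MulAction.stabilizer (Gam (ZMod p) n s) y) : k) ≠ 0)
    (hY0 : ∀ (g : Gam (ZMod p) n s) y, grY y = 0 → g • y = y) :
    ∀ m ≤ D, m + 1 ≤ n → Ex χ (⊤ : Subgroup (Gam (ZMod p) n s)) dY
      {y | grY y = m} {y | grY y = m + 1} := by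
  classical
  have hn0 : 0 < n := by omega
  have hcg := Br.isCong (p := p) hn0 hs
  obtain ⟨W, actW, ty, hty, htyg, hkey⟩ := Key.key hcg hs (χ := χ)
    (fun g hg => hχ1 g ((Br.mem_Gam_iff hn0 (s + 1) _).mpr hg)) hχ (⟨0, hn0⟩ : Fin n)
  let aF := actM (G := Gam (ZMod p) n s) htyg
  have hsm : ∀ (g : Gam (ZMod p) n s) (z : Fc ty), g • z = actF htyg g z := fun _ _ => rfl
  let z0 : Fc ty := ⟨∅, by simp⟩
  intro m hm hmn
  refine vanishing χ (Z := Fc ty) (grZ := fun z => z.1.card) (grY := grY) (dZ := dZ k ty)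
    (dY := dY) ?_ hgrY ?_ hdY ?_ hdYY ?_ hdegY ?_ hdY0 (n - 2) D ?_ hexY hstY hY0 z0 rfl ?_ hχ ?_
    m hm (by omega)
  · intro g z
    rw [hsm]
    exact card_actF htyg g z
  · intro g c
    induction c using Finsupp.induction_linear with
    | zero => simp
    | add a b ha hb => rw [map_add, map_add, map_add, map_add, ha, hb]
    | single z a =>
      rw [act_single, dZ_single, dZ_single, map_smul, map_sum, hsm]
      congr 1
      have e : (actF htyg g z).1 = z.1.image fun x => g • x := by
        ext x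
        rw [mem_actF, Finset.mem_image]
      rw [e, Finset.sum_image (fun x _ y _ h => MulAction.injective g h)]
      refine Finset.sum_congr rfl fun x _ => ?_
      rw [act_single, er_actF, hsm]
  · intro c
    apply emb_injective
    rw [emb_dZ, emb_dZ, map_zero]
    exact Jn.bd_bd _
  · intro m c hc
    refine Gr_induction (P := fun c => dZ k ty c ∈ Gr k (fun z : Fc ty => z.1.card) m)
      ?_ (fun a b ha hb => ?_) (fun a b hb => ?_) (fun z hz => ?_) hc
    · show dZ k ty 0 ∈ _
      rw [map_zero]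
      exact zero_mem _
    · show dZ k ty (a + b) ∈ _
      rw [map_add]
      exact add_mem ha hb
    · show dZ k ty (a • b) ∈ _
      rw [map_smul]
      exact Submodule.smul_mem _ _ hb
    · show dZ k ty (single z 1) ∈ _
      rw [dZ_single]
      refine Submodule.smul_mem _ _ (Submodule.sum_mem _ fun x hx => single_mem_Gr ?_ 1)
      show (z.1.erase x).card = m
      have hz' : z.1.card = m + 1 := hz
      rw [Finset.card_erase_of_mem hx, hz']
      rfl
  · intro c hc
    refine Gr_induction (P := fun c => dZ k ty c = 0)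
      (by simp) (fun a b ha hb => ?_) (fun a b hb => ?_) (fun z hz => ?_) hc
    · show dZ k ty (a + b) = 0
      rw [map_add, ha, hb, add_zero]
    · show dZ k ty (a • b) = 0
      rw [map_smul, hb, smul_zero]
    · show dZ k ty (single z 1) = 0
      have hz' : z.1 = ∅ := Finset.card_eq_zero.mp hz
      rw [dZ_single, hz', Finset.sum_empty, smul_zero]
  · intro m hm c hc hdc
    rw [tw_bot, Submodule.mem_bot] at hdc
    have h1 := emb_supported m hc
    have h2 : Jn.bd k (emb k ty c) = 0 := by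
      rw [← emb_dZ, hdc, map_zero]
    have hcard : Fintype.card {i : Fin n // i ≠ ⟨0, hn0⟩} = n - 1 := by
      rw [Fintype.card_subtype_compl, Fintype.card_fin, Fintype.card_subtype_eq]
    obtain ⟨e, he, hde⟩ := Jn.join_exact ty hty m (by rw [hcard]; omega) (emb k ty c) h1 h2
    obtain ⟨e', he', rfl⟩ := exists_emb (m + 1) he
    refine ⟨e', he', ?_⟩
    rw [tw_bot, Submodule.mem_bot, sub_eq_zero]
    apply emb_injective
    rw [emb_dZ, hde]
  · intro z hz
    apply Subtype.ext
    exact Finset.card_eq_zero.mp hz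
  · intro z hz
    obtain ⟨x, hx⟩ := Finset.card_pos.mp (show 0 < z.1.card from hz)
    obtain ⟨N, hN1, hN2, hN3, hN4, hN5⟩ := hkey (z.1 : Set W) ⟨x, hx⟩ z.2
    refine ⟨N, ?_, ?_, locInv_of_comm hpk N hN3 hN4, hN5⟩
    · intro g hg
      rw [MulAction.mem_stabilizer_iff, hsm]
      apply Subtype.ext
      ext y
      rw [mem_actF]
      constructor
      · rintro ⟨w, hw, rfl⟩
        rw [hN1 g hg w hw]
        exact hw
      · intro hy
        exact ⟨y, hy, hN1 g hg y hy⟩
    · intro g hg m hm
      refine hN2 g ?_ m hm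
      intro y hy
      rw [MulAction.mem_stabilizer_iff, hsm] at hg
      have h1 : g • y ∈ (actF htyg g z).1 := (mem_actF _ _ _ _).mpr ⟨y, hy, rfl⟩
      rw [hg] at h1
      exact z.2 h1 hy (htyg g y)

end Vale.Agent.P067
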