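import Mathlib

/-!
P067, part (A): chains of finite sets over a ring of characteristic two (no signs).
-/

namespace Vale.Agent.P067.Gap

open Finset Classical

section Chains

variable {k : Type*} [CommRing k] {α : Type*}

/-- chains: finitely supported functions on finite sets -/
abbrev Ch (k : Type*) [CommRing k] (α : Type*) := Finset α →₀ k

/-- boundary (augmented; no signs) -/
noncomputable def bd : Ch k α →ₗ[k] Ch k α :=
  Finsupp.linearCombination k (fun s : Finset α => ∑ x ∈ s, Finsupp.single (s.erase x) (1 : k))

/-- cone with vertex `x` -/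
noncomputable def jn (x : α) : Ch k α →ₗ[k] Ch k α :=
  Finsupp.linearCombination k
    (fun s : Finset α => if x ∈ s then 0 else Finsupp.single (insert x s) (1 : k))

/-- link at `x` -/
noncomputable def lk (x : α) : Ch k α →ₗ[k] Ch k α :=
  Finsupp.linearCombination k
    (fun s : Finset α => if x ∈ s then Finsupp.single (s.erase x) (1 : k) else 0)

/-- part of the chain without `x` -/
noncomputable def dl (x : α) : Ch k α →ₗ[k] Ch k α :=
  Finsupp.linearCombination k
    (fun s : Finset α => if x ∈ s then 0 else Finsupp.single s (1 : k))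

theorem bd_single (s : Finset α) :
    bd (Finsupp.single s (1 : k)) = ∑ x ∈ s, Finsupp.single (s.erase x) (1 : k) := by
  simp [bd]

theorem jn_single (x : α) (s : Finset α) :
    jn x (Finsupp.single s (1 : k)) = if x ∈ s then 0 else Finsupp.single (insert x s) (1 : k) := by
  simp [jn]

theorem lk_single (x : α) (s : Finset α) :
    lk x (Finsupp.single s (1 : k)) = if x ∈ s then Finsupp.single (s.erase x) (1 : k) else 0 := by
  simp [lk]

theorem dl_single (x : α) (s : Finset α) :
    dl x (Finsupp.single s (1 : k)) = if x ∈ s then 0 else Finsupp.single s (1 : k) := by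
  simp [dl]

theorem lin_ext {M : Type*} [AddCommMonoid M] [Module k M] {f g : Ch k α →ₗ[k] M}
    (h : ∀ s : Finset α, f (Finsupp.single s (1 : k)) = g (Finsupp.single s (1 : k))) : f = g := by
  apply Finsupp.lhom_ext'
  intro s
  apply LinearMap.ext_ring
  simpa using h s

variable [CharP k 2]

theorem add_self_ch (c : Ch k α) : c + c = 0 := by
  ext s
  simpa using CharTwo.add_self_eq_zero (c s)

theorem bd_jn_add (x : α) (c : Ch k α) : bd (jn x c) + jn x (bd c) = c := by
  have h : (bd ∘ₗ jn x + jn x ∘ₗ bd : Ch k α →ₗ[k] Ch k α) = LinearMap.id := by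
    apply lin_ext
    intro s
    simp only [LinearMap.add_apply, LinearMap.comp_apply, LinearMap.id_apply, bd_single, jn_single,
      map_sum]
    by_cases hx : x ∈ s
    · simp only [hx, if_true, map_zero, zero_add]
      rw [Finset.sum_eq_single x]
      · simp [Finset.insert_erase hx]
      · intro b _ hbx
        have : x ∈ s.erase b := Finset.mem_erase.2 ⟨fun h => hbx h.symm, hx⟩
        simp [this]
      · intro h; exact absurd hx h
    · simp only [hx, if_false, bd_single]
      rw [Finset.sum_insert hx, Finset.erase_insert hx, add_assoc]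
      have : ∀ y ∈ s, (Finsupp.single ((insert x s).erase y) (1 : k) : Ch k α) =
          (if x ∈ s.erase y then 0 else Finsupp.single (insert x (s.erase y)) (1 : k)) := by
        intro y hy
        have h1 : x ∉ s.erase y := fun h => hx (Finset.mem_of_mem_erase h)
        have h2 : x ≠ y := fun h => hx (h ▸ hy)
        rw [if_neg h1, Finset.erase_insert_of_ne h2]
      rw [Finset.sum_congr rfl this, add_self_ch, add_zero]
  exact LinearMap.congr_fun h c

theorem bd_jn (x : α) (c : Ch k α) : bd (jn x c) = c + jn x (bd c) := by
  have h := bd_jn_add x c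
  calc bd (jn x c) = (bd (jn x c) + jn x (bd c)) + jn x (bd c) := by
        rw [add_assoc, add_self_ch, add_zero]
    _ = _ := by rw [h]

omit [CharP k 2] in
theorem dl_add_jn_lk (x : α) (c : Ch k α) : dl x c + jn x (lk x c) = c := by
  have h : (dl x + jn x ∘ₗ lk x : Ch k α →ₗ[k] Ch k α) = LinearMap.id := by
    apply lin_ext
    intro s
    simp only [LinearMap.add_apply, LinearMap.comp_apply, LinearMap.id_apply, dl_single, lk_single]
    by_cases hx : x ∈ s
    · simp [hx, jn_single, Finset.insert_erase hx]
    · simp [hx]
  exact LinearMap.congr_fun h c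

omit [CharP k 2] in
theorem bd_lk (x : α) (c : Ch k α) : bd (lk x c) = lk x (bd c) := by
  have h : (bd ∘ₗ lk x : Ch k α →ₗ[k] Ch k α) = lk x ∘ₗ bd := by
    apply lin_ext
    intro s
    simp only [LinearMap.comp_apply, lk_single, bd_single, map_sum]
    by_cases hx : x ∈ s
    · simp only [hx, if_true, bd_single]
      rw [← Finset.add_sum_erase s _ hx]
      have h0 : ¬ x ∈ s.erase x := Finset.notMem_erase x s
      rw [if_neg h0, zero_add]
      refine Finset.sum_congr rfl ?_
      intro y hy
      have hy' := Finset.mem_erase.1 hy
      have : x ∈ s.erase y := Finset.mem_erase.2 ⟨fun h => hy'.1 h.symm, hx⟩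
      rw [if_pos this, Finset.erase_right_comm]
    · simp only [hx, if_false, map_zero]
      symm
      refine Finset.sum_eq_zero ?_
      intro y _
      have : ¬ x ∈ s.erase y := fun h => hx (Finset.mem_of_mem_erase h)
      rw [if_neg this]
  exact LinearMap.congr_fun h c

theorem bd_bd (c : Ch k α) : bd (bd c) = 0 := by
  have h : (bd ∘ₗ bd : Ch k α →ₗ[k] Ch k α) = 0 := by
    apply lin_ext
    intro s
    simp only [LinearMap.comp_apply, LinearMap.zero_apply]
    induction s using Finset.induction_on with
    | empty => simp [bd_single]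
    | insert x s hx ih =>
      have h1 : (Finsupp.single (insert x s) (1 : k) : Ch k α) = jn x (Finsupp.single s 1) := by
        rw [jn_single, if_neg hx]
      rw [h1, bd_jn, map_add, bd_jn, ih]
      simp [add_self_ch]
  exact LinearMap.congr_fun h c

/-- elimination of a vertex: new cycle -/
theorem elim_cycle (x : α) (z c : Ch k α) (hz : bd z = 0) (hc : bd c = lk x z) :
    bd (dl x z + c) = 0 := by
  have h1 : dl x z + c = z + bd (jn x c) := by
    rw [bd_jn, hc]
    nth_rewrite 2 [← dl_add_jn_lk x z]
    calc dl x z + c = dl x z + c + (jn x (lk x z) + jn x (lk x z)) := by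
          rw [add_self_ch, add_zero]
      _ = _ := by abel
  rw [h1, map_add, hz, bd_bd, add_zero]

/-- elimination of a vertex: filling -/
theorem elim_fill (x : α) (z c c1 : Ch k α) (hc : bd c = lk x z) (h1 : bd c1 = dl x z + c) :
    bd (c1 + jn x c) = z := by
  rw [map_add, h1, bd_jn, hc]
  nth_rewrite 3 [← dl_add_jn_lk x z]
  calc dl x z + c + (c + jn x (lk x z)) = dl x z + jn x (lk x z) + (c + c) := by abel
    _ = _ := by rw [add_self_ch, add_zero]

end Chains

section Supp

variable {k : Type*} [CommRing k] {α : Type*}

/-- all faces of the chain satisfy `P` -/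
def On (P : Finset α → Prop) (c : Ch k α) : Prop := ∀ s ∈ c.support, P s

theorem On.mono {P Q : Finset α → Prop} {c : Ch k α} (h : On P c) (hPQ : ∀ s, P s → Q s) :
    On Q c := fun s hs => hPQ s (h s hs)

theorem On.and {P Q : Finset α → Prop} {c : Ch k α} (h : On P c) (h' : On Q c) :
    On (fun s => P s ∧ Q s) c := fun s hs => ⟨h s hs, h' s hs⟩

theorem On.add {P : Finset α → Prop} {c c' : Ch k α} (h : On P c) (h' : On P c') :
    On P (c + c') := by
  intro s hs
  rcases Finset.mem_union.1 (Finsupp.support_add hs) with h1 | h1
  · exact h s h1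
  · exact h' s h1

theorem On.zero {P : Finset α → Prop} : On P (0 : Ch k α) := by
  intro s hs; simp at hs

theorem On.single {P : Finset α → Prop} {s : Finset α} (h : P s) (a : k) :
    On P (Finsupp.single s a) := by
  intro t ht
  have := Finsupp.support_single_subset ht
  rw [Finset.mem_singleton] at this
  exact this ▸ h

theorem On.sum {P : Finset α → Prop} {ι : Type*} {S : Finset ι} {f : ι → Ch k α}
    (h : ∀ i ∈ S, On P (f i)) : On P (∑ i ∈ S, f i) := by
  induction S using Finset.induction_on with
  | empty => simpa using On.zero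
  | insert a S ha ih =>
    rw [Finset.sum_insert ha]
    exact On.add (h a (Finset.mem_insert_self a S)) (ih fun i hi => h i (Finset.mem_insert_of_mem hi))

theorem On.smul {P : Finset α → Prop} {c : Ch k α} (h : On P c) (a : k) : On P (a • c) := by
  intro s hs
  exact h s (Finsupp.support_smul hs)

theorem On.lc {P Q : Finset α → Prop} {f : Finset α → Ch k α} {c : Ch k α} (h : On P c)
    (hf : ∀ s, P s → On Q (f s)) : On Q (Finsupp.linearCombination k f c) := by
  rw [Finsupp.linearCombination_apply, Finsupp.sum]
  exact On.sum fun s hs => (hf s (h s hs)).smul _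

theorem On.bd {P Q : Finset α → Prop} {c : Ch k α} (h : On P c)
    (hf : ∀ s, P s → ∀ x ∈ s, Q (s.erase x)) : On Q (bd c) := by
  refine h.lc ?_
  intro s hs
  exact On.sum fun x hx => On.single (hf s hs x hx) 1

theorem On.jn {P Q : Finset α → Prop} {c : Ch k α} {x : α} (h : On P c)
    (hf : ∀ s, P s → x ∉ s → Q (insert x s)) : On Q (jn x c) := by
  refine h.lc ?_
  intro s hs
  by_cases hx : x ∈ s
  · simpa [hx] using On.zero
  · simpa [hx] using On.single (hf s hs hx) (1 : k)

theorem On.lk {P Q : Finset α → Prop} {c : Ch k α} {x : α} (h : On P c)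
    (hf : ∀ s, P s → x ∈ s → Q (s.erase x)) : On Q (lk x c) := by
  refine h.lc ?_
  intro s hs
  by_cases hx : x ∈ s
  · simpa [hx] using On.single (hf s hs hx) (1 : k)
  · simpa [hx] using On.zero

theorem On.dl {P Q : Finset α → Prop} {c : Ch k α} {x : α} (h : On P c)
    (hf : ∀ s, P s → x ∉ s → Q s) : On Q (dl x c) := by
  refine h.lc ?_
  intro s hs
  by_cases hx : x ∈ s
  · simpa [hx] using On.zero
  · simpa [hx] using On.single (hf s hs hx) (1 : k)

theorem card_add (c c' : Ch k α) : (c + c').support.card ≤ c.support.card + c'.support.card :=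
  (Finset.card_le_card Finsupp.support_add).trans (Finset.card_union_le _ _)

theorem supp_lc (f : Finset α → Ch k α) (c : Ch k α) :
    (Finsupp.linearCombination k f c).support ⊆ c.support.biUnion fun s => (f s).support := by
  rw [Finsupp.linearCombination_apply, Finsupp.sum]
  intro t ht
  have h1 : On (fun u => u ∈ c.support.biUnion fun s => (f s).support)
      (∑ a ∈ c.support, c a • f a) := by
    refine On.sum ?_
    intro s hs
    refine On.smul ?_ _
    intro u hu
    exact Finset.mem_biUnion.2 ⟨s, hs, hu⟩
  exact h1 t ht

theorem card_lc (f : Finset α → Ch k α) (hf : ∀ s, (f s).support.card ≤ 1) (c : Ch k α) :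
    (Finsupp.linearCombination k f c).support.card ≤ c.support.card := by
  refine (Finset.card_le_card (supp_lc f c)).trans ?_
  refine Finset.card_biUnion_le.trans ?_
  calc ∑ s ∈ c.support, (f s).support.card ≤ ∑ s ∈ c.support, 1 :=
        Finset.sum_le_sum fun s _ => hf s
    _ = c.support.card := by simp

theorem card_single_le (s : Finset α) (a : k) : (Finsupp.single s a : Ch k α).support.card ≤ 1 :=
  (Finset.card_le_card Finsupp.support_single_subset).trans (by simp)

theorem card_jn (x : α) (c : Ch k α) : (jn x c).support.card ≤ c.support.card := by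
  refine card_lc _ ?_ c
  intro s
  by_cases hx : x ∈ s
  · simp [hx]
  · simpa [hx] using card_single_le (k := k) (insert x s) 1

theorem card_lk (x : α) (c : Ch k α) : (lk x c).support.card ≤ c.support.card := by
  refine card_lc _ ?_ c
  intro s
  by_cases hx : x ∈ s
  · simpa [hx] using card_single_le (k := k) (s.erase x) 1
  · simp [hx]

/-- the number of faces without `x` and of faces with `x` add up -/
theorem card_dl_lk (x : α) (c : Ch k α) :
    (dl x c).support.card + (lk x c).support.card ≤ c.support.card := by
  have h1 : (dl x c).support ⊆ c.support.filter (fun s => x ∉ s) := by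
    intro t ht
    have h := supp_lc _ c ht
    obtain ⟨s, hs, hts⟩ := Finset.mem_biUnion.1 h
    by_cases hx : x ∈ s
    · simp [hx] at hts
    · rw [if_neg hx] at hts
      have := Finsupp.support_single_subset hts
      rw [Finset.mem_singleton] at this
      subst this
      exact Finset.mem_filter.2 ⟨hs, hx⟩
  have h2 : (lk x c).support ⊆ (c.support.filter (fun s => ¬ x ∉ s)).image (fun s => s.erase x) := by
    intro t ht
    have h := supp_lc _ c ht
    obtain ⟨s, hs, hts⟩ := Finset.mem_biUnion.1 h
    by_cases hx : x ∈ s
    · rw [if_pos hx] at hts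
      have := Finsupp.support_single_subset hts
      rw [Finset.mem_singleton] at this
      subst this
      exact Finset.mem_image.2 ⟨s, Finset.mem_filter.2 ⟨hs, by simpa using hx⟩, rfl⟩
    · simp [hx] at hts
  calc (dl x c).support.card + (lk x c).support.card
      ≤ (c.support.filter (fun s => x ∉ s)).card + (c.support.filter (fun s => ¬ x ∉ s)).card :=
        Nat.add_le_add (Finset.card_le_card h1)
          ((Finset.card_le_card h2).trans Finset.card_image_le)
    _ = c.support.card := Finset.card_filter_add_card_filter_not _

/-- vertices of a chain -/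
noncomputable def vs (c : Ch k α) : Finset α := c.support.biUnion id

theorem card_vs {c : Ch k α} {m : ℕ} (h : On (fun s => s.card ≤ m) c) :
    (vs c).card ≤ c.support.card * m := by
  refine Finset.card_biUnion_le.trans ?_
  calc ∑ s ∈ c.support, (id s : Finset α).card ≤ ∑ _s ∈ c.support, m :=
        Finset.sum_le_sum fun s hs => h s hs
    _ = c.support.card * m := by simp

end Supp

end Vale.Agent.P067.Gap
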