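import Vale.Agent.P067.GapMain

/-!
P067, part (A): cone functions of bounded size.
-/

namespace Vale.Agent.P067.Gap

open Finset Classical

/-- number of faces of the cone over a face of size `s` -/
def Cc : ℕ → ℕ
  | 0 => Phi 0 1
  | s + 1 => max (Cc s) (Phi (s + 1) (1 + (s + 1) * Cc s))

/-- size of the field needed -/
def Cp : ℕ → ℕ
  | 0 => PhiP 0 1
  | s + 1 => max (Cp s) (PhiP (s + 1) (1 + (s + 1) * Cc s))

/-- linear extension -/
noncomputable def ext {k : Type*} [CommRing k] {α : Type*} (h : Finset α → Ch k α) :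
    Ch k α →ₗ[k] Ch k α := Finsupp.linearCombination k h

theorem ext_single {k : Type*} [CommRing k] {α : Type*} (h : Finset α → Ch k α)
    (σ : Finset α) : ext h (Finsupp.single σ (1 : k)) = h σ := by
  simp [ext]

/-- cone function on the complex `C`, for faces of size at most `S` -/
structure IsCone {k : Type*} [CommRing k] {α : Type*} (C : Finset α → Prop) (S N : ℕ)
    (h : Finset α → Ch k α) : Prop where
  on : ∀ σ, C σ → σ.card ≤ S → On (fun τ => C τ ∧ τ.card = σ.card + 1) (h σ)
  card : ∀ σ, C σ → σ.card ≤ S → (h σ).support.card ≤ N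
  cone : ∀ σ, C σ → σ.card ≤ S →
    bd (h σ) + ∑ x ∈ σ, h (σ.erase x) = Finsupp.single σ (1 : k)

section

variable {k : Type*} [CommRing k] [CharP k 2] {α : Type*}

/-- the homotopy formula for chains -/
theorem IsCone.formula {C : Finset α → Prop} {S N : ℕ} {h : Finset α → Ch k α}
    (H : IsCone C S N h) {c : Ch k α} (hc : On (fun σ => C σ ∧ σ.card ≤ S) c) :
    bd (ext h c) + ext h (bd c) = c := by
  have h1 : c = ∑ σ ∈ c.support, c σ • Finsupp.single σ (1 : k) := by
    conv_lhs => rw [← Finsupp.sum_single c]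
    rw [Finsupp.sum]
    refine Finset.sum_congr rfl fun σ _ => ?_
    rw [Finsupp.smul_single, smul_eq_mul, mul_one]
  have h2 : ∀ σ ∈ c.support, bd (ext h (Finsupp.single σ (1 : k))) +
      ext h (bd (Finsupp.single σ (1 : k))) = Finsupp.single σ (1 : k) := by
    intro σ hσ
    obtain ⟨h3, h4⟩ := hc σ hσ
    rw [ext_single, bd_single, map_sum]
    simp only [ext_single]
    exact H.cone σ h3 h4
  calc bd (ext h c) + ext h (bd c)
      = ∑ σ ∈ c.support, c σ • (bd (ext h (Finsupp.single σ (1 : k))) +
          ext h (bd (Finsupp.single σ (1 : k)))) := by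
        conv_lhs => rw [h1]
        simp only [map_sum, map_smul, smul_add, Finset.sum_add_distrib]
    _ = ∑ σ ∈ c.support, c σ • Finsupp.single σ (1 : k) :=
        Finset.sum_congr rfl fun σ hσ => by rw [h2 σ hσ]
    _ = c := h1.symm

/-- exactness from a cone function (no bound on the number of faces) -/
theorem IsCone.exact {C : Finset α → Prop} {S N : ℕ} {h : Finset α → Ch k α}
    (H : IsCone C S N h) {s : ℕ} (hs : s ≤ S) {c : Ch k α}
    (hc : On (fun σ => C σ ∧ σ.card = s) c) (hz : bd c = 0) :
    ∃ b : Ch k α, On (fun σ => C σ ∧ σ.card = s + 1) b ∧ bd b = c := by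
  refine ⟨ext h c, ?_, ?_⟩
  · refine On.lc hc ?_
    rintro σ ⟨h1, h2⟩
    exact (H.on σ h1 (by omega)).mono fun τ h3 => ⟨h3.1, by rw [h3.2, h2]⟩
  · have h1 := H.formula (hc.mono fun σ h => ⟨h.1, by rw [h.2]; exact hs⟩)
    rwa [hz, map_zero, add_zero] at h1

theorem card_sum_le {ι : Type*} (T : Finset ι) (f : ι → Ch k α) (n : ℕ)
    (h : ∀ i ∈ T, (f i).support.card ≤ n) : (∑ i ∈ T, f i).support.card ≤ T.card * n := by
  induction T using Finset.induction_on with
  | empty => simp
  | insert a T ha ih =>
    rw [Finset.sum_insert ha, Finset.card_insert_of_notMem ha]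
    calc _ ≤ (f a).support.card + (∑ i ∈ T, f i).support.card := card_add _ _
      _ ≤ n + T.card * n := Nat.add_le_add (h a (Finset.mem_insert_self a T))
          (ih fun i hi => h i (Finset.mem_insert_of_mem hi))
      _ = _ := by ring

/-- cone functions from bounded fillings (abstract) -/
theorem cone_of_fill {C : Finset α → Prop} (hC : ∀ σ x, C σ → C (σ.erase x)) (S : ℕ)
    (Ph PhP : ℕ → ℕ → ℕ) (q : ℕ)
    (hfill : ∀ s ≤ S, ∀ (N : ℕ) (z : Ch k α), bd z = 0 → On (fun σ => C σ ∧ σ.card = s) z →
      z.support.card ≤ N → PhP s N ≤ q →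
      ∃ c : Ch k α, bd c = z ∧ On (fun σ => C σ ∧ σ.card = s + 1) c ∧ c.support.card ≤ Ph s N)
    (Cn : ℕ → ℕ) (hC0 : Ph 0 1 ≤ Cn 0) (hP0 : PhP 0 1 ≤ q)
    (hCs : ∀ s, s + 1 ≤ S → Cn s ≤ Cn (s + 1) ∧ Ph (s + 1) (1 + (s + 1) * Cn s) ≤ Cn (s + 1))
    (hPs : ∀ s, s + 1 ≤ S → PhP (s + 1) (1 + (s + 1) * Cn s) ≤ q) :
    ∃ h : Finset α → Ch k α, IsCone C S (Cn S) h := by
  have key : ∀ s ≤ S, ∃ h : Finset α → Ch k α, IsCone C s (Cn s) h := by
    intro s
    induction s with
    | zero =>
      intro _
      by_cases h0 : C ∅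
      · obtain ⟨c, h1, h2, h3⟩ := hfill 0 (Nat.zero_le _) 1 (Finsupp.single ∅ (1 : k))
          (by rw [bd_single]; simp) (On.single ⟨h0, rfl⟩ 1) (card_single_le _ _) hP0
        refine ⟨fun _ => c, ?_, ?_, ?_⟩
        · intro σ hσ hσ0
          have : σ = ∅ := Finset.card_eq_zero.1 (by omega)
          subst this
          simpa using h2
        · intro σ _ _
          exact h3.trans hC0
        · intro σ hσ hσ0
          have : σ = ∅ := Finset.card_eq_zero.1 (by omega)
          subst this
          simpa using h1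
      · refine ⟨fun _ => 0, ?_, ?_, ?_⟩
        all_goals
          intro σ hσ hσ0
          have : σ = ∅ := Finset.card_eq_zero.1 (by omega)
          subst this
          exact absurd hσ h0
    | succ s ih =>
      intro hs
      obtain ⟨h, H⟩ := ih (by omega)
      have hex : ∀ σ : Finset α, C σ → σ.card = s + 1 → ∃ c : Ch k α,
          bd c = Finsupp.single σ 1 + ∑ x ∈ σ, h (σ.erase x) ∧
          On (fun τ => C τ ∧ τ.card = s + 1 + 1) c ∧
          c.support.card ≤ Ph (s + 1) (1 + (s + 1) * Cn s) := by
        intro σ hσ hcard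
        have hfaces : On (fun τ => C τ ∧ τ.card ≤ s) (bd (Finsupp.single σ (1 : k))) := by
          have h1 : On (fun τ => C τ ∧ τ.card = s + 1) (Finsupp.single σ (1 : k)) :=
            On.single ⟨hσ, hcard⟩ 1
          refine h1.bd ?_
          rintro τ ⟨h2, h3⟩ x hx
          refine ⟨hC τ x h2, ?_⟩
          rw [Finset.card_erase_of_mem hx]; omega
        have hext : ext h (bd (Finsupp.single σ (1 : k))) = ∑ x ∈ σ, h (σ.erase x) := by
          rw [bd_single, map_sum]
          exact Finset.sum_congr rfl fun x _ => ext_single h _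
        refine hfill (s + 1) hs (1 + (s + 1) * Cn s)
          (Finsupp.single σ 1 + ∑ x ∈ σ, h (σ.erase x)) ?_ ?_ ?_ (hPs s hs)
        · rw [← hext, map_add]
          have h1 := H.formula hfaces
          rw [bd_bd, map_zero, add_zero] at h1
          rw [h1, add_self_ch]
        · refine (On.single ⟨hσ, hcard⟩ 1).add (On.sum ?_)
          intro x hx
          have h2 : (σ.erase x).card = s := by rw [Finset.card_erase_of_mem hx]; omega
          have := H.on (σ.erase x) (hC σ x hσ) (by omega)
          rw [h2] at this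
          exact this
        · calc _ ≤ (Finsupp.single σ (1 : k) : Ch k α).support.card +
                (∑ x ∈ σ, h (σ.erase x)).support.card := card_add _ _
            _ ≤ 1 + (s + 1) * Cn s := by
              refine Nat.add_le_add (card_single_le _ _) ?_
              have := card_sum_le σ (fun x => h (σ.erase x)) (Cn s) (by
                intro x hx
                have h2 : (σ.erase x).card = s := by rw [Finset.card_erase_of_mem hx]; omega
                exact H.card (σ.erase x) (hC σ x hσ) (by omega))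
              rwa [hcard] at this
      let h' : Finset α → Ch k α := fun σ =>
        if hh : C σ ∧ σ.card = s + 1 then (hex σ hh.1 hh.2).choose else h σ
      have h'1 : ∀ σ, (hh : C σ ∧ σ.card = s + 1) → h' σ = (hex σ hh.1 hh.2).choose :=
        fun σ hh => dif_pos hh
      have h'2 : ∀ σ, σ.card ≤ s → h' σ = h σ := by
        intro σ hσ
        exact dif_neg (fun hh => by omega)
      refine ⟨h', ?_, ?_, ?_⟩
      · intro σ hσ hc
        by_cases hc' : σ.card = s + 1
        · rw [h'1 σ ⟨hσ, hc'⟩]
          exact (hex σ hσ hc').choose_spec.2.1.mono fun τ h => ⟨h.1, by rw [h.2, hc']⟩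
        · rw [h'2 σ (by omega)]
          exact H.on σ hσ (by omega)
      · intro σ hσ hc
        by_cases hc' : σ.card = s + 1
        · rw [h'1 σ ⟨hσ, hc'⟩]
          exact (hex σ hσ hc').choose_spec.2.2.trans (hCs s hs).2
        · rw [h'2 σ (by omega)]
          exact (H.card σ hσ (by omega)).trans (hCs s hs).1
      · intro σ hσ hc
        by_cases hc' : σ.card = s + 1
        · have h5 : ∑ x ∈ σ, h' (σ.erase x) = ∑ x ∈ σ, h (σ.erase x) := by
            refine Finset.sum_congr rfl fun x hx => h'2 _ ?_
            rw [Finset.card_erase_of_mem hx]; omega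
          rw [h'1 σ ⟨hσ, hc'⟩, (hex σ hσ hc').choose_spec.1, h5, add_assoc, add_self_ch, add_zero]
        · have h5 : ∑ x ∈ σ, h' (σ.erase x) = ∑ x ∈ σ, h (σ.erase x) := by
            refine Finset.sum_congr rfl fun x hx => h'2 _ ?_
            rw [Finset.card_erase_of_mem hx]; omega
          rw [h'2 σ (by omega), h5]
          exact H.cone σ hσ (by omega)
  exact key S le_rfl

end

theorem Cc_mono (s : ℕ) : Cc s ≤ Cc (s + 1) := le_max_left _ _

theorem Cp_mono {s t : ℕ} (h : s ≤ t) : Cp s ≤ Cp t := by
  induction t, h using Nat.le_induction with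
  | base => exact le_rfl
  | succ t _ ih => exact ih.trans (le_max_left _ _)

/-- **Cone functions** for a complex with one gap of length at least `S + 2`:
faces of size at most `S` have cones with at most `Cc S` faces, if the field has at least `Cp S`
elements. -/
theorem exists_cone {K V : Type*} [Field K] [Fintype K] [AddCommGroup V] [Module K V]
    {α : Type*} {e : Submodule K V → α} {P : Submodule K V → Prop} {R : Finset α → Prop}
    {k : Type*} [CommRing k] [CharP k 2] (E : Env e P R) {A B : Submodule K V} {g : ℕ}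
    {F : ℕ → Submodule K V} (hF : Flag A B g F) (hP : ∀ X, GV A B g F X → P X) (S : ℕ)
    (hg : S + 2 ≤ g) (hK : Cp S ≤ Fintype.card K) :
    ∃ h : Finset α → Ch k α, IsCone (Cx e P R A B g F) S (Cc S) h := by
  refine cone_of_fill (fun σ x h => h.erase E x) S Phi PhiP (Fintype.card K) ?_ Cc le_rfl
    ((Cp_mono (Nat.zero_le S)).trans hK) ?_ ?_
  · intro s hs N z hz hC hN hq
    exact fill E s A B g F hF hP (by omega) N z hz hC hN hq
  · intro s _
    exact ⟨Cc_mono s, le_max_right _ _⟩
  · intro s hs
    exact ((le_max_right _ _).trans (Cp_mono hs)).trans hK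

/-- **Exactness** of a complex with one gap of length at least `S + 2`, in sizes at most `S`. -/
theorem exact_gap {K V : Type*} [Field K] [Fintype K] [AddCommGroup V] [Module K V]
    {α : Type*} {e : Submodule K V → α} {P : Submodule K V → Prop} {R : Finset α → Prop}
    {k : Type*} [CommRing k] [CharP k 2] (E : Env e P R) {A B : Submodule K V} {g : ℕ}
    {F : ℕ → Submodule K V} (hF : Flag A B g F) (hP : ∀ X, GV A B g F X → P X) (S : ℕ)
    (hg : S + 2 ≤ g) (hK : Cp S ≤ Fintype.card K) {s : ℕ} (hs : s ≤ S) {c : Ch k α}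
    (hc : On (fun σ => Cx e P R A B g F σ ∧ σ.card = s) c) (hz : bd c = 0) :
    ∃ b : Ch k α, On (fun σ => Cx e P R A B g F σ ∧ σ.card = s + 1) b ∧ bd b = c := by
  obtain ⟨h, H⟩ := exists_cone (k := k) E hF hP S hg hK
  exact H.exact hs hc hz

end Vale.Agent.P067.Gap
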