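import Vale.Agent.P067.GapFill

/-!
P067, part (A): fillings of cycles in a complex with one big gap.
-/

namespace Vale.Agent.P067.Gap

open Finset Classical

section Cx

variable {K V : Type*} [Field K] [AddCommGroup V] [Module K V]
variable {α : Type*}

/-- environment: vertices of the gap are `e X`, everything else is in `R` -/
structure Env (e : Submodule K V → α) (P : Submodule K V → Prop) (R : Finset α → Prop) :
    Prop where
  inj : ∀ X Y, P X → P Y → e X = e Y → X = Y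
  er : ∀ σ x, R σ → R (σ.erase x)
  ins : ∀ σ X, P X → R σ → R (insert (e X) σ)

/-- vertices of the gap: generic elements of codimension `1, ..., g-1` -/
def GV (A B : Submodule K V) (g : ℕ) (F : ℕ → Submodule K V) (X : Submodule K V) : Prop :=
  ∃ r, 1 ≤ r ∧ r < g ∧ Gen A B F r X

/-- faces: a chain of generic elements of the gap, and an arbitrary rest in `R` -/
structure Cx (e : Submodule K V → α) (P : Submodule K V → Prop) (R : Finset α → Prop)
    (A B : Submodule K V) (g : ℕ) (F : ℕ → Submodule K V) (σ : Finset α) : Prop where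
  rest : R σ
  gen : ∀ X, P X → e X ∈ σ → GV A B g F X
  cmp : ∀ X Y, P X → P Y → e X ∈ σ → e Y ∈ σ → X ≤ Y ∨ Y ≤ X

variable {e : Submodule K V → α} {P : Submodule K V → Prop} {R : Finset α → Prop}
variable {A B : Submodule K V} {g : ℕ} {F : ℕ → Submodule K V}

theorem Cx.erase (E : Env e P R) {σ : Finset α} (h : Cx e P R A B g F σ) (x : α) :
    Cx e P R A B g F (σ.erase x) :=
  ⟨E.er σ x h.rest, fun X hX hm => h.gen X hX (Finset.mem_of_mem_erase hm),
    fun X Y hX hY hmX hmY => h.cmp X Y hX hY (Finset.mem_of_mem_erase hmX)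
      (Finset.mem_of_mem_erase hmY)⟩

theorem Cx.insert (E : Env e P R) {σ : Finset α} (h : Cx e P R A B g F σ) {X : Submodule K V}
    (hPX : P X) (hX : GV A B g F X) (hc : ∀ Y, P Y → e Y ∈ σ → X ≤ Y ∨ Y ≤ X) :
    Cx e P R A B g F (insert (e X) σ) := by
  refine ⟨E.ins σ X hPX h.rest, ?_, ?_⟩
  · intro Y hY hm
    rcases Finset.mem_insert.1 hm with h1 | h1
    · rw [E.inj Y X hY hPX h1]; exact hX
    · exact h.gen Y hY h1
  · intro Y Z hY hZ hmY hmZ
    rcases Finset.mem_insert.1 hmY with h1 | h1 <;> rcases Finset.mem_insert.1 hmZ with h2 | h2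
    · rw [E.inj Y X hY hPX h1, E.inj Z X hZ hPX h2]; exact Or.inl le_rfl
    · rw [E.inj Y X hY hPX h1]; exact hc Z hZ h2
    · rw [E.inj Z X hZ hPX h2]; exact (hc Y hY h1).symm
    · exact h.cmp Y Z hY hZ h1 h2

theorem GV.up (hF : Flag A B (g + 1) F) {w X : Submodule K V} (hw : Gen A B F 1 w)
    (hX : GV A w g (fun i => w ⊓ F (i + 1)) X) :
    ∃ r, 2 ≤ r ∧ r < g + 1 ∧ Gen A B F r X := by
  obtain ⟨r, h1, h2, h3⟩ := hX
  exact ⟨r + 1, by omega, by omega, gen_up hF hw (by omega) h3⟩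

theorem GV.up' (hF : Flag A B (g + 1) F) {w X : Submodule K V} (hw : Gen A B F 1 w)
    (hX : GV A w g (fun i => w ⊓ F (i + 1)) X) : GV A B (g + 1) F X := by
  obtain ⟨r, h1, h2, h3⟩ := GV.up hF hw hX
  exact ⟨r, by omega, h2, h3⟩

theorem Cx.up (hF : Flag A B (g + 1) F) {w : Submodule K V} (hw : Gen A B F 1 w)
    {σ : Finset α} (h : Cx e P R A w g (fun i => w ⊓ F (i + 1)) σ) :
    Cx e P R A B (g + 1) F σ :=
  ⟨h.rest, fun X hX hm => (h.gen X hX hm).up' hF hw, h.cmp⟩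

theorem Cx.down (E : Env e P R) (hF : Flag A B (g + 1) F) {w : Submodule K V}
    (hw : Gen A B F 1 w) (hPw : P w) {σ : Finset α} (h : Cx e P R A B (g + 1) F σ)
    (hwσ : e w ∈ σ) : Cx e P R A w g (fun i => w ⊓ F (i + 1)) (σ.erase (e w)) := by
  refine ⟨E.er σ _ h.rest, ?_, (h.erase E (e w)).cmp⟩
  intro X hX hm
  have hne : X ≠ w := by
    rintro rfl
    exact (Finset.mem_erase.1 hm).1 rfl
  have hmσ := Finset.mem_of_mem_erase hm
  obtain ⟨r, hr1, hr2, hr⟩ := h.gen X hX hmσ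
  have hXw : X ≤ w := by
    rcases h.cmp X w hX hPw hmσ hwσ with h1 | h1
    · exact h1
    · exfalso
      have := gen_lt hF hw hr (lt_of_le_of_ne h1 hne.symm) (by omega)
      omega
  have h1 : 1 < r := gen_lt hF hr hw (lt_of_le_of_ne hXw hne) (by omega)
  obtain ⟨r', rfl⟩ : ∃ r', r = r' + 1 := ⟨r - 1, by omega⟩
  exact ⟨r', by omega, by omega, gen_down hF hw hXw hr⟩

variable {k : Type*} [CommRing k] [CharP k 2]

omit [CharP k 2] in
theorem mem_vs_of {c : Ch k α} {σ : Finset α} {x : α} (hσ : σ ∈ c.support) (hx : x ∈ σ) :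
    x ∈ vs c := Finset.mem_biUnion.2 ⟨σ, hσ, hx⟩

/-- filling with the help of a general vector `v` -/
theorem fill_v (E : Env e P R) (hF : Flag A B g F) (hP : ∀ X, GV A B g F X → P X) (hg : 2 ≤ g)
    {v : V} (hvB : v ∈ B) (hvF : v ∉ F (g - 1)) (s : ℕ) (m : ℕ) :
    ∀ (N : ℕ) (z : Ch k α), bd z = 0 → On (fun σ => Cx e P R A B g F σ ∧ σ.card = s) z →
    z.support.card ≤ N →
    (∀ X, P X → e X ∈ vs z → v ∈ X ∨ ∃ r, 2 ≤ r ∧ r < g ∧ Gen A B F r X ∧ v ∉ X ⊔ F (r - 1)) →
    ((vs z).filter (fun x => ∃ X, P X ∧ x = e X ∧ v ∉ X)).card ≤ m →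
    ∃ c : Ch k α, bd c = z ∧ On (fun σ => Cx e P R A B g F σ ∧ σ.card = s + 1) c ∧
      c.support.card ≤ (m + 1) * N := by
  induction m with
  | zero =>
    intro N z hz hC hN hgood hm
    have hA0 : Gen A B F g A := by
      constructor
      · exact inf_eq_left.2 (hF.zero ▸ hF.mono (by omega) le_rfl)
      · rw [hF.top]; exact sup_eq_right.2 (hF.zero ▸ hF.top ▸ hF.mono (by omega) le_rfl)
    obtain ⟨g', rfl⟩ : ∃ g', g = g' + 1 := ⟨g - 1, by omega⟩
    have hvF' : v ∉ A ⊔ F g' := by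
      have : A ≤ F g' := hF.zero ▸ hF.mono (by omega) (by omega)
      rw [sup_eq_right.2 this]
      simpa using hvF
    have hL := gen_span hF hA0 le_rfl hvB hvF'
    have hGL : GV A B (g' + 1) F (A ⊔ Submodule.span K {v}) := ⟨g', by omega, by omega, hL⟩
    have hPL := hP _ hGL
    refine ⟨jn (e (A ⊔ Submodule.span K {v})) z, ?_, ?_, ?_⟩
    · rw [bd_jn, hz, map_zero, add_zero]
    · have hC' : On (fun σ => (Cx e P R A B (g' + 1) F σ ∧ σ.card = s) ∧
          ∀ Y, P Y → e Y ∈ σ → A ⊔ Submodule.span K {v} ≤ Y) z := by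
        intro σ hσ
        refine ⟨hC σ hσ, ?_⟩
        intro Y hY hmY
        have h1 : v ∈ Y := by
          by_contra hvY
          have h2 : e Y ∈ (vs z).filter (fun x => ∃ X, P X ∧ x = e X ∧ v ∉ X) :=
            Finset.mem_filter.2 ⟨mem_vs_of hσ hmY, Y, hY, rfl, hvY⟩
          have h3 := Finset.card_pos.2 ⟨_, h2⟩
          omega
        obtain ⟨r, _, _, hr⟩ := (hC σ hσ).1.gen Y hY hmY
        exact sup_le hr.left ((Submodule.span_singleton_le_iff_mem v Y).2 h1)
      refine hC'.jn ?_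
      rintro σ ⟨⟨h1, h2⟩, h3⟩ hx
      refine ⟨h1.insert E hPL hGL (fun Y hY hmY => Or.inl (h3 Y hY hmY)), ?_⟩
      rw [Finset.card_insert_of_notMem hx, h2]
    · have := card_jn (e (A ⊔ Submodule.span K {v})) z
      calc _ ≤ z.support.card := this
        _ ≤ (0 + 1) * N := by omega
  | succ m ih =>
    intro N z hz hC hN hgood hm
    by_cases hemp : ((vs z).filter (fun x => ∃ X, P X ∧ x = e X ∧ v ∉ X)).card ≤ m
    · obtain ⟨c, h1, h2, h3⟩ := ih N z hz hC hN hgood hemp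
      exact ⟨c, h1, h2, h3.trans (Nat.mul_le_mul_right _ (by omega))⟩
    -- maximal `v`-free element
    have hT : {X : Submodule K V | P X ∧ e X ∈ vs z ∧ v ∉ X}.Finite := by
      apply Set.Finite.of_finite_image (f := e)
      · apply (Finset.finite_toSet (vs z)).subset
        rintro _ ⟨X, hX, rfl⟩
        exact hX.2.1
      · intro X hX Y hY hXY
        exact E.inj X Y hX.1 hY.1 hXY
    have hTne : {X : Submodule K V | P X ∧ e X ∈ vs z ∧ v ∉ X}.Nonempty := by
      have h1 : 0 < ((vs z).filter (fun x => ∃ X, P X ∧ x = e X ∧ v ∉ X)).card := by omega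
      obtain ⟨x, hx⟩ := Finset.card_pos.1 h1
      obtain ⟨h2, X, hPX, rfl, hvX⟩ := Finset.mem_filter.1 hx
      exact ⟨X, hPX, h2, hvX⟩
    obtain ⟨W, hWT, hWmax⟩ := hT.exists_maximal hTne
    obtain ⟨hPW, hWz, hvW⟩ := hWT
    obtain ⟨r, hr2, hrg, hrW, hvr⟩ := (hgood W hPW hWz).resolve_left hvW
    obtain ⟨r', rfl⟩ : ∃ r', r = r' + 1 := ⟨r - 1, by omega⟩
    rw [Nat.add_sub_cancel] at hvr
    have hW' := gen_span hF hrW (by omega) hvB hvr
    set W' := W ⊔ Submodule.span K {v} with hW'def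
    have hvW' : v ∈ W' := Submodule.mem_sup_right (Submodule.mem_span_singleton_self v)
    have hGW' : GV A B g F W' := ⟨r', by omega, by omega, hW'⟩
    have hPW' := hP _ hGW'
    have hne : W ≠ W' := fun h => hvW (h ▸ hvW')
    have hene : e W ≠ e W' := fun h => hne (E.inj _ _ hPW hPW' h)
    set c := jn (e W') (lk (e W) z) with hc
    have hbc : bd c = lk (e W) z := by
      rw [hc, bd_jn, bd_lk, hz, map_zero, map_zero, add_zero]
    -- faces of the link
    have hmaxv : ∀ Y, P Y → e Y ∈ vs z → W < Y → v ∈ Y := by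
      intro Y hY hm hlt
      by_contra hvY
      exact absurd (hWmax (⟨hY, hm, hvY⟩ : Y ∈ {X | P X ∧ e X ∈ vs z ∧ v ∉ X}) hlt.le)
        (not_le_of_gt hlt)
    have hlk : On (fun σ => ((Cx e P R A B g F σ ∧ σ.card + 1 = s) ∧
        (∀ Y, P Y → e Y ∈ σ → (W ≤ Y ∨ Y ≤ W)) ∧ ∀ Y, P Y → e Y ∈ σ → (W' ≤ Y ∨ Y ≤ W')) ∧
        (∀ y ∈ σ, y ∈ vs z) ∧ e W ∉ σ)
        (lk (e W) z) := by
      have hC' : On (fun σ => (Cx e P R A B g F σ ∧ σ.card = s) ∧ ∀ y ∈ σ, y ∈ vs z) z :=
        fun σ hσ => ⟨hC σ hσ, fun y hy => mem_vs_of hσ hy⟩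
      refine hC'.lk ?_
      rintro σ ⟨⟨h1, h2⟩, h3⟩ hx
      refine ⟨⟨⟨h1.erase E _, ?_⟩, ?_, ?_⟩, ?_, ?_⟩
      · rw [Finset.card_erase_of_mem hx, h2]
        have := Finset.card_pos.2 ⟨_, hx⟩
        omega
      · intro Y hY hmY
        exact h1.cmp W Y hPW hY hx (Finset.mem_of_mem_erase hmY)
      · intro Y hY hmY
        rcases h1.cmp W Y hPW hY hx (Finset.mem_of_mem_erase hmY) with h4 | h4
        · have hYW : W ≠ Y := by
            rintro rfl
            exact (Finset.mem_erase.1 hmY).1 rfl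
          have h5 := hmaxv Y hY (h3 _ (Finset.mem_of_mem_erase hmY)) (lt_of_le_of_ne h4 hYW)
          exact Or.inl (sup_le h4 ((Submodule.span_singleton_le_iff_mem v Y).2 h5))
        · exact Or.inr (h4.trans le_sup_left)
      · intro y hy
        exact h3 y (Finset.mem_of_mem_erase hy)
      · exact Finset.notMem_erase _ _
    have hcOn : On (fun σ => (Cx e P R A B g F σ ∧ σ.card = s) ∧ e W ∉ σ ∧
        (∀ y ∈ σ, y ∈ vs z ∨ y = e W') ∧ ∀ Y, P Y → e Y ∈ σ → (W ≤ Y ∨ Y ≤ W)) c := by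
      refine hlk.jn ?_
      rintro σ ⟨⟨⟨h1, h2⟩, h3, h4⟩, h5, h6⟩ hx
      refine ⟨⟨h1.insert E hPW' hGW' h4, ?_⟩, ?_, ?_, ?_⟩
      · rw [Finset.card_insert_of_notMem hx, h2]
      · intro h
        rcases Finset.mem_insert.1 h with h | h
        · exact hene h
        · exact h6 h
      · intro y hy
        rcases Finset.mem_insert.1 hy with h | h
        · exact Or.inr h
        · exact Or.inl (h5 y h)
      · intro Y hY hmY
        rcases Finset.mem_insert.1 hmY with h | h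
        · rw [E.inj _ _ hY hPW' h]
          exact Or.inl le_sup_left
        · exact h3 Y hY h
    have hdl : On (fun σ => (Cx e P R A B g F σ ∧ σ.card = s) ∧ e W ∉ σ ∧
        ∀ y ∈ σ, y ∈ vs z ∨ y = e W') (dl (e W) z) := by
      have hC' : On (fun σ => (Cx e P R A B g F σ ∧ σ.card = s) ∧ ∀ y ∈ σ, y ∈ vs z) z :=
        fun σ hσ => ⟨hC σ hσ, fun y hy => mem_vs_of hσ hy⟩
      refine hC'.dl ?_
      rintro σ ⟨h1, h3⟩ hx
      exact ⟨h1, hx, fun y hy => Or.inl (h3 y hy)⟩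
    set z1 := dl (e W) z + c with hz1
    have hz1c : bd z1 = 0 := elim_cycle (e W) z c hz hbc
    have hz1On : On (fun σ => (Cx e P R A B g F σ ∧ σ.card = s) ∧ e W ∉ σ ∧
        ∀ y ∈ σ, y ∈ vs z ∨ y = e W') z1 :=
      hdl.add (hcOn.mono fun σ h => ⟨h.1, h.2.1, h.2.2.1⟩)
    have hvs : ∀ y ∈ vs z1, (y ∈ vs z ∨ y = e W') ∧ y ≠ e W := by
      intro y hy
      obtain ⟨σ, hσ, hyσ⟩ := Finset.mem_biUnion.1 hy
      obtain ⟨h1, h2, h3⟩ := hz1On σ hσ
      exact ⟨h3 y hyσ, fun h => h2 (h ▸ hyσ)⟩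
    have hz1N : z1.support.card ≤ N := by
      calc z1.support.card ≤ (dl (e W) z).support.card + c.support.card := card_add _ _
        _ ≤ (dl (e W) z).support.card + (lk (e W) z).support.card :=
            Nat.add_le_add_left (card_jn _ _) _
        _ ≤ z.support.card := card_dl_lk _ _
        _ ≤ N := hN
    have hgood1 : ∀ X, P X → e X ∈ vs z1 →
        v ∈ X ∨ ∃ r, 2 ≤ r ∧ r < g ∧ Gen A B F r X ∧ v ∉ X ⊔ F (r - 1) := by
      intro X hX hm
      rcases (hvs _ hm).1 with h | h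
      · exact hgood X hX h
      · rw [E.inj _ _ hX hPW' h]; exact Or.inl hvW'
    have hm1 : ((vs z1).filter (fun x => ∃ X, P X ∧ x = e X ∧ v ∉ X)).card ≤ m := by
      have h1 : (vs z1).filter (fun x => ∃ X, P X ∧ x = e X ∧ v ∉ X) ⊆
          ((vs z).filter (fun x => ∃ X, P X ∧ x = e X ∧ v ∉ X)).erase (e W) := by
        intro y hy
        obtain ⟨h2, X, hPX, rfl, hvX⟩ := Finset.mem_filter.1 hy
        obtain ⟨h3, h4⟩ := hvs _ h2
        refine Finset.mem_erase.2 ⟨h4, Finset.mem_filter.2 ⟨?_, X, hPX, rfl, hvX⟩⟩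
        rcases h3 with h | h
        · exact h
        · exfalso
          rw [E.inj _ _ hPX hPW' h] at hvX
          exact hvX hvW'
      have h2 : e W ∈ (vs z).filter (fun x => ∃ X, P X ∧ x = e X ∧ v ∉ X) :=
        Finset.mem_filter.2 ⟨hWz, W, hPW, rfl, hvW⟩
      have h3 := Finset.card_le_card h1
      rw [Finset.card_erase_of_mem h2] at h3
      omega
    obtain ⟨c1, hc1, hc1On, hc1N⟩ := ih N z1 hz1c (hz1On.mono fun σ h => h.1) hz1N hgood1 hm1
    refine ⟨c1 + jn (e W) c, elim_fill (e W) z c c1 hbc hc1, ?_, ?_⟩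
    · refine hc1On.add ?_
      refine hcOn.jn ?_
      rintro σ ⟨⟨h1, h2⟩, h3, h4, h5⟩ hx
      refine ⟨h1.insert E hPW ⟨r' + 1, by omega, by omega, hrW⟩ h5, ?_⟩
      rw [Finset.card_insert_of_notMem hx, h2]
    · calc (c1 + jn (e W) c).support.card ≤ c1.support.card + (jn (e W) c).support.card :=
            card_add _ _
        _ ≤ (m + 1) * N + N := by
            refine Nat.add_le_add hc1N ?_
            calc (jn (e W) c).support.card ≤ c.support.card := card_jn _ _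
              _ ≤ (lk (e W) z).support.card := card_jn _ _
              _ ≤ z.support.card := card_lk _ _
              _ ≤ N := hN
        _ = (m + 1 + 1) * N := by ring

end Cx

end Vale.Agent.P067.Gap
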