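import Vale.Agent.P067.GapChain

/-!
P067, part (A): generic elements of a gap, and fillings of cycles of bounded size.
-/

namespace Vale.Agent.P067.Gap

open Finset Classical

section Lat

variable {L : Type*} [Lattice L]

/-- complete flag of length `g` from `A` to `B` -/
structure Flag (A B : L) (g : ℕ) (F : ℕ → L) : Prop where
  zero : F 0 = A
  top : F g = B
  cov : ∀ i, i < g → F i ⋖ F (i + 1)

/-- `X` is generic of codimension `r` in the gap `[A,B]` -/
def Gen (A B : L) (F : ℕ → L) (r : ℕ) (X : L) : Prop := X ⊓ F r = A ∧ X ⊔ F r = B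

variable {A B : L} {g : ℕ} {F : ℕ → L}

theorem Flag.mono (h : Flag A B g F) {i j : ℕ} (hij : i ≤ j) (hj : j ≤ g) : F i ≤ F j := by
  induction j, hij using Nat.le_induction with
  | base => exact le_rfl
  | succ j hij ih => exact (ih (by omega)).trans (h.cov j (by omega)).le

theorem Flag.lt (h : Flag A B g F) {i j : ℕ} (hij : i < j) (hj : j ≤ g) : F i < F j :=
  lt_of_lt_of_le (h.cov i (by omega)).lt (h.mono (Nat.succ_le_of_lt hij) hj)

theorem Gen.left {r : ℕ} {X : L} (h : Gen A B F r X) : A ≤ X := h.1 ▸ inf_le_left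

theorem Gen.right {r : ℕ} {X : L} (h : Gen A B F r X) : X ≤ B := h.2 ▸ le_sup_left

variable [IsModularLattice L]

theorem gen_lt (hF : Flag A B g F) {r s : ℕ} {X Y : L} (hX : Gen A B F r X) (hY : Gen A B F s Y)
    (hXY : X < Y) (hs : s ≤ g) : s < r := by
  by_contra hrs
  push Not at hrs
  have hm : F r ≤ F s := hF.mono hrs hs
  have h1 : X ⊔ F s = B := le_antisymm
    (sup_le hX.right (hY.2 ▸ le_sup_right)) (hX.2 ▸ sup_le_sup_left hm X)
  have h2 : Y = X := by
    calc Y = (X ⊔ F s) ⊓ Y := by rw [h1]; exact (inf_eq_right.2 hY.right).symm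
      _ = X ⊔ F s ⊓ Y := (sup_inf_assoc_of_le (F s) hXY.le)
      _ = X ⊔ A := by rw [inf_comm (F s) Y, hY.1]
      _ = X := sup_eq_left.2 hX.left
  exact hXY.ne h2.symm

theorem gen_unique (hF : Flag A B g F) {r s : ℕ} {X : L} (hr : Gen A B F r X)
    (hs : Gen A B F s X) (hrs : r < s) (hsg : s ≤ g) : False := by
  have hm : F r ≤ F s := hF.mono hrs.le hsg
  have h1 : F s = F r := by
    calc F s = (F r ⊔ X) ⊓ F s := by
          rw [sup_comm, hr.2]; exact (inf_eq_right.2 (hs.2 ▸ le_sup_right)).symm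
      _ = F r ⊔ X ⊓ F s := sup_inf_assoc_of_le X hm
      _ = F r ⊔ A := by rw [hs.1]
      _ = F r := sup_eq_left.2 (hr.1 ▸ inf_le_right)
  exact (hF.lt hrs hsg).ne h1.symm

theorem flag_restrict (hF : Flag A B (g + 1) F) {w : L} (hw : Gen A B F 1 w) :
    Flag A w g (fun i => w ⊓ F (i + 1)) := by
  refine ⟨hw.1, ?_, ?_⟩
  · show w ⊓ F (g + 1) = w
    rw [hF.top]; exact inf_eq_left.2 hw.right
  · intro i hi
    show w ⊓ F (i + 1) ⋖ w ⊓ F (i + 1 + 1)
    have h1 : F 1 ≤ F (i + 1 + 1) := hF.mono (by omega) (by omega)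
    have h2 : F 1 ≤ F (i + 1) := hF.mono (by omega) (by omega)
    have h12 : F (i + 1) ≤ F (i + 1 + 1) := hF.mono (by omega) (by omega)
    have h3 : F (i + 1) ⊔ w ⊓ F (i + 1 + 1) = F (i + 1 + 1) := by
      apply le_antisymm (sup_le h12 inf_le_right)
      calc F (i + 1 + 1) = (F 1 ⊔ w) ⊓ F (i + 1 + 1) := by
            rw [sup_comm, hw.2]
            exact (inf_eq_right.2 (hF.top ▸ hF.mono (by omega) (by omega))).symm
        _ = F 1 ⊔ w ⊓ F (i + 1 + 1) := sup_inf_assoc_of_le w h1
        _ ≤ F (i + 1) ⊔ w ⊓ F (i + 1 + 1) := sup_le_sup_right h2 _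
    have h4 : F (i + 1) ⊓ (w ⊓ F (i + 1 + 1)) ⋖ w ⊓ F (i + 1 + 1) := by
      apply CovBy.inf_of_sup_left
      rw [h3]
      exact hF.cov (i + 1) (by omega)
    have h5 : F (i + 1) ⊓ (w ⊓ F (i + 1 + 1)) = w ⊓ F (i + 1) := by
      rw [inf_left_comm, inf_eq_left.2 h12]
    rwa [h5] at h4

theorem gen_up (hF : Flag A B (g + 1) F) {w X : L} (hw : Gen A B F 1 w) {r : ℕ} (hr : r ≤ g)
    (hX : Gen A w (fun i => w ⊓ F (i + 1)) r X) : Gen A B F (r + 1) X := by
  have hXw : X ≤ w := hX.right
  constructor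
  · have h : X ⊓ (w ⊓ F (r + 1)) = A := hX.1
    rwa [← inf_assoc, inf_eq_left.2 hXw] at h
  · have h : X ⊔ (w ⊓ F (r + 1)) = w := hX.2
    have hB : F (r + 1) ≤ B := hF.top ▸ hF.mono (by omega) le_rfl
    apply le_antisymm (sup_le (hXw.trans hw.right) hB)
    rw [← hw.2]
    apply sup_le
    · calc w = X ⊔ (w ⊓ F (r + 1)) := h.symm
        _ ≤ X ⊔ F (r + 1) := sup_le_sup_left inf_le_right _
    · exact (hF.mono (by omega) (by omega)).trans le_sup_right

theorem gen_down (hF : Flag A B (g + 1) F) {w X : L} (hw : Gen A B F 1 w) (hXw : X ≤ w) {r : ℕ}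
    (hX : Gen A B F (r + 1) X) : Gen A w (fun i => w ⊓ F (i + 1)) r X := by
  constructor
  · show X ⊓ (w ⊓ F (r + 1)) = A
    rw [← inf_assoc, inf_eq_left.2 hXw, hX.1]
  · show X ⊔ w ⊓ F (r + 1) = w
    rw [inf_comm, ← sup_inf_assoc_of_le (F (r + 1)) hXw, hX.2]
    exact inf_eq_right.2 hw.right

theorem cov_sup (hF : Flag A B g F) {r : ℕ} {W : L} (hW : Gen A B F (r + 1) W) (hr : r + 1 ≤ g) :
    W ⊔ F r ⋖ B := by
  have hm : F r ≤ F (r + 1) := hF.mono (by omega) hr
  have h1 : F (r + 1) ⊓ (W ⊔ F r) = F r := by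
    rw [sup_comm, inf_comm, sup_inf_assoc_of_le W hm, hW.1]
    exact sup_eq_left.2 (hF.zero ▸ hF.mono (by omega) (by omega))
  have h2 : W ⊔ F r ⋖ F (r + 1) ⊔ (W ⊔ F r) := by
    apply CovBy.sup_of_inf_left
    rw [h1]
    exact hF.cov r (by omega)
  have h3 : F (r + 1) ⊔ (W ⊔ F r) = B := by
    rw [sup_comm, sup_assoc, sup_eq_right.2 hm, hW.2]
  rwa [h3] at h2

end Lat

section Lin

variable {K V : Type*} [Field K] [AddCommGroup V] [Module K V]

theorem gen_span {A B : Submodule K V} {g : ℕ} {F : ℕ → Submodule K V} (hF : Flag A B g F)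
    {r : ℕ} {W : Submodule K V} (hW : Gen A B F (r + 1) W) (hr : r + 1 ≤ g) {v : V} (hvB : v ∈ B)
    (hv : v ∉ W ⊔ F r) : Gen A B F r (W ⊔ Submodule.span K {v}) := by
  have hm : F r ≤ F (r + 1) := hF.mono (by omega) hr
  constructor
  · apply le_antisymm
    · intro x hx
      obtain ⟨h1, h2⟩ := Submodule.mem_inf.1 hx
      obtain ⟨y, hy, z, hz, rfl⟩ := Submodule.mem_sup.1 h1
      obtain ⟨c, rfl⟩ := Submodule.mem_span_singleton.1 hz
      by_cases hc : c = 0
      · subst hc
        rw [zero_smul, add_zero] at h2 ⊢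
        have : y ∈ W ⊓ F (r + 1) := Submodule.mem_inf.2 ⟨hy, hm h2⟩
        rwa [hW.1] at this
      · exfalso
        apply hv
        have h3 : v = c⁻¹ • ((y + c • v) - y) := by
          rw [add_sub_cancel_left, smul_smul, inv_mul_cancel₀ hc, one_smul]
        rw [h3]
        apply Submodule.smul_mem
        exact Submodule.sub_mem _ (Submodule.mem_sup_right h2) (Submodule.mem_sup_left hy)
    · apply le_inf
      · exact hW.left.trans le_sup_left
      · exact hF.zero ▸ hF.mono (by omega) (by omega)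
  · have hc := cov_sup hF hW hr
    have h1 : W ⊔ F r < W ⊔ Submodule.span K {v} ⊔ F r := by
      apply lt_of_le_of_ne
      · exact sup_le_sup_right le_sup_left _
      · intro h
        apply hv
        rw [h]
        exact Submodule.mem_sup_left (Submodule.mem_sup_right (Submodule.mem_span_singleton_self v))
    have h2 : W ⊔ Submodule.span K {v} ⊔ F r ≤ B := by
      refine sup_le (sup_le hW.right ?_) ?_
      · rwa [Submodule.span_singleton_le_iff_mem]
      · exact hF.top ▸ hF.mono (by omega) le_rfl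
    exact (eq_or_lt_of_le h2).resolve_right (fun h => hc.2 h1 h)

/-- a subspace is not covered by at most `card K` subspaces not containing it -/
theorem exists_avoid [Fintype K] (B : Submodule K V) (S : Finset (Submodule K V))
    (hS : ∀ H ∈ S, ¬ B ≤ H) (hc : S.card ≤ Fintype.card K) : ∃ v ∈ B, ∀ H ∈ S, v ∉ H := by
  induction S using Finset.induction_on with
  | empty => exact ⟨0, B.zero_mem, by simp⟩
  | insert H S hHS ih =>
    rw [Finset.card_insert_of_notMem hHS] at hc
    obtain ⟨u, huB, hu⟩ := ih (fun K hK => hS K (Finset.mem_insert_of_mem hK)) (by omega)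
    obtain ⟨y, hyB, hyH⟩ := SetLike.not_le_iff_exists.1 (hS H (Finset.mem_insert_self H S))
    by_cases huH : u ∈ H
    · have hbad : ∃ c : K, ∀ J ∈ S, y + c • u ∉ J := by
        by_contra hcon
        push Not at hcon
        choose J hJ hJ' using hcon
        have hinj : Function.Injective J := by
          intro c c' hcc
          by_contra hne
          have h1 := hJ' c
          have h2 := hJ' c'
          rw [← hcc] at h2
          have h3 := Submodule.sub_mem _ h1 h2
          rw [add_sub_add_left_eq_sub, ← sub_smul] at h3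
          have h4 := Submodule.smul_mem _ (c - c')⁻¹ h3
          rw [smul_smul, inv_mul_cancel₀ (sub_ne_zero.2 hne), one_smul] at h4
          exact hu _ (hJ c) h4
        have h5 : Fintype.card K ≤ S.card := by
          rw [← Finset.card_univ, ← Finset.card_image_of_injective _ hinj]
          apply Finset.card_le_card
          intro J' hJ''
          obtain ⟨c, _, rfl⟩ := Finset.mem_image.1 hJ''
          exact hJ c
        omega
      obtain ⟨c, hc'⟩ := hbad
      refine ⟨y + c • u, B.add_mem hyB (B.smul_mem _ huB), ?_⟩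
      intro J hJ
      rcases Finset.mem_insert.1 hJ with rfl | hJ
      · intro h
        apply hyH
        have := Submodule.sub_mem _ h (Submodule.smul_mem _ c huH)
        rwa [add_sub_cancel_right] at this
      · exact hc' J hJ
    · refine ⟨u, huB, ?_⟩
      intro J hJ
      rcases Finset.mem_insert.1 hJ with rfl | hJ
      · exact huH
      · exact hu J hJ

end Lin

end Vale.Agent.P067.Gap
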