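import Vale.Agent.P067.GapCone
import Vale.Agent.P067.Lat

/-!
P067, (B4), first half: the full flag `A ⊔ (B ⊓ M_j)` of a gap, and genericity.
-/

namespace Vale.Agent.P067.Gap

open Finset Classical

section Lat

variable {L : Type*} [Lattice L]

/-- a weakly increasing path of covers contains a complete flag -/
theorem flag_of_path (G : ℕ → L) (N : ℕ) (h : ∀ i < N, G i ⩿ G (i + 1)) :
    ∃ (g : ℕ) (F : ℕ → L), Flag (G 0) (G N) g F ∧ (∀ i ≤ N, ∃ r ≤ g, G i = F r) ∧
      ∀ r ≤ g, ∃ i ≤ N, F r = G i := by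
  induction N with
  | zero =>
    refine ⟨0, fun _ => G 0, ⟨rfl, rfl, fun i hi => absurd hi (Nat.not_lt_zero i)⟩, ?_, ?_⟩
    · intro i hi
      exact ⟨0, le_rfl, by rw [Nat.le_zero.1 hi]⟩
    · intro r _
      exact ⟨0, le_rfl, rfl⟩
  | succ N ih =>
    obtain ⟨g, F, hF, h1, h2⟩ := ih (fun i hi => h i (by omega))
    rcases (wcovBy_iff_covBy_or_eq.1 (h N (by omega))).symm with heq | hcov
    · refine ⟨g, F, ⟨hF.zero, hF.top.trans heq, hF.cov⟩, ?_, ?_⟩
      · intro i hi
        rcases Nat.lt_or_ge N i with h3 | h3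
        · have : i = N + 1 := by omega
          subst this
          rw [← heq]
          exact h1 N le_rfl
        · exact h1 i h3
      · intro r hr
        obtain ⟨i, hi, h3⟩ := h2 r hr
        exact ⟨i, by omega, h3⟩
    · refine ⟨g + 1, fun r => if r ≤ g then F r else G (N + 1), ⟨?_, ?_, ?_⟩, ?_, ?_⟩
      · simpa using hF.zero
      · simp
      · intro i hi
        by_cases h3 : i < g
        · rw [if_pos (by omega), if_pos (by omega)]
          exact hF.cov i h3
        · have : i = g := by omega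
          subst this
          rw [if_pos le_rfl, if_neg (by omega), hF.top]
          exact hcov
      · intro i hi
        rcases Nat.lt_or_ge N i with h3 | h3
        · have : i = N + 1 := by omega
          subst this
          exact ⟨g + 1, le_rfl, (if_neg (by omega)).symm⟩
        · obtain ⟨r, hr, h4⟩ := h1 i h3
          exact ⟨r, by omega, h4.trans (if_pos hr).symm⟩
      · intro r hr
        by_cases h3 : r ≤ g
        · obtain ⟨i, hi, h4⟩ := h2 r h3
          exact ⟨i, by omega, (if_pos h3).trans h4⟩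
        · exact ⟨N + 1, le_rfl, if_neg h3⟩

variable {A B : L} {g : ℕ} {F : ℕ → L}

theorem dich_of_gen (hF : Flag A B g F) {r : ℕ} (hr : r ≤ g) {X : L} (hX : Gen A B F r X) (i : ℕ)
    (hi : i ≤ g) : X ⊓ F i = A ∨ X ⊔ F i = B := by
  have hA : A ≤ F i := hF.zero ▸ hF.mono (Nat.zero_le i) hi
  have hB : F i ≤ B := hF.top ▸ hF.mono hi le_rfl
  rcases le_total i r with h | h
  · left
    apply le_antisymm _ (le_inf hX.left hA)
    rw [← hX.1]
    exact inf_le_inf_left X (hF.mono h hr)
  · right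
    apply le_antisymm (sup_le hX.right hB)
    rw [← hX.2]
    exact sup_le_sup_left (hF.mono h hi) X

variable [IsModularLattice L]

theorem gen_of_dich (hF : Flag A B g F) {X : L} (hA : A < X) (hB : X < B)
    (h : ∀ r ≤ g, X ⊓ F r = A ∨ X ⊔ F r = B) : ∃ r, 1 ≤ r ∧ r < g ∧ Gen A B F r X := by
  -- first index where the sup is `B`
  have hex : ∃ r, r ≤ g ∧ X ⊔ F r = B := ⟨g, le_rfl, by rw [hF.top]; exact sup_eq_right.2 hB.le⟩
  obtain ⟨hr1, hr2⟩ := Nat.find_spec hex
  set r := Nat.find hex with hr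
  have hmin : ∀ i < r, ¬ (i ≤ g ∧ X ⊔ F i = B) := fun i hi => Nat.find_min hex hi
  have hr0 : r ≠ 0 := by
    intro h0
    rw [h0, hF.zero, sup_eq_left.2 hA.le] at hr2
    exact hB.ne hr2
  obtain ⟨r', hr'⟩ : ∃ r', r = r' + 1 := ⟨r - 1, by omega⟩
  have h1 : X ⊓ F r' = A := by
    rcases h r' (by omega) with h1 | h1
    · exact h1
    · exact absurd ⟨by omega, h1⟩ (hmin r' (by omega))
  have hne : X ⊔ F r' ≠ B := fun h2 => hmin r' (by omega) ⟨by omega, h2⟩
  -- claim `X ⊓ F r = A`
  have h2 : X ⊓ F r = A := by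
    have hc := hF.cov r' (by omega)
    rw [← hr'] at hc
    rcases eq_or_lt_of_le (show X ⊓ F r' ≤ X ⊓ F r from inf_le_inf_left X hc.le) with h3 | h3
    · rw [← h3, h1]
    · exfalso
      apply hne
      have h4 : F r' ⊔ X ⊓ F r = F r := by
        rcases eq_or_lt_of_le (show F r' ⊔ X ⊓ F r ≤ F r from sup_le hc.le inf_le_right) with h5 | h5
        · exact h5
        · exfalso
          have h6 : F r' = F r' ⊔ X ⊓ F r := by
            rcases eq_or_lt_of_le (show F r' ≤ F r' ⊔ X ⊓ F r from le_sup_left) with h7 | h7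
            · exact h7
            · exact absurd h5 (hc.2 h7)
          have h7 : X ⊓ F r ≤ F r' := by
            rw [h6]; exact le_sup_right
          exact absurd (le_inf inf_le_left h7) h3.not_ge
      apply le_antisymm (sup_le hB.le (hF.top ▸ hF.mono (by omega) le_rfl))
      rw [← hr2]
      apply sup_le le_sup_left
      rw [← h4]
      exact sup_le le_sup_right (inf_le_left.trans le_sup_left)
  refine ⟨r, by omega, ?_, h2, hr2⟩
  rcases Nat.lt_or_ge r g with h3 | h3
  · exact h3
  · exfalso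
    have : r = g := le_antisymm hr1 h3
    rw [this, hF.top, inf_eq_left.2 hB.le] at h2
    exact hA.ne h2.symm

theorem gv_lt (hF : Flag A B g F) {r : ℕ} (h1 : 1 ≤ r) (h2 : r < g) {X : L}
    (hX : Gen A B F r X) : A < X ∧ X < B := by
  have hAF : A < F r := hF.zero ▸ hF.lt (by omega) h2.le
  have hFB : F r < B := hF.top ▸ hF.lt h2 le_rfl
  constructor
  · refine lt_of_le_of_ne hX.left ?_
    rintro rfl
    have := hX.2
    rw [sup_eq_right.2 hAF.le] at this
    exact hFB.ne this
  · refine lt_of_le_of_ne hX.right ?_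
    rintro rfl
    have := hX.1
    rw [inf_eq_right.2 hFB.le] at this
    exact hAF.ne this.symm

theorem wcov_inf {x y : L} (h : x ⩿ y) (B : L) : B ⊓ x ⩿ B ⊓ y := by
  rcases wcovBy_iff_covBy_or_eq.1 h with h | h
  · rcases eq_or_lt_of_le (show x ≤ x ⊔ B ⊓ y from le_sup_left) with h1 | h1
    · have h2 : B ⊓ y ≤ B ⊓ x := le_inf inf_le_left (by rw [h1]; exact le_sup_right)
      rw [le_antisymm (inf_le_inf_left B h.le) h2]; exact WCovBy.refl _
    · have h2 : x ⊔ B ⊓ y = y := by
        by_contra h3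
        exact h.2 h1 (lt_of_le_of_ne (sup_le h.le inf_le_right) h3)
      have h4 : x ⊓ (B ⊓ y) ⋖ B ⊓ y := by
        apply CovBy.inf_of_sup_left
        rw [h2]; exact h
      have h5 : x ⊓ (B ⊓ y) = B ⊓ x := by
        rw [inf_left_comm, inf_eq_left.2 h.le]
      rw [h5] at h4
      exact h4.wcovBy
  · rw [h]; exact WCovBy.refl _

theorem wcov_sup {x y : L} (h : x ⩿ y) (A : L) : A ⊔ x ⩿ A ⊔ y := by
  rcases wcovBy_iff_covBy_or_eq.1 h with h | h
  · rcases eq_or_lt_of_le (show y ⊓ (A ⊔ x) ≤ y from inf_le_left) with h1 | h1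
    · have h2 : A ⊔ y ≤ A ⊔ x := sup_le le_sup_left (by rw [← h1]; exact inf_le_right)
      rw [le_antisymm (sup_le_sup_left h.le A) h2]; exact WCovBy.refl _
    · have h2 : y ⊓ (A ⊔ x) = x := by
        by_contra h3
        exact h.2 (lt_of_le_of_ne (le_inf h.le le_sup_right) (Ne.symm h3)) h1
      have h4 : A ⊔ x ⋖ y ⊔ (A ⊔ x) := by
        apply CovBy.sup_of_inf_left
        rw [h2]; exact h
      have h5 : y ⊔ (A ⊔ x) = A ⊔ y := by
        rw [sup_left_comm, sup_eq_left.2 h.le]
      rw [h5] at h4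
      exact h4.wcovBy
  · rw [h]; exact WCovBy.refl _

end Lat

/-- pigeonhole: a periodic set with few elements per period has a long gap -/
theorem long_gap (n : ℕ) (J : Finset ℤ) (hJ : J.Nonempty) (G : ℕ) (hG : J.card * G ≤ n)
    (hG0 : 1 ≤ G) :
    ∃ b ∈ J, ∀ i ∈ J, ∀ k : ℤ, b < i + n * k → b + G ≤ i + n * k := by
  by_contra hcon
  push Not at hcon
  have hJ0 : 0 < J.card := Finset.card_pos.2 hJ
  have hn : 0 < n := lt_of_lt_of_le (Nat.mul_pos hJ0 hG0) hG
  have hn' : (0 : ℤ) < n := by exact_mod_cast hn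
  have hsub : Finset.Ico (0 : ℤ) n ⊆ (J ×ˢ Finset.range (G - 1)).image
      (fun q : ℤ × ℕ => (q.1 + q.2) % (n : ℤ)) := by
    intro t ht
    obtain ⟨ht0, htn⟩ := Finset.mem_Ico.1 ht
    obtain ⟨i, hi, hmin⟩ := J.exists_min_image (fun i => (t - i) % (n : ℤ)) hJ
    have ho0 : 0 ≤ (t - i) % (n : ℤ) := Int.emod_nonneg _ hn'.ne'
    have hon : (t - i) % (n : ℤ) < n := Int.emod_lt_of_pos _ hn'
    have hlt : (t - i) % (n : ℤ) < G - 1 := by
      by_contra hge
      push Not at hge
      obtain ⟨i', hi', k, hk1, hk2⟩ := hcon i hi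
      -- translate by `(t - i) / n`
      have hdiv := Int.emod_add_mul_ediv (t - i) n
      have h1 : (t - (i' + n * (k + (t - i) / n))) = (t - i) % (n : ℤ) - (i' + n * k - i) := by
        have : t - i = (t - i) % (n : ℤ) + n * ((t - i) / n) := hdiv.symm
        linear_combination this
      have h2 : 0 ≤ t - (i' + n * (k + (t - i) / n)) := by rw [h1]; omega
      have h3 : t - (i' + n * (k + (t - i) / n)) < (t - i) % (n : ℤ) := by rw [h1]; omega
      have h4 : (t - i') % (n : ℤ) = t - (i' + n * (k + (t - i) / n)) := by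
        have h5 : t - i' = (t - (i' + n * (k + (t - i) / n))) + n * (k + (t - i) / n) := by ring
        rw [h5, Int.add_mul_emod_self_left]
        exact Int.emod_eq_of_lt h2 (by omega)
      have h5 := hmin i' hi'
      rw [h4] at h5
      omega
    refine Finset.mem_image.2 ⟨(i, ((t - i) % (n : ℤ)).toNat), ?_, ?_⟩
    · refine Finset.mem_product.2 ⟨hi, Finset.mem_range.2 ?_⟩
      show ((t - i) % (n : ℤ)).toNat < G - 1
      omega
    · show (i + (((t - i) % (n : ℤ)).toNat : ℤ)) % (n : ℤ) = t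
      rw [Int.toNat_of_nonneg ho0]
      rw [Int.add_emod, Int.emod_emod, ← Int.add_emod, add_sub_cancel]
      exact Int.emod_eq_of_lt ht0 htn
  have h1 := Finset.card_le_card hsub
  have h2 : (Finset.Ico (0 : ℤ) n).card = n := by simp
  have h3 : ((J ×ˢ Finset.range (G - 1)).image
      (fun q : ℤ × ℕ => (q.1 + q.2) % (n : ℤ))).card ≤ J.card * (G - 1) := by
    refine Finset.card_image_le.trans ?_
    rw [Finset.card_product, Finset.card_range]
  have h4 : J.card * (G - 1) + J.card = J.card * G := by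
    obtain ⟨G', rfl⟩ : ∃ G', G = G' + 1 := ⟨G - 1, by omega⟩
    rw [Nat.add_sub_cancel, Nat.mul_add, Nat.mul_one]
  omega

end Vale.Agent.P067.Gap
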