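import Vale.Agent.P067.GapIso1

/-!
P067, (B4): the full flag of a gap between two lattices.
-/

namespace Vale.Agent.P067.Gap

open Finset Classical

variable {F : Type} [Field F]

theorem mm_succ (j : ℤ) :
    MM F (j + 1) = Submodule.span F {Finsupp.single (j + 1) (1 : F)} ⊔ MM F j := by
  apply le_antisymm
  · intro x hx
    rw [mem_MM] at hx
    refine Submodule.mem_sup.2 ⟨Finsupp.single (j + 1) (x (j + 1)), ?_,
      x - Finsupp.single (j + 1) (x (j + 1)), ?_, by abel⟩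
    · rw [Submodule.mem_span_singleton]
      exact ⟨x (j + 1), by simp⟩
    · rw [mem_MM]
      intro i hi
      rw [Finsupp.sub_apply]
      by_cases h : i = j + 1
      · subst h; simp
      · rw [Finsupp.single_eq_of_ne h, sub_zero]
        exact hx i (by omega)
  · apply sup_le _ (MM_mono (by omega))
    rw [Submodule.span_singleton_le_iff_mem, mem_MM]
    intro i hi
    exact Finsupp.single_eq_of_ne (by omega)

theorem mm_wcov (j : ℤ) : MM F j ⩿ MM F (j + 1) := by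
  rw [mm_succ]
  exact Submodule.wcovBy_span_singleton_sup _ _

theorem lo_inf_mm {i j : ℤ} (h : j ≤ i) : Lo F i ⊓ MM F j = ⊥ := by
  rw [eq_bot_iff]
  intro x hx
  obtain ⟨h1, h2⟩ := Submodule.mem_inf.1 hx
  rw [mem_Lo] at h1
  rw [mem_MM] at h2
  rw [Submodule.mem_bot]
  ext l
  rcases le_or_gt l i with h3 | h3
  · exact h1 l h3
  · exact h2 l (by omega)

theorem lo_sup_mm {i j : ℤ} (h : i ≤ j) : Lo F i ⊔ MM F j = ⊤ := by
  rw [eq_top_iff]
  intro x _
  refine Submodule.mem_sup.2 ⟨x.filter (fun l => i < l), ?_, x.filter (fun l => ¬ i < l), ?_,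
    Finsupp.filter_add_filter_not x _⟩
  · rw [mem_Lo]
    intro l hl
    exact Finsupp.filter_apply_neg _ _ (by omega)
  · rw [mem_MM]
    intro l hl
    exact Finsupp.filter_apply_neg _ _ (by omega)

/-- dichotomy at `j` -/
def Dich (A B X : Submodule F (VV F)) : Prop :=
  ∀ j : ℤ, X ⊓ MM F j ≤ A ∨ B ≤ X ⊔ MM F j

theorem inf_eq_iff {A B X : Submodule F (VV F)} (hA : A ≤ X) (hB : X ≤ B) (j : ℤ) :
    X ⊓ (A ⊔ B ⊓ MM F j) = A ↔ X ⊓ MM F j ≤ A := by
  have h1 : X ⊓ (A ⊔ B ⊓ MM F j) = A ⊔ X ⊓ MM F j := by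
    rw [inf_comm, sup_inf_assoc_of_le _ hA, inf_right_comm, inf_eq_right.2 hB]
  rw [h1]
  exact sup_eq_left

theorem sup_eq_iff {A B X : Submodule F (VV F)} (hA : A ≤ X) (hB : X ≤ B) (j : ℤ) :
    X ⊔ (A ⊔ B ⊓ MM F j) = B ↔ B ≤ X ⊔ MM F j := by
  have h1 : X ⊔ (A ⊔ B ⊓ MM F j) = (X ⊔ MM F j) ⊓ B := by
    rw [← sup_assoc, sup_eq_left.2 hA, inf_comm B, sup_inf_assoc_of_le _ hB]
  rw [h1]
  exact inf_eq_right

/-- the flag of the gap `[A, B]` -/
theorem exists_flag {A B : Submodule F (VV F)} (hAB : A ≤ B) {a b : ℤ} (ha : Lo F a ≤ A)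
    (hb : B ≤ Lo F b) :
    ∃ (g : ℕ) (Fl : ℕ → Submodule F (VV F)), Flag A B g Fl ∧
      ∀ X, (A < X ∧ X < B ∧ Dich A B X) ↔ GV A B g Fl X := by
  set N : ℕ := (a - b).toNat with hN
  set G : ℕ → Submodule F (VV F) := fun i => A ⊔ B ⊓ MM F (b + i) with hG
  have hG0 : G 0 = A := by
    show A ⊔ B ⊓ MM F (b + (0 : ℕ)) = A
    have h1 : B ⊓ MM F (b + (0 : ℕ)) = ⊥ := by
      rw [eq_bot_iff, ← lo_inf_mm (F := F) (show b + (0 : ℕ) ≤ b by simp)]
      exact inf_le_inf_right _ hb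
    rw [h1, sup_bot_eq]
  have hGN : G N = B := by
    show A ⊔ B ⊓ MM F (b + (N : ℕ)) = B
    have h0 : a ≤ b + (N : ℕ) := by omega
    rw [inf_comm, ← sup_inf_assoc_of_le _ hAB]
    have h1 : A ⊔ MM F (b + (N : ℕ)) = ⊤ := by
      rw [eq_top_iff, ← lo_sup_mm (F := F) h0]
      exact sup_le_sup_right ha _
    rw [h1, top_inf_eq]
  obtain ⟨g, Fl, hF, h1, h2⟩ := flag_of_path G N (by
    intro i _
    have h3 := wcov_sup (wcov_inf (mm_wcov (F := F) (b + i)) B) A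
    have h4 : b + ((i + 1 : ℕ) : ℤ) = b + (i : ℤ) + 1 := by push_cast; ring
    show A ⊔ B ⊓ MM F (b + (i : ℤ)) ⩿ A ⊔ B ⊓ MM F (b + ((i + 1 : ℕ) : ℤ))
    rw [h4]
    exact h3)
  rw [hG0, hGN] at hF
  refine ⟨g, Fl, hF, ?_⟩
  intro X
  constructor
  · rintro ⟨hA, hB, hD⟩
    refine gen_of_dich hF hA hB ?_
    intro r hr
    obtain ⟨i, _, h3⟩ := h2 r hr
    rw [h3]
    rcases hD (b + i) with h4 | h4
    · exact Or.inl ((inf_eq_iff hA.le hB.le _).2 h4)
    · exact Or.inr ((sup_eq_iff hA.le hB.le _).2 h4)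
  · rintro ⟨r, hr1, hr2, hr⟩
    obtain ⟨hA, hB⟩ := gv_lt hF hr1 hr2 hr
    refine ⟨hA, hB, ?_⟩
    intro j
    rcases lt_or_ge j b with h3 | h3
    · left
      have : X ⊓ MM F j ≤ ⊥ := by
        rw [← lo_inf_mm (F := F) h3.le]
        exact inf_le_inf_right _ (hB.le.trans hb)
      exact this.trans bot_le
    · obtain ⟨i, rfl⟩ : ∃ i : ℕ, j = b + i := ⟨(j - b).toNat, by omega⟩
      rcases Nat.lt_or_ge N i with h4 | h4
      · right
        have : (⊤ : Submodule F (VV F)) ≤ X ⊔ MM F (b + i) := by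
          rw [← lo_sup_mm (F := F) (show a ≤ b + (i : ℤ) by omega)]
          exact sup_le_sup_right (ha.trans hA.le) _
        exact le_top.trans this
      · obtain ⟨r', hr', h5⟩ := h1 i h4
        rcases dich_of_gen hF hr2.le hr r' hr' with h6 | h6
        · left
          rw [← h5] at h6
          exact (inf_eq_iff hA.le hB.le _).1 h6
        · right
          rw [← h5] at h6
          exact (sup_eq_iff hA.le hB.le _).1 h6

end Vale.Agent.P067.Gap
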