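import Vale.Agent.P067.GapIso2
import Vale.Agent.P067.LatDim

/-!
P067, (B4): long gaps in the periodic chain of a face.
-/

namespace Vale.Agent.P067.Gap

open Finset Classical

section General

variable {F V : Type*} [Field F] [AddCommGroup V] [Module F V]

theorem finrank_wcov {x y : Submodule F V} (h : x ⩿ y) (hy : Module.Finite F y) :
    Module.finrank F y ≤ Module.finrank F x + 1 := by
  rcases wcovBy_iff_covBy_or_eq.1 h with h | h
  · obtain ⟨v, hvy, hvx⟩ := SetLike.not_le_iff_exists.1 h.lt.not_ge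
    have h1 : x < x ⊔ Submodule.span F {v} := by
      refine lt_of_le_of_ne le_sup_left ?_
      intro h2
      apply hvx
      rw [h2]
      exact Submodule.mem_sup_right (Submodule.mem_span_singleton_self v)
    have h2 : x ⊔ Submodule.span F {v} ≤ y :=
      sup_le h.le ((Submodule.span_singleton_le_iff_mem v y).2 hvy)
    have h3 : x ⊔ Submodule.span F {v} = y :=
      (eq_or_lt_of_le h2).resolve_right (fun h3 => h.2 h1 h3)
    have hx : Module.Finite F x := gen_finite_of_le h.le hy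
    rw [← h3]
    have h4 := Submodule.finrank_add_le_finrank_add_finrank x (Submodule.span F {v})
    have h5 : Module.finrank F (Submodule.span F {v}) ≤ 1 := by
      have := finrank_span_le_card (R := F) ({v} : Set V)
      simpa using this
    omega
  · rw [h]; omega

theorem flag_finrank {A B M : Submodule F V} {g : ℕ} {Fl : ℕ → Submodule F V}
    (hF : Flag A B g Fl) (hfin : Module.Finite F ↥(B ⊓ M)) :
    Module.finrank F ↥(B ⊓ M) ≤ Module.finrank F ↥(A ⊓ M) + g := by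
  have key : ∀ i ≤ g, Module.finrank F ↥(Fl i ⊓ M) ≤ Module.finrank F ↥(A ⊓ M) + i := by
    intro i
    induction i with
    | zero =>
      intro _
      rw [hF.zero]; omega
    | succ i ih =>
      intro hi
      have h1 := ih (by omega)
      have h2 : Fl i ⊓ M ⩿ Fl (i + 1) ⊓ M := by
        have := wcov_inf (hF.cov i (by omega)).wcovBy M
        rwa [inf_comm, inf_comm M] at this
      have h3 : Fl (i + 1) ⊓ M ≤ B ⊓ M :=
        inf_le_inf_right _ (hF.top ▸ hF.mono hi le_rfl)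
      have h4 := finrank_wcov h2 (gen_finite_of_le h3 hfin)
      omega
  have := key g le_rfl
  rwa [hF.top] at this

end General

variable {F : Type} [Field F] {n : ℕ}

theorem flag_ind {A B : Submodule F (VV F)} (hA : IsLat n A) (hB : IsLat n B) (hAB : A ≤ B)
    {g : ℕ} {Fl : ℕ → Submodule F (VV F)} (hF : Flag A B g Fl) : ind A - ind B ≤ g := by
  obtain ⟨a, ha⟩ := hA.lower
  have h1 := uu_sub_vv hA a
  have h2 := uu_sub_vv hB a
  rw [vv_eq_zero ha le_rfl] at h1
  rw [vv_eq_zero (ha.trans hAB) le_rfl] at h2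
  have h3 := flag_finrank (M := MM F a) hF (finite_inf hB a)
  have h4 : uu a B ≤ uu a A + g := h3
  push_cast at h1 h2
  omega

/-- translate `T^k L` -/
noncomputable def tr (n : ℕ) (k : ℤ) (L : Submodule F (VV F)) : Submodule F (VV F) :=
  L.map (sh F (n * k)).toLinearMap

theorem tr_tr (k l : ℤ) (L : Submodule F (VV F)) : tr n k (tr n l L) = tr n (k + l) L := by
  rw [tr, tr, map_sh_map_sh, ← mul_add, tr]

theorem tr_zero (L : Submodule F (VV F)) : tr n 0 L = L := by
  rw [tr, mul_zero, map_sh_zero]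

theorem tr_le_tr {k : ℤ} {L L' : Submodule F (VV F)} : tr n k L ≤ tr n k L' ↔ L ≤ L' :=
  map_sh_mono

theorem tr_le_iff {k : ℤ} {L L' : Submodule F (VV F)} : tr n k L ≤ L' ↔ L ≤ tr n (-k) L' := by
  rw [← tr_le_tr (n := n) (k := -k) (L := tr n k L), tr_tr, neg_add_cancel, tr_zero]

theorem le_tr_iff {k : ℤ} {L L' : Submodule F (VV F)} : L ≤ tr n k L' ↔ tr n (-k) L ≤ L' := by
  rw [tr_le_iff, neg_neg]

theorem isLat_tr {L : Submodule F (VV F)} (hL : IsLat n L) (k : ℤ) : IsLat n (tr n k L) :=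
  hL.map_sh _

theorem ind_tr {L : Submodule F (VV F)} (hL : IsLat n L) (k : ℤ) :
    ind (tr n k L) = ind L + n * k := ind_map_sh hL _

theorem tr_anti {L : Submodule F (VV F)} (hL : IsLat n L) {k l : ℤ} (h : k ≤ l) :
    tr n l L ≤ tr n k L := by
  have h1 : tr n (l - k) L ≤ L := map_sh_le_of_nonneg hL (by omega)
  have h2 := (tr_le_tr (n := n) (k := k)).2 h1
  rwa [tr_tr, add_sub_cancel] at h2

theorem uu_tr (k j : ℤ) (L : Submodule F (VV F)) : uu j (tr n k L) = uu (j - n * k) L :=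
  uu_map_sh _ _ _

theorem vv_tr (k j : ℤ) (L : Submodule F (VV F)) : vv j (tr n k L) = vv (j - n * k) L :=
  vv_map_sh _ _ _

/-- all translates are comparable -/
def Cmp (n : ℕ) (X Y : Submodule F (VV F)) : Prop := ∀ k : ℤ, tr n k X ≤ Y ∨ Y ≤ tr n k X

theorem Cmp.symm {X Y : Submodule F (VV F)} (h : Cmp n X Y) : Cmp n Y X := by
  intro k
  rcases h (-k) with h1 | h1
  · right
    rwa [tr_le_iff, neg_neg] at h1
  · left
    rwa [le_tr_iff, neg_neg] at h1

theorem Cmp.tr_left {X Y : Submodule F (VV F)} (h : Cmp n X Y) (a : ℤ) : Cmp n (tr n a X) Y := by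
  intro k
  rw [tr_tr]
  exact h _

theorem Cmp.tr_right {X Y : Submodule F (VV F)} (h : Cmp n X Y) (a : ℤ) : Cmp n X (tr n a Y) :=
  (h.symm.tr_left a).symm

theorem Cmp.of_tr_left {X Y : Submodule F (VV F)} {a : ℤ} (h : Cmp n (tr n a X) Y) : Cmp n X Y := by
  have := h.tr_left (-a)
  rwa [tr_tr, neg_add_cancel, tr_zero] at this

theorem Cmp.of_tr_right {X Y : Submodule F (VV F)} {a : ℤ} (h : Cmp n X (tr n a Y)) : Cmp n X Y :=
  (h.symm.of_tr_left).symm

/-- sandwiched elements are comparable with all translates -/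
theorem cmp_of_sandwich {X Y : Submodule F (VV F)} (hX : IsLat n X) (h1 : X ≤ Y)
    (h2 : tr n 1 Y ≤ X) : Cmp n X Y := by
  intro k
  rcases le_or_gt 0 k with h | h
  · left
    have := tr_anti hX h
    rw [tr_zero] at this
    exact this.trans h1
  · right
    have h3 : Y ≤ tr n (-1) X := by rwa [tr_le_iff] at h2
    exact h3.trans (tr_anti hX (by omega))

theorem adj_tr {X Y : Submodule F (VV F)} :
    Adj n X Y ↔ (X ≤ Y ∧ tr n 1 Y ≤ X) ∨ (Y ≤ X ∧ tr n 1 X ≤ Y) := by
  rw [Adj, tr, tr, mul_one]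

theorem cmp_of_adj {X Y : Submodule F (VV F)} (hX : IsLat n X) (hY : IsLat n Y)
    (h : Adj n X Y) : Cmp n X Y := by
  rcases adj_tr.1 h with ⟨h1, h2⟩ | ⟨h1, h2⟩
  · exact cmp_of_sandwich hX h1 h2
  · exact (cmp_of_sandwich hY h1 h2).symm

theorem adj_of_cmp {X Y : Submodule F (VV F)} (hX : IsLat n X) (hY : IsLat n Y)
    (hX0 : 0 ≤ ind X) (hXn : ind X < n) (hY0 : 0 ≤ ind Y) (hYn : ind Y < n)
    (h : Cmp n X Y) : Adj n X Y := by
  rw [adj_tr]
  have key : ∀ {X Y : Submodule F (VV F)}, IsLat n X → IsLat n Y → 0 ≤ ind X → ind X < n →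
      0 ≤ ind Y → ind Y < n → Cmp n X Y → X ≤ Y → tr n 1 Y ≤ X := by
    intro X Y hX hY hX0 hXn hY0 hYn h hXY
    rcases h.symm 1 with h1 | h1
    · exact h1
    · exfalso
      have h2 := ind_le_of_le hX (isLat_tr hY 1) h1
      rw [ind_tr hY] at h2
      omega
  rcases h 0 with h1 | h1
  · rw [tr_zero] at h1
    exact Or.inl ⟨h1, key hX hY hX0 hXn hY0 hYn h h1⟩
  · rw [tr_zero] at h1
    exact Or.inr ⟨h1, key hY hX hY0 hYn hX0 hXn h.symm h1⟩

/-- two consecutive elements of the periodic chain of `τ` -/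
structure GapData (n : ℕ) (τ : Finset (Submodule F (VV F))) (A B : Submodule F (VV F)) :
    Prop where
  latA : IsLat n A
  latB : IsLat n B
  lt : A < B
  per : tr n 1 B ≤ A
  cons : ∀ Y ∈ τ, ∀ k : ℤ, tr n k Y ≤ A ∨ B ≤ tr n k Y
  memA : ∃ Y ∈ τ, ∃ k : ℤ, A = tr n k Y
  memB : ∃ Y ∈ τ, ∃ k : ℤ, B = tr n k Y

theorem exists_gap {τ : Finset (Submodule F (VV F))} (hτ : τ ∈ Lam F n) (hne : τ.Nonempty)
    (G : ℕ) (hG0 : 1 ≤ G) (hG : τ.card * G ≤ n) :
    ∃ A B, GapData n τ A B ∧ ind B + G ≤ ind A := by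
  have hn0 : 0 < n := lt_of_lt_of_le (Nat.mul_pos (Finset.card_pos.2 hne) hG0) hG
  have hn : (0 : ℤ) < n := by exact_mod_cast hn0
  have hlat : ∀ Y ∈ τ, IsLat n Y := fun Y hY => (hτ.1 Y hY).1
  have hcmp : ∀ Y ∈ τ, ∀ Y' ∈ τ, Cmp n Y Y' := fun Y hY Y' hY' =>
    cmp_of_adj (hlat Y hY) (hlat Y' hY') (hτ.2 Y hY Y' hY')
  obtain ⟨b, hb, hgap⟩ := long_gap n (τ.image ind) (hne.image _) G
    ((Nat.mul_le_mul_right _ Finset.card_image_le).trans hG) hG0
  obtain ⟨B, hB, rfl⟩ := Finset.mem_image.1 hb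
  -- the next element
  obtain ⟨Y0, hY0, hmin⟩ := τ.exists_min_image (fun Y => (ind Y - ind B - 1) % (n : ℤ)) hne
  set k0 : ℤ := -((ind Y0 - ind B - 1) / n) with hk0
  have hdiv := Int.emod_add_mul_ediv (ind Y0 - ind B - 1) n
  have hmod0 : 0 ≤ (ind Y0 - ind B - 1) % (n : ℤ) := Int.emod_nonneg _ hn.ne'
  have hindA : ind (tr n k0 Y0) = ind B + 1 + (ind Y0 - ind B - 1) % (n : ℤ) := by
    rw [ind_tr (hlat Y0 hY0), hk0]
    linear_combination -hdiv
  have hlt : ind B < ind (tr n k0 Y0) := by rw [hindA]; omega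
  -- strict comparison by the index
  have hcompare : ∀ Y ∈ τ, ∀ Y' ∈ τ, ∀ k l : ℤ, ind (tr n k Y) ≤ ind (tr n l Y') →
      tr n l Y' ≤ tr n k Y := by
    intro Y hY Y' hY' k l h
    have h1 := (((hcmp Y hY Y' hY').tr_left k).tr_right l) 0
    rw [tr_zero] at h1
    rcases h1 with h1 | h1
    · have h2 := ind_le_of_le (isLat_tr (hlat Y hY) k) (isLat_tr (hlat Y' hY') l) h1
      exact (eq_of_le_of_ind_eq (isLat_tr (hlat Y hY) k) (isLat_tr (hlat Y' hY') l) h1
        (le_antisymm h h2)).ge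
    · exact h1
  have hB0 : tr n 0 B = B := tr_zero B
  have hcons : ∀ Y ∈ τ, ∀ k : ℤ, tr n k Y ≤ tr n k0 Y0 ∨ B ≤ tr n k Y := by
    intro Y hY k
    rcases le_or_gt (ind (tr n k Y)) (ind B) with h | h
    · right
      have := hcompare Y hY B hB k 0 (by rw [hB0]; exact h)
      rwa [hB0] at this
    · left
      apply hcompare Y0 hY0 Y hY k0 k
      rw [hindA]
      have h1 := hmin Y hY
      rw [ind_tr (hlat Y hY)] at h ⊢
      have h2 : (ind Y - ind B - 1) % (n : ℤ) ≤ ind Y + n * k - ind B - 1 := by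
        have h3 : ind Y - ind B - 1 = (ind Y + n * k - ind B - 1) + n * (-k) := by ring
        rw [h3, Int.add_mul_emod_self_left]
        have h4 := Int.emod_add_mul_ediv (ind Y + n * k - ind B - 1) n
        have h5 : 0 ≤ (ind Y + n * k - ind B - 1) / (n : ℤ) :=
          Int.ediv_nonneg (by omega) hn.le
        have h6 := mul_nonneg hn.le h5
        linarith
      omega
  have hAltB : tr n k0 Y0 < B := by
    refine lt_of_le_of_ne ?_ ?_
    · have := hcompare B hB Y0 hY0 0 k0 (by rw [hB0]; exact hlt.le)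
      rwa [hB0] at this
    · intro h
      rw [h] at hlt
      exact lt_irrefl _ hlt
  refine ⟨tr n k0 Y0, B, ⟨isLat_tr (hlat Y0 hY0) k0, hlat B hB, hAltB, ?_, hcons,
    ⟨Y0, hY0, k0, rfl⟩, ⟨B, hB, 0, hB0.symm⟩⟩, ?_⟩
  · rcases hcons B hB 1 with h | h
    · exact h
    · exfalso
      have h1 := ind_le_of_le (hlat B hB) (isLat_tr (hlat B hB) 1) h
      rw [ind_tr (hlat B hB)] at h1
      omega
  · have h1 := hgap (ind Y0) (Finset.mem_image_of_mem _ hY0) k0
    rw [ind_tr (hlat Y0 hY0)] at hlt ⊢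
    exact h1 hlt

end Vale.Agent.P067.Gap
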