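import Vale.Agent.P067.GapCx

/-!
P067, part (A): fillings and cone functions of bounded size.
-/

namespace Vale.Agent.P067.Gap

open Finset Classical

/-- bound for the filling of a cycle with `m` vertices of codimension one -/
def Psi (f : ℕ → ℕ) (s : ℕ) : ℕ → ℕ → ℕ
  | 0, N => (s * N + 1) * N
  | m + 1, N => max (Psi f s m N) (f N + Psi f s m (N + f N))

/-- size of the field needed -/
def PsiP (f p : ℕ → ℕ) (s : ℕ) : ℕ → ℕ → ℕ
  | 0, N => s * N + 1
  | m + 1, N => max (PsiP f p s m N) (max (p N) (PsiP f p s m (N + f N)))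

/-- bound for the filling of cycles of size `s` with `N` faces -/
def Phi : ℕ → ℕ → ℕ
  | 0, N => Psi id 0 0 N
  | s + 1, N => Psi (Phi s) (s + 1) ((s + 1) * N) N

/-- size of the field needed -/
def PhiP : ℕ → ℕ → ℕ
  | 0, N => PsiP id id 0 0 N
  | s + 1, N => PsiP (Phi s) (PhiP s) (s + 1) ((s + 1) * N) N

section Cx

variable {K V : Type*} [Field K] [Fintype K] [AddCommGroup V] [Module K V]
variable {α : Type*}
variable {e : Submodule K V → α} {P : Submodule K V → Prop} {R : Finset α → Prop}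
variable {k : Type*} [CommRing k] [CharP k 2]

/-- filling of a cycle without vertices of codimension one -/
theorem fill0 {A B : Submodule K V} {g : ℕ} {F : ℕ → Submodule K V}
    (E : Env e P R) (hF : Flag A B g F) (hP : ∀ X, GV A B g F X → P X) (hg : 2 ≤ g)
    (s N : ℕ) (z : Ch k α) (hz : bd z = 0)
    (hC : On (fun σ => Cx e P R A B g F σ ∧ σ.card = s) z) (hN : z.support.card ≤ N)
    (h1 : ∀ X, P X → e X ∈ vs z → ¬ Gen A B F 1 X) (hK : s * N + 1 ≤ Fintype.card K) :
    ∃ c : Ch k α, bd c = z ∧ On (fun σ => Cx e P R A B g F σ ∧ σ.card = s + 1) c ∧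
      c.support.card ≤ (s * N + 1) * N := by
  have hvs : (vs z).card ≤ s * N := by
    have h2 : On (fun σ : Finset α => σ.card ≤ s) z := hC.mono fun σ h => h.2.le
    calc (vs z).card ≤ z.support.card * s := card_vs h2
      _ ≤ N * s := Nat.mul_le_mul_right _ hN
      _ = s * N := Nat.mul_comm _ _
  -- every gap vertex of `z` is generic of codimension at least two
  have hgen : ∀ X, P X → e X ∈ vs z → ∃ r, r + 2 < g ∧ Gen A B F (r + 2) X := by
    intro X hX hm
    obtain ⟨σ, hσ, hmσ⟩ := Finset.mem_biUnion.1 hm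
    obtain ⟨r, hr1, hr2, hr⟩ := (hC σ hσ).1.gen X hX hmσ
    have : r ≠ 1 := by
      rintro rfl
      exact h1 X hX hm hr
    obtain ⟨r', rfl⟩ : ∃ r', r = r' + 2 := ⟨r - 2, by omega⟩
    exact ⟨r', hr2, hr⟩
  -- hyperplanes to avoid
  let Hf : α → Submodule K V := fun x =>
    if h : ∃ q : Submodule K V × ℕ, P q.1 ∧ x = e q.1 ∧ q.2 + 2 < g ∧ Gen A B F (q.2 + 2) q.1 then
      h.choose.1 ⊔ F (h.choose.2 + 1) else F (g - 1)
  have hHf : ∀ x, ¬ B ≤ Hf x := by
    intro x
    by_cases h : ∃ q : Submodule K V × ℕ, P q.1 ∧ x = e q.1 ∧ q.2 + 2 < g ∧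
        Gen A B F (q.2 + 2) q.1
    · have h2 : Hf x = h.choose.1 ⊔ F (h.choose.2 + 1) := dif_pos h
      rw [h2]
      have h3 := h.choose_spec.2.2
      exact (cov_sup hF h3.2 (by omega)).lt.not_ge
    · have h2 : Hf x = F (g - 1) := dif_neg h
      rw [h2, ← hF.top]
      exact (hF.lt (by omega) le_rfl).not_ge
  have hFg : ¬ B ≤ F (g - 1) := by
    rw [← hF.top]
    exact (hF.lt (by omega) le_rfl).not_ge
  obtain ⟨v, hvB, hv⟩ := exists_avoid B (insert (F (g - 1)) ((vs z).image Hf))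
    (by
      intro H hH
      rcases Finset.mem_insert.1 hH with rfl | hH
      · exact hFg
      · obtain ⟨x, _, rfl⟩ := Finset.mem_image.1 hH
        exact hHf x)
    (by
      calc _ ≤ ((vs z).image Hf).card + 1 := Finset.card_insert_le _ _
        _ ≤ (vs z).card + 1 := Nat.add_le_add_right Finset.card_image_le _
        _ ≤ s * N + 1 := Nat.add_le_add_right hvs _
        _ ≤ _ := hK)
  refine fill_v E hF hP hg hvB (hv _ (Finset.mem_insert_self _ _)) s (s * N) N z hz hC hN ?_ ?_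
  · intro X hX hm
    right
    obtain ⟨r, hr, hrX⟩ := hgen X hX hm
    refine ⟨r + 2, by omega, hr, hrX, ?_⟩
    have h : ∃ q : Submodule K V × ℕ, P q.1 ∧ e X = e q.1 ∧ q.2 + 2 < g ∧
        Gen A B F (q.2 + 2) q.1 := ⟨(X, r), hX, rfl, hr, hrX⟩
    have h2 : Hf (e X) = h.choose.1 ⊔ F (h.choose.2 + 1) := dif_pos h
    have h3 := h.choose_spec
    have h6 := hv (Hf (e X)) (Finset.mem_insert_of_mem (Finset.mem_image_of_mem _ hm))
    rw [h2] at h6
    generalize h.choose = q at h3 h6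
    obtain ⟨Y, r'⟩ := q
    obtain ⟨hPY, hXY, hr', hrY⟩ := h3
    have h4 := E.inj _ _ hX hPY hXY
    dsimp only at h4 hr' hrY h6
    subst h4
    have h5 : r' = r := by
      rcases lt_trichotomy r' r with h7 | h7 | h7
      · exact (gen_unique hF hrY hrX (by omega) (by omega)).elim
      · exact h7
      · exact (gen_unique hF hrX hrY (by omega) (by omega)).elim
    subst h5
    exact h6
  · exact (Finset.card_le_card (Finset.filter_subset _ _)).trans hvs

/-- elimination of the vertices of codimension one -/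
theorem fill_step {A B : Submodule K V} {g : ℕ} {F : ℕ → Submodule K V}
    (E : Env e P R) (hF : Flag A B (g + 1) F) (hP : ∀ X, GV A B (g + 1) F X → P X)
    (s : ℕ) (hg : s + 2 ≤ g) (f p : ℕ → ℕ)
    (hrec : ∀ w, Gen A B F 1 w → ∀ (N : ℕ) (z : Ch k α), bd z = 0 →
      On (fun σ => Cx e P R A w g (fun i => w ⊓ F (i + 1)) σ ∧ σ.card = s) z →
      z.support.card ≤ N → p N ≤ Fintype.card K →
      ∃ c : Ch k α, bd c = z ∧
        On (fun σ => Cx e P R A w g (fun i => w ⊓ F (i + 1)) σ ∧ σ.card = s + 1) c ∧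
        c.support.card ≤ f N) (m : ℕ) :
    ∀ (N : ℕ) (z : Ch k α), bd z = 0 →
    On (fun σ => Cx e P R A B (g + 1) F σ ∧ σ.card = s + 1) z → z.support.card ≤ N →
    ((vs z).filter (fun x => ∃ X, P X ∧ x = e X ∧ Gen A B F 1 X)).card ≤ m →
    PsiP f p (s + 1) m N ≤ Fintype.card K →
    ∃ c : Ch k α, bd c = z ∧ On (fun σ => Cx e P R A B (g + 1) F σ ∧ σ.card = s + 1 + 1) c ∧
      c.support.card ≤ Psi f (s + 1) m N := by
  induction m with
  | zero =>
    intro N z hz hC hN hm hK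
    refine fill0 E hF hP (by omega) (s + 1) N z hz hC hN ?_ hK
    intro X hX hmX hX1
    have h1 : e X ∈ (vs z).filter (fun x => ∃ X, P X ∧ x = e X ∧ Gen A B F 1 X) :=
      Finset.mem_filter.2 ⟨hmX, X, hX, rfl, hX1⟩
    have h2 := Finset.card_pos.2 ⟨_, h1⟩
    omega
  | succ m ih =>
    intro N z hz hC hN hm hK
    have hK1 : PsiP f p (s + 1) m N ≤ Fintype.card K := (le_max_left _ _).trans hK
    have hK2 : p N ≤ Fintype.card K := ((le_max_left _ _).trans (le_max_right _ _)).trans hK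
    have hK3 : PsiP f p (s + 1) m (N + f N) ≤ Fintype.card K :=
      ((le_max_right _ _).trans (le_max_right _ _)).trans hK
    by_cases hle : ((vs z).filter (fun x => ∃ X, P X ∧ x = e X ∧ Gen A B F 1 X)).card ≤ m
    · obtain ⟨c, h1, h2, h3⟩ := ih N z hz hC hN hle hK1
      exact ⟨c, h1, h2, h3.trans (le_max_left _ _)⟩
    have hpos : 0 < ((vs z).filter (fun x => ∃ X, P X ∧ x = e X ∧ Gen A B F 1 X)).card := by
      omega
    obtain ⟨x, hx⟩ := Finset.card_pos.1 hpos
    obtain ⟨hxz, w, hPw, rfl, hw⟩ := Finset.mem_filter.1 hx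
    have hlkc : bd (lk (e w) z) = 0 := by rw [bd_lk, hz, map_zero]
    have hlkOn : On (fun σ => Cx e P R A w g (fun i => w ⊓ F (i + 1)) σ ∧ σ.card = s)
        (lk (e w) z) := by
      refine hC.lk ?_
      rintro σ ⟨h1, h2⟩ hwσ
      refine ⟨h1.down E hF hw hPw hwσ, ?_⟩
      rw [Finset.card_erase_of_mem hwσ, h2]; omega
    obtain ⟨c, hc, hcOn, hcN⟩ := hrec w hw N (lk (e w) z) hlkc hlkOn ((card_lk _ _).trans hN) hK2
    set z1 := dl (e w) z + c with hz1
    have hz1c : bd z1 = 0 := elim_cycle (e w) z c hz hc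
    -- faces of `c`
    have hcOn' : On (fun σ => (Cx e P R A B (g + 1) F σ ∧ σ.card = s + 1) ∧
        (∀ X, P X → e X ∈ σ → ¬ Gen A B F 1 X) ∧ ∀ Y, P Y → e Y ∈ σ → (w ≤ Y ∨ Y ≤ w)) c := by
      intro σ hσ
      obtain ⟨h1, h2⟩ := hcOn σ hσ
      refine ⟨⟨h1.up hF hw, h2⟩, ?_, ?_⟩
      · intro X hX hmX hX1
        obtain ⟨r, hr1, hr2, hr⟩ := (h1.gen X hX hmX).up hF hw
        exact gen_unique hF hX1 hr (by omega) (by omega)
      · intro Y hY hmY
        obtain ⟨r, _, _, hr⟩ := h1.gen Y hY hmY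
        exact Or.inr hr.right
    have hdlOn : On (fun σ => (Cx e P R A B (g + 1) F σ ∧ σ.card = s + 1) ∧
        (∀ y ∈ σ, y ∈ vs z) ∧ e w ∉ σ) (dl (e w) z) := by
      have hC' : On (fun σ => (Cx e P R A B (g + 1) F σ ∧ σ.card = s + 1) ∧
          ∀ y ∈ σ, y ∈ vs z) z :=
        fun σ hσ => ⟨hC σ hσ, fun y hy => mem_vs_of hσ hy⟩
      refine hC'.dl ?_
      rintro σ ⟨h1, h3⟩ hx
      exact ⟨h1, h3, hx⟩
    have hz1On : On (fun σ => Cx e P R A B (g + 1) F σ ∧ σ.card = s + 1) z1 :=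
      (hdlOn.mono fun σ h => h.1).add (hcOn'.mono fun σ h => h.1)
    have hz1N : z1.support.card ≤ N + f N := by
      calc z1.support.card ≤ (dl (e w) z).support.card + c.support.card := card_add _ _
        _ ≤ z.support.card + f N := by
            refine Nat.add_le_add ?_ hcN
            have := card_dl_lk (e w) z
            omega
        _ ≤ N + f N := Nat.add_le_add_right hN _
    have hm1 : ((vs z1).filter (fun x => ∃ X, P X ∧ x = e X ∧ Gen A B F 1 X)).card ≤ m := by
      have h1 : (vs z1).filter (fun x => ∃ X, P X ∧ x = e X ∧ Gen A B F 1 X) ⊆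
          ((vs z).filter (fun x => ∃ X, P X ∧ x = e X ∧ Gen A B F 1 X)).erase (e w) := by
        intro y hy
        obtain ⟨h2, X, hPX, rfl, hX1⟩ := Finset.mem_filter.1 hy
        obtain ⟨σ, hσ, hyσ⟩ := Finset.mem_biUnion.1 h2
        rcases Finset.mem_union.1 (Finsupp.support_add hσ) with h3 | h3
        · obtain ⟨_, h4, h5⟩ := hdlOn σ h3
          refine Finset.mem_erase.2 ⟨fun h => h5 (h ▸ hyσ), Finset.mem_filter.2
            ⟨h4 _ hyσ, X, hPX, rfl, hX1⟩⟩
        · exact absurd hX1 ((hcOn' σ h3).2.1 X hPX hyσ)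
      have h2 : e w ∈ (vs z).filter (fun x => ∃ X, P X ∧ x = e X ∧ Gen A B F 1 X) :=
        Finset.mem_filter.2 ⟨hxz, w, hPw, rfl, hw⟩
      have h3 := Finset.card_le_card h1
      rw [Finset.card_erase_of_mem h2] at h3
      omega
    obtain ⟨c1, hc1, hc1On, hc1N⟩ := ih (N + f N) z1 hz1c hz1On hz1N hm1 hK3
    refine ⟨c1 + jn (e w) c, elim_fill (e w) z c c1 hc hc1, ?_, ?_⟩
    · refine hc1On.add ?_
      refine hcOn'.jn ?_
      rintro σ ⟨⟨h1, h2⟩, _, h5⟩ hx
      refine ⟨h1.insert E hPw ⟨1, le_rfl, by omega, hw⟩ h5, ?_⟩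
      rw [Finset.card_insert_of_notMem hx, h2]
    · calc (c1 + jn (e w) c).support.card ≤ c1.support.card + (jn (e w) c).support.card :=
            card_add _ _
        _ ≤ Psi f (s + 1) m (N + f N) + f N :=
            Nat.add_le_add hc1N ((card_jn _ _).trans hcN)
        _ = f N + Psi f (s + 1) m (N + f N) := Nat.add_comm _ _
        _ ≤ _ := le_max_right _ _

/-- **Fillings**: every cycle of size `s` with at most `N` faces bounds a chain with at most
`Phi s N` faces, if the gap has length at least `s + 2` and the field is large. -/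
theorem fill (E : Env e P R) (s : ℕ) :
    ∀ (A B : Submodule K V) (g : ℕ) (F : ℕ → Submodule K V), Flag A B g F →
    (∀ X, GV A B g F X → P X) → s + 2 ≤ g → ∀ (N : ℕ) (z : Ch k α), bd z = 0 →
    On (fun σ => Cx e P R A B g F σ ∧ σ.card = s) z → z.support.card ≤ N →
    PhiP s N ≤ Fintype.card K →
    ∃ c : Ch k α, bd c = z ∧ On (fun σ => Cx e P R A B g F σ ∧ σ.card = s + 1) c ∧
      c.support.card ≤ Phi s N := by
  induction s with
  | zero =>
    intro A B g F hF hP hg N z hz hC hN hK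
    refine fill0 E hF hP hg 0 N z hz hC hN ?_ hK
    intro X hX hmX
    obtain ⟨σ, hσ, hm⟩ := Finset.mem_biUnion.1 hmX
    have h1 := (hC σ hσ).2
    rw [Finset.card_eq_zero] at h1
    subst h1
    simp at hm
  | succ s ih =>
    intro A B g F hF hP hg N z hz hC hN hK
    obtain ⟨g', rfl⟩ : ∃ g', g = g' + 1 := ⟨g - 1, by omega⟩
    refine fill_step E hF hP s (by omega) (Phi s) (PhiP s) ?_ ((s + 1) * N) N z hz hC hN ?_ hK
    · intro w hw N' z' hz' hC' hN' hK'
      refine ih A w g' _ (flag_restrict hF hw) ?_ (by omega) N' z' hz' hC' hN' hK'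
      intro X hX
      exact hP X (hX.up' hF hw)
    · have h2 : On (fun σ : Finset α => σ.card ≤ s + 1) z := hC.mono fun σ h => h.2.le
      calc _ ≤ (vs z).card := Finset.card_le_card (Finset.filter_subset _ _)
        _ ≤ z.support.card * (s + 1) := card_vs h2
        _ ≤ N * (s + 1) := Nat.mul_le_mul_right _ hN
        _ = (s + 1) * N := Nat.mul_comm _ _

end Cx

end Vale.Agent.P067.Gap
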