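import Vale.Agent.P067.SpecOf

/-!
# P067, part D1: the pair condition from the structure of the groups `K_R`, `|R| = n - 2`
-/

open Finset

set_option linter.unusedSectionVars false
set_option linter.unusedVariables false

namespace Vale.Agent.P067

namespace Heis

variable {G : Type*} [Group G] [Fintype G]

/-- average over right multiplication by a subgroup -/
noncomputable def E (S : Subgroup G) (h : G → ℝ) : G → ℝ :=
  avg (fun _ : Fin 1 => S) {0} h

/-- invariance under a subgroup -/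
def IV (S : Subgroup G) (h : G → ℝ) : Prop := ∀ g, ∀ k ∈ S, h (g * k) = h g

theorem KJ_const (S : Subgroup G) : KJ (fun _ : Fin 1 => S) {0} = S := by
  ext x; simp [mem_KJ]

theorem iv_iff {S : Subgroup G} {h : G → ℝ} : Inv (fun _ : Fin 1 => S) {0} h ↔ IV S h := by
  unfold Inv IV
  rw [KJ_const]

open Classical in
/-- the finset of elements -/
noncomputable def F (S : Subgroup G) : Finset G := univ.filter fun k => k ∈ S

theorem mem_F {S : Subgroup G} {g : G} : g ∈ F S ↔ g ∈ S := by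
  classical
  simp [F]

theorem KF_const (S : Subgroup G) : KF (fun _ : Fin 1 => S) {0} = F S := by
  ext x; rw [mem_KF, mem_F, KJ_const]

theorem E_eq (S : Subgroup G) (h : G → ℝ) (g : G) :
    E S h g = (∑ k ∈ F S, h (g * k)) / ((F S).card : ℝ) := by
  unfold E
  rw [avg_eq, KF_const]

theorem F_pos (S : Subgroup G) : 0 < ((F S).card : ℝ) := by
  rw [← KF_const]; exact KF_card_pos _

theorem card_F (S : Subgroup G) : (F S).card = Nat.card S := by
  classical
  rw [Nat.card_eq_fintype_card, Fintype.card_subtype]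
  unfold F
  congr!

theorem E_iv (S : Subgroup G) (h : G → ℝ) : IV S (E S h) := iv_iff.1 (avg_inv _ _)

theorem E_of_iv {S : Subgroup G} {h : G → ℝ} (hh : IV S h) : E S h = h :=
  avg_of_inv (iv_iff.2 hh)

theorem ip_E (S : Subgroup G) (f h : G → ℝ) : ip f (E S h) = ip (E S f) h := sum_avg_mul _ f h

theorem avg_eq_E {n : ℕ} (K : Fin n → Subgroup G) (R : Finset (Fin n)) (h : G → ℝ) :
    avg K R h = E (KJ K R) h := by
  funext g
  rw [avg_eq, E_eq]
  have : KF K R = F (KJ K R) := by ext x; rw [mem_KF, mem_F]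
  rw [this]

theorem iv_avg {n : ℕ} {K : Fin n → Subgroup G} {R : Finset (Fin n)} {h : G → ℝ} :
    Inv K R h ↔ IV (KJ K R) h := Iff.rfl

theorem IV.mono {S T : Subgroup G} (hST : S ≤ T) {h : G → ℝ} (hh : IV T h) : IV S h :=
  fun g k hk => hh g k (hST hk)

/-- averaging over a smaller group first changes nothing -/
theorem E_E_le {S T : Subgroup G} (hST : S ≤ T) (h : G → ℝ) : E T (E S h) = E T h := by
  -- both are `T`-invariant; compare the inner products with `T`-invariant functions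
  have key : ∀ f : G → ℝ, IV T f → ip f (E T (E S h)) = ip f (E T h) := by
    intro f hf
    rw [ip_E, E_of_iv hf, ip_E, E_of_iv (hf.mono hST), ip_E, E_of_iv hf]
  set D : G → ℝ := fun g => E T (E S h) g - E T h g with hD
  have hDiv : IV T D := by
    intro g k hk
    simp only [hD]
    rw [E_iv T _ g k hk, E_iv T _ g k hk]
  have h1 := key D hDiv
  have h2 : ip D D = 0 := by
    have : ip D D = ip D (E T (E S h)) - ip D (E T h) := by
      unfold ip
      rw [← sum_sub_distrib]
      refine sum_congr rfl fun g _ => ?_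
      simp only [hD]; ring
    rw [this, h1, sub_self]
  rw [← sq_eq_ip] at h2
  unfold sq at h2
  rw [sum_eq_zero_iff_of_nonneg (fun _ _ => sq_nonneg _)] at h2
  funext g
  have h3 := h2 g (mem_univ g)
  have h4 : D g = 0 := by simpa using h3
  simp only [hD] at h4
  linarith

theorem E_E_ge {S T : Subgroup G} (hST : S ≤ T) (h : G → ℝ) : E S (E T h) = E T h :=
  E_of_iv ((E_iv T h).mono hST)

theorem sum_shift (f : G → ℝ) (k : G) : ∑ g, f (g * k) = ∑ g, f g :=
  Fintype.sum_equiv (Equiv.mulRight k) _ _ fun _ => rfl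

/-- commuting case -/
theorem commuting {A B H : Subgroup G} (hA : A ≤ H) (hB : B ≤ H) (hgen : H ≤ A ⊔ B)
    (hcomm : ∀ a ∈ A, ∀ b ∈ B, a * b = b * a) {h : G → ℝ} (hh : IV B h) : E A h = E H h := by
  have h1 : IV B (E A h) := by
    intro g b hb
    rw [E_eq, E_eq]
    congr 1
    refine sum_congr rfl fun a ha => ?_
    rw [mul_assoc, ← hcomm a (mem_F.1 ha) b hb, ← mul_assoc, hh _ b hb]
  have h2 : IV H (E A h) := SpecOf.inv_of_sup hgen (E_iv A h) h1
  rw [← E_of_iv h2, E_E_le hA]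

/-- Heisenberg case -/
theorem heis {A B Z H : Subgroup G} (hA : A ≤ H) (hB : B ≤ H) (hZ : Z ≤ H) (hgen : H ≤ A ⊔ B)
    (hZB : ∀ z ∈ Z, ∀ b ∈ B, z * b = b * z)
    (hAB : ∀ a ∈ A, ∀ b ∈ B, ∃ z ∈ Z, ∃ b' ∈ B, a⁻¹ * b * a = z * b')
    (hcom : ∀ a ∈ A, a ≠ 1 → ∀ z ∈ Z, ∃ b ∈ B, ∃ b' ∈ B, z = a * b * a⁻¹ * b')
    {h : G → ℝ} (hh : IV B h) :
    (Nat.card A : ℝ) * sq (fun g => E A h g - E H h g) ≤ sq h := by
  classical
  set Fz := E Z h with hFz
  have f1 : IV B Fz := by
    intro g b hb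
    rw [hFz, E_eq, E_eq]
    congr 1
    refine sum_congr rfl fun z hz => ?_
    rw [mul_assoc, ← hZB z (mem_F.1 hz) b hb, ← mul_assoc, hh _ b hb]
  have f2 : IV Z Fz := E_iv Z h
  have f3 : IV B (E A Fz) := by
    intro g b hb
    rw [E_eq, E_eq]
    congr 1
    refine sum_congr rfl fun a ha => ?_
    obtain ⟨z, hz, b', hb', hab⟩ := hAB a (mem_F.1 ha) b hb
    have : g * b * a = g * a * z * b' := by
      have h1 : b * a = a * (a⁻¹ * b * a) := by group
      rw [mul_assoc, h1, hab]; group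
    rw [this, f1 _ b' hb', f2 _ z hz]
  have f4 : IV H (E A Fz) := SpecOf.inv_of_sup hgen (E_iv A Fz) f3
  have f5 : E A Fz = E H h := by
    rw [← E_of_iv f4, E_E_le hA, hFz, E_E_le hZ]
  set h' : G → ℝ := fun g => h g - Fz g with hh'
  have g1 : (fun g => E A h g - E H h g) = E A h' := by
    funext g
    rw [← f5, E_eq, E_eq, E_eq, ← sub_div, ← sum_sub_distrib]
  have g2 : IV B h' := by
    intro g b hb
    simp only [hh']
    rw [hh g b hb, f1 g b hb]
  have g3 : E Z h' = 0 := by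
    funext g
    have : E Z h' g = E Z h g - E Z Fz g := by
      rw [E_eq, E_eq, E_eq, ← sub_div, ← sum_sub_distrib]
    rw [this, E_of_iv f2]
    simp [hFz]
  have g3' : ∀ g, ∑ z ∈ F Z, h' (g * z) = 0 := by
    intro g
    have h1 : E Z h' g = 0 := by rw [g3]; rfl
    rw [E_eq, div_eq_zero_iff] at h1
    rcases h1 with h1 | h1
    · exact h1
    · exact absurd h1 (F_pos Z).ne'
  -- the off-diagonal terms vanish
  have g4 : ∀ a ∈ A, a ≠ 1 → ∑ g, h' (g * a) * h' g = 0 := by
    intro a ha ha1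
    have h1 : ∀ z ∈ F Z, ∑ g, h' (g * a) * h' (g * z) = ∑ g, h' (g * a) * h' g := by
      intro z hz
      obtain ⟨b, hb, b', hb', hzb⟩ := hcom a ha ha1 z (mem_F.1 hz)
      have h2 : ∀ g, h' (g * a) * h' (g * z) =
          (fun x => h' (x * a) * h' x) (g * (a * b * a⁻¹)) := by
        intro g
        have e1 : g * z = g * (a * b * a⁻¹) * b' := by rw [hzb]; group
        have e2 : g * (a * b * a⁻¹) * a = g * a * b := by group
        simp only
        rw [e1, g2 _ b' hb', e2, g2 _ b hb]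
      rw [sum_congr rfl fun g _ => h2 g]
      exact sum_shift (fun x => h' (x * a) * h' x) _
    have h2 : ∑ z ∈ F Z, ∑ g, h' (g * a) * h' (g * z) = 0 := by
      rw [sum_comm]
      refine sum_eq_zero fun g _ => ?_
      rw [← mul_sum, g3', mul_zero]
    rw [sum_congr rfl h1, sum_const, nsmul_eq_mul] at h2
    rcases mul_eq_zero.1 h2 with h3 | h3
    · exact absurd h3 (F_pos Z).ne'
    · exact h3
  have g5 : sq (E A h') = ip (E A h') h' := by
    rw [sq_eq_ip, ip_E, E_of_iv (E_iv A h')]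
  have g6 : ((F A).card : ℝ) * ip (E A h') h' = sq h' := by
    unfold ip
    rw [mul_sum]
    have h1 : ∀ g, ((F A).card : ℝ) * (E A h' g * h' g) = ∑ a ∈ F A, h' (g * a) * h' g := by
      intro g
      rw [E_eq, ← sum_mul, ← mul_assoc, mul_div_cancel₀ _ (F_pos A).ne']
    rw [sum_congr rfl fun g _ => h1 g, sum_comm]
    rw [sum_eq_single (1 : G)]
    · unfold sq
      refine sum_congr rfl fun g _ => ?_
      rw [mul_one, pow_two]
    · intro a ha ha1
      exact g4 a (mem_F.1 ha) ha1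
    · intro h1
      exact absurd (mem_F.2 (one_mem A)) h1
  rw [g1, g5, ← card_F, g6]
  -- `sq h' ≤ sq h`
  have h5 : sq h = sq h' + sq Fz := by
    have h6 : ip Fz h' = 0 := by
      rw [← E_of_iv f2, ← ip_E, g3]
      simp [ip]
    have h7 : sq h = sq h' + 2 * ip Fz h' + sq Fz := by
      unfold sq ip
      rw [mul_sum, ← sum_add_distrib, ← sum_add_distrib]
      refine sum_congr rfl fun g _ => ?_
      simp only [hh']
      ring
    rw [h7, h6]; ring
  have := sq_nonneg' Fz
  linarith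

end Heis

open Heis in
/-- The pair condition at `R` from the structure of `K_R`: for all `i ≠ j` outside `R` the groups
`A = K_{R+i}`, `B = K_{R+j}` generate `K_R` and either commute or form a Heisenberg pair of size
`≥ p`. -/
theorem pairAt_of {n : ℕ} {G : Type*} [Group G] [Fintype G] {K : Fin n → Subgroup G} {p : ℕ}
    (hp : 0 < p) {R : Finset (Fin n)}
    (H : ∀ i j : Fin n, i ∉ R → j ∉ R → i ≠ j →
      KJ K R ≤ KJ K (insert i R) ⊔ KJ K (insert j R) ∧
      ((∀ a ∈ KJ K (insert i R), ∀ b ∈ KJ K (insert j R), a * b = b * a) ∨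
      ∃ Z : Subgroup G, Z ≤ KJ K R ∧ p ≤ Nat.card (KJ K (insert i R)) ∧
        (∀ z ∈ Z, ∀ b ∈ KJ K (insert j R), z * b = b * z) ∧
        (∀ a ∈ KJ K (insert i R), ∀ b ∈ KJ K (insert j R),
          ∃ z ∈ Z, ∃ b' ∈ KJ K (insert j R), a⁻¹ * b * a = z * b') ∧
        (∀ a ∈ KJ K (insert i R), a ≠ 1 → ∀ z ∈ Z,
          ∃ b ∈ KJ K (insert j R), ∃ b' ∈ KJ K (insert j R), z = a * b * a⁻¹ * b'))) :
    SpecOf.PairAt K R (1 / Real.sqrt p) := by
  intro i j hi hj hij h hh
  have hp' : (0 : ℝ) < p := by exact_mod_cast hp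
  obtain ⟨hgen, hcase⟩ := H i j hi hj hij
  have hA : KJ K (insert i R) ≤ KJ K R := KJ_anti (subset_insert i R)
  have hB : KJ K (insert j R) ≤ KJ K R := KJ_anti (subset_insert j R)
  rw [div_pow, one_pow, Real.sq_sqrt hp'.le]
  rw [avg_eq_E, avg_eq_E]
  have hnn := sq_nonneg' h
  rcases hcase with hc | ⟨Z, hZ, hpA, h1, h2, h3⟩
  · rw [commuting hA hB hgen hc (iv_avg.1 hh)]
    have : sq (fun g => E (KJ K R) h g - E (KJ K R) h g) = 0 := by
      unfold sq; simp
    rw [this]
    positivity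
  · have h4 := heis hA hB hZ hgen h1 h2 h3 (iv_avg.1 hh)
    have h5 := sq_nonneg' (fun g => E (KJ K (insert i R)) h g - E (KJ K R) h g)
    have h6 : (p : ℝ) ≤ Nat.card (KJ K (insert i R)) := by exact_mod_cast hpA
    rw [div_mul_eq_mul_div, one_mul, le_div_iff₀ hp', mul_comm]
    exact (mul_le_mul_of_nonneg_right h6 h5).trans h4

end Vale.Agent.P067
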