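import Vale.Agent.P067.KStr
import Vale.Agent.P067.GamFacts

/-!
# P067, D1c: generation and pair condition for `Kbar` in the literal form of `assemble`
-/

open Finset

namespace Vale.Agent.P067

namespace KBar

theorem map_eq {F : Type} [Field F] {n s : ℕ} (hs : 2 ≤ s) (S : Finset (Fin n))
    (hS : S.Nonempty) : KJ (Kbar F n s) S =
      (KJ (Ki F n) S).map (QuotientGroup.mk' (Gam F n s)) := by
  ext x
  constructor
  · intro hx
    obtain ⟨u, hu, h⟩ := Kbar_surj hs hS hx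
    exact ⟨u, hu, h⟩
  · rintro ⟨u, hu, rfl⟩
    exact Kbar_mem hu

end KBar

theorem hgen_Kbar {n : ℕ} (p : ℕ) [Fact p.Prime] (s : ℕ) (hs : 2 ≤ s) (R : Finset (Fin n))
    (i j : Fin n) (hR : R.Nonempty) (hi : i ∉ R) (hj : j ∉ R) (hij : i ≠ j) :
    KJ (Kbar (ZMod p) n s) R ≤
      KJ (Kbar (ZMod p) n s) (insert i R) ⊔ KJ (Kbar (ZMod p) n s) (insert j R) :=
  (KGen.genAt (F := ZMod p) hR).map hR (QuotientGroup.mk' (Gam (ZMod p) n s))
    (fun S hS => KBar.map_eq hs S hS) i j hi hj hij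

theorem hpair_Kbar {n : ℕ} (hn : 3 ≤ n) (p : ℕ) [Fact p.Prime] (s : ℕ) (hs : 2 ≤ s)
    [Fintype (UU (ZMod p) n ⧸ Gam (ZMod p) n s)] (R : Finset (Fin n)) (hR : R.card + 2 = n) :
    SpecOf.PairAt (Kbar (ZMod p) n s) R (1 / Real.sqrt p) := by
  have hRne : R.Nonempty := by
    rw [← card_pos]; omega
  have hp : 0 < p := (Fact.out : p.Prime).pos
  refine pairAt_of hp fun i j hi hj hij => ⟨hgen_Kbar p s hs R i j hRne hi hj hij, ?_⟩
  have h1 := KStr.strAt (F := ZMod p) hn hR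
  rw [Nat.card_zmod] at h1
  exact h1.map hRne (QuotientGroup.mk' (Gam (ZMod p) n s))
    (fun S hS => KBar.map_eq hs S hS) (fun x hx h => KJ_inj hRne hs hx
      ((QuotientGroup.eq_one_iff x).1 h)) i j hi hj hij

theorem hcard_Ki {n : ℕ} (p : ℕ) [Fact p.Prime] (i : Fin n) :
    Finite (Ki (ZMod p) n i) ∧ Nat.card (Ki (ZMod p) n i) ≤ p ^ (n * n) := by
  refine ⟨KGen.finite_Ki i, ?_⟩
  have := KGen.card_Ki_le (F := ZMod p) i
  rwa [Nat.card_zmod] at this

end Vale.Agent.P067
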