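import Vale.Agent.P067.Heis

/-!
# P067, part D1: transport of generation and of the pair structure to a quotient
-/

open Finset

set_option linter.unusedSectionVars false
set_option linter.unusedVariables false

namespace Vale.Agent.P067

namespace Pair

variable {n : ℕ} {U : Type*} [Group U]

/-- generation at `R` -/
def GenAt (K : Fin n → Subgroup U) (R : Finset (Fin n)) : Prop :=
  ∀ i j : Fin n, i ∉ R → j ∉ R → i ≠ j → KJ K R ≤ KJ K (insert i R) ⊔ KJ K (insert j R)

/-- commuting or Heisenberg structure at `R` -/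
def StrAt (K : Fin n → Subgroup U) (p : ℕ) (R : Finset (Fin n)) : Prop :=
  ∀ i j : Fin n, i ∉ R → j ∉ R → i ≠ j →
    (∀ a ∈ KJ K (insert i R), ∀ b ∈ KJ K (insert j R), a * b = b * a) ∨
    ∃ Z : Subgroup U, Z ≤ KJ K R ∧ p ≤ Nat.card (KJ K (insert i R)) ∧
      (∀ z ∈ Z, ∀ b ∈ KJ K (insert j R), z * b = b * z) ∧
      (∀ a ∈ KJ K (insert i R), ∀ b ∈ KJ K (insert j R),
        ∃ z ∈ Z, ∃ b' ∈ KJ K (insert j R), a⁻¹ * b * a = z * b') ∧
      (∀ a ∈ KJ K (insert i R), a ≠ 1 → ∀ z ∈ Z,
        ∃ b ∈ KJ K (insert j R), ∃ b' ∈ KJ K (insert j R), z = a * b * a⁻¹ * b')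

variable {G : Type*} [Group G] {K : Fin n → Subgroup U} {K' : Fin n → Subgroup G}

/-- transport of generation, `R` nonempty -/
theorem GenAt.map {R : Finset (Fin n)} (hR : R.Nonempty) (f : U →* G)
    (hf : ∀ S : Finset (Fin n), S.Nonempty → KJ K' S = (KJ K S).map f)
    (h : GenAt K R) : GenAt K' R := by
  intro i j hi hj hij
  rw [hf R hR, hf _ (insert_nonempty i R), hf _ (insert_nonempty j R), ← Subgroup.map_sup]
  exact Subgroup.map_mono (h i j hi hj hij)

/-- transport of the pair structure -/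
theorem StrAt.map {p : ℕ} {R : Finset (Fin n)} (hR : R.Nonempty) (f : U →* G)
    (hf : ∀ S : Finset (Fin n), S.Nonempty → KJ K' S = (KJ K S).map f)
    (hinj : ∀ x ∈ KJ K R, f x = 1 → x = 1) (h : StrAt K p R) : StrAt K' p R := by
  intro i j hi hj hij
  rw [hf R hR, hf _ (insert_nonempty i R), hf _ (insert_nonempty j R)]
  rcases h i j hi hj hij with hc | ⟨Z, hZ, hp, h1, h2, h3⟩
  · left
    rintro _ ⟨a, ha, rfl⟩ _ ⟨b, hb, rfl⟩
    rw [← map_mul, hc a ha b hb, map_mul]
  · right
    refine ⟨Z.map f, Subgroup.map_mono hZ, ?_, ?_, ?_, ?_⟩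
    · refine hp.trans (le_of_eq ?_)
      have hinj' : Set.InjOn f (KJ K (insert i R) : Set U) := by
        intro x hx y hy hxy
        have hx' : x ∈ KJ K R := KJ_anti (subset_insert i R) hx
        have hy' : y ∈ KJ K R := KJ_anti (subset_insert i R) hy
        have h4 : x * y⁻¹ = 1 := hinj _ (mul_mem hx' (inv_mem hy')) (by
          rw [map_mul, map_inv, hxy, mul_inv_cancel])
        exact mul_inv_eq_one.1 h4
      have h5 : Nat.card (f '' (KJ K (insert i R) : Set U)) =
          Nat.card (KJ K (insert i R) : Set U) := Nat.card_image_of_injOn hinj'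
      have h6 : Nat.card ((KJ K (insert i R)).map f) =
          Nat.card (f '' (KJ K (insert i R) : Set U)) := rfl
      rw [h6, h5]
      rfl
    · rintro _ ⟨z, hz, rfl⟩ _ ⟨b, hb, rfl⟩
      rw [← map_mul, h1 z hz b hb, map_mul]
    · rintro _ ⟨a, ha, rfl⟩ _ ⟨b, hb, rfl⟩
      obtain ⟨z, hz, b', hb', h4⟩ := h2 a ha b hb
      refine ⟨f z, ⟨z, hz, rfl⟩, f b', ⟨b', hb', rfl⟩, ?_⟩
      rw [← map_inv, ← map_mul, ← map_mul, h4, map_mul]
    · rintro _ ⟨a, ha, rfl⟩ ha1 _ ⟨z, hz, rfl⟩
      have ha2 : a ≠ 1 := by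
        rintro rfl
        exact ha1 (map_one f)
      obtain ⟨b, hb, b', hb', h4⟩ := h3 a ha ha2 z hz
      refine ⟨f b, ⟨b, hb, rfl⟩, f b', ⟨b', hb', rfl⟩, ?_⟩
      rw [← map_inv, ← map_mul, ← map_mul, ← map_mul, h4]

/-- generation at `∅` from generation at the points and of the whole group -/
theorem genAt_empty (h1 : ∀ i : Fin n, GenAt K {i}) (htop : ⨆ i, K i = ⊤) : GenAt K ∅ := by
  intro i j _ _ hij
  have hKs : ∀ l : Fin n, KJ K (insert l ∅) = K l := by
    intro l
    ext x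
    simp [mem_KJ]
  rw [hKs, hKs]
  have hle : ∀ l, K l ≤ K i ⊔ K j := by
    intro l
    by_cases hli : l = i
    · rw [hli]; exact le_sup_left
    by_cases hlj : l = j
    · rw [hlj]; exact le_sup_right
    have h2 := h1 l i j (by simp [Ne.symm hli]) (by simp [Ne.symm hlj]) hij
    have h3 : KJ K {l} = K l := by
      have := hKs l
      simpa using this
    rw [h3] at h2
    refine h2.trans (sup_le_sup ?_ ?_)
    · intro x hx
      exact mem_KJ.1 hx i (mem_insert_self _ _)
    · intro x hx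
      exact mem_KJ.1 hx j (mem_insert_self _ _)
  have h4 : (⊤ : Subgroup U) ≤ K i ⊔ K j := htop ▸ iSup_le hle
  exact le_top.trans h4

/-- THE SPECTRAL CONDITION for a finite quotient `G` of `U`. -/
theorem spec {p : ℕ} [Fintype G] (hn : 3 ≤ n) (hp : 0 < p) (f : U →* G)
    (hsurj : Function.Surjective f)
    (hf : ∀ S : Finset (Fin n), S.Nonempty → KJ K' S = (KJ K S).map f)
    (hinj : ∀ R : Finset (Fin n), R.Nonempty → ∀ x ∈ KJ K R, f x = 1 → x = 1)
    (hgen : ∀ R : Finset (Fin n), R.Nonempty → GenAt K R) (htop : ⨆ i, K i = ⊤)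
    (hstr : ∀ R : Finset (Fin n), R.card + 2 = n → StrAt K p R)
    (hsmall : n * (1 / Real.sqrt p) ≤ 1 / 2) : Spec K' (2 * (1 / Real.sqrt p)) := by
  have hgen' : ∀ R : Finset (Fin n), R.Nonempty → GenAt K' R :=
    fun R hR => (hgen R hR).map hR f hf
  have hK' : ∀ i, K' i = (K i).map f := by
    intro i
    have h1 := hf {i} (singleton_nonempty i)
    have h2 : KJ K' {i} = K' i := by ext x; simp [mem_KJ]
    have h3 : KJ K {i} = K i := by ext x; simp [mem_KJ]
    rw [h2, h3] at h1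
    exact h1
  have htop' : ⨆ i, K' i = ⊤ := by
    simp only [hK']
    rw [← Subgroup.map_iSup, htop, ← MonoidHom.range_eq_map]
    exact MonoidHom.range_eq_top.2 hsurj
  have hG : SpecOf.Gen K' := by
    intro R i j hi hj hij
    rcases R.eq_empty_or_nonempty with rfl | hR
    · exact genAt_empty (fun i => hgen' {i} (singleton_nonempty i)) htop' i j hi hj hij
    · exact hgen' R hR i j hi hj hij
  refine spec_of (by positivity) hsmall hG fun R hR => pairAt_of hp fun i j hi hj hij => ?_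
  have hRne : R.Nonempty := by
    rw [← card_pos]; omega
  exact ⟨hG R i j hi hj hij, (hstr R hR).map hRne f hf (hinj R hRne) i j hi hj hij⟩

end Pair

end Vale.Agent.P067
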