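import Vale.Agent.P067.Lat
import Vale.Agent.P067.Pair

/-!
# P067, D1c: coordinates of the elements of `U`, explicit description of the `K_J`,
root elements, generation
-/

open Finset

set_option linter.unusedSectionVars false
set_option linter.unusedVariables false

namespace Vale.Agent.P067

namespace KCo

variable {F : Type} [Field F] {n : ℕ}

/-- basis vectors -/
noncomputable def xx (F : Type) [Field F] (a : ℤ) : VV F := Finsupp.single a 1

/-- coefficient of `x_b` in `g x_a` -/
noncomputable def co (g : UU F n) (b a : ℤ) : F := ((g : VV F ≃ₗ[F] VV F) (xx F a)) b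

theorem sh_apply (c : ℤ) (v : VV F) (m : ℤ) : (sh F c v) m = v (m - c) := by
  have h1 : sh F c v = Finsupp.equivMapDomain (Equiv.addRight c) v := rfl
  rw [h1, Finsupp.equivMapDomain_apply]
  congr 1

theorem sh_xx (c a : ℤ) : sh F c (xx F a) = xx F (a + c) := by
  ext m
  rw [sh_apply]
  unfold xx
  rw [Finsupp.single_apply, Finsupp.single_apply]
  congr 1
  apply propext
  constructor <;> intro h <;> omega

theorem xx_mem_MM (a : ℤ) : xx F a ∈ MM F a := by
  rw [mem_MM]
  intro i hi
  unfold xx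
  rw [Finsupp.single_apply, if_neg (by omega)]

theorem co_eq_sub {g : UU F n} {a b : ℤ} :
    co g b a = xx F a b + ((g : VV F ≃ₗ[F] VV F) (xx F a) - xx F a) b := by
  unfold co
  rw [Finsupp.sub_apply]; ring

theorem co_self (g : UU F n) (a : ℤ) : co g a a = 1 := by
  rw [co_eq_sub, mem_MM.1 (g.2.2 a _ (xx_mem_MM a)) a (by omega)]
  simp [xx]

theorem co_above (g : UU F n) {a b : ℤ} (h : a < b) : co g b a = 0 := by
  rw [co_eq_sub, mem_MM.1 (g.2.2 a _ (xx_mem_MM a)) b (by omega)]
  unfold xx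
  rw [Finsupp.single_apply, if_neg (by omega), add_zero]

theorem sh_nat_int (v : VV F) : sh F (n : ℤ) v = sh F n v := rfl

theorem co_add (g : UU F n) (a b : ℤ) : co g (b + n) (a + n) = co g b a := by
  unfold co
  rw [← sh_xx, g.2.1, sh_apply]
  congr 1
  ring

theorem co_add_mul (g : UU F n) (a b k : ℤ) : co g (b + n * k) (a + n * k) = co g b a := by
  induction k using Int.induction_on with
  | zero => simp
  | succ i ih =>
    rw [← ih, ← co_add g (a + n * i)]
    congr 1 <;> ring
  | pred i ih =>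
    rw [← ih, ← co_add g (a + n * (-i - 1))]
    congr 1 <;> ring

/-- values of `g` from the coordinates -/
theorem apply_eq (g : UU F n) (v : VV F) (b : ℤ) :
    ((g : VV F ≃ₗ[F] VV F) v) b = v.sum fun a c => c * co g b a := by
  conv_lhs => rw [← Finsupp.sum_single v]
  rw [Finsupp.sum, map_sum, Finsupp.finsetSum_apply]
  refine sum_congr rfl fun a _ => ?_
  have h1 : (Finsupp.single a (v a) : VV F) = v a • xx F a := by
    unfold xx; rw [Finsupp.smul_single, smul_eq_mul, mul_one]
  rw [h1, map_smul, Finsupp.smul_apply, smul_eq_mul]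
  rfl

theorem ext_co {g h : UU F n} (H : ∀ a b, co g b a = co h b a) : g = h := by
  apply Subtype.ext
  apply LinearEquiv.ext
  intro v
  ext b
  rw [apply_eq, apply_eq]
  exact sum_congr rfl fun a _ => by simp only [H]

/-- the interval `[b, a)` meets `i + nℤ`, `i ∈ J` -/
def Cut (J : Finset (Fin n)) (b a : ℤ) : Prop :=
  ∃ i ∈ J, ∃ k : ℤ, b ≤ (i : ℕ) + n * k ∧ (i : ℕ) + n * k < a

theorem Cut.mono {J : Finset (Fin n)} {b b' a a' : ℤ} (h : Cut J b' a') (h1 : b ≤ b')
    (h2 : a' ≤ a) : Cut J b a := by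
  obtain ⟨i, hi, k, h3, h4⟩ := h
  exact ⟨i, hi, k, by omega, by omega⟩

theorem Cut.shift {J : Finset (Fin n)} {b a : ℤ} (l : ℤ) (h : Cut J b a) :
    Cut J (b + n * l) (a + n * l) := by
  obtain ⟨i, hi, k, h3, h4⟩ := h
  exact ⟨i, hi, k + l, by rw [mul_add]; omega, by rw [mul_add]; omega⟩

theorem cut_insert {J : Finset (Fin n)} {i : Fin n} {b a : ℤ} :
    Cut (insert i J) b a ↔ Cut {i} b a ∨ Cut J b a := by
  unfold Cut
  simp only [mem_insert, mem_singleton, exists_eq_left, or_and_right, exists_or]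

theorem cut_of_le {J : Finset (Fin n)} (hJ : J.Nonempty) {b a : ℤ} (h : b + n ≤ a) :
    Cut J b a := by
  obtain ⟨i, hi⟩ := hJ
  have hn : (0 : ℤ) < n := by
    have := i.2; omega
  -- the least element of `i + nℤ` which is `≥ b`
  have h0 := Int.emod_nonneg ((i : ℕ) - b) hn.ne'
  have h1 := Int.emod_lt_of_pos ((i : ℕ) - b) hn
  have h2 := Int.emod_add_mul_ediv ((i : ℕ) - b) n
  refine ⟨i, hi, -(((i : ℕ) - b) / n), ?_, ?_⟩
  · rw [mul_neg]; omega
  · rw [mul_neg]; omega

theorem mem_Ki {g : UU F n} {i : Fin n} : g ∈ Ki F n i ↔ ∀ a b, Cut {i} b a → co g b a = 0 := by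
  constructor
  · intro hg a b hc
    obtain ⟨j, hj, k, h1, h2⟩ := hc
    rw [mem_singleton] at hj
    subst hj
    have h3 : xx F (a + n * (-k)) ∈ Lo F ((j : ℕ) : ℤ) := by
      rw [mem_Lo]
      intro l hl
      unfold xx
      rw [Finsupp.single_apply, if_neg]
      rw [mul_neg]; omega
    have h4 := (hg _).2 h3
    rw [mem_Lo] at h4
    have h5 := h4 (b + n * (-k)) (by rw [mul_neg]; omega)
    have h6 := co_add_mul g a b (-k)
    rw [← h6]
    exact h5
  · intro H
    have hfor : ∀ (g : UU F n), (∀ a b, Cut {i} b a → co g b a = 0) → ∀ v : VV F,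
        v ∈ Lo F ((i : ℕ) : ℤ) → (g : VV F ≃ₗ[F] VV F) v ∈ Lo F ((i : ℕ) : ℤ) := by
      intro g H v hv
      rw [mem_Lo] at hv ⊢
      intro b hb
      rw [apply_eq]
      refine sum_eq_zero fun a ha => ?_
      by_cases ha' : a ≤ (i : ℕ)
      · exact absurd (hv a ha') (Finsupp.mem_support_iff.1 ha)
      · simp only [H a b ⟨i, mem_singleton_self i, 0, by omega, by omega⟩, mul_zero]
    intro v
    constructor
    · intro hv
      -- `v = v₁ + v₂`, `v₁ ∈ M_i`, `v₂ ∈ L_i`
      classical
      set v1 : VV F := v.filter fun m => m ≤ ((i : ℕ) : ℤ) with hv1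
      set v2 : VV F := v.filter fun m => ¬ m ≤ ((i : ℕ) : ℤ) with hv2
      have hsum : v1 + v2 = v := Finsupp.filter_add_filter_not v _
      have h1 : v1 ∈ MM F ((i : ℕ) : ℤ) := by
        rw [mem_MM]
        intro m hm
        rw [hv1, Finsupp.filter_apply_neg _ _ (by omega)]
      have h2 : v2 ∈ Lo F ((i : ℕ) : ℤ) := by
        rw [mem_Lo]
        intro m hm
        rw [hv2, Finsupp.filter_apply_neg]
        omega
      have h3 := hfor g H v2 h2
      have h4 : (g : VV F ≃ₗ[F] VV F) v1 ∈ Lo F ((i : ℕ) : ℤ) := by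
        have : (g : VV F ≃ₗ[F] VV F) v1 =
            (g : VV F ≃ₗ[F] VV F) v - (g : VV F ≃ₗ[F] VV F) v2 := by
          rw [← map_sub, ← hsum]; congr 1; abel
        rw [this]
        exact Submodule.sub_mem _ hv h3
      have h5 : (g : VV F ≃ₗ[F] VV F) v1 ∈ MM F ((i : ℕ) : ℤ) := UU_mem_MM g h1
      have h6 : (g : VV F ≃ₗ[F] VV F) v1 = 0 := by
        ext m
        by_cases hm : m ≤ ((i : ℕ) : ℤ)
        · exact mem_Lo.1 h4 m hm
        · exact mem_MM.1 h5 m (by omega)
      have h7 : v1 = 0 := by simpa using h6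
      rw [← hsum, h7, zero_add]
      exact h2
    · exact hfor g H v

theorem mem_KJ_iff {g : UU F n} {J : Finset (Fin n)} :
    g ∈ KJ (Ki F n) J ↔ ∀ a b, Cut J b a → co g b a = 0 := by
  rw [mem_KJ]
  constructor
  · rintro H a b ⟨i, hi, k, h1, h2⟩
    exact mem_Ki.1 (H i hi) a b ⟨i, mem_singleton_self i, k, h1, h2⟩
  · intro H i hi
    rw [mem_Ki]
    rintro a b ⟨j, hj, k, h1, h2⟩
    rw [mem_singleton] at hj
    subst hj
    exact H a b ⟨j, hi, k, h1, h2⟩

/-- entries far from the diagonal vanish -/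
theorem co_far {g : UU F n} {J : Finset (Fin n)} (hJ : J.Nonempty) (hg : g ∈ KJ (Ki F n) J)
    {a b : ℤ} (h : b + n ≤ a) : co g b a = 0 :=
  mem_KJ_iff.1 hg a b (cut_of_le hJ h)

/-! ## root elements -/

/-- `x_m ↦ x_{m-δ}` for `m ≡ a mod n`, `0` otherwise -/
noncomputable def Em (n : ℕ) (a δ : ℤ) : VV F →ₗ[F] VV F where
  toFun v := sh F (-δ) (v.filter fun m => (n : ℤ) ∣ m - a)
  map_add' v w := by rw [Finsupp.filter_add, map_add]
  map_smul' c v := by
    rw [Finsupp.filter_smul, map_smul]; rfl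

open Classical in
theorem Em_apply (a δ : ℤ) (v : VV F) (m : ℤ) :
    (Em n a δ v) m = if (n : ℤ) ∣ m + δ - a then v (m + δ) else 0 := by
  have h1 : Em n a δ v = sh F (-δ) (v.filter fun m => (n : ℤ) ∣ m - a) := rfl
  rw [h1, sh_apply, sub_neg_eq_add, Finsupp.filter_apply]

open Classical in
theorem Em_Em (a δ a' δ' : ℤ) (v : VV F) :
    Em n a δ (Em n a' δ' v) = if (n : ℤ) ∣ a' - δ' - a then Em n a' (δ + δ') v else 0 := by
  ext m
  rw [Em_apply, Em_apply]
  by_cases h1 : (n : ℤ) ∣ a' - δ' - a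
  · rw [if_pos h1, Em_apply, add_assoc]
    by_cases h2 : (n : ℤ) ∣ m + (δ + δ') - a'
    · have h3 : (n : ℤ) ∣ m + δ - a := by
        have := dvd_add h1 h2
        have e : a' - δ' - a + (m + (δ + δ') - a') = m + δ - a := by ring
        rwa [e] at this
      rw [if_pos h3, if_pos h2]
    · rw [if_neg h2]
      split_ifs <;> rfl
  · rw [if_neg h1]
    by_cases h2 : (n : ℤ) ∣ m + δ - a
    · rw [if_pos h2, if_neg]
      · rfl
      · intro h3
        apply h1
        have := dvd_sub h2 h3
        have e : m + δ - a - (m + δ + δ' - a') = a' - δ' - a := by ring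
        rwa [e] at this
    · rw [if_neg h2]; rfl

theorem Em_congr {a a' : ℤ} (δ : ℤ) (h : (n : ℤ) ∣ a' - a) (v : VV F) :
    Em n a δ v = Em n a' δ v := by
  classical
  ext m
  rw [Em_apply, Em_apply]
  congr 1
  apply propext
  constructor
  · intro h2
    have := dvd_sub h2 h
    have e : m + δ - a - (a' - a) = m + δ - a' := by ring
    rwa [e] at this
  · intro h2
    have := dvd_add h2 h
    have e : m + δ - a' + (a' - a) = m + δ - a := by ring
    rwa [e] at this

theorem Em_Em_self {a δ : ℤ} (h : ¬ (n : ℤ) ∣ δ) (v : VV F) : Em n a δ (Em n a δ v) = 0 := by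
  rw [Em_Em, if_neg]
  intro h1
  apply h
  have := dvd_neg.2 h1
  have e : -(a - δ - a) = δ := by ring
  rwa [e] at this

/-- the root element as a linear equivalence -/
noncomputable def elE (a : ℤ) {δ : ℤ} (h : ¬ (n : ℤ) ∣ δ) (c : F) : VV F ≃ₗ[F] VV F :=
  LinearEquiv.ofLinearMap (LinearMap.id + c • Em n a δ) (LinearMap.id - c • Em n a δ)
    (by
      apply LinearMap.ext
      intro v
      simp only [LinearMap.comp_apply, LinearMap.add_apply, LinearMap.sub_apply,
        LinearMap.smul_apply, LinearMap.id_apply, map_sub, map_smul, Em_Em_self h]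
      module)
    (by
      apply LinearMap.ext
      intro v
      simp only [LinearMap.comp_apply, LinearMap.add_apply, LinearMap.sub_apply,
        LinearMap.smul_apply, LinearMap.id_apply, map_add, map_smul, Em_Em_self h]
      module)

theorem elE_apply (a : ℤ) {δ : ℤ} (h : ¬ (n : ℤ) ∣ δ) (c : F) (v : VV F) :
    elE a h c v = v + c • Em n a δ v := rfl

theorem not_dvd {δ : ℤ} (h0 : 0 < δ) (h1 : δ < n) : ¬ (n : ℤ) ∣ δ :=
  fun h => absurd (Int.le_of_dvd h0 h) (by omega)

/-- the root element in `U` -/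
noncomputable def el (a : ℤ) {δ : ℤ} (h0 : 0 < δ) (h1 : δ < n) (c : F) : UU F n :=
  ⟨elE a (not_dvd h0 h1) c, by
    constructor
    · intro v
      rw [elE_apply, elE_apply, map_add, map_smul]
      congr 2
      classical
      ext m
      rw [Em_apply, sh_apply, sh_apply, Em_apply]
      have e1 : m + δ - (n : ℤ) = m - n + δ := by ring
      rw [e1]
      congr 1
      apply propext
      constructor
      · intro h
        have := dvd_sub h (dvd_refl (n : ℤ))
        have e : m + δ - a - n = m - n + δ - a := by ring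
        rwa [e] at this
      · intro h
        have := dvd_add h (dvd_refl (n : ℤ))
        have e : m - n + δ - a + n = m + δ - a := by ring
        rwa [e] at this
    · intro j v hv
      rw [elE_apply, add_sub_cancel_left]
      refine Submodule.smul_mem _ _ ?_
      classical
      rw [mem_MM] at hv ⊢
      intro m hm
      rw [Em_apply]
      split_ifs
      · exact hv _ (by omega)
      · rfl⟩

theorem el_apply (a : ℤ) {δ : ℤ} (h0 : 0 < δ) (h1 : δ < n) (c : F) (v : VV F) :
    ((el a h0 h1 c : UU F n) : VV F ≃ₗ[F] VV F) v = v + c • Em n a δ v := rfl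

open Classical in
theorem Em_xx (a δ a' : ℤ) : Em n a δ (xx F a') = if (n : ℤ) ∣ a' - a then xx F (a' - δ) else 0 := by
  ext m
  rw [Em_apply]
  unfold xx
  by_cases h1 : a' = m + δ
  · subst h1
    have e : m + δ - δ = m := by ring
    split_ifs with h2
    · rw [e]; simp
    · rfl
  · rw [Finsupp.single_apply, if_neg h1]
    by_cases h2 : (n : ℤ) ∣ a' - a
    · have h3 : (Finsupp.single (a' - δ) (1 : F) : VV F) m = 0 := by
        rw [Finsupp.single_apply, if_neg (by omega)]
      rw [if_pos h2, h3]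
      split_ifs <;> rfl
    · rw [if_neg h2]
      split_ifs <;> rfl

open Classical in
theorem co_el (a : ℤ) {δ : ℤ} (h0 : 0 < δ) (h1 : δ < n) (c : F) (a' b : ℤ) :
    co (el a h0 h1 c) b a' = (if b = a' then 1 else 0) +
      (if (n : ℤ) ∣ a' - a ∧ b = a' - δ then c else 0) := by
  unfold co
  rw [el_apply, Finsupp.add_apply, Finsupp.smul_apply, Em_xx]
  congr 1
  · unfold xx
    rw [Finsupp.single_apply]
    congr 1
    exact propext eq_comm
  · by_cases h2 : (n : ℤ) ∣ a' - a
    · rw [if_pos h2]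
      unfold xx
      rw [Finsupp.single_apply]
      by_cases h3 : a' - δ = b
      · rw [if_pos h3, if_pos ⟨h2, h3.symm⟩]; simp
      · rw [if_neg h3, if_neg (fun h => h3 h.2.symm)]; simp
    · rw [if_neg h2, if_neg (fun h => h2 h.1)]; simp

theorem el_mem {J : Finset (Fin n)} {a : ℤ} {δ : ℤ} (h0 : 0 < δ) (h1 : δ < n) (c : F)
    (hc : ¬ Cut J (a - δ) a) : el a h0 h1 c ∈ KJ (Ki F n) J := by
  classical
  rw [mem_KJ_iff]
  intro a' b hcut
  rw [co_el]
  have hlt : b < a' := by
    obtain ⟨i, hi, k, h3, h4⟩ := hcut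
    omega
  rw [if_neg (by omega), if_neg, add_zero]
  rintro ⟨⟨l, hl⟩, rfl⟩
  apply hc
  have h5 := hcut.shift (-l)
  have e1 : a' - δ + n * -l = a - δ := by rw [mul_neg, ← hl]; ring
  have e2 : a' + n * -l = a := by rw [mul_neg, ← hl]; ring
  rwa [e1, e2] at h5

end KCo

end Vale.Agent.P067
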