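import Vale.Agent.P067.KGen

/-!
# P067, D1c: structure of `K_R` for `|R| = n - 2`
-/

open Finset

set_option linter.unusedSectionVars false
set_option linter.unusedVariables false
set_option linter.unusedSimpArgs false

namespace Vale.Agent.P067

namespace KStr

open KCo KGen

variable {F : Type} [Field F] {n : ℕ}

theorem one_lt (hn : 3 ≤ n) : (1 : ℤ) < n := by exact_mod_cast (show 1 < n by omega)

theorem two_lt (hn : 3 ≤ n) : (2 : ℤ) < n := by exact_mod_cast (show 2 < n by omega)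

theorem fin_eq {x i : Fin n} (h : (n : ℤ) ∣ (x : ℕ) - (i : ℕ)) : x = i := by
  obtain ⟨m, hm⟩ := h
  apply Fin.ext
  have hx2 := x.2
  have hi2 := i.2
  rcases lt_trichotomy (((x : ℕ) : ℤ) - (i : ℕ)) 0 with h5 | h5 | h5
  · exfalso
    refine no_mult (n := n) (m := -m) ?_ ?_
    · rw [mul_neg]; omega
    · rw [mul_neg]; omega
  · omega
  · exfalso
    refine no_mult (n := n) (m := m) ?_ ?_
    · omega
    · omega

/-- if `J` is everything but `i`, an interval not cut by `J` has length at most one -/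
theorem not_cut_iff {J : Finset (Fin n)} {i : Fin n} (hJ : ∀ x, x ≠ i → x ∈ J) (hn : 3 ≤ n)
    {a b : ℤ} (hab : b < a) (h : ¬ Cut J b a) : b = a - 1 ∧ (n : ℤ) ∣ a - ((i : ℕ) + 1) := by
  have key : ∀ m : ℤ, b ≤ m → m < a → (n : ℤ) ∣ m - (i : ℕ) := by
    intro m h1 h2
    obtain ⟨a0, ha0, k, hk⟩ := exists_window (n := n) (by omega) m
    by_cases h3 : (⟨a0, ha0⟩ : Fin n) = i
    · refine ⟨k, ?_⟩
      rw [hk, ← h3]; simp
    · exfalso
      exact h ⟨⟨a0, ha0⟩, hJ _ h3, k, by simp only; omega, by simp only; omega⟩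
  have hn' : (1 : ℤ) < n := one_lt hn
  constructor
  · by_contra hne
    have h1 := key (a - 1) (by omega) (by omega)
    have h2 := key (a - 2) (by omega) (by omega)
    have h3 := dvd_sub h1 h2
    have e : a - 1 - (i : ℕ) - (a - 2 - (i : ℕ)) = 1 := by ring
    rw [e] at h3
    have := Int.le_of_dvd (by norm_num) h3
    omega
  · have h1 := key (a - 1) (by omega) (by omega)
    have e : a - 1 - ((i : ℕ) : ℤ) = a - ((i : ℕ) + 1) := by ring
    rwa [e] at h1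

/-- `K_J` for `J` everything but `i` -/
theorem exists_el {J : Finset (Fin n)} {i : Fin n} (hiJ : i ∉ J) (hJ : ∀ x, x ≠ i → x ∈ J)
    (hn : 3 ≤ n) {g : UU F n} (hg : g ∈ KJ (Ki F n) J) :
    ∃ c : F, g = el (((i : ℕ) : ℤ) + 1) one_pos (one_lt hn) c := by
  classical
  refine ⟨co g (i : ℕ) ((i : ℕ) + 1), ?_⟩
  apply ext_co
  intro a b
  rw [co_el]
  rcases lt_trichotomy a b with h | h | h
  · rw [co_above g h, if_neg (by omega), if_neg (by omega), add_zero]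
  · subst h
    rw [co_self, if_pos rfl, if_neg (by omega), add_zero]
  · rw [if_neg (by omega), zero_add]
    by_cases h1 : Cut J b a
    · rw [mem_KJ_iff.1 hg a b h1, if_neg]
      rintro ⟨⟨k, hk⟩, hb⟩
      obtain ⟨x, hx, l, hl, hl'⟩ := h1
      have h2 : ((x : ℕ) : ℤ) - (i : ℕ) = n * (k - l) := by rw [mul_sub]; omega
      exact hiJ (fin_eq ⟨_, h2⟩ ▸ hx)
    · obtain ⟨h2, h3⟩ := not_cut_iff hJ hn h h1
      rw [if_pos ⟨h3, h2⟩]
      obtain ⟨k, hk⟩ := h3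
      have e1 : a = ((i : ℕ) + 1) + n * k := by omega
      have e2 : b = (i : ℕ) + n * k := by omega
      rw [e1, e2, co_add_mul]

/-- the simple root elements of type `i` are in `K_J` if `i ∉ J` -/
theorem el_one_mem {J : Finset (Fin n)} {i : Fin n} (hiJ : i ∉ J) (hn : 3 ≤ n) (c : F) :
    el (((i : ℕ) : ℤ) + 1) one_pos (one_lt hn) c ∈ KJ (Ki F n) J := by
  apply el_mem
  rintro ⟨x, hx, k, h1, h2⟩
  have h3 : ((x : ℕ) : ℤ) - (i : ℕ) = n * (-k) := by rw [mul_neg]; omega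
  exact hiJ (fin_eq ⟨_, h3⟩ ▸ hx)

theorem el_add (a : ℤ) {δ : ℤ} (h0 : 0 < δ) (h1 : δ < n) (c c' : F) :
    el a h0 h1 c * el a h0 h1 c' = el a h0 h1 (c + c') := by
  apply ext_v
  intro v
  simp only [mul_apply', el_apply, map_add, map_smul, Em_Em_self (not_dvd h0 h1)]
  module

theorem el_zero (a : ℤ) {δ : ℤ} (h0 : 0 < δ) (h1 : δ < n) : el a h0 h1 (0 : F) = 1 := by
  apply ext_v
  intro v
  rw [el_apply, zero_smul, add_zero]
  rfl

theorem el_inv (a : ℤ) {δ : ℤ} (h0 : 0 < δ) (h1 : δ < n) (c : F) :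
    (el a h0 h1 c)⁻¹ = el a h0 h1 (-c) := by
  rw [inv_eq_iff_mul_eq_one, el_add, add_neg_cancel, el_zero]

theorem el_inj (a : ℤ) {δ : ℤ} (h0 : 0 < δ) (h1 : δ < n) {c c' : F}
    (h : el a h0 h1 c = el a h0 h1 c') : c = c' := by
  classical
  have h2 : co (el a h0 h1 c) (a - δ) a = co (el a h0 h1 c') (a - δ) a := by rw [h]
  rw [co_el, co_el, if_neg (by omega), if_pos ⟨by simp, rfl⟩, if_pos ⟨by simp, rfl⟩] at h2
  simpa using h2

/-- the root group -/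
noncomputable def rootG (F : Type) [Field F] {n : ℕ} (a : ℤ) {δ : ℤ} (h0 : 0 < δ) (h1 : δ < n) :
    Subgroup (UU F n) where
  carrier := Set.range (el a h0 h1)
  one_mem' := ⟨0, el_zero a h0 h1⟩
  mul_mem' := by
    rintro _ _ ⟨c, rfl⟩ ⟨c', rfl⟩
    exact ⟨c + c', (el_add a h0 h1 c c').symm⟩
  inv_mem' := by
    rintro _ ⟨c, rfl⟩
    exact ⟨-c, (el_inv a h0 h1 c).symm⟩

theorem mem_rootG {a : ℤ} {δ : ℤ} {h0 : 0 < δ} {h1 : δ < n} {g : UU F n} :
    g ∈ rootG F a h0 h1 ↔ ∃ c, el a h0 h1 c = g := Iff.rfl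

theorem not_dvd_neg {d : ℤ} (hd : 0 < d) (hd' : d < n) {e : ℤ} (he : e = -d) :
    ¬ (n : ℤ) ∣ e := by
  rintro h
  rw [he] at h
  exact not_dvd hd hd' (dvd_neg.1 h)

/-- structure at level `n - 2` -/
theorem strAt [Finite F] (hn : 3 ≤ n) {R : Finset (Fin n)} (hR : R.card + 2 = n) :
    Pair.StrAt (Ki F n) (Nat.card F) R := by
  classical
  intro i j hi hj hij
  have hn1 : (1 : ℤ) < n := one_lt hn
  have hn2 : (2 : ℤ) < n := two_lt hn
  have huniv : insert i (insert j R) = univ := by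
    apply eq_univ_of_card
    rw [Fintype.card_fin, card_insert_of_notMem, card_insert_of_notMem hj]
    · omega
    · simp [hi, hij]
  have hJi : ∀ x, x ≠ i → x ∈ insert j R := by
    intro x hx
    have := mem_univ x
    rw [← huniv, mem_insert] at this
    exact this.resolve_left hx
  have hJj : ∀ x, x ≠ j → x ∈ insert i R := by
    intro x hx
    have := mem_univ x
    rw [← huniv, mem_insert, mem_insert] at this
    rw [mem_insert]
    tauto
  have hiJ : i ∉ insert j R := by simp [hi, hij]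
  have hjJ : j ∉ insert i R := by simp [hj, Ne.symm hij]
  have hAel : ∀ a ∈ KJ (Ki F n) (insert i R), ∃ c : F,
      a = el (((j : ℕ) : ℤ) + 1) one_pos (one_lt hn) c := fun a ha => exists_el hjJ hJj hn ha
  have hBel : ∀ b ∈ KJ (Ki F n) (insert j R), ∃ c : F,
      b = el (((i : ℕ) : ℤ) + 1) one_pos (one_lt hn) c := fun a ha => exists_el hiJ hJi hn ha
  have hcard : Nat.card F ≤ Nat.card (KJ (Ki F n) (insert i R)) := by
    have := finite_KJ (F := F) (n := n) (insert_nonempty i R)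
    refine Nat.card_le_card_of_injective
      (fun c : F => (⟨el (((j : ℕ) : ℤ) + 1) one_pos (one_lt hn) c, el_one_mem hjJ hn c⟩ :
        KJ (Ki F n) (insert i R))) ?_
    intro c c' h
    exact el_inj (((j : ℕ) : ℤ) + 1) one_pos (one_lt hn) (congrArg Subtype.val h)
  have AA : ∀ v : VV F, Em n (((j : ℕ) : ℤ) + 1) 1 (Em n (((j : ℕ) : ℤ) + 1) 1 v) = 0 :=
    fun v => Em_Em_self (not_dvd one_pos hn1) v
  have BB : ∀ v : VV F, Em n (((i : ℕ) : ℤ) + 1) 1 (Em n (((i : ℕ) : ℤ) + 1) 1 v) = 0 :=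
    fun v => Em_Em_self (not_dvd one_pos hn1) v
  have e11 : (1 : ℤ) + 1 = 2 := by norm_num
  by_cases c1 : (n : ℤ) ∣ ((j : ℕ) : ℤ) - ((i : ℕ) + 1)
  · -- `j = i + 1`
    right
    have c2 : ¬ (n : ℤ) ∣ ((i : ℕ) : ℤ) - ((j : ℕ) + 1) := by
      intro h
      have := dvd_add c1 h
      exact not_dvd_neg two_pos hn2 (by ring) this
    have BA : ∀ v : VV F, Em n (((i : ℕ) : ℤ) + 1) 1 (Em n (((j : ℕ) : ℤ) + 1) 1 v) =
        Em n (((j : ℕ) : ℤ) + 1) 2 v := by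
      intro v
      rw [Em_Em, if_pos, e11]
      have e : ((j : ℕ) : ℤ) + 1 - 1 - (((i : ℕ) : ℤ) + 1) = ((j : ℕ) : ℤ) - ((i : ℕ) + 1) := by ring
      rw [e]; exact c1
    have AB : ∀ v : VV F, Em n (((j : ℕ) : ℤ) + 1) 1 (Em n (((i : ℕ) : ℤ) + 1) 1 v) = 0 := by
      intro v
      rw [Em_Em, if_neg]
      have e : ((i : ℕ) : ℤ) + 1 - 1 - (((j : ℕ) : ℤ) + 1) = ((i : ℕ) : ℤ) - ((j : ℕ) + 1) := by ring
      rw [e]; exact c2
    have CB : ∀ v : VV F, Em n (((j : ℕ) : ℤ) + 1) 2 (Em n (((i : ℕ) : ℤ) + 1) 1 v) = 0 := by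
      intro v
      rw [Em_Em, if_neg]
      have e : ((i : ℕ) : ℤ) + 1 - 1 - (((j : ℕ) : ℤ) + 1) = ((i : ℕ) : ℤ) - ((j : ℕ) + 1) := by ring
      rw [e]; exact c2
    have BC : ∀ v : VV F, Em n (((i : ℕ) : ℤ) + 1) 1 (Em n (((j : ℕ) : ℤ) + 1) 2 v) = 0 := by
      intro v
      rw [Em_Em, if_neg]
      intro h
      have := dvd_sub h c1
      exact not_dvd_neg one_pos hn1 (by ring) this
    have CA : ∀ v : VV F, Em n (((j : ℕ) : ℤ) + 1) 2 (Em n (((j : ℕ) : ℤ) + 1) 1 v) = 0 := by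
      intro v
      rw [Em_Em, if_neg]
      exact not_dvd_neg one_pos hn1 (by ring)
    have AC : ∀ v : VV F, Em n (((j : ℕ) : ℤ) + 1) 1 (Em n (((j : ℕ) : ℤ) + 1) 2 v) = 0 := by
      intro v
      rw [Em_Em, if_neg]
      exact not_dvd_neg two_pos hn2 (by ring)
    have CC : ∀ v : VV F, Em n (((j : ℕ) : ℤ) + 1) 2 (Em n (((j : ℕ) : ℤ) + 1) 2 v) = 0 :=
      fun v => Em_Em_self (not_dvd two_pos hn2) v
    refine ⟨rootG F (((j : ℕ) : ℤ) + 1) two_pos (two_lt hn), ?_, hcard, ?_, ?_, ?_⟩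
    · rintro _ ⟨c, rfl⟩
      apply el_mem
      rintro ⟨x, hx, k, h1, h2⟩
      rcases (show ((x : ℕ) : ℤ) + n * k = (j : ℕ) ∨ ((x : ℕ) : ℤ) + n * k = (j : ℕ) - 1 by omega)
        with h3 | h3
      · have h4 : ((x : ℕ) : ℤ) - (j : ℕ) = n * (-k) := by rw [mul_neg]; omega
        exact hj (fin_eq ⟨_, h4⟩ ▸ hx)
      · obtain ⟨m, hm⟩ := c1
        have h4 : ((x : ℕ) : ℤ) - (i : ℕ) = n * (m - k) := by rw [mul_sub]; omega
        exact hi (fin_eq ⟨_, h4⟩ ▸ hx)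
    · rintro _ ⟨c, rfl⟩ b hb
      obtain ⟨β, rfl⟩ := hBel b hb
      apply ext_v
      intro v
      simp only [mul_apply', el_apply, map_add, map_smul, CB, BC]
      module
    · intro a ha b hb
      obtain ⟨α, rfl⟩ := hAel a ha
      obtain ⟨β, rfl⟩ := hBel b hb
      refine ⟨el (((j : ℕ) : ℤ) + 1) two_pos (two_lt hn) (α * β), ⟨_, rfl⟩, _, hb, ?_⟩
      rw [mul_assoc, inv_mul_eq_iff_eq_mul]
      apply ext_v
      intro v
      simp only [mul_apply', el_apply, map_add, map_smul, map_zero, CB, BC, BA, AB, AC, CA, AA, BB,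
        CC]
      module
    · intro a ha ha1 z hz
      obtain ⟨α, rfl⟩ := hAel a ha
      obtain ⟨γ, rfl⟩ := hz
      have hα : α ≠ 0 := by
        rintro rfl
        exact ha1 (el_zero _ _ _)
      refine ⟨el (((i : ℕ) : ℤ) + 1) one_pos (one_lt hn) (-γ / α), el_one_mem hiJ hn _,
        (el (((i : ℕ) : ℤ) + 1) one_pos (one_lt hn) (-γ / α))⁻¹, inv_mem (el_one_mem hiJ hn _), ?_⟩
      rw [eq_mul_inv_iff_mul_eq, eq_mul_inv_iff_mul_eq]
      apply ext_v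
      intro v
      simp only [mul_apply', el_apply, map_add, map_smul, map_zero, CB, BC, BA, AB, AC, CA, AA, BB,
        CC]
      have h5 : α • ((-γ / α) • Em n (((j : ℕ) : ℤ) + 1) 2 v) =
          (-γ) • Em n (((j : ℕ) : ℤ) + 1) 2 v := by
        rw [smul_smul, mul_div_cancel₀ _ hα]
      have h6 : (-γ / α) • (α • Em n (((j : ℕ) : ℤ) + 1) 2 v) =
          (-γ) • Em n (((j : ℕ) : ℤ) + 1) 2 v := by
        rw [smul_smul, div_mul_cancel₀ _ hα]
      simp only [smul_add, h5, h6, smul_zero, map_zero, add_zero, zero_add]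
      module
  by_cases c2 : (n : ℤ) ∣ ((i : ℕ) : ℤ) - ((j : ℕ) + 1)
  · -- `i = j + 1`
    right
    have AB : ∀ v : VV F, Em n (((j : ℕ) : ℤ) + 1) 1 (Em n (((i : ℕ) : ℤ) + 1) 1 v) =
        Em n (((i : ℕ) : ℤ) + 1) 2 v := by
      intro v
      rw [Em_Em, if_pos, e11]
      have e : ((i : ℕ) : ℤ) + 1 - 1 - (((j : ℕ) : ℤ) + 1) = ((i : ℕ) : ℤ) - ((j : ℕ) + 1) := by ring
      rw [e]; exact c2
    have BA : ∀ v : VV F, Em n (((i : ℕ) : ℤ) + 1) 1 (Em n (((j : ℕ) : ℤ) + 1) 1 v) = 0 := by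
      intro v
      rw [Em_Em, if_neg]
      have e : ((j : ℕ) : ℤ) + 1 - 1 - (((i : ℕ) : ℤ) + 1) = ((j : ℕ) : ℤ) - ((i : ℕ) + 1) := by ring
      rw [e]; exact c1
    have CB : ∀ v : VV F, Em n (((i : ℕ) : ℤ) + 1) 2 (Em n (((i : ℕ) : ℤ) + 1) 1 v) = 0 := by
      intro v
      rw [Em_Em, if_neg]
      exact not_dvd_neg one_pos hn1 (by ring)
    have BC : ∀ v : VV F, Em n (((i : ℕ) : ℤ) + 1) 1 (Em n (((i : ℕ) : ℤ) + 1) 2 v) = 0 := by
      intro v
      rw [Em_Em, if_neg]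
      exact not_dvd_neg two_pos hn2 (by ring)
    have CA : ∀ v : VV F, Em n (((i : ℕ) : ℤ) + 1) 2 (Em n (((j : ℕ) : ℤ) + 1) 1 v) = 0 := by
      intro v
      rw [Em_Em, if_neg]
      have e : ((j : ℕ) : ℤ) + 1 - 1 - (((i : ℕ) : ℤ) + 1) = ((j : ℕ) : ℤ) - ((i : ℕ) + 1) := by ring
      rw [e]; exact c1
    have AC : ∀ v : VV F, Em n (((j : ℕ) : ℤ) + 1) 1 (Em n (((i : ℕ) : ℤ) + 1) 2 v) = 0 := by
      intro v
      rw [Em_Em, if_neg]
      intro h
      have := dvd_sub h c2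
      exact not_dvd_neg one_pos hn1 (by ring) this
    have CC : ∀ v : VV F, Em n (((i : ℕ) : ℤ) + 1) 2 (Em n (((i : ℕ) : ℤ) + 1) 2 v) = 0 :=
      fun v => Em_Em_self (not_dvd two_pos hn2) v
    refine ⟨rootG F (((i : ℕ) : ℤ) + 1) two_pos (two_lt hn), ?_, hcard, ?_, ?_, ?_⟩
    · rintro _ ⟨c, rfl⟩
      apply el_mem
      rintro ⟨x, hx, k, h1, h2⟩
      rcases (show ((x : ℕ) : ℤ) + n * k = (i : ℕ) ∨ ((x : ℕ) : ℤ) + n * k = (i : ℕ) - 1 by omega)
        with h3 | h3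
      · have h4 : ((x : ℕ) : ℤ) - (i : ℕ) = n * (-k) := by rw [mul_neg]; omega
        exact hi (fin_eq ⟨_, h4⟩ ▸ hx)
      · obtain ⟨m, hm⟩ := c2
        have h4 : ((x : ℕ) : ℤ) - (j : ℕ) = n * (m - k) := by rw [mul_sub]; omega
        exact hj (fin_eq ⟨_, h4⟩ ▸ hx)
    · rintro _ ⟨c, rfl⟩ b hb
      obtain ⟨β, rfl⟩ := hBel b hb
      apply ext_v
      intro v
      simp only [mul_apply', el_apply, map_add, map_smul, CB, BC]
      module
    · intro a ha b hb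
      obtain ⟨α, rfl⟩ := hAel a ha
      obtain ⟨β, rfl⟩ := hBel b hb
      refine ⟨el (((i : ℕ) : ℤ) + 1) two_pos (two_lt hn) (-(α * β)), ⟨_, rfl⟩, _, hb, ?_⟩
      rw [mul_assoc, inv_mul_eq_iff_eq_mul]
      apply ext_v
      intro v
      simp only [mul_apply', el_apply, map_add, map_smul, map_zero, CB, BC, BA, AB, AC, CA, AA, BB,
        CC]
      module
    · intro a ha ha1 z hz
      obtain ⟨α, rfl⟩ := hAel a ha
      obtain ⟨γ, rfl⟩ := hz
      have hα : α ≠ 0 := by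
        rintro rfl
        exact ha1 (el_zero _ _ _)
      refine ⟨el (((i : ℕ) : ℤ) + 1) one_pos (one_lt hn) (γ / α), el_one_mem hiJ hn _,
        (el (((i : ℕ) : ℤ) + 1) one_pos (one_lt hn) (γ / α))⁻¹, inv_mem (el_one_mem hiJ hn _), ?_⟩
      rw [eq_mul_inv_iff_mul_eq, eq_mul_inv_iff_mul_eq]
      apply ext_v
      intro v
      simp only [mul_apply', el_apply, map_add, map_smul, map_zero, CB, BC, BA, AB, AC, CA, AA, BB,
        CC]
      have h5 : α • ((γ / α) • Em n (((i : ℕ) : ℤ) + 1) 2 v) =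
          γ • Em n (((i : ℕ) : ℤ) + 1) 2 v := by
        rw [smul_smul, mul_div_cancel₀ _ hα]
      have h6 : (γ / α) • (α • Em n (((i : ℕ) : ℤ) + 1) 2 v) =
          γ • Em n (((i : ℕ) : ℤ) + 1) 2 v := by
        rw [smul_smul, div_mul_cancel₀ _ hα]
      simp only [smul_add, h5, h6, smul_zero, map_zero, add_zero, zero_add]
      module
  · -- commuting
    left
    have BA : ∀ v : VV F, Em n (((i : ℕ) : ℤ) + 1) 1 (Em n (((j : ℕ) : ℤ) + 1) 1 v) = 0 := by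
      intro v
      rw [Em_Em, if_neg]
      have e : ((j : ℕ) : ℤ) + 1 - 1 - (((i : ℕ) : ℤ) + 1) = ((j : ℕ) : ℤ) - ((i : ℕ) + 1) := by ring
      rw [e]; exact c1
    have AB : ∀ v : VV F, Em n (((j : ℕ) : ℤ) + 1) 1 (Em n (((i : ℕ) : ℤ) + 1) 1 v) = 0 := by
      intro v
      rw [Em_Em, if_neg]
      have e : ((i : ℕ) : ℤ) + 1 - 1 - (((j : ℕ) : ℤ) + 1) = ((i : ℕ) : ℤ) - ((j : ℕ) + 1) := by ring
      rw [e]; exact c2
    intro a ha b hb
    obtain ⟨α, rfl⟩ := hAel a ha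
    obtain ⟨β, rfl⟩ := hBel b hb
    apply ext_v
    intro v
    simp only [mul_apply', el_apply, map_add, map_smul, AB, BA]
    module

end KStr

end Vale.Agent.P067
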