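import Vale.Agent.P067.Rank1
import Vale.Agent.P067.DetPhi

/-!
# P067: congruence subgroups of matrices over `F[X]` and a nontrivial character

`G` with an injective homomorphism `ρ` to the matrices over `(ZMod p)[X]` whose image is the set
of all matrices of determinant one congruent to `1` modulo `X ^ s`.  For a nontrivial character
`χ`, trivial on the elements congruent to `1` modulo `X ^ (s + 1)`, we construct the vertices `W`
with their types, and for every nonempty partial selection the normal subgroup `N` of its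
stabiliser.
-/

namespace Vale.Agent.P067.Key

open Matrix Polynomial Rk Dp

variable {p : ℕ} [Fact p.Prime] {k : Type*} [Field k] {n : ℕ}

/-- matrices over the polynomial ring -/
abbrev Mt (p n : ℕ) := Matrix (Fin n) (Fin n) (ZMod p)[X]

/-- congruence modulo `X ^ s` -/
def Cg (s : ℕ) (M N : Mt p n) : Prop := ∃ D : Mt p n, M = N + ((X : (ZMod p)[X]) ^ s) • D

theorem Cg.refl (s : ℕ) (M : Mt p n) : Cg s M M := ⟨0, by simp⟩

theorem Cg.of_eq {s : ℕ} {M N : Mt p n} (h : M = N) : Cg s M N := h ▸ Cg.refl s M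

theorem Cg.symm {s : ℕ} {M N : Mt p n} (h : Cg s M N) : Cg s N M := by
  obtain ⟨D, hD⟩ := h
  refine ⟨-D, ?_⟩
  rw [hD, smul_neg]
  abel

theorem Cg.trans {s : ℕ} {L M N : Mt p n} (h1 : Cg s L M) (h2 : Cg s M N) : Cg s L N := by
  obtain ⟨D, hD⟩ := h1
  obtain ⟨E, hE⟩ := h2
  refine ⟨E + D, ?_⟩
  rw [hD, hE, smul_add]
  abel

theorem Cg.mul {s : ℕ} {M N M' N' : Mt p n} (h1 : Cg s M N) (h2 : Cg s M' N') :
    Cg s (M * M') (N * N') := by
  obtain ⟨D, hD⟩ := h1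
  obtain ⟨E, hE⟩ := h2
  refine ⟨N * E + D * N' + (X : (ZMod p)[X]) ^ s • (D * E), ?_⟩
  rw [hD, hE, add_mul, mul_add, mul_add, smul_mul_assoc, mul_smul_comm, smul_mul_assoc,
    mul_smul_comm]
  simp only [smul_add]
  abel

theorem Cg.mono {s t : ℕ} (hst : s ≤ t) {M N : Mt p n} (h : Cg t M N) : Cg s M N := by
  obtain ⟨D, hD⟩ := h
  refine ⟨(X : (ZMod p)[X]) ^ (t - s) • D, ?_⟩
  rw [hD, smul_smul, ← pow_add, Nat.add_sub_cancel' hst]

/-- constant matrix -/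
noncomputable def cm (A : Matrix (Fin n) (Fin n) (ZMod p)) : Mt p n := A.map C

theorem cm_add (A B : Matrix (Fin n) (Fin n) (ZMod p)) : cm (A + B) = cm A + cm B := by
  ext1 i j
  simp [cm]

theorem cm_mul (A B : Matrix (Fin n) (Fin n) (ZMod p)) : cm (A * B) = cm A * cm B :=
  Matrix.map_mul

theorem cm_one : cm (1 : Matrix (Fin n) (Fin n) (ZMod p)) = 1 := by
  unfold cm
  exact Matrix.map_one _ (map_zero C) (map_one C)

theorem cm_zero : cm (0 : Matrix (Fin n) (Fin n) (ZMod p)) = 0 := by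
  ext1 i j
  simp [cm]

/-- `G` is the congruence subgroup of level `s`. -/
structure IsCong {G : Type*} [Group G] (ρ : G →* Mt p n) (s : ℕ) : Prop where
  inj : Function.Injective ρ
  cong : ∀ g, Cg s (ρ g) 1
  surj : ∀ M : Mt p n, Cg s M 1 → M.det = 1 → ∃ g, ρ g = M

variable {G : Type*} [Group G] {ρ : G →* Mt p n} {s : ℕ}

theorem det_cg {s : ℕ} {M : Mt p n} (h : Cg s M 1) : ∃ a : (ZMod p)[X],
    M.det = 1 + X ^ s * a := by
  obtain ⟨D, rfl⟩ := h
  rw [Matrix.det_one_add_smul]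
  exact ⟨D.trace + (det (1 + (X : ((ZMod p)[X])[X]) • D.map C)).divX.divX.eval (X ^ s) * X ^ s,
    by ring⟩

theorem IsCong.det (h : IsCong ρ s) (hs : 1 ≤ s) (g : G) : (ρ g).det = 1 := by
  obtain ⟨a, ha⟩ := det_cg (h.cong g)
  have hu : IsUnit (ρ g).det := by
    refine IsUnit.of_mul_eq_one (ρ g⁻¹).det ?_
    rw [← det_mul, ← map_mul, mul_inv_cancel, map_one, det_one]
  obtain ⟨c, _, hc⟩ := Polynomial.isUnit_iff.mp hu
  have h1 : (C c).eval 0 = (1 + X ^ s * a : (ZMod p)[X]).eval 0 := by rw [hc, ha]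
  rw [eval_C, eval_add, eval_mul, eval_pow, eval_X, eval_one, zero_pow (by omega), zero_mul,
    add_zero] at h1
  rw [← hc, h1, C_1]

theorem trace_zero {s : ℕ} (hs : 1 ≤ s) {D : Mt p n}
    (h : (1 + ((X : (ZMod p)[X]) ^ s) • D).det = 1) : (D.map (eval 0)).trace = 0 := by
  rw [Matrix.det_one_add_smul] at h
  set q := (det (1 + (X : ((ZMod p)[X])[X]) • D.map C)).divX.divX.eval (X ^ s)
  have h1 : (X : (ZMod p)[X]) ^ s * (D.trace + q * X ^ s) = 0 := by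
    have : (X : (ZMod p)[X]) ^ s * (D.trace + q * X ^ s) =
      (1 + D.trace * X ^ s + q * (X ^ s) ^ 2) - 1 := by ring
    rw [this, h, sub_self]
  have h2 : D.trace + q * X ^ s = 0 := by
    rcases mul_eq_zero.mp h1 with h3 | h3
    · exact absurd h3 (pow_ne_zero _ X_ne_zero)
    · exact h3
  have h3 : (D.trace).eval 0 = 0 := by
    have h4 := congrArg (eval 0) h2
    rw [eval_add, eval_mul, eval_pow, eval_X, eval_zero, zero_pow (by omega), mul_zero,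
      add_zero] at h4
    exact h4
  have h5 : (D.map (eval 0)).trace = (D.trace).eval 0 := by
    simp only [Matrix.trace, Matrix.diag_apply, Matrix.map_apply]
    rw [Polynomial.eval_finsetSum]
  rw [h5, h3]

/-- congruence with the constant part -/
theorem cg_const (s : ℕ) (D : Mt p n) :
    Cg (s + 1) (1 + ((X : (ZMod p)[X]) ^ s) • D) (1 + (X ^ s : (ZMod p)[X]) • cm (D.map (eval 0))) := by
  have h : ∀ i j, ∃ r, D i j = C ((D i j).eval 0) + X * r := by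
    intro i j
    refine ⟨(D i j).divX, ?_⟩
    rw [← coeff_zero_eq_eval_zero, add_comm]
    exact (X_mul_divX_add _).symm
  choose r hr using h
  refine ⟨Matrix.of r, ?_⟩
  rw [add_assoc, pow_succ, ← smul_smul, ← smul_add]
  congr 2
  ext1 i j
  rw [Matrix.add_apply, Matrix.smul_apply, Matrix.of_apply, smul_eq_mul]
  exact hr i j

theorem cg_add (hs : 1 ≤ s) {M N : Mt p n} {A B : Matrix (Fin n) (Fin n) (ZMod p)}
    (h1 : Cg (s + 1) M (1 + (X ^ s : (ZMod p)[X]) • cm A))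
    (h2 : Cg (s + 1) N (1 + (X ^ s : (ZMod p)[X]) • cm B)) :
    Cg (s + 1) (M * N) (1 + (X ^ s : (ZMod p)[X]) • cm (A + B)) := by
  refine (h1.mul h2).trans ⟨(X : (ZMod p)[X]) ^ (s - 1) • (cm A * cm B), ?_⟩
  rw [add_mul, one_mul, mul_add, mul_one, smul_mul_assoc, mul_smul_comm, smul_smul, smul_smul,
    ← pow_add, ← pow_add, cm_add, smul_add]
  have : s + 1 + (s - 1) = s + s := by omega
  rw [this]
  abel

/-- every trace zero matrix is attained -/
theorem exists_elt (h : IsCong ρ s) (hs : 1 ≤ s) (A : Matrix (Fin n) (Fin n) (ZMod p))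
    (hA : A.trace = 0) : ∃ g, Cg (s + 1) (ρ g) (1 + (X ^ s : (ZMod p)[X]) • cm A) := by
  refine sl_induction
    (P := fun A => ∃ g, Cg (s + 1) (ρ g) (1 + (X ^ s : (ZMod p)[X]) • cm A)) ?_ ?_ ?_ A hA
  · refine ⟨1, ?_⟩
    rw [map_one, cm_zero, smul_zero, add_zero]
    exact Cg.refl _ _
  · rintro A B _ _ ⟨g, hg⟩ ⟨g', hg'⟩
    refine ⟨g * g', ?_⟩
    rw [map_mul]
    exact cg_add hs hg hg'
  · intro b w hbw
    have e : tv (fun i => (C (b i) : (ZMod p)[X])) ((X ^ s : (ZMod p)[X]) • fun j => C (w j)) =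
        1 + (X ^ s : (ZMod p)[X]) • cm (vecMulVec b w) := by
      unfold tv
      congr 1
      ext1 i j
      rw [vecMulVec_apply, Matrix.smul_apply, Pi.smul_apply, smul_eq_mul, smul_eq_mul]
      simp only [cm, Matrix.map_apply, vecMulVec_apply, C_mul]
      ring
    have hd : (tv (fun i => (C (b i) : (ZMod p)[X]))
        ((X ^ s : (ZMod p)[X]) • fun j => C (w j))).det = 1 := by
      apply det_tv
      rw [smul_dotProduct]
      have : (fun j => (C (w j) : (ZMod p)[X])) ⬝ᵥ (fun i => C (b i)) = C (w ⬝ᵥ b) := by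
        simp only [dotProduct, map_sum, map_mul]
      rw [this, hbw, C_0, smul_zero]
    obtain ⟨g, hg⟩ := h.surj _ (by
      rw [e]
      exact ⟨_, rfl⟩) hd
    exact ⟨g, by rw [hg, e]; exact Cg.refl _ _⟩

section char

variable {χ : G →* k}

theorem chi_eq (hχ1 : ∀ g, Cg (s + 1) (ρ g) 1 → χ g = 1) {g h : G}
    (hgh : Cg (s + 1) (ρ g) (ρ h)) : χ g = χ h := by
  have h1 : Cg (s + 1) (ρ (g * h⁻¹)) 1 := by
    have h2 := hgh.mul (Cg.refl (s + 1) (ρ h⁻¹))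
    rw [← map_mul, ← map_mul, mul_inv_cancel, map_one] at h2
    exact h2
  have h3 := hχ1 _ h1
  calc χ g = χ (g * h⁻¹ * h) := by rw [inv_mul_cancel_right]
    _ = χ h := by rw [map_mul, h3, one_mul]

open Classical in
/-- the character of the trace zero matrices -/
noncomputable def chm (ρ : G →* Mt p n) (s : ℕ) (χ : G →* k)
    (A : Matrix (Fin n) (Fin n) (ZMod p)) : k :=
  if h : ∃ g, Cg (s + 1) (ρ g) (1 + (X ^ s : (ZMod p)[X]) • cm A) then χ h.choose else 1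

theorem chm_eq (hχ1 : ∀ g, Cg (s + 1) (ρ g) 1 → χ g = 1) {g : G}
    {A : Matrix (Fin n) (Fin n) (ZMod p)}
    (hg : Cg (s + 1) (ρ g) (1 + (X ^ s : (ZMod p)[X]) • cm A)) : chm ρ s χ A = χ g := by
  have h : ∃ g, Cg (s + 1) (ρ g) (1 + (X ^ s : (ZMod p)[X]) • cm A) := ⟨g, hg⟩
  rw [chm, dif_pos h]
  exact chi_eq hχ1 (h.choose_spec.trans hg.symm)

theorem isChar_chm (h : IsCong ρ s) (hs : 1 ≤ s) (hχ1 : ∀ g, Cg (s + 1) (ρ g) 1 → χ g = 1) :
    IsChar (chm ρ s χ) := by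
  constructor
  · rw [chm_eq hχ1 (g := 1), map_one]
    rw [map_one, cm_zero, smul_zero, add_zero]
    exact Cg.refl _ _
  · intro A B hA hB
    obtain ⟨g, hg⟩ := exists_elt h hs A hA
    obtain ⟨g', hg'⟩ := exists_elt h hs B hB
    rw [chm_eq hχ1 hg, chm_eq hχ1 hg', chm_eq hχ1 (g := g * g'), map_mul]
    rw [map_mul]
    exact cg_add hs hg hg'

/-- a basis adapted to the character -/
theorem exists_adapted (h : IsCong ρ s) (hs : 1 ≤ s)
    (hχ1 : ∀ g, Cg (s + 1) (ρ g) 1 → χ g = 1) (hχ : ∃ g, χ g ≠ 1) (i0 : Fin n) :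
    ∃ B B' : Matrix (Fin n) (Fin n) (ZMod p), B' * B = 1 ∧
      ∀ i, i ≠ i0 → chm ρ s χ (vecMulVec (fun j => B j i) (B' i0)) ≠ 1 := by
  obtain ⟨g, hg⟩ := hχ
  obtain ⟨D, hD⟩ := h.cong g
  have h1 : Cg (s + 1) (ρ g) (1 + (X ^ s : (ZMod p)[X]) • cm (D.map (eval 0))) := by
    rw [hD]
    exact cg_const s D
  have h2 : (D.map (eval 0)).trace = 0 := by
    apply trace_zero hs
    rw [← hD]
    exact h.det hs g
  obtain ⟨B, B', h3, _, h4⟩ := exists_basis (isChar_chm h hs hχ1) (D.map (eval 0)) h2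
    (by rw [chm_eq hχ1 h1]; exact hg) i0
  exact ⟨B, B', h3, h4⟩

end char

/-! ### Vertices -/

/-- vertices: a type `i ≠ i0` and a vector congruent to the column `i` of `B` modulo `X ^ s` -/
def Vt (s : ℕ) (B : Matrix (Fin n) (Fin n) (ZMod p)) (i0 : Fin n) : Type :=
  {x : {i : Fin n // i ≠ i0} × (Fin n → (ZMod p)[X]) //
    ∀ j, ∃ r, x.2 j = C (B j x.1) + X ^ s * r}

/-- type of a vertex -/
def Vt.ty {B : Matrix (Fin n) (Fin n) (ZMod p)} {i0 : Fin n} (x : Vt s B i0) :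
    {i : Fin n // i ≠ i0} := x.1.1

/-- vector of a vertex -/
def Vt.vec {B : Matrix (Fin n) (Fin n) (ZMod p)} {i0 : Fin n} (x : Vt s B i0) :
    Fin n → (ZMod p)[X] := x.1.2

theorem Vt.ext {B : Matrix (Fin n) (Fin n) (ZMod p)} {i0 : Fin n} {x y : Vt s B i0}
    (h1 : x.ty = y.ty) (h2 : x.vec = y.vec) : x = y :=
  Subtype.ext (Prod.ext h1 h2)

theorem Vt.ty_surjective (s : ℕ) (B : Matrix (Fin n) (Fin n) (ZMod p)) (i0 : Fin n) :
    Function.Surjective (Vt.ty : Vt s B i0 → {i : Fin n // i ≠ i0}) := by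
  intro i
  exact ⟨⟨(i, fun j => C (B j i)), fun j => ⟨0, by simp⟩⟩, rfl⟩

/-- a matrix congruent to `1` preserves the congruence -/
theorem mulVec_cong {M : Mt p n} (hM : Cg s M 1) {x b : Fin n → (ZMod p)[X]}
    (hx : ∀ j, ∃ r, x j = b j + X ^ s * r) : ∀ j, ∃ r, (M *ᵥ x) j = b j + X ^ s * r := by
  obtain ⟨D, rfl⟩ := hM
  intro j
  obtain ⟨r, hr⟩ := hx j
  refine ⟨r + (D *ᵥ x) j, ?_⟩
  rw [add_mulVec, one_mulVec, smul_mulVec, Pi.add_apply, Pi.smul_apply, hr, smul_eq_mul]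
  ring

/-- action of an element on a vertex -/
noncomputable def Vt.app (hc : ∀ g, Cg s (ρ g) 1) {B : Matrix (Fin n) (Fin n) (ZMod p)}
    {i0 : Fin n} (g : G) (x : Vt s B i0) : Vt s B i0 :=
  ⟨(x.ty, ρ g *ᵥ x.vec), mulVec_cong (hc g) x.2⟩

theorem Vt.app_ty (hc : ∀ g, Cg s (ρ g) 1) {B : Matrix (Fin n) (Fin n) (ZMod p)}
    {i0 : Fin n} (g : G) (x : Vt s B i0) : (Vt.app hc g x).ty = x.ty := rfl

theorem Vt.app_vec (hc : ∀ g, Cg s (ρ g) 1) {B : Matrix (Fin n) (Fin n) (ZMod p)}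
    {i0 : Fin n} (g : G) (x : Vt s B i0) : (Vt.app hc g x).vec = ρ g *ᵥ x.vec := rfl

theorem Vt.app_one (hc : ∀ g, Cg s (ρ g) 1) {B : Matrix (Fin n) (Fin n) (ZMod p)}
    {i0 : Fin n} (x : Vt s B i0) : Vt.app hc (1 : G) x = x := by
  apply Vt.ext (Vt.app_ty hc 1 x)
  rw [Vt.app_vec, map_one, one_mulVec]

theorem Vt.app_mul (hc : ∀ g, Cg s (ρ g) 1) {B : Matrix (Fin n) (Fin n) (ZMod p)}
    {i0 : Fin n} (g h : G) (x : Vt s B i0) :
    Vt.app hc (g * h) x = Vt.app hc g (Vt.app hc h x) := by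
  apply Vt.ext
  · rw [Vt.app_ty, Vt.app_ty, Vt.app_ty]
  · rw [Vt.app_vec, Vt.app_vec, Vt.app_vec, map_mul, mulVec_mulVec]

/-- the action on the vertices -/
@[reducible] noncomputable def actV (hc : ∀ g, Cg s (ρ g) 1) (B : Matrix (Fin n) (Fin n) (ZMod p))
    (i0 : Fin n) : MulAction G (Vt s B i0) where
  smul g x := Vt.app hc g x
  one_smul x := Vt.app_one hc x
  mul_smul g h x := Vt.app_mul hc g h x

/-- The subgroup of the transvections with direction `v` that fix the vectors in `Z`, `v ∈ Z`. -/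
def tvSub (ρ : G →* Mt p n) (v : Fin n → (ZMod p)[X]) (Z : Set (Fin n → (ZMod p)[X]))
    (hv : v ∈ Z) : Subgroup G where
  carrier := {g | ∃ φ : Fin n → (ZMod p)[X], (∀ x ∈ Z, φ ⬝ᵥ x = 0) ∧ ρ g = tv v φ}
  one_mem' := ⟨0, fun x _ => zero_dotProduct x, by rw [map_one, tv_zero]⟩
  mul_mem' := by
    rintro a b ⟨φ, h1, h2⟩ ⟨ψ, h3, h4⟩
    refine ⟨φ + ψ, fun x hx => by rw [add_dotProduct, h1 x hx, h3 x hx, add_zero], ?_⟩
    rw [map_mul, h2, h4, tv_mul _ _ _ (h1 v hv)]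
  inv_mem' := by
    rintro a ⟨φ, h1, h2⟩
    refine ⟨-φ, fun x hx => by rw [neg_dotProduct, h1 x hx, neg_zero], ?_⟩
    have h3 : tv v φ * tv v (-φ) = 1 := by
      rw [tv_mul _ _ _ (h1 v hv), add_neg_cancel, tv_zero]
    have h4 : ρ a⁻¹ * ρ a = 1 := by rw [← map_mul, inv_mul_cancel, map_one]
    calc ρ a⁻¹ = ρ a⁻¹ * (tv v φ * tv v (-φ)) := by rw [h3, mul_one]
      _ = (ρ a⁻¹ * ρ a) * tv v (-φ) := by rw [h2, mul_assoc]
      _ = tv v (-φ) := by rw [h4, one_mul]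

theorem mem_tvSub {v : Fin n → (ZMod p)[X]} {Z : Set (Fin n → (ZMod p)[X])} {hv : v ∈ Z} {g : G} :
    g ∈ tvSub ρ v Z hv ↔ ∃ φ : Fin n → (ZMod p)[X], (∀ x ∈ Z, φ ⬝ᵥ x = 0) ∧ ρ g = tv v φ :=
  Iff.rfl

theorem tvSub_fix {v : Fin n → (ZMod p)[X]} {Z : Set (Fin n → (ZMod p)[X])} {hv : v ∈ Z} {g : G}
    (hg : g ∈ tvSub ρ v Z hv) {x : Fin n → (ZMod p)[X]} (hx : x ∈ Z) : ρ g *ᵥ x = x := by
  obtain ⟨φ, h1, h2⟩ := hg
  rw [h2, tv_mulVec, h1 x hx, zero_smul, add_zero]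

theorem tvSub_conj {v : Fin n → (ZMod p)[X]} {Z : Set (Fin n → (ZMod p)[X])} {hv : v ∈ Z}
    {g h : G} (hg : g ∈ tvSub ρ v Z hv) (hh : ∀ x ∈ Z, ρ h *ᵥ x = x) :
    h * g * h⁻¹ ∈ tvSub ρ v Z hv := by
  obtain ⟨φ, h1, h2⟩ := hg
  have hinv : ∀ x ∈ Z, ρ h⁻¹ *ᵥ x = x := by
    intro x hx
    conv_lhs => rw [← hh x hx]
    rw [mulVec_mulVec, ← map_mul, inv_mul_cancel, map_one, one_mulVec]
  refine ⟨φ ᵥ* ρ h⁻¹, fun x hx => ?_, ?_⟩
  · rw [← dotProduct_mulVec, hinv x hx, h1 x hx]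
  · rw [map_mul, map_mul, h2]
    unfold tv
    rw [mul_add, add_mul, mul_one, ← map_mul, mul_inv_cancel, map_one, mul_vecMulVec,
      vecMulVec_mul, hh v hv]

theorem tvSub_comm (hinj : Function.Injective ρ) {v : Fin n → (ZMod p)[X]}
    {Z : Set (Fin n → (ZMod p)[X])} {hv : v ∈ Z}
    {a b : G} (ha : a ∈ tvSub ρ v Z hv) (hb : b ∈ tvSub ρ v Z hv) : a * b = b * a := by
  obtain ⟨φ, h1, h2⟩ := ha
  obtain ⟨ψ, h3, h4⟩ := hb
  apply hinj
  rw [map_mul, map_mul, h2, h4, tv_mul _ _ _ (h1 v hv), tv_mul _ _ _ (h3 v hv), add_comm]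

theorem tvSub_pow (hinj : Function.Injective ρ) {v : Fin n → (ZMod p)[X]}
    {Z : Set (Fin n → (ZMod p)[X])} {hv : v ∈ Z} {a : G} (ha : a ∈ tvSub ρ v Z hv) :
    a ^ p = 1 := by
  obtain ⟨φ, h1, h2⟩ := ha
  have h3 : ∀ m : ℕ, ρ (a ^ m) = tv v (m • φ) := by
    intro m
    induction m with
    | zero => rw [pow_zero, map_one, zero_smul, tv_zero]
    | succ m ih =>
      rw [pow_succ, map_mul, ih, h2, tv_mul _ _ _ (by rw [smul_dotProduct, h1 v hv, smul_zero]),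
        succ_nsmul]
  apply hinj
  rw [h3 p, map_one]
  have : p • φ = 0 := by
    funext j
    rw [Pi.smul_apply, Pi.zero_apply, nsmul_eq_mul, CharP.cast_eq_zero, zero_mul]
  rw [this, tv_zero]

/-- **The key input of part (C).** -/
theorem key (h : IsCong ρ s) (hs : 1 ≤ s) {χ : G →* k}
    (hχ1 : ∀ g, Cg (s + 1) (ρ g) 1 → χ g = 1) (hχ : ∃ g, χ g ≠ 1) (i0 : Fin n) :
    ∃ (W : Type) (_ : MulAction G W) (ty : W → {i : Fin n // i ≠ i0}),
      Function.Surjective ty ∧ (∀ (g : G) x, ty (g • x) = ty x) ∧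
      ∀ z : Set W, z.Nonempty → Set.InjOn ty z → ∃ N : Subgroup G,
        (∀ g ∈ N, ∀ x ∈ z, g • x = x) ∧
        (∀ g : G, (∀ x ∈ z, g • x = x) → ∀ m ∈ N, g * m * g⁻¹ ∈ N) ∧
        (∀ a ∈ N, ∀ b ∈ N, a * b = b * a) ∧ (∀ a ∈ N, a ^ p = 1) ∧ ∃ a ∈ N, χ a ≠ 1 := by
  obtain ⟨B, B', hB, hBχ⟩ := exists_adapted h hs hχ1 hχ i0
  let act : MulAction G (Vt s B i0) := actV h.cong B i0
  have hsm : ∀ (g : G) (x : Vt s B i0), g • x = Vt.app h.cong g x := fun g x => rfl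
  refine ⟨Vt s B i0, act, Vt.ty, Vt.ty_surjective s B i0, fun g x => by
    rw [hsm, Vt.app_ty], ?_⟩
  intro z hz hinj
  obtain ⟨x0, hx0⟩ := hz
  have hfix : ∀ (g : G) (x : Vt s B i0), g • x = x ↔ ρ g *ᵥ x.vec = x.vec := by
    intro g x
    rw [hsm]
    constructor
    · intro h1
      have h2 := congrArg Vt.vec h1
      rwa [Vt.app_vec] at h2
    · intro h1
      exact Vt.ext (Vt.app_ty _ _ _) (by rw [Vt.app_vec]; exact h1)
  refine ⟨tvSub ρ x0.vec (Vt.vec '' z) ⟨x0, hx0, rfl⟩, ?_, ?_, ?_, ?_, ?_⟩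
  · intro g hg x hx
    rw [hfix]
    exact tvSub_fix hg ⟨x, hx, rfl⟩
  · intro g hg m hm
    refine tvSub_conj hm ?_
    rintro _ ⟨x, hx, rfl⟩
    exact (hfix g x).mp (hg x hx)
  · intro a ha b hb
    exact tvSub_comm h.inj ha hb
  · intro a ha
    exact tvSub_pow h.inj ha
  · -- the transvection
    classical
    let S : Finset (Fin n) := Finset.univ.filter fun i => ∃ x ∈ z, (x.ty : Fin n) = i
    have hS : ∀ i, i ∈ S ↔ ∃ x ∈ z, (x.ty : Fin n) = i := by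
      intro i
      simp [S]
    have hv : ∀ i : Fin n, ∃ v : Fin n → (ZMod p)[X], ∀ x ∈ z, (x.ty : Fin n) = i → v = x.vec := by
      intro i
      by_cases hi : ∃ x ∈ z, (x.ty : Fin n) = i
      · obtain ⟨x, hx, hxi⟩ := hi
        refine ⟨x.vec, fun y hy hyi => ?_⟩
        rw [hinj hx hy (Subtype.ext (hxi.trans hyi.symm))]
      · exact ⟨0, fun x hx hxi => absurd ⟨x, hx, hxi⟩ hi⟩
    choose v hv using hv
    obtain ⟨φ, hφ1, hφ2⟩ := exists_phi (X ^ s : (ZMod p)[X]) (cm B) (cm B')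
      (by rw [← cm_mul, hB, cm_one]) i0 S
      (by
        rw [hS]
        rintro ⟨x, _, hx⟩
        exact x.ty.2 hx) v (by
        intro i hi j
        obtain ⟨x, hx, hxi⟩ := (hS i).mp hi
        rw [hv i x hx hxi]
        obtain ⟨r, hr⟩ := x.2 j
        refine ⟨r, ?_⟩
        rw [show x.vec j = x.1.2 j from rfl, hr]
        subst hxi
        rfl)
    have hφz : ∀ y ∈ Vt.vec '' z, φ ⬝ᵥ y = 0 := by
      rintro _ ⟨x, hx, rfl⟩
      rw [← hv _ x hx rfl]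
      exact hφ1 _ ((hS _).mpr ⟨x, hx, rfl⟩)
    have hφ0 : φ ⬝ᵥ x0.vec = 0 := hφz _ ⟨x0, hx0, rfl⟩
    have hdet : (tv x0.vec ((X ^ s : (ZMod p)[X]) • φ)).det = 1 := by
      apply det_tv
      rw [smul_dotProduct, hφ0, smul_zero]
    have hcg : Cg s (tv x0.vec ((X ^ s : (ZMod p)[X]) • φ)) 1 := by
      refine ⟨vecMulVec x0.vec φ, ?_⟩
      unfold tv
      congr 1
      ext1 i j
      rw [vecMulVec_apply, Matrix.smul_apply, vecMulVec_apply, Pi.smul_apply, smul_eq_mul,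
        smul_eq_mul]
      ring
    obtain ⟨g, hg⟩ := h.surj _ hcg hdet
    refine ⟨g, ⟨(X ^ s : (ZMod p)[X]) • φ, fun y hy => by
      rw [smul_dotProduct, hφz y hy, smul_zero], hg⟩, ?_⟩
    have hcg2 : Cg (s + 1) (ρ g)
        (1 + (X ^ s : (ZMod p)[X]) • cm (vecMulVec (fun j => B j x0.ty) (B' i0))) := by
      rw [hg]
      have hx0v : ∀ j, ∃ r, x0.vec j = C (B j x0.ty) + X ^ s * r := x0.2
      choose r1 hr1 using hx0v
      choose r2 hr2 using hφ2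
      refine ⟨(X ^ (s - 1) : (ZMod p)[X]) • Matrix.of fun i j =>
        C (B i x0.ty) * r2 j + r1 i * C (B' i0 j) + X ^ s * r1 i * r2 j, ?_⟩
      unfold tv
      rw [add_assoc]
      congr 1
      ext1 i j
      rw [vecMulVec_apply, Matrix.add_apply, Matrix.smul_apply, Pi.smul_apply, Matrix.smul_apply,
        Matrix.smul_apply, Matrix.of_apply]
      simp only [smul_eq_mul, cm, Matrix.map_apply, vecMulVec_apply, C_mul]
      rw [hr1 i, hr2 j]
      simp only [cm, Matrix.map_apply]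
      have hpow : (X : (ZMod p)[X]) ^ (s + 1) * X ^ (s - 1) = X ^ s * X ^ s := by
        rw [← pow_add, ← pow_add]
        congr 1
        omega
      have h5 : (X : (ZMod p)[X]) ^ (s + 1) * (X ^ (s - 1) * (C (B i x0.ty) * r2 j +
          r1 i * C (B' i0 j) + X ^ s * r1 i * r2 j)) = X ^ s * X ^ s * (C (B i x0.ty) * r2 j +
          r1 i * C (B' i0 j) + X ^ s * r1 i * r2 j) := by
        rw [← mul_assoc, hpow]
      rw [h5]
      ring
    rw [← chm_eq hχ1 hcg2]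
    exact hBχ _ x0.ty.2

end Vale.Agent.P067.Key
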