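import Vale.Agent.P067.Push
import Vale.Agent.P067.Lat

/-!
# P067: the complex of all lattices is exact
-/

open Finsupp

namespace Vale.Agent.P067.LB

set_option linter.unusedSectionVars false

variable {F : Type} [Field F]

lemma sh_apply (c : ℤ) (x : VV F) (b : ℤ) : sh F c x b = x (b - c) := by
  simp [sh, Finsupp.domLCongr_apply, Finsupp.domCongr_apply, sub_eq_add_neg]

lemma Lo_anti {i j : ℤ} (h : i ≤ j) : Lo F j ≤ Lo F i :=
  Finsupp.supported_mono (Set.Ioi_subset_Ioi h)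

lemma map_Lo (c i : ℤ) : (Lo F i).map (sh F c).toLinearMap = Lo F (i + c) := by
  ext x
  rw [Submodule.mem_map]
  constructor
  · rintro ⟨y, hy, rfl⟩
    rw [mem_Lo] at hy ⊢
    intro b hb
    show sh F c y b = 0
    rw [sh_apply]
    exact hy _ (by omega)
  · intro hx
    refine ⟨(sh F c).symm x, ?_, (sh F c).apply_symm_apply x⟩
    rw [mem_Lo] at hx ⊢
    intro b hb
    have h1 : sh F c ((sh F c).symm x) (b + c) = x (b + c) := by
      rw [LinearEquiv.apply_symm_apply]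
    rw [sh_apply, add_sub_cancel_right] at h1
    rw [h1]
    exact hx _ (by omega)

lemma Adj_comm {n : ℕ} {L L' : Submodule F (VV F)} (h : Adj n L L') : Adj n L' L :=
  h.elim Or.inr Or.inl

/-- a pairwise adjacent nonempty finite set has a largest element -/
lemma exists_max {n : ℕ} {t : Finset (Submodule F (VV F))} (ht : t.Nonempty)
    (h : ∀ L ∈ t, ∀ L' ∈ t, Adj n L L') : ∃ L ∈ t, ∀ W ∈ t, W ≤ L := by
  obtain ⟨L, hL⟩ := t.exists_maximal ht
  refine ⟨L, hL.1, fun W hW => ?_⟩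
  rcases h L hL.1 W hW with h1 | h1
  · exact hL.2 hW h1.1
  · exact h1.1

variable {k : Type*} [Field k] [DecidableEq (Submodule F (VV F))]

/-- lattices between `Lo (n (b + i))` and `Lo (n b)` -/
def Lam' (F : Type) [Field F] (n : ℕ) (b : ℤ) (i : ℕ) : Set (Finset (Submodule F (VV F))) :=
  {σ | σ ∈ LamBig F n ∧ ∀ L ∈ σ, Lo F (n * (b + i)) ≤ L ∧ L ≤ Lo F (n * b)}

lemma Lam'_down (n : ℕ) (b : ℤ) (i : ℕ) :
    ∀ s ∈ Lam' F n b i, ∀ x ∈ s, s.erase x ∈ Lam' F n b i := by
  intro s hs x _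
  refine ⟨⟨fun L hL => hs.1.1 L (Finset.mem_of_mem_erase hL), fun L hL L' hL' =>
    hs.1.2 L (Finset.mem_of_mem_erase hL) L' (Finset.mem_of_mem_erase hL')⟩,
    fun L hL => hs.2 L (Finset.mem_of_mem_erase hL)⟩

/-- the bad vertices -/
noncomputable def bad (n : ℕ) (b : ℤ) (i : ℕ) (s : Finset (Submodule F (VV F))) :
    Finset (Submodule F (VV F)) :=
  @Finset.filter _ (fun L => ¬ Lo F (n * (b + i)) ≤ L) (Classical.decPred _) s

lemma mem_bad {n : ℕ} {b : ℤ} {i : ℕ} {s : Finset (Submodule F (VV F))}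
    {L : Submodule F (VV F)} : L ∈ bad n b i s ↔ L ∈ s ∧ ¬ Lo F (n * (b + i)) ≤ L :=
  @Finset.mem_filter _ (fun L => ¬ Lo F (n * (b + i)) ≤ L) (Classical.decPred _) s L

lemma morse (n : ℕ) (b : ℤ) (i : ℕ) :
    Mo.Morse (Lam' F n b (i + 1)) (bad n b i) (fun s => (bad n b i s).card) where
  down := Lam'_down n b (i + 1)
  sub s := by
    intro L hL
    exact (mem_bad.mp hL).1
  good_tau s _ x _ hx := by
    ext L
    rw [mem_bad, mem_bad, Finset.mem_erase]
    constructor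
    · rintro ⟨⟨_, h1⟩, h2⟩; exact ⟨h1, h2⟩
    · rintro ⟨h1, h2⟩
      refine ⟨⟨?_, h1⟩, h2⟩
      rintro rfl
      exact hx (mem_bad.mpr ⟨h1, h2⟩)
  good_E s _ x _ hx := by
    congr 1
    ext L
    rw [mem_bad, mem_bad, Finset.mem_erase]
    constructor
    · rintro ⟨⟨_, h1⟩, h2⟩; exact ⟨h1, h2⟩
    · rintro ⟨h1, h2⟩
      refine ⟨⟨?_, h1⟩, h2⟩
      rintro rfl
      exact hx (mem_bad.mpr ⟨h1, h2⟩)
  bad_E s _ x hx := by
    apply Finset.card_lt_card
    rw [Finset.ssubset_iff_of_subset]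
    · refine ⟨x, hx, ?_⟩
      intro h
      exact Finset.notMem_erase x s (mem_bad.mp h).1
    · intro L hL
      rw [mem_bad] at hL ⊢
      exact ⟨Finset.mem_of_mem_erase hL.1, hL.2⟩

theorem exact_DD [CharP k 2] {n : ℕ} {b : ℤ} {i : ℕ} {t : Finset (Submodule F (VV F))}
    (ht : t ∈ Lam' F n b (i + 1)) (hne : t.Nonempty) (htt : bad n b i t = t) (m : ℕ) :
    Mo.Exact k (Mo.DD (Lam' F n b (i + 1)) (bad n b i) t) m := by
  obtain ⟨Lm, hLm, hmax⟩ := exists_max hne ht.1.2
  set y : Submodule F (VV F) := Lm ⊔ Lo F (n * (b + i)) with hy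
  have hsh : (Lo F (n * (b + i))).map (sh F n).toLinearMap = Lo F (n * (b + (i + 1 : ℕ))) := by
    rw [map_Lo]; congr 1; push_cast; ring
  have hLoi : Lo F (n * (b + (i + 1 : ℕ))) ≤ Lo F (n * (b + i)) := by
    apply Lo_anti; push_cast; nlinarith [(Nat.cast_nonneg n : (0 : ℤ) ≤ (n : ℤ))]
  have hLob : Lo F (n * (b + i)) ≤ Lo F (n * b) := by
    apply Lo_anti
    have : (0 : ℤ) ≤ (n : ℤ) * i := by positivity
    nlinarith
  have hTy : y.map (sh F n).toLinearMap = Lm.map (sh F n).toLinearMap ⊔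
      Lo F (n * (b + (i + 1 : ℕ))) := by
    rw [hy, Submodule.map_sup, hsh]
  have hLmlat := ht.1.1 Lm hLm
  have hLmst : Lm.map (sh F n).toLinearMap ≤ Lm := hLmlat.stable
  have hylat : IsLat n y := by
    refine ⟨?_, ?_, ?_⟩
    · rw [hTy]
      exact sup_le_sup hLmst hLoi
    · exact ⟨_, le_sup_right⟩
    · exact ⟨_, sup_le (ht.2 Lm hLm).2 hLob⟩
  have hyb : Lo F (n * (b + (i + 1 : ℕ))) ≤ y ∧ y ≤ Lo F (n * b) :=
    ⟨hLoi.trans le_sup_right, sup_le (ht.2 Lm hLm).2 hLob⟩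
  -- adjacency of `y`
  have hadj : ∀ W, Lo F (n * (b + (i + 1 : ℕ))) ≤ W → Adj n Lm W →
      (Lo F (n * (b + i)) ≤ W ∨ W ≤ Lm) → Adj n y W := by
    intro W hW hA hor
    rcases hA with ⟨h1, h2⟩ | ⟨h1, h2⟩
    · rcases hor with h3 | h3
      · left
        exact ⟨sup_le h1 h3, h2.trans le_sup_left⟩
      · right
        refine ⟨h3.trans le_sup_left, ?_⟩
        rw [hTy]
        exact sup_le (hLmst.trans h1) hW
    · right
      refine ⟨h1.trans le_sup_left, ?_⟩
      rw [hTy]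
      exact sup_le h2 hW
  apply Mo.exact_cone (Mo.DD_down (morse n b i)) y
  intro r hr
  obtain ⟨hd, hL, htau⟩ := hr
  have hyt : y ∉ t := by
    intro h
    rw [← htt, mem_bad] at h
    exact h.2 le_sup_right
  have hgood : ∀ W ∈ r, Lo F (n * (b + i)) ≤ W := by
    intro W hW
    by_contra hcon
    have : W ∈ bad n b i (t ∪ r) := mem_bad.mpr ⟨Finset.mem_union_right _ hW, hcon⟩
    rw [htau] at this
    exact Finset.disjoint_right.mp hd hW this
  have hmem : ∀ W ∈ t ∪ insert y r, W = y ∨ W ∈ t ∪ r := by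
    intro W hW
    rw [Finset.mem_union, Finset.mem_insert] at hW
    rcases hW with h | h | h
    · exact Or.inr (Finset.mem_union_left _ h)
    · exact Or.inl h
    · exact Or.inr (Finset.mem_union_right _ h)
  have hyW : ∀ W ∈ t ∪ r, Adj n y W := by
    intro W hW
    apply hadj W (hL.2 W hW).1 (hL.1.2 Lm (Finset.mem_union_left _ hLm) W hW)
    rcases Finset.mem_union.mp hW with h | h
    · exact Or.inr (hmax W h)
    · exact Or.inl (hgood W h)
  have hyy : Adj n y y := Or.inl ⟨le_rfl, hylat.stable⟩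
  refine ⟨?_, ⟨⟨?_, ?_⟩, ?_⟩, ?_⟩
  · rw [Finset.disjoint_insert_right]
    exact ⟨hyt, hd⟩
  · intro W hW
    rcases hmem W hW with rfl | h
    · exact hylat
    · exact hL.1.1 W h
  · intro W hW W' hW'
    rcases hmem W hW with rfl | h <;> rcases hmem W' hW' with rfl | h'
    · exact hyy
    · exact hyW W' h'
    · exact Adj_comm (hyW W h)
    · exact hL.1.2 W h W' h'
  · intro W hW
    rcases hmem W hW with rfl | h
    · exact hyb
    · exact hL.2 W h
  · ext W
    rw [mem_bad]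
    constructor
    · rintro ⟨hW, hb⟩
      rcases hmem W hW with rfl | h
      · exact absurd le_sup_right hb
      · rw [← htau, mem_bad]; exact ⟨h, hb⟩
    · intro hW
      refine ⟨Finset.mem_union_left _ hW, ?_⟩
      rw [← htt, mem_bad] at hW
      exact hW.2

theorem exact_Lam' [CharP k 2] (n : ℕ) (b : ℤ) (i m : ℕ) : Mo.Exact k (Lam' F n b i) m := by
  induction i with
  | zero =>
    apply Mo.exact_cone (Lam'_down n b 0) (Lo F (n * b))
    intro s hs
    have heq : ∀ L ∈ s, L = Lo F (n * b) := by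
      intro L hL
      have := hs.2 L hL
      rw [Nat.cast_zero, add_zero] at this
      exact le_antisymm this.2 this.1
    have hst : (Lo F (n * b)).map (sh F n).toLinearMap ≤ Lo F (n * b) := by
      rw [map_Lo]; apply Lo_anti; omega
    have hall : ∀ L ∈ insert (Lo F (n * b)) s, L = Lo F (n * b) := by
      intro L hL
      rw [Finset.mem_insert] at hL
      exact hL.elim id (heq L)
    refine ⟨⟨fun L hL => ?_, fun L hL L' hL' => ?_⟩, fun L hL => ?_⟩
    · rw [hall L hL]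
      exact ⟨hst, ⟨_, le_rfl⟩, ⟨_, le_rfl⟩⟩
    · rw [hall L hL, hall L' hL']
      exact Or.inl ⟨le_rfl, hst⟩
    · rw [hall L hL, Nat.cast_zero, add_zero]
      exact ⟨le_rfl, le_rfl⟩
  | succ i ih =>
    apply Mo.exact_all (morse n b i) (fun t ht hne htt _ => exact_DD ht hne htt _)
    have : {s | s ∈ Lam' F n b (i + 1) ∧ bad n b i s = ∅} = Lam' F n b i := by
      ext s
      constructor
      · rintro ⟨h1, h2⟩
        refine ⟨h1.1, fun L hL => ⟨?_, (h1.2 L hL).2⟩⟩
        by_contra hcon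
        have : L ∈ bad n b i s := mem_bad.mpr ⟨hL, hcon⟩
        rw [h2] at this
        simp at this
      · intro h
        refine ⟨⟨h.1, fun L hL => ⟨?_, (h.2 L hL).2⟩⟩, ?_⟩
        · refine le_trans ?_ (h.2 L hL).1
          apply Lo_anti; push_cast; nlinarith [(Nat.cast_nonneg n : (0 : ℤ) ≤ (n : ℤ))]
        · rw [Finset.eq_empty_iff_forall_notMem]
          intro L hL
          rw [mem_bad] at hL
          exact hL.2 (h.2 L hL.1).1
    rw [this]
    exact ih

/-- **The complex of all lattices is exact.** -/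
theorem lamBig_exact [CharP k 2] {n : ℕ} (hn : 0 < n) (m : ℕ) :
    Mo.Exact k (LamBig F n) m := by
  classical
  intro z hz hbz
  set V : Finset (Submodule F (VV F)) := z.support.biUnion id with hV
  have hlat : ∀ L ∈ V, IsLat n L := by
    intro L hL
    rw [hV, Finset.mem_biUnion] at hL
    obtain ⟨s, hs, hLs⟩ := hL
    exact (Mo.mem_Ch.mp hz s hs).1.1 L hLs
  have hlo : ∀ L : Submodule F (VV F), ∃ a : ℤ, L ∈ V → Lo F a ≤ L := by
    intro L
    by_cases h : L ∈ V
    · obtain ⟨a, ha⟩ := (hlat L h).lower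
      exact ⟨a, fun _ => ha⟩
    · exact ⟨0, fun h' => absurd h' h⟩
  have hup : ∀ L : Submodule F (VV F), ∃ a : ℤ, L ∈ V → L ≤ Lo F a := by
    intro L
    by_cases h : L ∈ V
    · obtain ⟨a, ha⟩ := (hlat L h).upper
      exact ⟨a, fun _ => ha⟩
    · exact ⟨0, fun h' => absurd h' h⟩
  choose a ha using hlo
  choose b hb using hup
  set A : ℕ := ∑ L ∈ V, (a L).natAbs with hA
  set B : ℕ := ∑ L ∈ V, (b L).natAbs with hB
  have hn' : (1 : ℤ) ≤ n := by exact_mod_cast hn
  have hzm : z ∈ Mo.Ch k (Lam' F n (-(B : ℤ)) (A + B)) m := by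
    rw [Mo.mem_Ch]
    intro s hs
    have h1 := Mo.mem_Ch.mp hz s hs
    refine ⟨⟨h1.1, fun L hL => ?_⟩, h1.2⟩
    have hLV : L ∈ V := by
      rw [hV, Finset.mem_biUnion]; exact ⟨s, hs, hL⟩
    have hAL : ((a L).natAbs : ℤ) ≤ A := by
      rw [hA]; exact_mod_cast Finset.single_le_sum (f := fun L => (a L).natAbs)
        (fun _ _ => Nat.zero_le _) hLV
    have hBL : ((b L).natAbs : ℤ) ≤ B := by
      rw [hB]; exact_mod_cast Finset.single_le_sum (f := fun L => (b L).natAbs)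
        (fun _ _ => Nat.zero_le _) hLV
    have hA0 : (0 : ℤ) ≤ A := Nat.cast_nonneg A
    have hB0 : (0 : ℤ) ≤ B := Nat.cast_nonneg B
    constructor
    · refine le_trans (Lo_anti ?_) (ha L hLV)
      push_cast
      have : a L ≤ A := by omega
      nlinarith
    · refine le_trans (hb L hLV) (Lo_anti ?_)
      have : -(B : ℤ) ≤ b L := by omega
      nlinarith
  obtain ⟨c, hc, hcz⟩ := exact_Lam' n (-(B : ℤ)) (A + B) m z hzm hbz
  exact ⟨c, Mo.Ch_mono (fun s hs => hs.1) hc, hcz⟩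

end Vale.Agent.P067.LB
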