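import Vale.Agent.P067.LamBig

/-!
# P067: `Lam` is a retract of `LamBig`
-/

open Finsupp

namespace Vale.Agent.P067.Ret

set_option linter.unusedSectionVars false

section pushforward

variable {k : Type*} [Field k] {X Y : Type*} [DecidableEq X] [DecidableEq Y]

/-- push forward of chains along a map of vertices (degenerate faces go to `0`) -/
noncomputable def pf (k : Type*) [Field k] (f : X → Y) : (Finset X →₀ k) →ₗ[k] (Finset Y →₀ k) :=
  Finsupp.linearCombination k fun s =>
    @ite _ (Set.InjOn f (s : Set X)) (Classical.propDecidable _) (single (s.image f) (1 : k)) 0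

lemma pf_single_of_inj {f : X → Y} {s : Finset X} (h : Set.InjOn f (s : Set X)) (a : k) :
    pf k f (single s a) = single (s.image f) a := by
  rw [pf, linearCombination_single, if_pos h]; simp

lemma pf_single_of_not {f : X → Y} {s : Finset X} (h : ¬ Set.InjOn f (s : Set X)) (a : k) :
    pf k f (single s a) = 0 := by
  rw [pf, linearCombination_single, if_neg h, smul_zero]

lemma bd_pf [CharP k 2] (f : X → Y) (c : Finset X →₀ k) :
    Jn.bd k (pf k f c) = pf k f (Jn.bd k c) := by
  induction c using Finsupp.induction_linear with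
  | zero => simp
  | add c c' h h' => rw [map_add, map_add, map_add, map_add, h, h']
  | single s a =>
    by_cases hinj : Set.InjOn f (s : Set X)
    · rw [pf_single_of_inj hinj, Mo.bd_single', Mo.bd_single', map_sum,
        Finset.sum_image hinj]
      refine Finset.sum_congr rfl fun x hx => ?_
      have hsub : Set.InjOn f ((s.erase x : Finset X) : Set X) :=
        hinj.mono (by intro y hy; exact Finset.mem_of_mem_erase hy)
      rw [pf_single_of_inj hsub]
      congr 1
      ext y
      rw [Finset.mem_erase, Finset.mem_image, Finset.mem_image]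
      constructor
      · rintro ⟨hne, w, hw, rfl⟩
        refine ⟨w, Finset.mem_erase.mpr ⟨?_, hw⟩, rfl⟩
        rintro rfl
        exact hne rfl
      · rintro ⟨w, hw, rfl⟩
        rw [Finset.mem_erase] at hw
        exact ⟨fun h => hw.1 (hinj hw.2 hx h), w, hw.2, rfl⟩
    · rw [pf_single_of_not hinj, map_zero, Mo.bd_single', map_sum]
      rw [Set.InjOn] at hinj
      push Not at hinj
      obtain ⟨p, hp, q, hq, hpq, hne⟩ := hinj
      rw [Finset.mem_coe] at hp hq
      have himg : (s.erase p).image f = (s.erase q).image f := by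
        have h1 : ∀ u v : X, u ∈ s → v ∈ s → f u = f v → u ≠ v → (s.erase u).image f = s.image f := by
          intro u v hu hv huv hne'
          ext y
          rw [Finset.mem_image, Finset.mem_image]
          constructor
          · rintro ⟨w, hw, rfl⟩
            exact ⟨w, Finset.mem_of_mem_erase hw, rfl⟩
          · rintro ⟨w, hw, rfl⟩
            by_cases hwu : w = u
            · subst hwu
              exact ⟨v, Finset.mem_erase.mpr ⟨hne'.symm, hv⟩, huv.symm⟩
            · exact ⟨w, Finset.mem_erase.mpr ⟨hwu, hw⟩, rfl⟩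
        rw [h1 p q hp hq hpq hne, h1 q p hq hp hpq.symm hne.symm]
      have hiff : Set.InjOn f ((s.erase p : Finset X) : Set X) ↔
          Set.InjOn f ((s.erase q : Finset X) : Set X) := by
        rw [← Finset.card_image_iff, ← Finset.card_image_iff, himg,
          Finset.card_erase_of_mem hp, Finset.card_erase_of_mem hq]
      have heq : pf k f (single (s.erase p) a) = pf k f (single (s.erase q) a) := by
        by_cases h : Set.InjOn f ((s.erase p : Finset X) : Set X)
        · rw [pf_single_of_inj h, pf_single_of_inj (hiff.mp h), himg]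
        · rw [pf_single_of_not h, pf_single_of_not (fun h' => h (hiff.mpr h'))]
      have hsub : ({p, q} : Finset X) ⊆ s := by
        intro x hx
        rw [Finset.mem_insert, Finset.mem_singleton] at hx
        rcases hx with rfl | rfl <;> assumption
      rw [← Finset.sum_subset hsub]
      · rw [Finset.sum_pair hne, heq]
        exact (Jn.char2 _).symm
      · intro x hx hx2
        rw [Finset.mem_insert, Finset.mem_singleton, not_or] at hx2
        apply pf_single_of_not
        intro h
        exact hne (h (Finset.mem_coe.mpr (Finset.mem_erase.mpr ⟨fun e => hx2.1 e.symm, hp⟩))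
          (Finset.mem_coe.mpr (Finset.mem_erase.mpr ⟨fun e => hx2.2 e.symm, hq⟩)) hpq)

lemma pf_mem {f : X → Y} {L : Set (Finset X)} {L' : Set (Finset Y)}
    (h : ∀ s ∈ L, s.image f ∈ L') {m : ℕ} {c : Finset X →₀ k} (hc : c ∈ Mo.Ch k L m) :
    pf k f c ∈ Mo.Ch k L' m := by
  refine Mo.Ch_induction (P := fun c => pf k f c ∈ Mo.Ch k L' m) ?_ ?_ ?_ hc
  · rw [map_zero]; exact Submodule.zero_mem _
  · intro s hs hm a
    by_cases hinj : Set.InjOn f (s : Set X)
    · rw [pf_single_of_inj hinj]
      exact Mo.single_mem (h s hs) (by rw [Finset.card_image_of_injOn hinj, hm]) a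
    · rw [pf_single_of_not hinj]; exact Submodule.zero_mem _
  · intro c _ c' _ h h'
    rw [map_add]; exact Submodule.add_mem _ h h'

lemma pf_id {f : X → X} {L : Set (Finset X)} (h : ∀ s ∈ L, ∀ x ∈ s, f x = x) {m : ℕ}
    {c : Finset X →₀ k} (hc : c ∈ Mo.Ch k L m) : pf k f c = c := by
  refine Mo.Ch_induction (P := fun c => pf k f c = c) ?_ ?_ ?_ hc
  · rw [map_zero]
  · intro s hs hm a
    have hinj : Set.InjOn f (s : Set X) := by
      intro x hx y hy hxy
      rwa [h s hs x hx, h s hs y hy] at hxy
    rw [pf_single_of_inj hinj]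
    congr 1
    ext y
    rw [Finset.mem_image]
    constructor
    · rintro ⟨x, hx, rfl⟩; rw [h s hs x hx]; exact hx
    · intro hy; exact ⟨y, hy, h s hs y hy⟩
  · intro c _ c' _ h h'
    rw [map_add, h, h']

/-- exactness passes to a retract -/
theorem exact_of_retract [CharP k 2] {L L' : Set (Finset X)} (hsub : L' ⊆ L) (f : X → X)
    (hf : ∀ s ∈ L, s.image f ∈ L') (hid : ∀ s ∈ L', ∀ x ∈ s, f x = x) {m : ℕ}
    (hL : Mo.Exact k L m) : Mo.Exact k L' m := by
  intro z hz hbz
  obtain ⟨c, hc, hcz⟩ := hL z (Mo.Ch_mono hsub hz) hbz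
  exact ⟨pf k f c, pf_mem hf hc, by rw [bd_pf, hcz, pf_id hid hz]⟩

end pushforward

variable {F : Type} [Field F]

lemma map_map_sh (a b : ℤ) (L : Submodule F (VV F)) :
    (L.map (sh F a).toLinearMap).map (sh F b).toLinearMap = L.map (sh F (a + b)).toLinearMap := by
  rw [← Submodule.map_comp]
  congr 1
  ext x i
  simp only [LinearMap.comp_apply, LinearEquiv.coe_coe]
  show (sh F b (sh F a _)) i = (sh F (a + b) _) i
  rw [LB.sh_apply, LB.sh_apply, LB.sh_apply]
  congr 1
  ring

lemma map_sh_zero (L : Submodule F (VV F)) : L.map (sh F 0).toLinearMap = L := by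
  have : (sh F 0).toLinearMap = LinearMap.id := by
    ext x i
    show (sh F 0 _) i = _
    rw [LB.sh_apply]
    simp
  rw [this, Submodule.map_id]

lemma map_le_map {a : ℤ} {L L' : Submodule F (VV F)} (h : L ≤ L') :
    L.map (sh F a).toLinearMap ≤ L'.map (sh F a).toLinearMap := Submodule.map_mono h

lemma isLat_map {n : ℕ} {L : Submodule F (VV F)} (h : IsLat n L) (a : ℤ) :
    IsLat n (L.map (sh F a).toLinearMap) := by
  refine ⟨?_, ?_, ?_⟩
  · rw [map_map_sh, add_comm, ← map_map_sh]
    exact map_le_map h.stable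
  · obtain ⟨b, hb⟩ := h.lower
    exact ⟨b + a, by rw [← LB.map_Lo]; exact map_le_map hb⟩
  · obtain ⟨b, hb⟩ := h.upper
    exact ⟨b + a, by rw [← LB.map_Lo]; exact map_le_map hb⟩

/-- the normalised translate -/
noncomputable def nrm (n : ℕ) (L : Submodule F (VV F)) : Submodule F (VV F) :=
  L.map (sh F (-(n * (ind L / n)))).toLinearMap

variable {k : Type*} [Field k] [DecidableEq (Submodule F (VV F))]

theorem lam_exact_of [CharP k 2] {n : ℕ} (hn : 0 < n)
    (hmap : ∀ (c : ℤ) (L : Submodule F (VV F)), IsLat n L →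
      ind (L.map (sh F c).toLinearMap) = ind L + c)
    (hanti : ∀ L L' : Submodule F (VV F), IsLat n L → IsLat n L' → L ≤ L' → ind L' ≤ ind L)
    (m : ℕ) : Mo.Exact k (Lam F n) m := by
  have hn' : (0 : ℤ) < n := by exact_mod_cast hn
  -- adjacency
  have hadj : ∀ L L' : Submodule F (VV F), IsLat n L → IsLat n L' → L ≤ L' →
      L'.map (sh F n).toLinearMap ≤ L → Adj n (nrm n L) (nrm n L') := by
    intro L L' hL hL' h1 h2
    have e1 := hanti L L' hL hL' h1
    have e2 := hanti _ L (isLat_map hL' n) hL h2
    rw [hmap n L' hL'] at e2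
    set q := ind L / n with hq
    set q' := ind L' / n with hq'
    have f1 : q' ≤ q := Int.ediv_le_ediv hn' e1
    have f2 : q ≤ q' + 1 := by
      have : (ind L' + n) / n = q' + 1 := by
        rw [Int.add_ediv_of_dvd_right (dvd_refl _), Int.ediv_self hn'.ne']
      rw [← this]
      exact Int.ediv_le_ediv hn' e2
    rcases (by omega : q = q' ∨ q = q' + 1) with h | h
    · left
      unfold nrm
      rw [← hq, ← hq', h]
      refine ⟨map_le_map h1, ?_⟩
      rw [map_map_sh, add_comm, ← map_map_sh]
      exact map_le_map h2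
    · right
      unfold nrm
      rw [← hq, ← hq', h]
      constructor
      · have : (-((n : ℤ) * q')) = (n : ℤ) + (-((n : ℤ) * (q' + 1))) := by ring
        rw [this, ← map_map_sh]
        exact map_le_map h2
      · rw [map_map_sh]
        have : (-((n : ℤ) * (q' + 1)) + n) = -((n : ℤ) * q') := by ring
        rw [this]
        exact map_le_map h1
  apply exact_of_retract (L := LamBig F n) (f := nrm n) _ _ _ (LB.lamBig_exact hn m)
  · rintro s ⟨h1, h2⟩
    exact ⟨fun L hL => (h1 L hL).1, h2⟩
  · rintro s ⟨h1, h2⟩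
    constructor
    · intro L hL
      rw [Finset.mem_image] at hL
      obtain ⟨W, hW, rfl⟩ := hL
      have hlat := h1 W hW
      refine ⟨isLat_map hlat _, ?_, ?_⟩
      · rw [nrm, hmap _ _ hlat]
        have := Int.emod_add_mul_ediv (ind W) n
        have h3 := Int.emod_nonneg (ind W) hn'.ne'
        linarith
      · rw [nrm, hmap _ _ hlat]
        have := Int.emod_add_mul_ediv (ind W) n
        have h3 := Int.emod_lt_of_pos (ind W) hn'
        linarith
    · intro L hL L' hL'
      rw [Finset.mem_image] at hL hL'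
      obtain ⟨W, hW, rfl⟩ := hL
      obtain ⟨W', hW', rfl⟩ := hL'
      rcases h2 W hW W' hW' with h3 | h3
      · exact hadj W W' (h1 W hW) (h1 W' hW') h3.1 h3.2
      · exact LB.Adj_comm (hadj W' W (h1 W' hW') (h1 W hW) h3.1 h3.2)
  · rintro s ⟨h1, h2⟩ L hL
    obtain ⟨_, h3, h4⟩ := h1 L hL
    rw [nrm, Int.ediv_eq_zero_of_lt h3 h4, mul_zero, neg_zero, map_sh_zero]

end Vale.Agent.P067.Ret
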