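import Mathlib

/-!
# P067, part B2: the numerical Morse lemma

`u j X`, `v j X` are natural numbers (`dim (X ∩ M_j)` and `dim V / (X + M_j)`), `ind X` is the
index.  The pair `(Y, k)` stands for `T^k Y`, with numbers `u (j - n k) Y` and `v (j - n k) Y`.
Everything is about finite sets `σ` of vertices.
-/

namespace Vale.Agent.P067.Morse

variable {α : Type*} {n : ℕ} {u v : ℤ → α → ℕ} {ind : α → ℤ}

/-- `X` is good in `σ`: every box of `X` is empty or contained in another box of the chain -/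
def GoodN (n : ℕ) (u v : ℤ → α → ℕ) (σ : Finset α) (X : α) : Prop :=
  ∀ j : ℤ, 0 < u j X → 0 < v j X → ∃ Y ∈ σ, ∃ k : ℤ, ¬ (Y = X ∧ k = 0) ∧
    u j X ≤ u (j - n * k) Y ∧ v j X ≤ v (j - n * k) Y

/-- the points covered by the boxes of `σ` -/
def cov (n : ℕ) (u v : ℤ → α → ℕ) (σ : Finset α) : Set (ℤ × ℕ × ℕ) :=
  {t | 0 ≤ t.1 ∧ t.1 < n ∧ ∃ Y ∈ σ, ∃ k : ℤ, t.2.1 < u (t.1 - n * k) Y ∧
    t.2.2 < v (t.1 - n * k) Y}

/-- the energy of `σ` -/
noncomputable def EE (n : ℕ) (u v : ℤ → α → ℕ) (σ : Finset α) : ℕ := (cov n u v σ).ncard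

/-- the numerical facts that are used -/
structure Num (n : ℕ) (u v : ℤ → α → ℕ) (ind : α → ℤ) (σ : Finset α) : Prop where
  diff : ∀ X ∈ σ, ∀ j, (u j X : ℤ) - v j X = j - ind X
  lo : ∀ X ∈ σ, 0 ≤ ind X
  hi : ∀ X ∈ σ, ind X < n
  inj : ∀ X ∈ σ, ∀ Y ∈ σ, ind X = ind Y → X = Y
  fin : ∀ X ∈ σ, {j : ℤ | 0 < u j X ∧ 0 < v j X}.Finite

lemma Num.mono {σ τ : Finset α} (h : Num n u v ind σ) (hs : τ ⊆ σ) : Num n u v ind τ where
  diff X hX := h.diff X (hs hX)
  lo X hX := h.lo X (hs hX)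
  hi X hX := h.hi X (hs hX)
  inj X hX Y hY := h.inj X (hs hX) Y (hs hY)
  fin X hX := h.fin X (hs hX)

lemma GoodN.mono {σ τ : Finset α} (hs : τ ⊆ σ) {X : α} (h : GoodN n u v τ X) :
    GoodN n u v σ X := by
  intro j h1 h2
  obtain ⟨Y, hY, k, h3⟩ := h j h1 h2
  exact ⟨Y, hs hY, k, h3⟩

lemma Num.n_pos {σ : Finset α} (h : Num n u v ind σ) {X : α} (hX : X ∈ σ) : 0 < n := by
  have h1 := h.lo X hX
  have h2 := h.hi X hX
  omega

/-- the translates with a nonempty box at `j` are finite in number -/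
lemma Num.finite_pairs {σ : Finset α} (h : Num n u v ind σ) (j : ℤ) :
    {p : α × ℤ | p.1 ∈ σ ∧ 0 < u (j - n * p.2) p.1 ∧ 0 < v (j - n * p.2) p.1}.Finite := by
  have hsub : {p : α × ℤ | p.1 ∈ σ ∧ 0 < u (j - n * p.2) p.1 ∧ 0 < v (j - n * p.2) p.1} ⊆
      ⋃ Y ∈ (σ : Set α), (fun k : ℤ => (Y, k)) '' {k : ℤ | 0 < u (j - n * k) Y ∧ 0 < v (j - n * k) Y} := by
    rintro ⟨Y, k⟩ ⟨h1, h2⟩
    simp only [Set.mem_iUnion]
    exact ⟨Y, h1, k, h2, rfl⟩
  refine Set.Finite.subset ?_ hsub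
  refine Set.Finite.biUnion σ.finite_toSet ?_
  intro Y hY
  refine Set.Finite.image _ ?_
  have hn : 0 < n := h.n_pos hY
  refine Set.Finite.preimage ?_ (h.fin Y hY)
  intro a _ b _ hab
  have hab' : (n : ℤ) * a = n * b := by
    have : j - (n : ℤ) * a = j - n * b := hab
    linarith
  exact mul_left_cancel₀ (by exact_mod_cast hn.ne') hab'

/-- distinct members of the periodic chain have distinct indices -/
lemma Num.pair_eq {σ : Finset α} (h : Num n u v ind σ) {X Y : α} (hX : X ∈ σ) (hY : Y ∈ σ)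
    {k l : ℤ} (he : n * k + ind X = n * l + ind Y) : X = Y ∧ k = l := by
  have a1 := h.lo X hX
  have a2 := h.hi X hX
  have b1 := h.lo Y hY
  have b2 := h.hi Y hY
  have hkl : k = l := by
    rcases lt_trichotomy k l with hlt | heq | hgt
    · exfalso
      have : (n : ℤ) * (k + 1) ≤ n * l := by
        apply mul_le_mul_of_nonneg_left (by omega) (by omega)
      nlinarith
    · exact heq
    · exfalso
      have : (n : ℤ) * (l + 1) ≤ n * k := by
        apply mul_le_mul_of_nonneg_left (by omega) (by omega)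
      nlinarith
  subst hkl
  exact ⟨h.inj X hX Y hY (by linarith), rfl⟩

/-- every nonempty box is contained in a box of a bad vertex -/
lemma Num.exists_bad {σ : Finset α} (h : Num n u v ind σ) {X : α} (hX : X ∈ σ) {j : ℤ}
    (hu : 0 < u j X) (hv : 0 < v j X) :
    ∃ Y ∈ σ, ∃ k : ℤ, u j X ≤ u (j - n * k) Y ∧ v j X ≤ v (j - n * k) Y ∧
      ¬ GoodN n u v σ Y := by
  set S : Set (α × ℤ) := {p | p.1 ∈ σ ∧ u j X ≤ u (j - n * p.2) p.1 ∧
    v j X ≤ v (j - n * p.2) p.1} with hS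
  have hfin : S.Finite := by
    refine (h.finite_pairs j).subset ?_
    rintro ⟨Y, k⟩ ⟨h1, h2, h3⟩
    exact ⟨h1, lt_of_lt_of_le hu h2, lt_of_lt_of_le hv h3⟩
  have hne : S.Nonempty := ⟨(X, 0), hX, by simp, by simp⟩
  obtain ⟨⟨Y, k⟩, ⟨hY, h1, h2⟩, hmax⟩ := Set.exists_max_image S
    (fun p => u (j - n * p.2) p.1 + v (j - n * p.2) p.1) hfin hne
  refine ⟨Y, hY, k, h1, h2, fun hgood => ?_⟩
  obtain ⟨Y', hY', k', hne', h3, h4⟩ := hgood (j - n * k) (lt_of_lt_of_le hu h1)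
    (lt_of_lt_of_le hv h2)
  have e : j - (n : ℤ) * k - n * k' = j - n * (k + k') := by ring
  rw [e] at h3 h4
  have h5 := hmax (Y', k + k') ⟨hY', h1.trans h3, h2.trans h4⟩
  simp only at h5 h1 h2
  have d1 := h.diff Y hY (j - n * k)
  have d2 := h.diff Y' hY' (j - n * (k + k'))
  have h6 : u (j - n * (k + k')) Y' = u (j - n * k) Y := by omega
  have h7 : v (j - n * (k + k')) Y' = v (j - n * k) Y := by omega
  rw [h6, h7, d1] at d2
  have h8 : (n : ℤ) * (k + k') + ind Y' = n * k + ind Y := by linarith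
  obtain ⟨h9, h10⟩ := h.pair_eq hY' hY h8
  exact hne' ⟨h9, by omega⟩

/-- if all vertices are good, then all boxes are empty -/
lemma Num.all_good {σ : Finset α} (h : Num n u v ind σ) (hg : ∀ X ∈ σ, GoodN n u v σ X)
    {X : α} (hX : X ∈ σ) (j : ℤ) : u j X * v j X = 0 := by
  by_contra hne
  have hu : 0 < u j X := Nat.pos_of_ne_zero (fun h0 => hne (by simp [h0]))
  have hv : 0 < v j X := Nat.pos_of_ne_zero (fun h0 => hne (by simp [h0]))
  obtain ⟨Y, hY, k, _, _, hb⟩ := h.exists_bad hX hu hv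
  exact hb (hg Y hY)

/-- if all boxes are empty, then all vertices are good -/
lemma all_good_of {σ : Finset α} (hg : ∀ X ∈ σ, ∀ j, u j X * v j X = 0) :
    ∀ X ∈ σ, GoodN n u v σ X := by
  intro X hX j hu hv
  have := hg X hX j
  exact absurd this (Nat.mul_pos hu hv).ne'

lemma Num.all_good_iff {σ : Finset α} (h : Num n u v ind σ) :
    (∀ X ∈ σ, GoodN n u v σ X) ↔ ∀ X ∈ σ, ∀ j, u j X * v j X = 0 :=
  ⟨fun hg _ hX j => h.all_good hg hX j, all_good_of⟩

lemma Num.cov_finite {σ : Finset α} (h : Num n u v ind σ) : (cov n u v σ).Finite := by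
  have hsub : cov n u v σ ⊆ ⋃ j ∈ Set.Ico (0 : ℤ) n,
      ⋃ p ∈ {p : α × ℤ | p.1 ∈ σ ∧ 0 < u (j - n * p.2) p.1 ∧ 0 < v (j - n * p.2) p.1},
        ({j} : Set ℤ) ×ˢ (Set.Iio (u (j - n * p.2) p.1) ×ˢ Set.Iio (v (j - n * p.2) p.1)) := by
    rintro ⟨j, a, b⟩ ⟨h1, h2, Y, hY, k, h3, h4⟩
    simp only at h1 h2 h3 h4
    simp only [Set.mem_iUnion]
    exact ⟨j, ⟨h1, h2⟩, (Y, k), ⟨hY, by simp only; omega, by simp only; omega⟩, rfl, h3, h4⟩
  refine Set.Finite.subset ?_ hsub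
  refine Set.Finite.biUnion (Set.finite_Ico _ _) fun j _ => ?_
  refine Set.Finite.biUnion (h.finite_pairs j) fun p _ => ?_
  exact (Set.finite_singleton j).prod ((Set.finite_Iio _).prod (Set.finite_Iio _))

lemma cov_mono {σ τ : Finset α} (hs : τ ⊆ σ) : cov n u v τ ⊆ cov n u v σ := by
  rintro ⟨j, a, b⟩ ⟨h1, h2, Y, hY, k, h3, h4⟩
  exact ⟨h1, h2, Y, hs hY, k, h3, h4⟩

section
variable [DecidableEq α]

/-- (h2) removal of a good vertex does not change the goodness of the others -/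
lemma Num.good_erase_iff {σ : Finset α} (h : Num n u v ind σ) {X Y : α}
    (hX : GoodN n u v σ X) (hY : Y ∈ σ) :
    GoodN n u v (σ.erase X) Y ↔ GoodN n u v σ Y := by
  refine ⟨fun hg => hg.mono (Finset.erase_subset _ _), fun hg j hu hv => ?_⟩
  obtain ⟨Z, hZ, k, h1, h2, hb⟩ := h.exists_bad hY hu hv
  have hZX : Z ≠ X := fun e => hb (e ▸ hX)
  have hZY : Z ≠ Y := fun e => hb (e ▸ hg)
  exact ⟨Z, Finset.mem_erase.2 ⟨hZX, hZ⟩, k, fun hc => hZY hc.1, h1, h2⟩

/-- the covered set does not change when a good vertex is removed -/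
lemma Num.cov_erase {σ : Finset α} (h : Num n u v ind σ) {X : α}
    (hX : GoodN n u v σ X) : cov n u v (σ.erase X) = cov n u v σ := by
  ext ⟨j, a, b⟩
  constructor
  · rintro ⟨h1, h2, Y, hY, k, h3, h4⟩
    exact ⟨h1, h2, Y, Finset.mem_of_mem_erase hY, k, h3, h4⟩
  · rintro ⟨h1, h2, Y, hY, k, h3, h4⟩
    simp only at h1 h2 h3 h4
    obtain ⟨Z, hZ, l, h5, h6, hb⟩ := h.exists_bad hY (j := j - n * k) (by omega) (by omega)
    have hZX : Z ≠ X := fun e => hb (e ▸ hX)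
    have e : j - (n : ℤ) * k - n * l = j - n * (k + l) := by ring
    rw [e] at h5 h6
    exact ⟨h1, h2, Z, Finset.mem_erase.2 ⟨hZX, hZ⟩, k + l, by simp only; omega,
      by simp only; omega⟩

/-- (h3) removal of a good vertex does not change the energy -/
lemma Num.EE_erase {σ : Finset α} (h : Num n u v ind σ) {X : α}
    (hX : GoodN n u v σ X) : EE n u v (σ.erase X) = EE n u v σ := by
  rw [EE, EE, h.cov_erase hX]

omit [DecidableEq α] in
lemma Num.EE_mono {σ τ : Finset α} (h : Num n u v ind σ) (hs : τ ⊆ σ) :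
    EE n u v τ ≤ EE n u v σ :=
  Set.ncard_le_ncard (cov_mono hs) h.cov_finite

/-- (h4) removal of a bad vertex strictly decreases the energy -/
lemma Num.EE_erase_lt {σ : Finset α} (h : Num n u v ind σ) {X : α} (hXs : X ∈ σ)
    (hX : ¬ GoodN n u v σ X) : EE n u v (σ.erase X) < EE n u v σ := by
  refine Set.ncard_lt_ncard ?_ h.cov_finite
  refine ⟨cov_mono (Finset.erase_subset _ _), fun hsub => ?_⟩
  rw [GoodN] at hX
  push Not at hX
  obtain ⟨j, hu, hv, hno⟩ := hX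
  have hn : (0 : ℤ) < n := by exact_mod_cast h.n_pos hXs
  have e0 : j % n + n * (j / n) = j := Int.emod_add_mul_ediv j n
  have hmem : ((j % n, u j X - 1, v j X - 1) : ℤ × ℕ × ℕ) ∈ cov n u v σ := by
    refine ⟨Int.emod_nonneg _ hn.ne', Int.emod_lt_of_pos _ hn, X, hXs, -(j / n), ?_, ?_⟩
    · have e1 : j % n - n * -(j / n) = j := by linarith
      simp only [e1]; omega
    · have e1 : j % n - n * -(j / n) = j := by linarith
      simp only [e1]; omega
  obtain ⟨_, _, Y, hY, k, h1, h2⟩ := hsub hmem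
  simp only at h1 h2
  obtain ⟨hYX, hYs⟩ := Finset.mem_erase.1 hY
  have e2 : j % n - n * k = j - n * (k + j / n) := by
    linarith
  rw [e2] at h1 h2
  have h3 := hno Y hYs (k + j / n) (fun hc => absurd hc hYX) (by omega)
  omega

/-- all the vertices of `ρ` are good in `τ ∪ ρ` if and only if all their boxes are contained in
boxes of `τ` -/
lemma Num.good_union_iff {τ ρ : Finset α} (h : Num n u v ind (τ ∪ ρ)) (hd : Disjoint τ ρ) :
    (∀ X ∈ ρ, GoodN n u v (τ ∪ ρ) X) ↔ ∀ X ∈ ρ, ∀ j : ℤ, 0 < u j X → 0 < v j X →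
      ∃ Y ∈ τ, ∃ k : ℤ, u j X ≤ u (j - n * k) Y ∧ v j X ≤ v (j - n * k) Y := by
  constructor
  · intro hg X hX j hu hv
    obtain ⟨Z, hZ, k, h1, h2, hb⟩ := h.exists_bad (Finset.mem_union_right _ hX) hu hv
    rcases Finset.mem_union.1 hZ with hZ | hZ
    · exact ⟨Z, hZ, k, h1, h2⟩
    · exact absurd (hg Z hZ) hb
  · intro hg X hX j hu hv
    obtain ⟨Y, hY, k, h1, h2⟩ := hg X hX j hu hv
    refine ⟨Y, Finset.mem_union_left _ hY, k, fun hc => ?_, h1, h2⟩
    exact (Finset.disjoint_left.1 hd) hY (hc.1 ▸ hX)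

/-- if all the vertices of `ρ` are good in `τ ∪ ρ`, then the goodness of the vertices of `τ` may
be read off in `τ` -/
lemma Num.good_union_left_iff {τ ρ : Finset α} (h : Num n u v ind (τ ∪ ρ))
    (hg : ∀ X ∈ ρ, GoodN n u v (τ ∪ ρ) X) {Y : α} (hY : Y ∈ τ) :
    GoodN n u v (τ ∪ ρ) Y ↔ GoodN n u v τ Y := by
  refine ⟨fun hgY j hu hv => ?_, fun hgY => hgY.mono Finset.subset_union_left⟩
  obtain ⟨Z, hZ, k, h1, h2, hb⟩ := h.exists_bad (Finset.mem_union_left _ hY) hu hv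
  have hZY : Z ≠ Y := fun e => hb (e ▸ hgY)
  rcases Finset.mem_union.1 hZ with hZ | hZ
  · exact ⟨Z, hZ, k, fun hc => hZY hc.1, h1, h2⟩
  · exact absurd (hg Z hZ) hb

end

end Vale.Agent.P067.Morse
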