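import Mathlib

/-!
# P067: characters of the trace zero matrices and rank one nilpotents

A character of the additive group of the trace zero matrices over `ZMod p` that is not trivial is
not trivial on the matrices `b w`, `w b = 0`; moreover there are a basis `b` and its coordinate
function `w` number `i0` with `χ (b i w) ≠ 1` for all `i ≠ i0`.
-/

namespace Vale.Agent.P067.Rk

open Matrix

variable {p : ℕ} [Fact p.Prime] {k : Type*} [Field k] {n : ℕ}

/-- a character of the trace zero matrices -/
structure IsChar (χ : Matrix (Fin n) (Fin n) (ZMod p) → k) : Prop where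
  zero : χ 0 = 1
  add : ∀ A B, A.trace = 0 → B.trace = 0 → χ (A + B) = χ A * χ B

variable {χ : Matrix (Fin n) (Fin n) (ZMod p) → k}

theorem trace_vecMulVec' (b w : Fin n → ZMod p) : (vecMulVec b w).trace = w ⬝ᵥ b := by
  simp only [Matrix.trace, Matrix.diag_apply, Matrix.vecMulVec_apply, dotProduct]
  exact Finset.sum_congr rfl fun i _ => mul_comm _ _

/-- the rank one nilpotents generate the trace zero matrices -/
theorem sl_induction {P : Matrix (Fin n) (Fin n) (ZMod p) → Prop} (h0 : P 0)
    (hadd : ∀ A B, A.trace = 0 → B.trace = 0 → P A → P B → P (A + B))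
    (hc' : ∀ b w : Fin n → ZMod p, w ⬝ᵥ b = 0 → P (vecMulVec b w))
    (A : Matrix (Fin n) (Fin n) (ZMod p)) (hA : A.trace = 0) : P A := by
  rcases Nat.eq_zero_or_pos n with rfl | hn
  · rw [show A = 0 from by ext i; exact i.elim0]
    exact h0
  obtain ⟨m, rfl⟩ : ∃ m, n = m + 1 := ⟨n - 1, by omega⟩
  have hsumP : ∀ {ι : Type} (s : Finset ι) (D : ι → Matrix (Fin (m + 1)) (Fin (m + 1)) (ZMod p)),
      (∀ i ∈ s, (D i).trace = 0) → (∀ i ∈ s, P (D i)) → P (∑ i ∈ s, D i) := by
    intro ι s D h1 h2
    classical
    induction s using Finset.induction_on with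
    | empty => simpa using h0
    | insert i s hi ih =>
      rw [Finset.sum_insert hi]
      refine hadd _ _ (h1 i (Finset.mem_insert_self _ _)) ?_ (h2 i (Finset.mem_insert_self _ _))
        (ih (fun j hj => h1 j (Finset.mem_insert_of_mem hj))
          (fun j hj => h2 j (Finset.mem_insert_of_mem hj)))
      rw [Matrix.trace_sum]
      exact Finset.sum_eq_zero fun j hj => h1 j (Finset.mem_insert_of_mem hj)
  -- off-diagonal part and differences of diagonal entries
  have hoff : ∀ (i j : Fin (m + 1)) (c : ZMod p), i ≠ j → P (Matrix.single i j c) := by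
    intro i j c hij
    have e : Matrix.single i j c = vecMulVec (Pi.single i c) (Pi.single j 1) := by
      ext a b
      rw [vecMulVec_apply, Matrix.single_apply, Pi.single_apply, Pi.single_apply]
      by_cases ha : i = a <;> by_cases hb : j = b <;>
        simp [ha, hb, eq_comm]
    rw [e]
    apply hc'
    rw [single_one_dotProduct, Pi.single_eq_of_ne hij.symm]
  have htr : ∀ (i j : Fin (m + 1)) (c : ZMod p), i ≠ j → (Matrix.single i j c).trace = 0 := by
    intro i j c hij
    exact Matrix.trace_single_eq_of_ne _ _ _ hij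
  have hdg : ∀ (i : Fin (m + 1)) (c : ZMod p), i ≠ 0 →
      P (Matrix.single i i c - Matrix.single 0 0 c) := by
    intro i c hi
    have e : Matrix.single i i c - Matrix.single 0 0 c =
        vecMulVec (Pi.single i c + Pi.single 0 c) (Pi.single i 1 - Pi.single 0 1) +
          (Matrix.single i 0 c + Matrix.single 0 i (-c)) := by
      ext a b
      simp only [Matrix.add_apply, Matrix.sub_apply, vecMulVec_apply, Matrix.single_apply,
        Pi.add_apply, Pi.sub_apply, Pi.single_apply]
      by_cases ha : i = a
      · subst ha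
        by_cases hb : i = b
        · subst hb
          simp [hi, hi.symm]
        · by_cases hb0 : 0 = b
          · subst hb0
            simp [hi, hi.symm]
          · simp [hi, hi.symm, hb, hb0, eq_comm]
            intro h; exact absurd h.symm (by simpa [eq_comm] using hb0)
      · by_cases ha0 : 0 = a
        · subst ha0
          by_cases hb : i = b
          · subst hb
            simp [hi, hi.symm]
          · by_cases hb0 : 0 = b
            · subst hb0
              simp [hi, hi.symm]
            · have h2 : ¬ b = i := fun h => hb h.symm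
              have h3 : ¬ b = 0 := fun h => hb0 h.symm
              simp [hi, hi.symm, hb, hb0, h2, h3]
        · have h2 : ¬ a = i := fun h => ha h.symm
          have h3 : ¬ a = 0 := fun h => ha0 h.symm
          simp [ha, ha0, h2, h3]
    have ht1 : (Pi.single i 1 - Pi.single 0 1 : Fin (m + 1) → ZMod p) ⬝ᵥ
        (Pi.single i c + Pi.single 0 c) = 0 := by
      rw [sub_dotProduct, single_one_dotProduct, single_one_dotProduct]
      simp [hi, hi.symm]
    have ht2 : (vecMulVec (Pi.single i c + Pi.single 0 c)
        (Pi.single i 1 - Pi.single 0 1 : Fin (m + 1) → ZMod p)).trace = 0 := by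
      rw [trace_vecMulVec', ht1]
    have ht3 := htr i 0 c hi
    have ht4 := htr 0 i (-c) hi.symm
    rw [e]
    exact hadd _ _ ht2 (by rw [Matrix.trace_add, ht3, ht4, add_zero]) (hc' _ _ ht1)
      (hadd _ _ ht3 ht4 (hoff _ _ _ hi) (hoff _ _ _ hi.symm))
  -- decomposition of `A`
  let D : Fin (m + 1) × Fin (m + 1) → Matrix (Fin (m + 1)) (Fin (m + 1)) (ZMod p) := fun z =>
    if z.1 = z.2 then
      (if z.1 = 0 then 0 else Matrix.single z.1 z.1 (A z.1 z.1) - Matrix.single 0 0 (A z.1 z.1))
    else Matrix.single z.1 z.2 (A z.1 z.2)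
  have hDtr : ∀ z, (D z).trace = 0 := by
    intro z
    simp only [D]
    split_ifs with c1 c2
    · simp
    · rw [Matrix.trace_sub, Matrix.trace_single_eq_same, Matrix.trace_single_eq_same, sub_self]
    · exact htr _ _ _ c1
  have hDχ : ∀ z, P (D z) := by
    intro z
    simp only [D]
    split_ifs with c1 c2
    · exact h0
    · exact hdg _ _ c2
    · exact hoff _ _ _ c1
  have hsum : A = ∑ z, D z := by
    have h1 : A = ∑ i, ∑ j, Matrix.single i j (A i j) := Matrix.matrix_eq_sum_single A
    have h2 : ∑ z, D z = ∑ i, ∑ j, D (i, j) := Fintype.sum_prod_type _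
    rw [h2]
    have h3 : ∀ i, ∑ j, D (i, j) = (∑ j, Matrix.single i j (A i j)) -
        Matrix.single 0 0 (A i i) := by
      intro i
      rw [← Finset.add_sum_erase _ _ (Finset.mem_univ i),
        ← Finset.add_sum_erase _ (fun j => Matrix.single i j (A i j)) (Finset.mem_univ i)]
      have h4 : ∑ j ∈ Finset.univ.erase i, D (i, j) =
          ∑ j ∈ Finset.univ.erase i, Matrix.single i j (A i j) := by
        refine Finset.sum_congr rfl fun j hj => ?_
        have : i ≠ j := (Finset.ne_of_mem_erase hj).symm
        simp only [D, if_neg this]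
      rw [h4]
      have h5 : D (i, i) = Matrix.single i i (A i i) - Matrix.single 0 0 (A i i) := by
        simp only [D, if_true]
        split_ifs with c
        · rw [c, sub_self]
        · rfl
      rw [h5]
      abel
    rw [Finset.sum_congr rfl fun i _ => h3 i, Finset.sum_sub_distrib, ← h1]
    have h6 : ∑ i, Matrix.single (0 : Fin (m + 1)) (0 : Fin (m + 1)) (A i i) = 0 := by
      have h7 : ∑ i, Matrix.single (0 : Fin (m + 1)) (0 : Fin (m + 1)) (A i i) =
          Matrix.single 0 0 (∑ i, A i i) := by
        ext a b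
        simp only [Matrix.sum_apply, Matrix.single_apply]
        by_cases hab : (0 : Fin (m + 1)) = a ∧ (0 : Fin (m + 1)) = b
        · simp [hab]
        · simp [hab]
      rw [h7]
      have h8 : ∑ i, A i i = 0 := hA
      rw [h8, Matrix.single_zero]
    rw [h6, sub_zero]
  rw [hsum]
  exact hsumP _ _ (fun z _ => hDtr z) (fun z _ => hDχ z)

theorem exists_rank1 (h : IsChar χ) (A : Matrix (Fin n) (Fin n) (ZMod p)) (hA : A.trace = 0)
    (h1 : χ A ≠ 1) : ∃ b w : Fin n → ZMod p, w ≠ 0 ∧ w ⬝ᵥ b = 0 ∧ χ (vecMulVec b w) ≠ 1 := by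
  by_contra hc
  push Not at hc
  apply h1
  refine sl_induction (P := fun A => χ A = 1) h.zero ?_ ?_ A hA
  · intro A B hA hB h1 h2
    show χ (A + B) = 1
    rw [h.add A B hA hB, h1, h2, one_mul]
  · intro b w hbw
    show χ (vecMulVec b w) = 1
    by_cases hw : w = 0
    · subst hw
      rw [show vecMulVec b (0 : Fin n → ZMod p) = 0 by
        ext i j; simp [vecMulVec_apply]]
      exact h.zero
    · exact hc b w hw hbw

/-- **A basis adapted to a nontrivial character.** -/
theorem exists_basis (h : IsChar χ) (A : Matrix (Fin n) (Fin n) (ZMod p)) (hA : A.trace = 0)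
    (h1 : χ A ≠ 1) (i0 : Fin n) :
    ∃ B B' : Matrix (Fin n) (Fin n) (ZMod p), B' * B = 1 ∧ B * B' = 1 ∧
      ∀ i, i ≠ i0 → χ (vecMulVec (fun j => B j i) (B' i0)) ≠ 1 := by
  classical
  obtain ⟨b0, w, hw, hwb, hχ⟩ := exists_rank1 h A hA h1
  -- the functional `w`
  let W : (Fin n → ZMod p) →ₗ[ZMod p] ZMod p :=
    { toFun := fun x => w ⬝ᵥ x
      map_add' := fun x y => dotProduct_add w x y
      map_smul' := fun c x => by simp [dotProduct_smul] }
  have hW : ∀ x, W x = w ⬝ᵥ x := fun _ => rfl
  let S : Set (Fin n → ZMod p) := {b | W b = 0 ∧ χ (vecMulVec b w) ≠ 1}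
  have hb0 : b0 ∈ S := ⟨hwb, hχ⟩
  have hspan : ∀ x, W x = 0 → x ∈ Submodule.span (ZMod p) S := by
    intro x hx
    by_cases hx1 : χ (vecMulVec x w) = 1
    · have h2 : x + b0 ∈ S := by
        refine ⟨by rw [map_add, hx, hb0.1, add_zero], ?_⟩
        have e : vecMulVec (x + b0) w = vecMulVec x w + vecMulVec b0 w := by
          ext i j
          simp [vecMulVec_apply, add_mul]
        rw [e, h.add _ _ (by rw [trace_vecMulVec']; exact hx)
          (by rw [trace_vecMulVec']; exact hwb), hx1, one_mul]
        exact hχ
      have h3 : x = (x + b0) - b0 := by abel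
      rw [h3]
      exact sub_mem (Submodule.subset_span h2) (Submodule.subset_span hb0)
    · exact Submodule.subset_span ⟨hx, hx1⟩
  obtain ⟨s, hsS, hss, hli⟩ := exists_linearIndependent (ZMod p) S
  obtain ⟨j, hj⟩ : ∃ j, w j ≠ 0 := by
    by_contra hc
    push Not at hc
    exact hw (funext hc)
  let bn : Fin n → ZMod p := Pi.single j (w j)⁻¹
  have hbn : W bn = 1 := by
    rw [hW, dotProduct_single]
    exact mul_inv_cancel₀ hj
  have hker : ∀ x ∈ Submodule.span (ZMod p) S, W x = 0 := by
    intro x hx
    have : Submodule.span (ZMod p) S ≤ LinearMap.ker W := by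
      rw [Submodule.span_le]
      intro y hy
      exact hy.1
    exact this hx
  have hli' := hli.option (x := bn) (by
    intro hc
    have h2 : bn ∈ Submodule.span (ZMod p) S := by
      rw [← hss]
      simpa using hc
    have h3 := hker _ h2
    rw [hbn] at h3
    exact one_ne_zero h3)
  have hsp : ⊤ ≤ Submodule.span (ZMod p) (Set.range
      (fun o => Option.casesOn' o bn ((↑) : s → Fin n → ZMod p) : Option s → Fin n → ZMod p)) := by
    intro x _
    have h2 : x = (x - W x • bn) + W x • bn := by abel
    rw [h2]
    refine add_mem ?_ (Submodule.smul_mem _ _ (Submodule.subset_span ⟨none, rfl⟩))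
    have h3 : W (x - W x • bn) = 0 := by
      rw [map_sub, map_smul, hbn, smul_eq_mul, mul_one, sub_self]
    have h4 := hspan _ h3
    rw [← hss] at h4
    refine Submodule.span_mono ?_ h4
    intro y hy
    exact ⟨some ⟨y, hy⟩, rfl⟩
  let bas := Module.Basis.mk hli' hsp
  have hbas : ∀ o, bas o = Option.casesOn' o bn ((↑) : s → Fin n → ZMod p) := fun o =>
    Module.Basis.mk_apply hli' hsp o
  have : Finite (Option s) := Module.Finite.finite_basis bas
  have : Fintype (Option s) := Fintype.ofFinite _
  have hcard : Fintype.card (Option s) = n := by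
    have h2 := Module.finrank_eq_card_basis bas
    rw [Module.finrank_fintype_fun_eq_card, Fintype.card_fin] at h2
    exact h2.symm
  let e0 : Option s ≃ Fin n := Fintype.equivFinOfCardEq hcard
  let e : Option s ≃ Fin n := e0.trans (Equiv.swap (e0 none) i0)
  have he : e none = i0 := by
    simp [e]
  let b := bas.reindex e
  have hb1 : b i0 = bn := by
    show (bas.reindex e) i0 = bn
    rw [Module.Basis.reindex_apply, ← he, Equiv.symm_apply_apply, hbas]
    rfl
  have hb2 : ∀ i, i ≠ i0 → b i ∈ S := by
    intro i hi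
    show (bas.reindex e) i ∈ S
    rw [Module.Basis.reindex_apply, hbas]
    rcases ho : e.symm i with _ | y
    · exfalso
      apply hi
      rw [← he, ← ho, Equiv.apply_symm_apply]
    · exact hsS y.2
  have hcoord : b.coord i0 = W := by
    refine b.ext fun i => ?_
    rw [Module.Basis.coord_apply, Module.Basis.repr_self]
    by_cases hi : i = i0
    · subst hi
      rw [Finsupp.single_eq_same, hb1, hbn]
    · rw [Finsupp.single_eq_of_ne (fun h => hi h.symm), (hb2 i hi).1]
  let B : Matrix (Fin n) (Fin n) (ZMod p) := Matrix.of fun j i => b i j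
  let B' : Matrix (Fin n) (Fin n) (ZMod p) := Matrix.of fun i j => b.coord i (Pi.single j 1)
  have hB'B : B' * B = 1 := by
    ext i l
    rw [Matrix.mul_apply, Matrix.one_apply]
    have h2 : b.coord i (b l) = ∑ j, b.coord i (Pi.single j 1) * b l j := by
      conv_lhs => rw [← Finset.univ_sum_single (b l)]
      rw [map_sum]
      refine Finset.sum_congr rfl fun j _ => ?_
      have h3 : (Pi.single j (b l j) : Fin n → ZMod p) = b l j • Pi.single j 1 := by
        rw [← Pi.single_smul, smul_eq_mul, mul_one]
      rw [h3, map_smul, smul_eq_mul, mul_comm]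
    show ∑ j, b.coord i (Pi.single j 1) * b l j = _
    rw [← h2, Module.Basis.coord_apply, Module.Basis.repr_self, Finsupp.single_apply]
    simp only [eq_comm]
  refine ⟨B, B', hB'B, mul_eq_one_comm.mp hB'B, fun i hi => ?_⟩
  have h3 : B' i0 = w := by
    funext j
    show b.coord i0 (Pi.single j 1) = w j
    rw [hcoord, hW, dotProduct_single, mul_one]
  have h4 : (fun j => B j i) = b i := rfl
  rw [h3, h4]
  exact (hb2 i hi).2

end Vale.Agent.P067.Rk
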