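import Mathlib

/-!
# Trickling down for a family of subspaces
-/

open Finset
open scoped RealInnerProductSpace

set_option linter.unusedSectionVars false

namespace Vale.Agent.P067

namespace Trickle

variable {n : ℕ} {V : Type*} [NormedAddCommGroup V] [InnerProductSpace ℝ V]
  [FiniteDimensional ℝ V]

/-- the spaces `W (R+i)`, `W (R+j)` make a small angle over `W R` -/
def Ang (W : Finset (Fin n) → Submodule ℝ V) (R : Finset (Fin n)) (lam : ℝ) : Prop :=
  ∀ i j, i ∉ R → j ∉ R → i ≠ j → ∀ f ∈ W (insert i R), ∀ g ∈ W (insert j R),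
    f ∈ (W R)ᗮ → g ∈ (W R)ᗮ → ⟪f, g⟫ ≤ lam * (‖f‖ * ‖g‖)

/-- pairs of unit vectors -/
def T (W : Finset (Fin n) → Submodule ℝ V) (R : Finset (Fin n)) : Set (V × V) :=
  ⋃ i : {i // i ∉ R}, ⋃ j : {j // j ∉ R ∧ j ≠ i.1},
    {q | q.1 ∈ W (insert i.1 R) ∧ q.2 ∈ W (insert j.1 R) ∧ q.1 ∈ (W R)ᗮ ∧ q.2 ∈ (W R)ᗮ ∧
      ‖q.1‖ = 1 ∧ ‖q.2‖ = 1}

theorem mem_T {W : Finset (Fin n) → Submodule ℝ V} {R : Finset (Fin n)} {q : V × V} :
    q ∈ T W R ↔ ∃ i j, i ∉ R ∧ j ∉ R ∧ i ≠ j ∧ q.1 ∈ W (insert i R) ∧ q.2 ∈ W (insert j R) ∧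
      q.1 ∈ (W R)ᗮ ∧ q.2 ∈ (W R)ᗮ ∧ ‖q.1‖ = 1 ∧ ‖q.2‖ = 1 := by
  unfold T
  simp only [Set.mem_iUnion, Set.mem_ofPred_eq]
  constructor
  · rintro ⟨⟨i, hi⟩, ⟨j, hj, hij⟩, h⟩
    exact ⟨i, j, hi, hj, fun h => hij h.symm, h⟩
  · rintro ⟨i, j, hi, hj, hij, h⟩
    exact ⟨⟨i, hi⟩, ⟨j, hj, fun h => hij h.symm⟩, h⟩

theorem isCompact_T (W : Finset (Fin n) → Submodule ℝ V) (R : Finset (Fin n)) :
    IsCompact (T W R) := by
  refine Metric.isCompact_of_isClosed_isBounded ?_ ?_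
  · unfold T
    refine isClosed_iUnion_of_finite fun i => isClosed_iUnion_of_finite fun j => ?_
    refine IsClosed.inter ((Submodule.closed_of_finiteDimensional _).preimage continuous_fst) ?_
    refine IsClosed.inter ((Submodule.closed_of_finiteDimensional _).preimage continuous_snd) ?_
    refine IsClosed.inter ((Submodule.closed_of_finiteDimensional _).preimage continuous_fst) ?_
    refine IsClosed.inter ((Submodule.closed_of_finiteDimensional _).preimage continuous_snd) ?_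
    refine IsClosed.inter ?_ ?_
    · exact isClosed_eq (continuous_norm.comp continuous_fst) continuous_const
    · exact isClosed_eq (continuous_norm.comp continuous_snd) continuous_const
  · refine (Metric.isBounded_closedBall (x := (0 : V × V)) (r := 1)).subset ?_
    intro q hq
    obtain ⟨i, j, -, -, -, -, -, -, -, h1, h2⟩ := mem_T.1 hq
    rw [mem_closedBall_zero_iff, Prod.norm_def, h1, h2]
    simp

theorem step {W : Finset (Fin n) → Submodule ℝ V} (hmono : ∀ R S, R ⊆ S → W R ≤ W S)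
    (hint : ∀ R i j, i ∉ R → j ∉ R → i ≠ j → W (insert i R) ⊓ W (insert j R) ≤ W R)
    {R : Finset (Fin n)} (hR : R.card + 3 ≤ n) {lam : ℝ} (h0 : 0 ≤ lam) (h1 : lam < 1)
    (hk : ∀ k, k ∉ R → Ang W (insert k R) lam) : Ang W R (lam / (1 - lam)) := by
  have hlam : 0 ≤ lam / (1 - lam) := div_nonneg h0 (by linarith)
  rcases (T W R).eq_empty_or_nonempty with hT | hT
  · intro i j hi hj hij f hf g hg hf' hg'
    by_cases hf0 : f = 0
    · simp [hf0]
    by_cases hg0 : g = 0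
    · simp [hg0]
    exfalso
    have hm : ((‖f‖⁻¹ • f, ‖g‖⁻¹ • g) : V × V) ∈ T W R := by
      refine mem_T.2 ⟨i, j, hi, hj, hij, Submodule.smul_mem _ _ hf, Submodule.smul_mem _ _ hg,
        Submodule.smul_mem _ _ hf', Submodule.smul_mem _ _ hg', ?_, ?_⟩
      · rw [norm_smul, norm_inv, norm_norm, inv_mul_cancel₀ (norm_ne_zero_iff.2 hf0)]
      · rw [norm_smul, norm_inv, norm_norm, inv_mul_cancel₀ (norm_ne_zero_iff.2 hg0)]
    rw [hT] at hm
    exact hm
  -- the maximal pair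
  obtain ⟨⟨f0, g0⟩, hm, hmax⟩ := (isCompact_T W R).exists_isMaxOn hT
    (f := fun q : V × V => ⟪q.1, q.2⟫) (by fun_prop)
  have hmax' : ∀ q ∈ T W R, ⟪q.1, q.2⟫ ≤ ⟪f0, g0⟫ := fun q hq => hmax hq
  clear hmax
  obtain ⟨μ, hμ⟩ : ∃ μ, μ = ⟪f0, g0⟫ := ⟨_, rfl⟩
  rw [← hμ] at hmax'
  obtain ⟨i, j, hi, hj, hij, hf, hg, hf', hg', nf, ng⟩ := mem_T.1 hm
  simp only at hf hg hf' hg' nf ng
  have hμ0 : 0 ≤ μ := by
    have h2 : ((f0, -g0) : V × V) ∈ T W R :=
      mem_T.2 ⟨i, j, hi, hj, hij, hf, Submodule.neg_mem _ hg, hf', Submodule.neg_mem _ hg', nf,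
        by simpa using ng⟩
    have h3 := hmax' _ h2
    simp only [inner_neg_right] at h3
    linarith
  have hμ1 : μ < 1 := by
    by_contra hcon
    push Not at hcon
    have h2 : ⟪f0, g0⟫ = 1 := by
      refine le_antisymm ?_ (by linarith)
      have := real_inner_le_norm f0 g0
      rw [nf, ng] at this
      linarith
    have h3 : f0 = g0 := (inner_eq_one_iff_of_norm_eq_one nf ng).1 h2
    have h4 : f0 ∈ W R := hint R i j hi hj hij ⟨hf, by rw [h3]; exact hg⟩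
    have h5 : ⟪f0, f0⟫ = 0 := (Submodule.mem_orthogonal _ _).1 hf' f0 h4
    rw [real_inner_self_eq_norm_sq, nf] at h5
    norm_num at h5
  -- a bound for single projections
  have key : ∀ i k, i ∉ R → k ∉ R → i ≠ k → ∀ f ∈ W (insert i R), f ∈ (W R)ᗮ → ‖f‖ = 1 →
      ∀ f1 ∈ W (insert k R), ∀ f2 ∈ (W (insert k R))ᗮ, f = f1 + f2 →
        ‖f1‖ ≤ μ ∧ ‖f1‖ ^ 2 + ‖f2‖ ^ 2 = 1 := by
    intro i k hi hk hik f hf hf' nf f1 hf1 f2 hf2 hff
    have h12 : ⟪f1, f2⟫ = 0 := (Submodule.mem_orthogonal _ _).1 hf2 f1 hf1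
    have hpyth : ‖f1‖ ^ 2 + ‖f2‖ ^ 2 = 1 := by
      have h2 : ‖f1 + f2‖ ^ 2 = ‖f1‖ ^ 2 + 2 * ⟪f1, f2⟫ + ‖f2‖ ^ 2 := norm_add_sq_real f1 f2
      rw [← hff, nf, h12] at h2
      linarith
    refine ⟨?_, hpyth⟩
    by_cases h0 : f1 = 0
    · simpa [h0] using hμ0
    have hn0 : 0 < ‖f1‖ := norm_pos_iff.2 h0
    have hf1' : f1 ∈ (W R)ᗮ := by
      rw [Submodule.mem_orthogonal]
      intro u hu
      have h3 : ⟪u, f⟫ = 0 := (Submodule.mem_orthogonal _ _).1 hf' u hu
      have h4 : ⟪u, f2⟫ = 0 :=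
        (Submodule.mem_orthogonal _ _).1 hf2 u (hmono _ _ (subset_insert _ _) hu)
      rw [hff, inner_add_right, h4] at h3
      linarith
    have h2 : ((f, ‖f1‖⁻¹ • f1) : V × V) ∈ T W R := by
      refine mem_T.2 ⟨i, k, hi, hk, hik, hf, Submodule.smul_mem _ _ hf1, hf',
        Submodule.smul_mem _ _ hf1', nf, ?_⟩
      rw [norm_smul, norm_inv, norm_norm, inv_mul_cancel₀ hn0.ne']
    have h3 := hmax' _ h2
    simp only [inner_smul_right] at h3
    have h4 : ⟪f, f1⟫ = ‖f1‖ ^ 2 := by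
      rw [hff, inner_add_left, real_inner_self_eq_norm_sq, real_inner_comm, h12, add_zero]
    rw [h4, pow_two, ← mul_assoc, inv_mul_cancel₀ hn0.ne', one_mul] at h3
    exact h3
  -- the third index
  obtain ⟨k, hk1⟩ : ∃ k, k ∉ insert i (insert j R) := by
    by_contra hcon
    push Not at hcon
    have h2 : (univ : Finset (Fin n)) ⊆ insert i (insert j R) := fun x _ => hcon x
    have h3 := card_le_card h2
    rw [card_univ, Fintype.card_fin] at h3
    have h4 := card_insert_le i (insert j R)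
    have h5 := card_insert_le j R
    omega
  simp only [mem_insert, not_or] at hk1
  obtain ⟨hki, hkj, hkR⟩ := hk1
  obtain ⟨f1, hf1, f2, hf2, hff⟩ := (W (insert k R)).exists_add_mem_mem_orthogonal f0
  obtain ⟨g1, hg1, g2, hg2, hgg⟩ := (W (insert k R)).exists_add_mem_mem_orthogonal g0
  obtain ⟨a1, a2⟩ := key i k hi hkR (fun h => hki h.symm) f0 hf hf' nf f1 hf1 f2 hf2 hff
  obtain ⟨b1, b2⟩ := key j k hj hkR (fun h => hkj h.symm) g0 hg hg' ng g1 hg1 g2 hg2 hgg
  have hsum : μ = ⟪f1, g1⟫ + ⟪f2, g2⟫ := by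
    have h3 : ⟪f1, g2⟫ = 0 := (Submodule.mem_orthogonal _ _).1 hg2 f1 hf1
    have h4 : ⟪f2, g1⟫ = 0 := by
      rw [real_inner_comm]; exact (Submodule.mem_orthogonal _ _).1 hf2 g1 hg1
    rw [hμ, hff, hgg, inner_add_left, inner_add_right, inner_add_right, h3, h4]
    ring
  have hf2m : f2 ∈ W (insert i (insert k R)) := by
    have h3 : f2 = f0 - f1 := by rw [hff]; abel
    rw [h3]
    refine Submodule.sub_mem _ (hmono _ _ ?_ hf) (hmono _ _ (subset_insert _ _) hf1)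
    exact insert_subset_insert _ (subset_insert _ _)
  have hg2m : g2 ∈ W (insert j (insert k R)) := by
    have h3 : g2 = g0 - g1 := by rw [hgg]; abel
    rw [h3]
    refine Submodule.sub_mem _ (hmono _ _ ?_ hg) (hmono _ _ (subset_insert _ _) hg1)
    exact insert_subset_insert _ (subset_insert _ _)
  have h2 := hk k hkR i j (by simp [hi, Ne.symm hki]) (by simp [hj, Ne.symm hkj]) hij f2 hf2m g2
    hg2m hf2 hg2
  have h3 : ⟪f1, g1⟫ ≤ ‖f1‖ * ‖g1‖ := real_inner_le_norm _ _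
  have hμle : μ ≤ lam / (1 - lam) := by
    have n1 := norm_nonneg f1
    have n2 := norm_nonneg g1
    have n3 := norm_nonneg f2
    have n4 := norm_nonneg g2
    set a := ‖f1‖
    set b := ‖g1‖
    set c := ‖f2‖
    set e := ‖g2‖
    have hab : a * b ≤ μ * μ := mul_le_mul a1 b1 n2 hμ0
    have hab1 : a * b ≤ 1 := hab.trans (by nlinarith)
    have hce : c * e ≤ 1 - a * b := by
      apply le_of_sq_le_sq _ (by linarith)
      nlinarith [sq_nonneg (a - b)]
    have h4 : μ ≤ a * b + lam * (1 - a * b) := by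
      calc μ = ⟪f1, g1⟫ + ⟪f2, g2⟫ := hsum
        _ ≤ a * b + lam * (c * e) := add_le_add h3 h2
        _ ≤ a * b + lam * (1 - a * b) := by gcongr
    have h5 : μ ≤ μ * μ + lam * (1 - μ * μ) := by nlinarith
    rw [le_div_iff₀ (by linarith)]
    nlinarith
  -- conclusion
  intro i j hi hj hij f hf g hg hf' hg'
  by_cases hf0 : f = 0
  · simp [hf0]
  by_cases hg0 : g = 0
  · simp [hg0]
  have nf0 : 0 < ‖f‖ := norm_pos_iff.2 hf0
  have ng0 : 0 < ‖g‖ := norm_pos_iff.2 hg0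
  have hm : ((‖f‖⁻¹ • f, ‖g‖⁻¹ • g) : V × V) ∈ T W R := by
    refine mem_T.2 ⟨i, j, hi, hj, hij, Submodule.smul_mem _ _ hf, Submodule.smul_mem _ _ hg,
      Submodule.smul_mem _ _ hf', Submodule.smul_mem _ _ hg', ?_, ?_⟩
    · rw [norm_smul, norm_inv, norm_norm, inv_mul_cancel₀ nf0.ne']
    · rw [norm_smul, norm_inv, norm_norm, inv_mul_cancel₀ ng0.ne']
  have h4 := (hmax' _ hm).trans hμle
  simp only [real_inner_smul_left, real_inner_smul_right] at h4
  have h5 : ‖f‖⁻¹ * (‖g‖⁻¹ * ⟪f, g⟫) ≤ lam / (1 - lam) := by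
    rw [mul_left_comm]; exact h4
  have h6 : ⟪f, g⟫ = (‖f‖ * ‖g‖) * (‖f‖⁻¹ * (‖g‖⁻¹ * ⟪f, g⟫)) := by
    field_simp
  rw [h6, mul_comm (lam / (1 - lam))]
  gcongr

/-- trickling down from level `n - 2` -/
theorem trickle {W : Finset (Fin n) → Submodule ℝ V} (hmono : ∀ R S, R ⊆ S → W R ≤ W S)
    (hint : ∀ R i j, i ∉ R → j ∉ R → i ≠ j → W (insert i R) ⊓ W (insert j R) ≤ W R)
    {lam : ℝ} (h0 : 0 ≤ lam) (h1 : n * lam ≤ 1 / 2)
    (hbase : ∀ R : Finset (Fin n), R.card + 2 = n → Ang W R lam) (R : Finset (Fin n)) :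
    Ang W R (2 * lam) := by
  have main : ∀ r : ℕ, r ≤ n → ∀ R : Finset (Fin n), R.card + 2 + r = n →
      Ang W R (lam / (1 - r * lam)) := by
    intro r
    induction r with
    | zero =>
      intro _ R hR
      have := hbase R (by omega)
      simpa using this
    | succ r ih =>
      intro hr R hR
      have hr' : (r : ℝ) + 1 ≤ n := by exact_mod_cast hr
      have hr0 : (0 : ℝ) ≤ r := Nat.cast_nonneg r
      have hrl : ((r : ℝ) + 1) * lam ≤ 1 / 2 := by
        calc ((r : ℝ) + 1) * lam ≤ n * lam := by gcongr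
          _ ≤ 1 / 2 := h1
      have hrl0 : 0 ≤ (r : ℝ) * lam := by positivity
      have hpos : 0 < 1 - (r : ℝ) * lam := by nlinarith
      have h2 := step hmono hint (R := R) (by omega) (lam := lam / (1 - r * lam))
        (div_nonneg h0 hpos.le) (by rw [div_lt_one hpos]; nlinarith)
        (fun k hk => ih (by omega) _ (by rw [card_insert_of_notMem hk]; omega))
      have h3 : lam / (1 - r * lam) / (1 - lam / (1 - r * lam)) =
          lam / (1 - ((r + 1 : ℕ) : ℝ) * lam) := by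
        have h4 : (1 - ((r + 1 : ℕ) : ℝ) * lam) ≠ 0 := by
          push_cast; nlinarith
        have h5 : 1 - lam / (1 - r * lam) = (1 - ((r + 1 : ℕ) : ℝ) * lam) / (1 - r * lam) := by
          rw [eq_div_iff hpos.ne', sub_mul, div_mul_cancel₀ _ hpos.ne']
          push_cast; ring
        rw [h5, div_div_div_cancel_right₀ hpos.ne']
      rwa [h3] at h2
  intro i j hi hj hij f hf g hg hf' hg'
  have hcard : R.card + 2 ≤ n := by
    have h2 : insert i (insert j R) ⊆ (univ : Finset (Fin n)) := subset_univ _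
    have h3 := card_le_card h2
    rw [card_univ, Fintype.card_fin, card_insert_of_notMem, card_insert_of_notMem hj] at h3
    · omega
    · simp [hi, hij]
  obtain ⟨r, hr⟩ : ∃ r, R.card + 2 + r = n := ⟨n - (R.card + 2), by omega⟩
  have h2 := main r (by omega) R hr i j hi hj hij f hf g hg hf' hg'
  refine h2.trans ?_
  have hr' : (r : ℝ) ≤ n := by exact_mod_cast (show r ≤ n by omega)
  have hrl : (r : ℝ) * lam ≤ 1 / 2 := by
    calc (r : ℝ) * lam ≤ n * lam := by gcongr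
      _ ≤ 1 / 2 := h1
  have h3 : lam / (1 - r * lam) ≤ 2 * lam := by
    rw [div_le_iff₀ (by linarith)]
    nlinarith
  gcongr

end Trickle

end Vale.Agent.P067
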