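import Vale.Agent.P067.DAvg
import Vale.Agent.P067.Trickle

/-!
# P067, part D1: the spectral condition from the pair condition at level `n - 2`
-/

open Finset
open scoped RealInnerProductSpace

set_option linter.unusedSectionVars false

namespace Vale.Agent.P067

namespace SpecOf

variable {n : ℕ} {G : Type*} [Group G] [Fintype G] {K : Fin n → Subgroup G}

theorem inner_eq (x y : EuclideanSpace ℝ G) : ⟪x, y⟫ = ip x.ofLp y.ofLp := by
  unfold ip
  rw [PiLp.inner_apply]
  refine sum_congr rfl fun g _ => ?_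
  simp [mul_comm]

theorem norm_eq (x : EuclideanSpace ℝ G) : ‖x‖ = nrm x.ofLp := by
  unfold nrm
  rw [sq_eq_ip, ← inner_eq, real_inner_self_eq_norm_sq, Real.sqrt_sq (norm_nonneg _)]

/-- the space of the right `K_R`-invariant functions -/
def W (K : Fin n → Subgroup G) (R : Finset (Fin n)) : Submodule ℝ (EuclideanSpace ℝ G) where
  carrier := {x | Inv K R x.ofLp}
  add_mem' := by
    intro x y hx hy g k hk
    simp only [PiLp.add_apply]
    rw [hx g k hk, hy g k hk]
  zero_mem' := by
    intro g k hk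
    simp
  smul_mem' := by
    intro c x hx g k hk
    simp only [PiLp.smul_apply]
    rw [hx g k hk]

theorem mem_W {R : Finset (Fin n)} {x : EuclideanSpace ℝ G} : x ∈ W K R ↔ Inv K R x.ofLp :=
  Iff.rfl

theorem W_mono (R S : Finset (Fin n)) (h : R ⊆ S) : W K R ≤ W K S := fun _ hx => Inv.mono h hx

/-- orthogonal to the invariant functions iff the average vanishes -/
theorem mem_orth {R : Finset (Fin n)} {x : EuclideanSpace ℝ G} :
    x ∈ (W K R)ᗮ ↔ avg K R x.ofLp = 0 := by
  rw [Submodule.mem_orthogonal]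
  constructor
  · intro h
    have h1 := h (WithLp.toLp 2 (avg K R x.ofLp)) (avg_inv R _)
    rw [inner_eq] at h1
    have h2 : ip (avg K R x.ofLp) (avg K R x.ofLp) = 0 := by
      rw [← h1]
      rw [sum_avg_mul R (avg K R x.ofLp) x.ofLp, avg_of_inv (avg_inv R _)]
    rw [← sq_eq_ip] at h2
    funext g
    unfold sq at h2
    rw [sum_eq_zero_iff_of_nonneg (fun _ _ => sq_nonneg _)] at h2
    simpa using h2 g (mem_univ g)
  · intro h u hu
    rw [inner_eq]
    rw [← avg_of_inv (mem_W.1 hu), ← sum_avg_mul, h]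
    simp [ip]

/-- the pair condition at `R` -/
def PairAt (K : Fin n → Subgroup G) (R : Finset (Fin n)) (lam : ℝ) : Prop :=
  ∀ i j : Fin n, i ∉ R → j ∉ R → i ≠ j → ∀ h : G → ℝ, Inv K (insert j R) h →
    sq (fun g => avg K (insert i R) h g - avg K R h g) ≤ lam ^ 2 * sq h

theorem ang_of_pair {R : Finset (Fin n)} {lam : ℝ} (h0 : 0 ≤ lam) (H : PairAt K R lam) :
    Trickle.Ang (W K) R lam := by
  intro i j hi hj hij f hf g hg hf' hg'
  rw [inner_eq, norm_eq, norm_eq]
  have h1 := H i j hi hj hij g.ofLp hg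
  have h2 : avg K R g.ofLp = 0 := mem_orth.1 hg'
  have h3 : (fun x => avg K (insert i R) g.ofLp x - avg K R g.ofLp x) =
      avg K (insert i R) g.ofLp := by
    funext x; rw [h2]; simp
  rw [h3] at h1
  have h4 : ip f.ofLp g.ofLp = ip f.ofLp (avg K (insert i R) g.ofLp) := by
    rw [sum_avg_mul, avg_of_inv (mem_W.1 hf)]
  rw [h4]
  have h5 := ip_le f.ofLp (avg K (insert i R) g.ofLp)
  have h6 : nrm (avg K (insert i R) g.ofLp) ≤ lam * nrm g.ofLp := by
    apply nrm_le_of_sq_le (mul_nonneg h0 (nrm_nonneg _))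
    rw [mul_pow, nrm_sq]; exact h1
  calc ip f.ofLp (avg K (insert i R) g.ofLp) ≤ _ := h5
    _ ≤ nrm f.ofLp * (lam * nrm g.ofLp) := by
      gcongr
      exact nrm_nonneg _
    _ = _ := by ring

theorem pair_of_ang {R : Finset (Fin n)} {lam : ℝ} (h0 : 0 ≤ lam)
    (H : Trickle.Ang (W K) R lam) : PairAt K R lam := by
  intro i j hi hj hij h hh
  set E := avg K R h with hE
  set h' : G → ℝ := fun g => h g - E g with hh'
  set f := avg K (insert i R) h' with hf
  have h1 : (fun g => avg K (insert i R) h g - E g) = f := by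
    rw [hf, hh', avg_sub]
    have : avg K (insert i R) E = E := avg_avg_ge (subset_insert i R) h
    rw [this]
  rw [h1]
  have hE' : avg K R h' = 0 := by
    rw [hh', avg_sub]
    have : avg K R E = E := avg_of_inv (avg_inv R h)
    rw [this]
    funext g
    simp [hE]
  have hinvh' : Inv K (insert j R) h' := by
    intro g k hk
    simp only [hh']
    have h9 := ((avg_inv R h).mono (subset_insert j R)) g k hk
    rw [hh g k hk, hE, h9]
  have hf0 : avg K R f = 0 := by
    rw [hf, avg_avg_le (subset_insert i R), hE']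
  have h2 := H i j hi hj hij (WithLp.toLp 2 f) (avg_inv _ _) (WithLp.toLp 2 h') hinvh'
    (mem_orth.2 hf0) (mem_orth.2 hE')
  rw [inner_eq, norm_eq, norm_eq] at h2
  have h3 : ip f h' = sq f := by
    rw [sq_eq_ip, hf, sum_avg_mul, avg_of_inv (avg_inv _ _)]
  have h2' : sq f ≤ lam * (nrm f * nrm h') := by
    rw [← h3]; exact h2
  have h4 : sq h' ≤ sq h := by
    have h5 : sq h = sq h' + sq E := by
      have h6 : ip E h' = 0 := by
        have : ip E h' = ip (avg K R h) h' := rfl
        rw [this, ← sum_avg_mul, hE']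
        simp [ip]
      have h7 : sq h = sq h' + 2 * ip E h' + sq E := by
        unfold sq ip
        rw [mul_sum, ← sum_add_distrib, ← sum_add_distrib]
        refine sum_congr rfl fun g _ => ?_
        simp only [hh']
        ring
      rw [h7, h6]; ring
    rw [h5]
    have := sq_nonneg' E
    linarith
  have h5 : nrm f ≤ lam * nrm h' := by
    by_contra hcon
    push Not at hcon
    have h6 : 0 < nrm f := lt_of_le_of_lt (mul_nonneg h0 (nrm_nonneg _)) hcon
    rw [← nrm_sq] at h2'
    nlinarith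
  have h6 : nrm h' ≤ nrm h := Real.sqrt_le_sqrt h4
  rw [← nrm_sq, ← nrm_sq, ← mul_pow]
  have h7 := nrm_nonneg f
  have h8 : nrm f ≤ lam * nrm h := h5.trans (mul_le_mul_of_nonneg_left h6 h0)
  exact pow_le_pow_left₀ h7 h8 2

/-- generation -/
def Gen (K : Fin n → Subgroup G) : Prop :=
  ∀ (R : Finset (Fin n)) (i j : Fin n), i ∉ R → j ∉ R → i ≠ j →
    KJ K R ≤ KJ K (insert i R) ⊔ KJ K (insert j R)

theorem inv_of_sup {S T U : Subgroup G} (hle : U ≤ S ⊔ T) {h : G → ℝ}
    (hS : ∀ g, ∀ k ∈ S, h (g * k) = h g) (hT : ∀ g, ∀ k ∈ T, h (g * k) = h g) :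
    ∀ g, ∀ k ∈ U, h (g * k) = h g := by
  let P : Subgroup G :=
    { carrier := {k | ∀ g, h (g * k) = h g}
      mul_mem' := by
        intro a b ha hb g
        rw [← mul_assoc, hb, ha]
      one_mem' := by intro g; rw [mul_one]
      inv_mem' := by
        intro a ha g
        have := ha (g * a⁻¹)
        rw [inv_mul_cancel_right] at this
        exact this.symm }
  have hSP : S ≤ P := fun k hk g => hS g k hk
  have hTP : T ≤ P := fun k hk g => hT g k hk
  have hUP : U ≤ P := hle.trans (sup_le hSP hTP)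
  intro g k hk
  exact hUP hk g

theorem W_inter (hgen : Gen K) (R : Finset (Fin n)) (i j : Fin n) (hi : i ∉ R) (hj : j ∉ R)
    (hij : i ≠ j) : W K (insert i R) ⊓ W K (insert j R) ≤ W K R := by
  rintro x ⟨hx, hy⟩
  exact inv_of_sup (hgen R i j hi hj hij) (fun g k hk => hx g k hk) (fun g k hk => hy g k hk)

end SpecOf

open SpecOf in
/-- TRICKLING DOWN for the coset model: the pair condition at level `n - 2` and generation give
the spectral condition at all levels. -/
theorem spec_of {n : ℕ} {G : Type*} [Group G] [Fintype G] {K : Fin n → Subgroup G} {lam : ℝ}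
    (h0 : 0 ≤ lam) (h1 : n * lam ≤ 1 / 2) (hgen : Gen K)
    (hbase : ∀ R : Finset (Fin n), R.card + 2 = n → PairAt K R lam) : Spec K (2 * lam) := by
  intro R i j hi hj hij h hh
  exact pair_of_ang (by linarith) (Trickle.trickle (W := W K) W_mono (W_inter hgen) h0 h1
    (fun R hR => ang_of_pair h0 (hbase R hR)) R) i j hi hj hij h hh

end Vale.Agent.P067
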