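import Vale.Agent.P067.Twist

/-!
# Lemma 2: exactness of twisted coinvariants from a normal subgroup

If `N` is normal in `H`, the complex is exact modulo `tw χ N` in grades `≤ D`, grade `0` is inside
`tw χ N`, and the `H`-stabilisers in positive grades are finite of invertible order, then the
complex is exact modulo `tw χ H` in grades `≤ D`.
-/

open Finsupp

namespace Vale.Agent.P067.Tw

variable {k : Type*} [Field k] {G : Type*} [Group G] {X : Type*} [MulAction G X]

lemma act_avg (χ : G →* k) (F : Subgroup G) [Fintype F] {h : G} (hh : h ∈ F) (c : X →₀ k) :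
    χ h • act k h (avg χ F c) = avg χ F c := by
  rw [avg_apply, map_smul, map_sum, smul_comm, Finset.smul_sum]
  congr 1
  refine Fintype.sum_equiv (Equiv.mulLeft (⟨h, hh⟩ : F)) _ _ fun g => ?_
  simp only [Equiv.coe_mulLeft, Subgroup.coe_mul, map_mul, act_mul, map_smul]
  rw [smul_smul]

/-- Chains of grade `m`. -/
noncomputable def Gr (k : Type*) [Field k] {X : Type*} (gr : X → ℕ) (m : ℕ) :
    Submodule k (X →₀ k) := supported k k {x | gr x = m}

lemma single_mem_Gr {gr : X → ℕ} {m : ℕ} {x : X} (hx : gr x = m) (a : k) :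
    (single x a : X →₀ k) ∈ Gr k gr m :=
  Finsupp.single_mem_supported k a hx

lemma Gr_induction {gr : X → ℕ} {m : ℕ} {P : (X →₀ k) → Prop} (h0 : P 0)
    (hadd : ∀ a b, P a → P b → P (a + b)) (hs : ∀ (a : k) b, P b → P (a • b))
    (h1 : ∀ x, gr x = m → P (single x 1)) {c : X →₀ k} (hc : c ∈ Gr k gr m) : P c := by
  rw [Gr, Finsupp.supported_eq_span_single] at hc
  induction hc using Submodule.span_induction with
  | mem c h => obtain ⟨x, hx, rfl⟩ := h; exact h1 x hx
  | zero => exact h0
  | add a b _ _ ha hb => exact hadd a b ha hb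
  | smul a b _ hb => exact hs a b hb

lemma act_Gr {gr : X → ℕ} {m : ℕ} (hgr : ∀ (g : G) x, gr (g • x) = gr x) (g : G) {c : X →₀ k}
    (hc : c ∈ Gr k gr m) : act k g c ∈ Gr k gr m :=
  act_supported (fun x hx => by simpa [hgr] using hx) hc

lemma avg_one_tw (χ : G →* k) (N F : Subgroup G) [Fintype F]
    (hn : ∀ g ∈ F, ∀ n ∈ N, g * n * g⁻¹ ∈ N) {c : X →₀ k} (hc : c ∈ tw χ N) :
    avg 1 F c ∈ tw χ N := by
  rw [avg_apply]
  exact Submodule.smul_mem _ _ (Submodule.sum_mem _ fun g _ =>
    Submodule.smul_mem _ _ (act_tw χ (hn g g.2) hc))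

lemma avg_fix (F : Subgroup G) [Fintype F] (hF : (Fintype.card F : k) ≠ 0) {c : X →₀ k}
    (hc : ∀ g ∈ F, act k g c = c) : avg 1 F c = c := by
  rw [avg_apply]
  have : ∀ g : F, (1 : G →* k) (g : G) • act k (g : G) c = c := fun g => by
    rw [hc g g.2]; simp
  rw [Finset.sum_congr rfl fun g _ => this g]
  simp only [Finset.sum_const, Finset.card_univ, ← Nat.cast_smul_eq_nsmul k, smul_smul,
    inv_mul_cancel₀ hF, one_smul]

/-- The equivariant contraction modulo `tw χ N`. -/
theorem exists_homotopy (χ : G →* k) (H N : Subgroup G)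
    (hnorm : ∀ g ∈ H, ∀ n ∈ N, g * n * g⁻¹ ∈ N)
    (gr : X → ℕ) (hgr : ∀ (g : G) x, gr (g • x) = gr x)
    (d : (X →₀ k) →ₗ[k] (X →₀ k)) (hd : ∀ g ∈ H, ∀ c, d (act k g c) = act k g (d c))
    (hdd : ∀ c, d (d c) = 0) (hdeg : ∀ m, ∀ c ∈ Gr k gr (m + 1), d c ∈ Gr k gr m)
    (hd0 : ∀ c ∈ Gr k gr 0, d c = 0)
    (D : ℕ) (hex : ∀ m ≤ D, 1 ≤ m → Ex χ N d {x | gr x = m} {x | gr x = m + 1})
    (h0 : Gr k gr 0 ≤ tw χ N)
    (hst : ∀ x : X, 1 ≤ gr x → Finite (MulAction.stabilizer G x ⊓ H : Subgroup G) ∧
      (Nat.card (MulAction.stabilizer G x ⊓ H : Subgroup G) : k) ≠ 0) :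
    ∀ M ≤ D, ∃ h : (X →₀ k) →ₗ[k] (X →₀ k), (∀ g ∈ H, ∀ c, h (act k g c) = act k g (h c)) ∧
      (∀ m ≤ M, ∀ c ∈ Gr k gr m, h c ∈ Gr k gr (m + 1)) ∧
      (∀ m ≤ M, ∀ c ∈ Gr k gr m, d (h c) + h (d c) - c ∈ tw χ N) := by
  classical
  intro M
  induction M with
  | zero =>
    intro _
    refine ⟨0, by simp, by simp, ?_⟩
    intro m hm c hc
    obtain rfl : m = 0 := by omega
    simpa using h0 hc
  | succ M ih =>
    intro hM
    obtain ⟨h, hH, hdegh, hh⟩ := ih (by omega)
    -- the residual of a basis chain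
    have hres : ∀ x : X, gr x = M + 1 → ∃ e ∈ Gr k gr (M + 2),
        (single x 1 - h (d (single x 1))) - d e ∈ tw χ N := by
      intro x hx
      have hx1 : (single x 1 : X →₀ k) ∈ Gr k gr (M + 1) := single_mem_Gr hx 1
      have hdx := hdeg M _ hx1
      have h1 := hh M le_rfl _ hdx
      rw [hdd, map_zero, add_zero] at h1
      refine hex (M + 1) hM (by omega) _ ?_ ?_
      · exact sub_mem hx1 (hdegh M le_rfl _ hdx)
      · rw [map_sub]
        have : d (single x 1) - d (h (d (single x 1)))
            = -(d (h (d (single x 1))) - d (single x (1 : k))) := by abel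
        rw [this]; exact neg_mem h1
    choose! e he hre using hres
    -- orbit representatives
    have hrep : ∃ rep : X → X, (∀ x, ∃ g ∈ H, g • rep x = x) ∧
        ∀ g ∈ H, ∀ x, rep (g • x) = rep x := by
      refine ⟨fun x => (Quotient.mk (MulAction.orbitRel H X) x).out, fun x => ?_, ?_⟩
      · have := Quotient.exact (s := MulAction.orbitRel H X)
          (Quotient.out_eq (Quotient.mk (MulAction.orbitRel H X) x)).symm
        obtain ⟨g, hg⟩ := this
        exact ⟨g, g.2, hg⟩
      · intro g hg x
        have : (Quotient.mk (MulAction.orbitRel H X) (g • x))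
            = Quotient.mk (MulAction.orbitRel H X) x :=
          Quotient.sound (s := MulAction.orbitRel H X) ⟨⟨g, hg⟩, rfl⟩
        simp only [this]
    obtain ⟨rep, hrep1, hrep2⟩ := hrep
    choose gx hgx hgx' using hrep1
    have hgrrep : ∀ x, gr (rep x) = gr x := fun x => by
      conv_rhs => rw [← hgx' x, hgr]
    -- averaged fillings
    have hav : ∀ x : X, gr x = M + 1 → ∃ e' ∈ Gr k gr (M + 2),
        (∀ g ∈ H, g • x = x → act k g e' = e') ∧
        (single x 1 - h (d (single x 1))) - d e' ∈ tw χ N := by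
      intro x hx
      obtain ⟨hfin, hcard⟩ := hst x (by omega)
      set F : Subgroup G := MulAction.stabilizer G x ⊓ H with hF
      have hFH : ∀ g ∈ F, g ∈ H := fun g hg => hg.2
      have hFx : ∀ g ∈ F, g • x = x := fun g hg => hg.1
      have : Fintype F := Fintype.ofFinite F
      rw [Nat.card_eq_fintype_card] at hcard
      refine ⟨avg 1 F (e x), ?_, ?_, ?_⟩
      · exact avg_supported 1 F (fun g _ y hy => by simpa [hgr] using hy) (he x hx)
      · intro g hg hgx
        have := act_avg (1 : G →* k) F (h := g) ⟨hgx, hg⟩ (e x)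
        simpa using this
      · have e1 : avg (1 : G →* k) F (single x 1 - h (d (single x 1)))
            = single x 1 - h (d (single x 1)) := by
          refine avg_fix F hcard fun g hg => ?_
          rw [map_sub, act_single, hFx g hg, ← hH g (hFH g hg), ← hd g (hFH g hg), act_single,
            hFx g hg]
        rw [← e1, avg_comm 1 F d (fun g hg => hd g (hFH g hg)), ← map_sub]
        exact avg_one_tw χ N F (fun g hg => hnorm g (hFH g hg)) (hre x hx)
    choose! e' he' hfix hre' using hav
    -- the new homotopy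
    let v : X → (X →₀ k) := fun x =>
      if gr x = M + 1 then act k (gx x) (e' (rep x)) else h (single x 1)
    let h' : (X →₀ k) →ₗ[k] (X →₀ k) := Finsupp.linearCombination k v
    have h'1 : ∀ x, h' (single x 1) = v x := fun x => by
      simp [h', Finsupp.linearCombination_single]
    have h'lt : ∀ m ≤ M, ∀ c ∈ Gr k gr m, h' c = h c := by
      intro m hm c hc
      refine Gr_induction (P := fun c => h' c = h c) (by simp) (fun a b ha hb => by
        rw [map_add, map_add, ha, hb]) (fun a b hb => by rw [map_smul, map_smul, hb]) ?_ hc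
      intro x hx
      rw [h'1]
      simp only [v]
      rw [if_neg (by omega)]
    refine ⟨h', ?_, ?_, ?_⟩
    · intro g hg c
      induction c using Finsupp.induction_linear with
      | zero => simp
      | add a b ha hb => simp only [map_add, ha, hb]
      | single x a =>
        have hx1 : (single x a : X →₀ k) = a • single x 1 := by simp
        rw [hx1]
        simp only [map_smul, act_single]
        congr 1
        rw [h'1, h'1]
        simp only [v, hgr]
        split_ifs with hx
        · -- both elements move `rep x` to `g • x`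
          rw [hrep2 g hg x, ← act_mul]
          have hmem : (g * gx x)⁻¹ * gx (g • x) ∈ H :=
            H.mul_mem (H.inv_mem (H.mul_mem hg (hgx x))) (hgx _)
          have hfixx : ((g * gx x)⁻¹ * gx (g • x)) • rep x = rep x := by
            have h2 := hgx' (g • x)
            rw [hrep2 g hg x] at h2
            rw [mul_smul, h2, inv_smul_eq_iff, mul_smul, hgx' x]
          have h3 := hfix (rep x) (by rw [hgrrep, hx]) _ hmem hfixx
          rw [act_mul] at h3
          have h4 := congrArg (act k (g * gx x)) h3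
          rwa [← act_mul, mul_inv_cancel, act_one] at h4
        · rw [← hH g hg, act_single]
    · intro m hm c hc
      rcases Nat.lt_or_ge m (M + 1) with h1 | h1
      · rw [h'lt m (by omega) c hc]; exact hdegh m (by omega) c hc
      · obtain rfl : m = M + 1 := by omega
        refine Gr_induction (P := fun c => h' c ∈ Gr k gr (M + 1 + 1)) (by simp)
          (fun a b ha hb => by rw [map_add]; exact add_mem ha hb)
          (fun a b hb => by rw [map_smul]; exact Submodule.smul_mem _ _ hb) ?_ hc
        intro x hx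
        rw [h'1]
        simp only [v]
        rw [if_pos hx]
        exact act_Gr hgr _ (he' _ (by rw [hgrrep, hx]))
    · intro m hm c hc
      rcases Nat.lt_or_ge m (M + 1) with h1 | h1
      · rw [h'lt m (by omega) c hc]
        have : h' (d c) = h (d c) := by
          rcases Nat.eq_zero_or_pos m with rfl | h2
          · rw [hd0 c hc, map_zero, map_zero]
          · obtain ⟨m', rfl⟩ : ∃ m', m = m' + 1 := ⟨m - 1, by omega⟩
            exact h'lt m' (by omega) _ (hdeg m' c hc)
        rw [this]; exact hh m (by omega) c hc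
      · obtain rfl : m = M + 1 := by omega
        refine Gr_induction (P := fun c => d (h' c) + h' (d c) - c ∈ tw χ N) (by simp)
          (fun a b ha hb => by
            have : d (h' (a + b)) + h' (d (a + b)) - (a + b)
              = (d (h' a) + h' (d a) - a) + (d (h' b) + h' (d b) - b) := by
              simp only [map_add]; abel
            rw [this]; exact add_mem ha hb)
          (fun a b hb => by
            have : d (h' (a • b)) + h' (d (a • b)) - a • b = a • (d (h' b) + h' (d b) - b) := by
              simp only [map_smul, smul_sub, smul_add]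
            rw [this]; exact Submodule.smul_mem _ _ hb) ?_ hc
        intro x hx
        have hx1 : (single x 1 : X →₀ k) ∈ Gr k gr (M + 1) := single_mem_Gr hx 1
        rw [h'lt M le_rfl _ (hdeg M _ hx1), h'1]
        simp only [v]
        rw [if_pos hx]
        have h5 := hre' (rep x) (by rw [hgrrep, hx])
        have h6 := act_tw χ (hnorm _ (hgx x)) h5
        have h7 : act k (gx x) (single (rep x) 1 - h (d (single (rep x) 1)) - d (e' (rep x)))
            = single x 1 - h (d (single x 1)) - d (act k (gx x) (e' (rep x))) := by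
          rw [map_sub, map_sub, act_single, hgx' x, ← hH _ (hgx x), ← hd _ (hgx x), act_single,
            hgx' x, ← hd _ (hgx x)]
        rw [h7] at h6
        have h8 : d (act k (gx x) (e' (rep x))) + h (d (single x 1)) - single x 1
            = -(single x 1 - h (d (single x 1)) - d (act k (gx x) (e' (rep x)))) := by abel
        rw [h8]; exact neg_mem h6

/-- **Lemma 2.** -/
theorem Ex.normal (χ : G →* k) (H N : Subgroup G) (hNH : N ≤ H)
    (hnorm : ∀ g ∈ H, ∀ n ∈ N, g * n * g⁻¹ ∈ N)
    (gr : X → ℕ) (hgr : ∀ (g : G) x, gr (g • x) = gr x)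
    (d : (X →₀ k) →ₗ[k] (X →₀ k)) (hd : ∀ g ∈ H, ∀ c, d (act k g c) = act k g (d c))
    (hdd : ∀ c, d (d c) = 0) (hdeg : ∀ m, ∀ c ∈ Gr k gr (m + 1), d c ∈ Gr k gr m)
    (hd0 : ∀ c ∈ Gr k gr 0, d c = 0)
    (D : ℕ) (hex : ∀ m ≤ D, 1 ≤ m → Ex χ N d {x | gr x = m} {x | gr x = m + 1})
    (h0 : Gr k gr 0 ≤ tw χ N)
    (hst : ∀ x : X, 1 ≤ gr x → Finite (MulAction.stabilizer G x ⊓ H : Subgroup G) ∧
      (Nat.card (MulAction.stabilizer G x ⊓ H : Subgroup G) : k) ≠ 0) :
    ∀ m ≤ D, Ex χ H d {x | gr x = m} {x | gr x = m + 1} := by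
  intro m hm c hc hdc
  obtain ⟨h, hH, hdegh, hh⟩ := exists_homotopy χ H N hnorm gr hgr d hd hdd hdeg hd0 D hex h0 hst
    m hm
  refine ⟨h c, hdegh m le_rfl c hc, ?_⟩
  have h1 := tw_mono χ hNH (hh m le_rfl c hc)
  have h2 : h (d c) ∈ tw χ H := map_tw χ h hH hdc
  have : c - d (h c) = h (d c) - (d (h c) + h (d c) - c) := by abel
  rw [this]
  exact sub_mem h2 h1

end Vale.Agent.P067.Tw
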