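import Vale.Agent.P067.TwistH

/-!
# Products: Shapiro's lemma and the zigzag

Operators `opR d` and `opL d` on chains on `A × B` induced by an operator on chains on `B`
resp. `A`.
-/

open Finsupp

namespace Vale.Agent.P067.Tw

variable {k : Type*} [Field k] {G : Type*} [Group G]
variable {A B : Type*}

/-- `b ↦ (a, b)` on chains. -/
noncomputable def extR (k : Type*) [Field k] {A : Type*} (B : Type*) (a : A) :
    (B →₀ k) →ₗ[k] (A × B →₀ k) := Finsupp.lmapDomain k k (fun b => (a, b))

/-- `a ↦ (a, b)` on chains. -/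
noncomputable def extL (k : Type*) [Field k] (A : Type*) {B : Type*} (b : B) :
    (A →₀ k) →ₗ[k] (A × B →₀ k) := Finsupp.lmapDomain k k (fun a => (a, b))

@[simp] lemma extR_single (a : A) (b : B) (r : k) :
    extR k B a (single b r) = single (a, b) r := by simp [extR]

@[simp] lemma extL_single (a : A) (b : B) (r : k) :
    extL k A b (single a r) = single (a, b) r := by simp [extL]

/-- The tensor product of two chains. -/
noncomputable def tp : (A →₀ k) →ₗ[k] (B →₀ k) →ₗ[k] (A × B →₀ k) :=
  Finsupp.linearCombination k (fun a => extR k B a)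

lemma tp_single_left (a : A) (r : k) (v : B →₀ k) : tp (single a r) v = r • extR k B a v := by
  simp [tp, Finsupp.linearCombination_single]

lemma tp_single_right (u : A →₀ k) (b : B) : tp u (single b 1) = extL k A b u := by
  induction u using Finsupp.induction_linear with
  | zero => simp
  | add x y hx hy => simp [hx, hy]
  | single a r => rw [tp_single_left]; simp

/-- The operator on chains on `A × B` induced by an operator on chains on `B`. -/
noncomputable def opR (d : (B →₀ k) →ₗ[k] (B →₀ k)) : (A × B →₀ k) →ₗ[k] (A × B →₀ k) :=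
  Finsupp.linearCombination k (fun p => extR k B p.1 (d (single p.2 1)))

/-- The operator on chains on `A × B` induced by an operator on chains on `A`. -/
noncomputable def opL (d : (A →₀ k) →ₗ[k] (A →₀ k)) : (A × B →₀ k) →ₗ[k] (A × B →₀ k) :=
  Finsupp.linearCombination k (fun p => extL k A p.2 (d (single p.1 1)))

lemma opR_single (d : (B →₀ k) →ₗ[k] (B →₀ k)) (p : A × B) :
    opR d (single p 1) = extR k B p.1 (d (single p.2 1)) := by
  simp [opR, Finsupp.linearCombination_single]

lemma opL_single (d : (A →₀ k) →ₗ[k] (A →₀ k)) (p : A × B) :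
    opL d (single p 1) = extL k A p.2 (d (single p.1 1)) := by
  simp [opL, Finsupp.linearCombination_single]

lemma opR_tp (d : (B →₀ k) →ₗ[k] (B →₀ k)) (u : A →₀ k) (v : B →₀ k) :
    opR d (tp u v) = tp u (d v) := by
  induction u using Finsupp.induction_linear with
  | zero => simp
  | add x y hx hy => simp [hx, hy]
  | single a r =>
    induction v using Finsupp.induction_linear with
    | zero => simp
    | add x y hx hy => simp only [map_add, hx, hy]
    | single b s =>
      have e : (single b s : B →₀ k) = s • single b 1 := by simp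
      rw [e, map_smul, map_smul, map_smul, map_smul, tp_single_left, tp_single_left, map_smul,
        extR_single, opR_single]

lemma opL_tp (d : (A →₀ k) →ₗ[k] (A →₀ k)) (u : A →₀ k) (v : B →₀ k) :
    opL d (tp u v) = tp (d u) v := by
  induction v using Finsupp.induction_linear with
  | zero => simp
  | add x y hx hy => simp only [map_add, hx, hy]
  | single b s =>
    have e : (single b s : B →₀ k) = s • single b 1 := by simp
    rw [e, map_smul, map_smul, map_smul, tp_single_right, tp_single_right]
    congr 1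
    induction u using Finsupp.induction_linear with
    | zero => simp
    | add x y hx hy => simp only [map_add, hx, hy]
    | single a r =>
      have e : (single a r : A →₀ k) = r • single a 1 := by simp
      rw [e, map_smul, map_smul, map_smul, map_smul, extL_single, opL_single]

lemma single_eq_tp (p : A × B) : (single p 1 : A × B →₀ k) = tp (single p.1 1) (single p.2 1) := by
  rw [tp_single_left]; simp

lemma pair_induction {P : (A × B →₀ k) → Prop} (h0 : P 0) (hadd : ∀ a b, P a → P b → P (a + b))
    (hs : ∀ (a : k) b, P b → P (a • b)) (h1 : ∀ a b, P (tp (single a 1) (single b 1)))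
    (c : A × B →₀ k) : P c := by
  induction c using Finsupp.induction_linear with
  | zero => exact h0
  | add x y hx hy => exact hadd _ _ hx hy
  | single p r =>
    have : (single p r : A × B →₀ k) = r • single p 1 := by simp
    rw [this, single_eq_tp]; exact hs _ _ (h1 _ _)

lemma opR_opL (d : (B →₀ k) →ₗ[k] (B →₀ k)) (d' : (A →₀ k) →ₗ[k] (A →₀ k)) (c : A × B →₀ k) :
    opR d (opL d' c) = opL d' (opR d c) := by
  refine pair_induction (P := fun c => opR d (opL d' c) = opL d' (opR d c)) (by simp)
    (fun a b ha hb => by simp only [map_add, ha, hb])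
    (fun a b hb => by simp only [map_smul, hb]) (fun a b => ?_) c
  rw [opL_tp, opR_tp, opR_tp, opL_tp]

lemma opR_opR (d : (B →₀ k) →ₗ[k] (B →₀ k)) (hd : ∀ c, d (d c) = 0) (c : A × B →₀ k) :
    opR d (opR d c) = 0 := by
  refine pair_induction (P := fun c => opR d (opR d c) = 0) (by simp)
    (fun a b ha hb => by simp only [map_add, ha, hb, add_zero])
    (fun a b hb => by simp only [map_smul, hb, smul_zero]) (fun a b => ?_) c
  rw [opR_tp, opR_tp, hd]; simp

lemma opL_opL (d : (A →₀ k) →ₗ[k] (A →₀ k)) (hd : ∀ c, d (d c) = 0) (c : A × B →₀ k) :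
    opL d (opL d c) = 0 := by
  refine pair_induction (P := fun c => opL d (opL d c) = 0) (by simp)
    (fun a b ha hb => by simp only [map_add, ha, hb, add_zero])
    (fun a b hb => by simp only [map_smul, hb, smul_zero]) (fun a b => ?_) c
  rw [opL_tp, opL_tp, hd]; simp

/-! ### Supports -/

lemma supp_induction {X : Type*} {S : Set X} {P : (X →₀ k) → Prop} (h0 : P 0)
    (hadd : ∀ a b, P a → P b → P (a + b)) (hs : ∀ (a : k) b, P b → P (a • b))
    (h1 : ∀ x ∈ S, P (single x 1)) {c : X →₀ k} (hc : c ∈ supported k k S) : P c := by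
  rw [Finsupp.supported_eq_span_single] at hc
  induction hc using Submodule.span_induction with
  | mem c h => obtain ⟨x, hx, rfl⟩ := h; exact h1 x hx
  | zero => exact h0
  | add a b _ _ ha hb => exact hadd a b ha hb
  | smul a b _ hb => exact hs a b hb

lemma tp_supported {S : Set A} {T : Set B} {u : A →₀ k} {v : B →₀ k}
    (hu : u ∈ supported k k S) (hv : v ∈ supported k k T) :
    tp u v ∈ supported k k (S ×ˢ T) := by
  refine supp_induction (P := fun u => tp u v ∈ supported k k (S ×ˢ T)) (by simp)
    (fun a b ha hb => by simp only [map_add, LinearMap.add_apply]; exact add_mem ha hb)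
    (fun a b hb => by
      simp only [map_smul, LinearMap.smul_apply]; exact Submodule.smul_mem _ _ hb) ?_ hu
  intro a ha
  refine supp_induction (P := fun v => tp (single a 1) v ∈ supported k k (S ×ˢ T)) (by simp)
    (fun a b ha hb => by simp only [map_add]; exact add_mem ha hb)
    (fun a b hb => by simp only [map_smul]; exact Submodule.smul_mem _ _ hb) ?_ hv
  intro b hb
  rw [tp_single_left, extR_single, one_smul]
  exact Finsupp.single_mem_supported k 1 ⟨ha, hb⟩

lemma extR_supported {S : Set A} {T : Set B} {a : A} (ha : a ∈ S) {v : B →₀ k}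
    (hv : v ∈ supported k k T) : extR k B a v ∈ supported k k (S ×ˢ T) := by
  have := tp_supported (Finsupp.single_mem_supported k (1 : k) ha) hv
  rwa [tp_single_left, one_smul] at this

lemma opR_supported {d : (B →₀ k) →ₗ[k] (B →₀ k)} {S : Set A} {T T' : Set B}
    (hd : ∀ c ∈ supported k k T, d c ∈ supported k k T') {c : A × B →₀ k}
    (hc : c ∈ supported k k (S ×ˢ T)) : opR d c ∈ supported k k (S ×ˢ T') := by
  refine supp_induction (P := fun c => opR d c ∈ supported k k (S ×ˢ T')) (by simp)
    (fun a b ha hb => by simp only [map_add]; exact add_mem ha hb)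
    (fun a b hb => by simp only [map_smul]; exact Submodule.smul_mem _ _ hb) ?_ hc
  rintro ⟨a, b⟩ ⟨ha, hb⟩
  rw [single_eq_tp, opR_tp]
  exact tp_supported (Finsupp.single_mem_supported k _ ha)
    (hd _ (Finsupp.single_mem_supported k _ hb))

lemma opL_supported {d : (A →₀ k) →ₗ[k] (A →₀ k)} {S S' : Set A} {T : Set B}
    (hd : ∀ c ∈ supported k k S, d c ∈ supported k k S') {c : A × B →₀ k}
    (hc : c ∈ supported k k (S ×ˢ T)) : opL d c ∈ supported k k (S' ×ˢ T) := by
  refine supp_induction (P := fun c => opL d c ∈ supported k k (S' ×ˢ T)) (by simp)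
    (fun a b ha hb => by simp only [map_add]; exact add_mem ha hb)
    (fun a b hb => by simp only [map_smul]; exact Submodule.smul_mem _ _ hb) ?_ hc
  rintro ⟨a, b⟩ ⟨ha, hb⟩
  rw [single_eq_tp, opL_tp]
  exact tp_supported (hd _ (Finsupp.single_mem_supported k _ ha))
    (Finsupp.single_mem_supported k _ hb)

/-! ### Equivariance -/

section Equi
variable [MulAction G A] [MulAction G B]

lemma act_extR (g : G) (a : A) (v : B →₀ k) :
    act k g (extR k B a v) = extR k B (g • a) (act k g v) := by
  induction v using Finsupp.induction_linear with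
  | zero => simp
  | add x y hx hy => simp only [map_add, hx, hy]
  | single b r => simp [Prod.smul_mk]

lemma act_tp (g : G) (u : A →₀ k) (v : B →₀ k) :
    act k g (tp u v) = tp (act k g u) (act k g v) := by
  induction u using Finsupp.induction_linear with
  | zero => simp
  | add x y hx hy => simp [hx, hy]
  | single a r => rw [tp_single_left, map_smul, act_extR, act_single, tp_single_left]

lemma opR_act {d : (B →₀ k) →ₗ[k] (B →₀ k)} (hd : ∀ (g : G) c, d (act k g c) = act k g (d c))
    (g : G) (c : A × B →₀ k) : opR d (act k g c) = act k g (opR d c) := by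
  refine pair_induction (P := fun c => opR d (act k g c) = act k g (opR d c)) (by simp)
    (fun a b ha hb => by simp only [map_add, ha, hb])
    (fun a b hb => by simp only [map_smul, hb]) (fun a b => ?_) c
  rw [act_tp, opR_tp, opR_tp, act_tp, hd]

lemma opL_act {d : (A →₀ k) →ₗ[k] (A →₀ k)} (hd : ∀ (g : G) c, d (act k g c) = act k g (d c))
    (g : G) (c : A × B →₀ k) : opL d (act k g c) = act k g (opL d c) := by
  refine pair_induction (P := fun c => opL d (act k g c) = act k g (opL d c)) (by simp)
    (fun a b ha hb => by simp only [map_add, ha, hb])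
    (fun a b hb => by simp only [map_smul, hb]) (fun a b => ?_) c
  rw [act_tp, opL_tp, opL_tp, act_tp, hd]

/-- Orbit representatives. -/
lemma exists_rep (A : Type*) [MulAction G A] : ∃ (rep : A → A) (gx : A → G),
    (∀ a, gx a • rep a = a) ∧ ∀ (g : G) a, rep (g • a) = rep a := by
  classical
  have h1 : ∀ x : A, ∃ g : G, g • (Quotient.mk (MulAction.orbitRel G A) x).out = x := fun x =>
    Quotient.exact (s := MulAction.orbitRel G A)
      (Quotient.out_eq (Quotient.mk (MulAction.orbitRel G A) x)).symm
  choose gx hgx using h1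
  refine ⟨fun x => (Quotient.mk (MulAction.orbitRel G A) x).out, gx, hgx, fun g x => ?_⟩
  have : (Quotient.mk (MulAction.orbitRel G A) (g • x))
      = Quotient.mk (MulAction.orbitRel G A) x :=
    Quotient.sound (s := MulAction.orbitRel G A) ⟨g, rfl⟩
  simp only [this]

/-- **Shapiro's lemma**: exactness for the stabilisers gives exactness on the product. -/
theorem shapiroR (χ : G →* k) {d : (B →₀ k) →ₗ[k] (B →₀ k)}
    (hd : ∀ (g : G) c, d (act k g c) = act k g (d c))
    {S : Set A} {T T' : Set B} (hS : ∀ (g : G), ∀ a ∈ S, g • a ∈ S)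
    (hT : ∀ (g : G), ∀ b ∈ T, g • b ∈ T)
    (h : ∀ a ∈ S, Ex χ (MulAction.stabilizer G a) d T T') :
    Ex χ (⊤ : Subgroup G) (opR d) (S ×ˢ T) (S ×ˢ T') := by
  classical
  intro c hc hdc
  obtain ⟨rep, gx, hgx, hrep⟩ := exists_rep (G := G) A
  have hgi : ∀ a, (gx a)⁻¹ • a = rep a := fun a => by
    rw [inv_smul_eq_iff, hgx]
  -- component maps
  let Φ : A → (A × B →₀ k) →ₗ[k] (B →₀ k) := fun a0 => Finsupp.linearCombination k
    (fun p => if rep p.1 = a0 then (χ (gx p.1))⁻¹ • single ((gx p.1)⁻¹ • p.2) 1 else 0)
  have hΦ1 : ∀ a0 (p : A × B), Φ a0 (single p 1) =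
      if rep p.1 = a0 then (χ (gx p.1))⁻¹ • single ((gx p.1)⁻¹ • p.2) 1 else 0 := fun a0 p => by
    simp [Φ, Finsupp.linearCombination_single]
  have hΦext : ∀ a0 a (v : B →₀ k), Φ a0 (extR k B a v) =
      if rep a = a0 then (χ (gx a))⁻¹ • act k (gx a)⁻¹ v else 0 := by
    intro a0 a v
    induction v using Finsupp.induction_linear with
    | zero => simp
    | add x y hx hy =>
      simp only [map_add, hx, hy]
      split_ifs
      · rw [smul_add]
      · simp
    | single b r =>
      have e : (single b r : B →₀ k) = r • single b 1 := by simp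
      rw [e, map_smul, map_smul, map_smul, extR_single, hΦ1]
      split_ifs
      · rw [act_single, smul_comm]
      · simp
  have hΦd : ∀ a0 (u : A × B →₀ k), Φ a0 (opR d u) = d (Φ a0 u) := by
    intro a0 u
    refine pair_induction (P := fun u => Φ a0 (opR d u) = d (Φ a0 u)) (by simp)
      (fun a b ha hb => by simp only [map_add, ha, hb])
      (fun a b hb => by simp only [map_smul, hb]) (fun a b => ?_) u
    rw [opR_tp, tp_single_left, tp_single_left, one_smul, one_smul, hΦext, hΦext]
    split_ifs
    · rw [map_smul, hd]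
    · simp
  have hΦtw : ∀ a0, rep a0 = a0 → ∀ u ∈ tw χ (⊤ : Subgroup G),
      Φ a0 u ∈ tw χ (MulAction.stabilizer G a0) := by
    intro a0 ha0 u hu
    induction hu using Submodule.span_induction with
    | mem u hu =>
      obtain ⟨g, -, ⟨a, b⟩, rfl⟩ := hu
      rw [map_sub, map_smul, hΦ1, hΦ1]
      simp only [Prod.smul_fst, Prod.smul_snd, hrep]
      split_ifs with hra
      · set γ : G := (gx (g • a))⁻¹ * g * gx a with hγ
        have hγs : γ ∈ MulAction.stabilizer G a0 := by
          rw [MulAction.mem_stabilizer_iff, hγ, mul_smul, mul_smul, ← hra, hgx, hgi, hrep]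
        have e1 : χ g • (χ (gx (g • a)))⁻¹ • single ((gx (g • a))⁻¹ • g • b) (1 : k)
            = (χ (gx a))⁻¹ • χ γ • single (γ • (gx a)⁻¹ • b) (1 : k) := by
          have e2 : γ • (gx a)⁻¹ • b = (gx (g • a))⁻¹ • g • b := by
            rw [hγ, mul_smul, mul_smul, smul_inv_smul]
          have e3 : χ γ = (χ (gx (g • a)))⁻¹ * χ g * χ (gx a) := by
            have h4 : χ (gx (g • a))⁻¹ = (χ (gx (g • a)))⁻¹ :=
              eq_inv_of_mul_eq_one_left (by rw [← map_mul, inv_mul_cancel, map_one])
            rw [hγ, map_mul, map_mul, h4]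
          have h5 : (χ (gx a))⁻¹ * ((χ (gx (g • a)))⁻¹ * χ g * χ (gx a))
              = χ g * (χ (gx (g • a)))⁻¹ := by
            have := chi_ne χ (gx a)
            have := chi_ne χ (gx (g • a))
            field_simp
          rw [e2, e3, smul_smul, smul_smul _ _ (single _ (1 : k)), h5]
        have e5 : χ g • (χ (gx (g • a)))⁻¹ • single ((gx (g • a))⁻¹ • g • b) (1 : k)
            - (χ (gx a))⁻¹ • single ((gx a)⁻¹ • b) 1
            = (χ (gx a))⁻¹ • (χ γ • single (γ • (gx a)⁻¹ • b) 1
              - single ((gx a)⁻¹ • b) (1 : k)) := by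
          rw [e1, smul_sub]
        rw [e5]
        exact Submodule.smul_mem _ _ (tw_gen χ hγs _)
      · simp
    | zero => simp
    | add a b _ _ ha hb => rw [map_add]; exact add_mem ha hb
    | smul a b _ hb => rw [map_smul]; exact Submodule.smul_mem _ _ hb
  -- finite set of representatives
  let R : Finset A := c.support.image (fun p => rep p.1)
  have hRS : ∀ a0 ∈ R, a0 ∈ S ∧ rep a0 = a0 := by
    intro a0 ha0
    simp only [R, Finset.mem_image] at ha0
    obtain ⟨⟨a, b⟩, hp, rfl⟩ := ha0
    have haS : a ∈ S := ((Finsupp.mem_supported k c).1 hc hp).1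
    refine ⟨?_, ?_⟩
    · rw [← hgi]; exact hS _ _ haS
    · have := hrep (gx a)⁻¹ a
      rwa [hgi] at this
  have hΦT : ∀ a0, Φ a0 c ∈ supported k k T := by
    intro a0
    refine supp_induction (P := fun c => Φ a0 c ∈ supported k k T) (by simp)
      (fun a b ha hb => by simp only [map_add]; exact add_mem ha hb)
      (fun a b hb => by simp only [map_smul]; exact Submodule.smul_mem _ _ hb) ?_ hc
    rintro ⟨a, b⟩ ⟨ha, hb⟩
    rw [hΦ1]
    split_ifs
    · exact Submodule.smul_mem _ _ (Finsupp.single_mem_supported k _ (hT _ _ hb))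
    · exact zero_mem _
  have hfill : ∀ a0 ∈ R, ∃ e ∈ supported k k T', Φ a0 c - d e ∈ tw χ (MulAction.stabilizer G a0) :=
    fun a0 ha0 => h a0 (hRS a0 ha0).1 (Φ a0 c) (hΦT a0) (by
      rw [← hΦd]; exact hΦtw a0 (hRS a0 ha0).2 _ hdc)
  choose! e he hce using hfill
  refine ⟨∑ a0 ∈ R, extR k B a0 (e a0), Submodule.sum_mem _ fun a0 ha0 =>
    extR_supported (hRS a0 ha0).1 (he a0 ha0), ?_⟩
  -- `c` is congruent to the sum of its components
  have hcong : c - ∑ a0 ∈ R, extR k B a0 (Φ a0 c) ∈ tw χ (⊤ : Subgroup G) := by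
    have hcs : c ∈ supported k k ({p : A × B | rep p.1 ∈ R}) := by
      rw [Finsupp.mem_supported]
      intro p hp
      exact Finset.mem_image_of_mem (fun p : A × B => rep p.1) hp
    refine supp_induction (P := fun c => c - ∑ a0 ∈ R, extR k B a0 (Φ a0 c)
      ∈ tw χ (⊤ : Subgroup G)) (by simp)
      (fun a b ha hb => by
        have : a + b - ∑ a0 ∈ R, extR k B a0 (Φ a0 (a + b))
          = (a - ∑ a0 ∈ R, extR k B a0 (Φ a0 a)) + (b - ∑ a0 ∈ R, extR k B a0 (Φ a0 b)) := by
          simp only [map_add, Finset.sum_add_distrib]; abel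
        rw [this]; exact add_mem ha hb)
      (fun a b hb => by
        have : a • b - ∑ a0 ∈ R, extR k B a0 (Φ a0 (a • b))
          = a • (b - ∑ a0 ∈ R, extR k B a0 (Φ a0 b)) := by
          simp only [map_smul, smul_sub, Finset.smul_sum]
        rw [this]; exact Submodule.smul_mem _ _ hb) ?_ hcs
    rintro ⟨a, b⟩ hp
    have hp' : rep a ∈ R := hp
    have e1 : ∑ a0 ∈ R, extR k B a0 (Φ a0 (single (a, b) 1))
        = (χ (gx a))⁻¹ • single (rep a, (gx a)⁻¹ • b) (1 : k) := by
      rw [Finset.sum_eq_single_of_mem (rep a) hp']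
      · rw [hΦ1, if_pos rfl, map_smul, extR_single]
      · intro a0 _ hne
        rw [hΦ1, if_neg (Ne.symm hne), map_zero]
    rw [e1]
    have e2 : single (a, b) (1 : k) - (χ (gx a))⁻¹ • single (rep a, (gx a)⁻¹ • b) (1 : k)
        = (χ (gx a))⁻¹ • (χ (gx a) • single (gx a • (rep a, (gx a)⁻¹ • b)) (1 : k)
          - single (rep a, (gx a)⁻¹ • b) 1) := by
      rw [Prod.smul_mk, hgx, smul_inv_smul, smul_sub, smul_smul,
        inv_mul_cancel₀ (chi_ne χ _), one_smul]
    rw [e2]
    exact Submodule.smul_mem _ _ (tw_gen χ (Subgroup.mem_top _) _)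
  have hsum : c - opR d (∑ a0 ∈ R, extR k B a0 (e a0))
      = (c - ∑ a0 ∈ R, extR k B a0 (Φ a0 c))
        + ∑ a0 ∈ R, extR k B a0 (Φ a0 c - d (e a0)) := by
    have : ∀ a0, opR d (extR k B a0 (e a0)) = extR k B a0 (d (e a0)) := fun a0 => by
      have := opR_tp d (single a0 (1 : k)) (e a0)
      rwa [tp_single_left, tp_single_left, one_smul, one_smul] at this
    simp only [map_sum, this, map_sub, Finset.sum_sub_distrib]
    abel
  rw [hsum]
  refine add_mem hcong (Submodule.sum_mem _ fun a0 ha0 => ?_)
  refine tw_mono χ le_top (map_tw χ (H := MulAction.stabilizer G a0) (extR k B a0) ?_ (hce a0 ha0))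
  intro g hg v
  rw [act_extR, MulAction.mem_stabilizer_iff.1 hg]

end Equi

end Vale.Agent.P067.Tw
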