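import Vale.Agent.P067.GapCone
import Vale.Agent.P067.DCone

/-!
P067, (E3): from cone functions on a link (a complex of finite sets) to cone functions in the
coset model.
-/

namespace Vale.Agent.P067.UC

open Finset Classical Gap

variable {n : ℕ} {G : Type*} [Group G] {α : Type*}

/-- sum of the values of a function over the faces of a chain -/
noncomputable def ev (Φ : Finset α → ZMod 2) : Ch (ZMod 2) α →ₗ[ZMod 2] ZMod 2 :=
  Finsupp.linearCombination (ZMod 2) Φ

theorem ev_single (Φ : Finset α → ZMod 2) (s : Finset α) :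
    ev Φ (Finsupp.single s (1 : ZMod 2)) = Φ s := by simp [ev]

theorem ev_eq (Φ : Finset α → ZMod 2) (c : Ch (ZMod 2) α) : ev Φ c = ∑ s ∈ c.support, Φ s := by
  rw [ev, Finsupp.linearCombination_apply, Finsupp.sum]
  refine Finset.sum_congr rfl fun s hs => ?_
  have h : c s ≠ 0 := Finsupp.mem_support_iff.1 hs
  have h1 : c s = 1 := by
    revert h
    generalize c s = a
    revert a
    decide
  rw [h1, one_smul]

theorem ev_bd (Φ : Finset α → ZMod 2) (c : Ch (ZMod 2) α) :
    ev Φ (bd c) = ∑ s ∈ c.support, ∑ x ∈ s, Φ (s.erase x) := by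
  have h : ev Φ ∘ₗ bd = ev (fun s => ∑ x ∈ s, Φ (s.erase x)) := by
    apply lin_ext
    intro s
    rw [LinearMap.comp_apply, bd_single, map_sum, ev_single]
    exact Finset.sum_congr rfl fun x _ => ev_single _ _
  have h2 := LinearMap.congr_fun h c
  rw [LinearMap.comp_apply] at h2
  rw [h2, ev_eq]

theorem coneFn_of {K : Fin n → Subgroup G} {vtx : G → Fin n → α} {A : Set (Finset α)}
    (ha : ∀ g h i j, vtx g i = vtx h j ↔ i = j ∧ g⁻¹ * h ∈ K i)
    (hA : ∀ s, s ∈ A ↔ ∃ (g : G) (J : Finset (Fin n)), s = J.image (vtx g))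
    {R : Finset (Fin n)} (hR : R.Nonempty) {d C : ℕ} {h : Finset α → Ch (ZMod 2) α}
    (H : IsCone (fun ρ => (∀ x ∈ ρ, x ∉ R.image (vtx 1)) ∧ R.image (vtx 1) ∪ ρ ∈ A) d C h) :
    ∃ H', ConeFn K R d C H' := by
  set D : Finset α → Prop := fun ρ => (∀ x ∈ ρ, x ∉ R.image (vtx 1)) ∧ R.image (vtx 1) ∪ ρ ∈ A
    with hD
  have hR0 : 0 < R.card := Finset.card_pos.2 hR
  have hvi : ∀ g, Function.Injective (vtx g) := fun g i j hij => ((ha g g i j).1 hij).1
  have hmemKJ : ∀ {J : Finset (Fin n)} {g : G}, g ∈ KJ K J ↔ ∀ i ∈ J, g ∈ K i := by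
    intro J g
    simp [KJ, Subgroup.mem_iInf]
  -- the face of `(J, k)`
  let fc : Finset (Fin n) → G → Finset α := fun J k => (J \ R).image (vtx k)
  have hRk : ∀ k ∈ KJ K R, R.image (vtx k) = R.image (vtx 1) := by
    intro k hk
    refine Finset.image_congr ?_
    intro i hi
    rw [(ha k 1 i i)]
    refine ⟨rfl, ?_⟩
    rw [mul_one]
    exact inv_mem (hmemKJ.1 hk i hi)
  have hfcD : ∀ J k, R ⊆ J → k ∈ KJ K R → D (fc J k) := by
    intro J k hJ hk
    constructor
    · intro x hx hx'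
      rw [← hRk k hk] at hx'
      obtain ⟨i, hi, rfl⟩ := Finset.mem_image.1 hx
      obtain ⟨j, hj, hij⟩ := Finset.mem_image.1 hx'
      have := hvi k hij
      subst this
      exact (Finset.mem_sdiff.1 hi).2 hj
    · rw [hA]
      refine ⟨k, J, ?_⟩
      rw [← hRk k hk, ← Finset.image_union, Finset.union_sdiff_of_subset hJ]
  have hfccard : ∀ J k, R ⊆ J → (fc J k).card = J.card - R.card := by
    intro J k hJ
    show ((J \ R).image (vtx k)).card = _
    rw [Finset.card_image_of_injective _ (hvi k), Finset.card_sdiff_of_subset hJ]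
  -- every face of `D` is of this form
  have hrep : ∀ ρ, ∃ q : Finset (Fin n) × G, D ρ → (R ⊆ q.1 ∧ q.2 ∈ KJ K R ∧ ρ = fc q.1 q.2) := by
    intro ρ
    by_cases hρ : D ρ
    · obtain ⟨g, J, hgJ⟩ := (hA _).1 hρ.2
      have h1 : ∀ i ∈ R, i ∈ J ∧ g ∈ K i := by
        intro i hi
        have h2 : vtx 1 i ∈ J.image (vtx g) := by
          rw [← hgJ]
          exact Finset.mem_union_left _ (Finset.mem_image_of_mem _ hi)
        obtain ⟨j, hj, hij⟩ := Finset.mem_image.1 h2
        obtain ⟨h3, h4⟩ := (ha g 1 j i).1 hij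
        subst h3
        rw [mul_one] at h4
        exact ⟨hj, by simpa using inv_mem h4⟩
      have hgR : g ∈ KJ K R := hmemKJ.2 fun i hi => (h1 i hi).2
      have hRJ : R ⊆ J := fun i hi => (h1 i hi).1
      refine ⟨(J, g), fun _ => ⟨hRJ, hgR, ?_⟩⟩
      show ρ = (J \ R).image (vtx g)
      ext x
      rw [Finset.mem_image]
      constructor
      · intro hx
        have h2 : x ∈ J.image (vtx g) := by
          rw [← hgJ]; exact Finset.mem_union_right _ hx
        obtain ⟨j, hj, rfl⟩ := Finset.mem_image.1 h2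
        refine ⟨j, Finset.mem_sdiff.2 ⟨hj, ?_⟩, rfl⟩
        intro hjR
        apply hρ.1 _ hx
        rw [← hRk g hgR]
        exact Finset.mem_image_of_mem _ hjR
      · rintro ⟨j, hj, rfl⟩
        obtain ⟨hj1, hj2⟩ := Finset.mem_sdiff.1 hj
        have h2 : vtx g j ∈ R.image (vtx 1) ∪ ρ := by
          rw [hgJ]; exact Finset.mem_image_of_mem _ hj1
        rcases Finset.mem_union.1 h2 with h3 | h3
        · exfalso
          rw [← hRk g hgR] at h3
          obtain ⟨i, hi, hij⟩ := Finset.mem_image.1 h3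
          have := hvi g hij
          subst this
          exact hj2 hi
        · exact h3
    · exact ⟨(∅, 1), fun h => absurd h hρ⟩
  choose rep hrep using hrep
  have hrep1 : ∀ ρ, D ρ → R ⊆ (rep ρ).1 := fun ρ h => (hrep ρ h).1
  have hrep2 : ∀ ρ, D ρ → (rep ρ).2 ∈ KJ K R := fun ρ h => (hrep ρ h).2.1
  have hrep3 : ∀ ρ, D ρ → ρ = fc (rep ρ).1 (rep ρ).2 := fun ρ h => (hrep ρ h).2.2
  -- cochains depend only on the face
  have hwd : ∀ φ : Finset (Fin n) → G → ZMod 2, IsCoch K φ → ∀ J J' k k', R ⊆ J → R ⊆ J' →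
      k ∈ KJ K R → k' ∈ KJ K R → fc J k = fc J' k' → φ J k = φ J' k' := by
    intro φ hφ J J' k k' hJ hJ' hk hk' heq
    have h1 : J.image (vtx k) = J'.image (vtx k') := by
      have h2 : J.image (vtx k) = R.image (vtx 1) ∪ fc J k := by
        rw [← hRk k hk, ← Finset.image_union, Finset.union_sdiff_of_subset hJ]
      have h3 : J'.image (vtx k') = R.image (vtx 1) ∪ fc J' k' := by
        rw [← hRk k' hk', ← Finset.image_union, Finset.union_sdiff_of_subset hJ']
      rw [h2, h3, heq]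
    have h4 : ∀ i ∈ J, i ∈ J' ∧ k⁻¹ * k' ∈ K i := by
      intro i hi
      have h5 : vtx k i ∈ J'.image (vtx k') := by
        rw [← h1]; exact Finset.mem_image_of_mem _ hi
      obtain ⟨j, hj, hij⟩ := Finset.mem_image.1 h5
      obtain ⟨h6, h7⟩ := (ha k k' i j).1 hij.symm
      subst h6
      exact ⟨hj, h7⟩
    have h5 : J = J' := by
      apply Finset.Subset.antisymm (fun i hi => (h4 i hi).1)
      intro i hi
      have h5 : vtx k' i ∈ J.image (vtx k) := by
        rw [h1]; exact Finset.mem_image_of_mem _ hi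
      obtain ⟨j, hj, hij⟩ := Finset.mem_image.1 h5
      obtain ⟨h6, h7⟩ := (ha k k' j i).1 hij
      subst h6
      exact hj
    subst h5
    have h6 : k' = k * (k⁻¹ * k') := by group
    rw [h6]
    exact (hφ J k _ (hmemKJ.2 fun i hi => (h4 i hi).2)).symm
  refine ⟨fun J k => (h (fc J k)).support.image rep, ?_, ?_, ?_, ?_⟩
  · intro J k hJ hJd hk
    refine Finset.card_image_le.trans (H.card _ (hfcD J k hJ hk) ?_)
    rw [hfccard J k hJ]; omega
  · intro J k p hJ hJd hk hp
    obtain ⟨τ, hτ, rfl⟩ := Finset.mem_image.1 hp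
    have h1 := H.on (fc J k) (hfcD J k hJ hk) (by rw [hfccard J k hJ]; omega) τ hτ
    refine ⟨hrep1 τ h1.1, ?_, hrep2 τ h1.1⟩
    have h2 := h1.2
    rw [hrep3 τ h1.1, hfccard _ _ (hrep1 τ h1.1), hfccard _ _ hJ] at h2
    have h3 := Finset.card_le_card hJ
    have h4 := Finset.card_le_card (hrep1 τ h1.1)
    omega
  · intro J k k' hJ hJd hk hk'
    have h1 : fc J (k * k') = fc J k := by
      refine Finset.image_congr ?_
      intro i hi
      rw [(ha (k * k') k i i)]
      refine ⟨rfl, ?_⟩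
      have h2 : (k * k')⁻¹ * k = k'⁻¹ := by group
      rw [h2]
      exact inv_mem (hmemKJ.1 hk' i (Finset.mem_sdiff.1 hi).1)
    show (h (fc J (k * k'))).support.image rep = _
    rw [h1]
  · intro φ hφ hsupp J k hJ hJd hk
    -- the functional
    let Φ : Finset α → ZMod 2 := fun ρ => φ (rep ρ).1 (rep ρ).2
    have hΦ : ∀ J k, R ⊆ J → k ∈ KJ K R → Φ (fc J k) = φ J k := by
      intro J k hJ hk
      have h1 := hfcD J k hJ hk
      exact hwd φ hφ _ _ _ _ (hrep1 _ h1) hJ (hrep2 _ h1) hk (hrep3 _ h1).symm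
    have herase : ∀ J k i, i ∈ J \ R → (fc J k).erase (vtx k i) = fc (J.erase i) k := by
      intro J k i hi
      show ((J \ R).image (vtx k)).erase (vtx k i) = ((J.erase i) \ R).image (vtx k)
      rw [Finset.erase_sdiff_comm, ← Finset.image_erase (hvi k)]
    have hsum : ∀ J k, R ⊆ J → ∀ g : Finset α → ZMod 2,
        ∑ x ∈ fc J k, g ((fc J k).erase x) = ∑ i ∈ J \ R, g (fc (J.erase i) k) := by
      intro J k _ g
      show ∑ x ∈ (J \ R).image (vtx k), g ((fc J k).erase x) = _
      rw [Finset.sum_image (fun i _ j _ hij => hvi k hij)]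
      exact Finset.sum_congr rfl fun i hi => by rw [herase J k i hi]
    have hcone := H.cone (fc J k) (hfcD J k hJ hk) (by rw [hfccard J k hJ]; omega)
    have h2 := congrArg (ev Φ) hcone
    rw [map_add, ev_bd, map_sum, ev_single, hΦ J k hJ hk] at h2
    rw [← h2]
    have hRe : ∀ J : Finset (Fin n), ∀ i ∈ J \ R, R ⊆ J → R ⊆ J.erase i := by
      intro J i hi hJ j hj
      refine Finset.mem_erase.2 ⟨?_, hJ hj⟩
      rintro rfl
      exact (Finset.mem_sdiff.1 hi).2 hj
    have hinj : ∀ c : Ch (ZMod 2) α, (∀ τ ∈ c.support, D τ) →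
        ∀ F : Finset (Fin n) × G → ZMod 2,
        ∑ p ∈ c.support.image rep, F p = ∑ τ ∈ c.support, F (rep τ) := by
      intro c hc F
      refine Finset.sum_image ?_
      intro τ hτ τ' hτ' heq
      rw [hrep3 τ (hc τ hτ), hrep3 τ' (hc τ' hτ'), heq]
    congr 1
    · have hon := H.on (fc J k) (hfcD J k hJ hk) (by rw [hfccard J k hJ]; omega)
      rw [hinj _ fun τ hτ => (hon τ hτ).1]
      refine Finset.sum_congr rfl fun τ hτ => ?_
      have hτD := (hon τ hτ).1
      have hJ' := hrep1 τ hτD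
      have hk' := hrep2 τ hτD
      have h3 := hsum (rep τ).1 (rep τ).2 hJ' Φ
      rw [← hrep3 τ hτD] at h3
      rw [h3]
      unfold del
      rw [← Finset.sum_sdiff hJ']
      have h4 : ∑ i ∈ R, φ ((rep τ).1.erase i) (rep τ).2 = 0 := by
        refine Finset.sum_eq_zero fun i hi => ?_
        apply hsupp
        intro h5
        exact (Finset.notMem_erase i _) (h5 hi)
      rw [h4, add_zero]
      exact Finset.sum_congr rfl fun i hi => hΦ _ _ (hRe _ i hi hJ') hk'
    · rw [show (∑ x ∈ fc J k, ev Φ (h ((fc J k).erase x))) =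
        ∑ i ∈ J \ R, ev Φ (h (fc (J.erase i) k)) from hsum J k hJ (fun s => ev Φ (h s))]
      refine Finset.sum_congr rfl fun i hi => ?_
      have hJi := hRe J i hi hJ
      have hci : (J.erase i).card ≤ d + 1 := (Finset.card_erase_le).trans hJd
      have hon := H.on (fc (J.erase i) k) (hfcD _ k hJi hk) (by rw [hfccard _ k hJi]; omega)
      rw [hinj _ fun τ hτ => (hon τ hτ).1, ev_eq]

end Vale.Agent.P067.UC
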